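import Vale.Agent.P179.H166.BrauerHom
import Vale.Agent.P179.H525.DZ

/-!
# Ordinary characters: column orthogonality, integrality, central characters

Base file for the exact weight count.
-/

namespace P179P

open P179H524 P179C P179A Finset

universe u

/-- The ordinary irreducible characters. -/
abbrev Irr (G : Type*) [Group G] := {χ : G → ℂ // IsIrrChar χ}

instance finite_Irr {G : Type*} [Group G] [Finite G] : Finite (Irr G) :=
  (finite_irrChar G).to_subtype

noncomputable instance fintype_Irr {G : Type*} [Group G] [Finite G] : Fintype (Irr G) :=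
  Fintype.ofFinite _

section Basic

variable {G : Type*} [Group G] [Finite G]

omit [Finite G] in
theorem Irr.conj (χ : Irr G) (g x : G) : χ.1 (g * x * g⁻¹) = χ.1 x := IsIrrChar.conj χ.2 g x

omit [Finite G] in
theorem Irr.mul_comm (χ : Irr G) (g x : G) : χ.1 (g * x) = χ.1 (x * g) := by
  have := χ.conj g (x * g)
  rw [← this]
  group

omit [Finite G] in
theorem Irr.isCF (χ : Irr G) : IsCF χ.1 := χ.conj

omit [Finite G] in
theorem Irr.exists_deg (χ : Irr G) : ∃ d : ℕ, 0 < d ∧ χ.1 1 = d := by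
  obtain ⟨n, ρ, hρ, h⟩ := χ.2
  refine ⟨n, ?_, ?_⟩
  · rcases Nat.eq_zero_or_pos n with rfl | h0
    · exact absurd (nontrivial_of_irr hρ) (by simp)
    · exact h0
  · rw [← h, Representation.char_one]
    simp

omit [Finite G] in
theorem Irr.one_ne_zero (χ : Irr G) : χ.1 1 ≠ 0 := by
  obtain ⟨d, hd, h⟩ := χ.exists_deg
  rw [h]
  exact_mod_cast hd.ne'

omit [Finite G] in
/-- row orthogonality -/
theorem row_orth [Fintype G] (χ ψ : Irr G) [Decidable (χ = ψ)] :
    ∑ g : G, χ.1 g * ψ.1 g⁻¹ = if χ = ψ then (Fintype.card G : ℂ) else 0 := by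
  classical
  rw [irrChar_inner χ.2 ψ.2]
  by_cases h : χ = ψ
  · rw [if_pos h, if_pos (congrArg Subtype.val h)]
  · rw [if_neg h, if_neg (fun h' => h (Subtype.ext h'))]

end Basic

section Wedderburn

open MonoidAlgebra Vale.Agent.P179.H525

variable {G : Type*} [Group G] [Fintype G]

/-- sums over the irreducible characters through a Wedderburn decomposition -/
theorem sum_irr_eq {r : ℕ} {d : Fin r → ℕ} [∀ i, NeZero (d i)]
    (f : MonoidAlgebra ℂ G ≃ₐ[ℂ] Π i, Matrix (Fin (d i)) (Fin (d i)) ℂ) (F : (G → ℂ) → ℂ) :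
    ∑ χ : Irr G, F χ.1 = ∑ i, F (compRep f.toAlgHom i).character := by
  have hker : ∀ x, f.toAlgHom x = 0 → x ∈ Ring.jacobson (MonoidAlgebra ℂ G) := fun x hx => by
    have h0 : x = 0 := f.injective (by rw [map_zero]; exact hx)
    rw [h0]
    exact zero_mem _
  symm
  refine Finset.sum_bij (fun i _ => ⟨(compRep f.toAlgHom i).character,
    (isIrrChar_iff f.toAlgHom f.surjective hker _).2 ⟨i, rfl⟩⟩) (fun _ _ => mem_univ _) ?_ ?_ ?_
  · intro i _ j _ hij
    exact character_injective f.toAlgHom f.surjective (Subtype.ext_iff.1 hij)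
  · rintro ⟨χ, hχ⟩ _
    obtain ⟨i, rfl⟩ := (isIrrChar_iff f.toAlgHom f.surjective hker _).1 hχ
    exact ⟨i, mem_univ _, rfl⟩
  · intro i _
    rfl

theorem exists_wedderburn_complex' (K : Type*) [Group K] [Finite K] :
    ∃ (r : ℕ) (d : Fin r → ℕ) (_ : ∀ i, NeZero (d i)),
      Nonempty (MonoidAlgebra ℂ K ≃ₐ[ℂ] Π i, Matrix (Fin (d i)) (Fin (d i)) ℂ) := by
  have := Fintype.ofFinite K
  have : NeZero (Nat.card K : ℂ) := ⟨by exact_mod_cast Nat.card_pos.ne'⟩
  have : Module.Finite ℂ (MonoidAlgebra ℂ K) := Module.Finite.of_basis (MonoidAlgebra.basis K ℂ)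
  obtain ⟨n, d, hd, h⟩ :=
    IsSemisimpleRing.exists_algEquiv_pi_matrix_of_isAlgClosed ℂ (MonoidAlgebra ℂ K)
  exact ⟨n, d, hd, h⟩

/-- regular character -/
theorem sum_irr_one [DecidableEq G] (g : G) :
    ∑ χ : Irr G, χ.1 1 * χ.1 g = if g = 1 then (Fintype.card G : ℂ) else 0 := by
  obtain ⟨r, d, hd, ⟨f⟩⟩ := exists_wedderburn_complex' G
  rw [sum_irr_eq f (fun χ => χ 1 * χ g)]
  have h := coeff_one f (single g 1)
  have h2 : ∀ i, (compRep f.toAlgHom i).character 1 * (compRep f.toAlgHom i).character g =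
      (d i : ℂ) * (f (single g 1) i).trace := by
    intro i
    rw [Representation.char_one, compRep_character]
    simp
  rw [Finset.sum_congr rfl fun i _ => h2 i, ← h, coeff_single]
  by_cases h1 : g = 1
  · subst h1; simp
  · rw [if_neg h1, Finsupp.single_eq_of_ne (fun h => h1 h.symm), mul_zero]

end Wedderburn

section Central

variable {G : Type*} [Group G] [Fintype G]

/-- The central character on complex class functions. -/
noncomputable def omC (χ : G → ℂ) (z : G → ℂ) : ℂ := (∑ g : G, z g * χ g) / χ 1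

/-- A class sum acts on an irreducible representation by the central character. -/
theorem sum_smul_eqC {n : ℕ} {ρ : Representation ℂ G (Fin n → ℂ)} (hρ : ρ.IsIrreducible)
    {z : G → ℂ} (hz : IsCF z) :
    ∑ g : G, z g • ρ g = algebraMap ℂ _ (omC ρ.character z) := by
  have hn0 := nontrivial_of_irr hρ
  obtain ⟨c, hc⟩ := exists_scalar ρ hρ (∑ g : G, z g • ρ g) (fun h => by
    rw [Finset.sum_mul, Finset.mul_sum]
    refine Finset.sum_bij (fun g _ => h⁻¹ * g * h) (fun _ _ => Finset.mem_univ _) ?_ ?_ ?_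
    · intro a _ b _ hab
      simpa using hab
    · intro b _
      exact ⟨h * b * h⁻¹, Finset.mem_univ _, by group⟩
    · intro g _
      have h1 : z (h⁻¹ * g * h) = z g := by
        have := hz h⁻¹ g
        rwa [inv_inv] at this
      rw [h1, smul_mul_assoc, mul_smul_comm, ← map_mul, ← map_mul]
      congr 2
      group)
  have h3 : omC ρ.character z = c := by
    unfold omC
    have h4 := congrArg (LinearMap.trace ℂ (Fin n → ℂ)) hc
    rw [map_sum] at h4
    have h5 : (LinearMap.trace ℂ (Fin n → ℂ)) (algebraMap ℂ (Module.End ℂ (Fin n → ℂ)) c) =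
        c * n := by
      rw [Algebra.algebraMap_eq_smul_one, map_smul, LinearMap.trace_one]
      simp
    rw [h5] at h4
    have h6 : ρ.character 1 = n := by
      rw [Representation.char_one]
      simp
    rw [h6, div_eq_iff hn0, ← h4]
    refine Finset.sum_congr rfl fun g _ => ?_
    rw [map_smul]
    rfl
  rw [hc, h3]

/-- The eigenvector property. -/
theorem sum_mul_irr (χ : Irr G) {z : G → ℂ} (hz : IsCF z) (y : G) :
    ∑ g : G, z g * χ.1 (g * y) = omC χ.1 z * χ.1 y := by
  obtain ⟨χ, n, ρ, hρ, rfl⟩ := χ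
  have h := sum_smul_eqC hρ hz
  have h2 := congrArg (fun f => LinearMap.trace ℂ (Fin n → ℂ) (f * ρ y)) h
  simp only [Finset.sum_mul, map_sum, smul_mul_assoc, map_smul, ← map_mul] at h2
  rw [Algebra.algebraMap_eq_smul_one, smul_mul_assoc, one_mul, map_smul] at h2
  exact h2

theorem sum_mul_irr' (χ : Irr G) {z : G → ℂ} (hz : IsCF z) (y : G) :
    ∑ g : G, z g * χ.1 (y * g) = omC χ.1 z * χ.1 y := by
  rw [← sum_mul_irr χ hz y]
  exact Finset.sum_congr rfl fun g _ => by rw [χ.mul_comm]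

theorem omC_conv (χ : Irr G) {a b : G → ℂ} (ha : IsCF a) :
    omC χ.1 (conv a b) = omC χ.1 a * omC χ.1 b := by
  have h0 := χ.one_ne_zero
  rw [omC, div_eq_iff h0]
  have h1 : omC χ.1 b * χ.1 1 = ∑ g : G, b g * χ.1 g := by
    rw [omC, div_mul_cancel₀ _ h0]
  rw [mul_assoc, h1, Finset.mul_sum]
  have h2 : ∀ g : G, omC χ.1 a * (b g * χ.1 g) = ∑ h : G, b g * (a h * χ.1 (h * g)) := by
    intro g
    rw [← Finset.mul_sum, sum_mul_irr χ ha]; ring
  rw [Finset.sum_congr rfl fun g _ => h2 g, Finset.sum_comm]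
  simp only [conv, Finset.sum_mul]
  rw [Finset.sum_comm]
  refine Finset.sum_congr rfl fun h _ => ?_
  rw [← Equiv.sum_comp (Equiv.mulLeft h)]
  refine Finset.sum_congr rfl fun g _ => ?_
  simp only [Equiv.coe_mulLeft, inv_mul_cancel_left]
  ring

theorem om_eq_omC (χ : G → ℂ) (z : G → ℤ) : om χ z = omC χ (fun g => (z g : ℂ)) := by
  rw [om, omC, finsum_eq_sum_of_fintype]

theorem sum_conj_irr (χ : Irr G) (g y : G) :
    ∑ x : G, χ.1 (x * g * x⁻¹ * y) = Fintype.card G * χ.1 g * χ.1 y / χ.1 1 := by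
  classical
  let z : G → ℂ := fun t => ∑ x : G, if x * g * x⁻¹ = t then 1 else 0
  have hz : IsCF z := by
    intro a t
    simp only [z]
    rw [← Equiv.sum_comp (Equiv.mulLeft a)]
    refine Finset.sum_congr rfl fun x _ => ?_
    simp only [Equiv.coe_mulLeft, mul_inv_rev]
    congr 1
    rw [eq_iff_iff]
    constructor
    · intro h
      have := congrArg (fun y => a⁻¹ * y * a) h
      simpa [mul_assoc] using this
    · intro h
      rw [← h]; simp [mul_assoc]
  have h := sum_mul_irr χ hz y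
  have h1 : ∀ F : G → ℂ, ∑ t : G, z t * F t = ∑ x : G, F (x * g * x⁻¹) := by
    intro F
    simp only [z, Finset.sum_mul, ite_mul, one_mul, zero_mul]
    rw [Finset.sum_comm]
    refine Finset.sum_congr rfl fun x _ => ?_
    rw [Finset.sum_ite_eq univ, if_pos (mem_univ _)]
  rw [h1 (fun t => χ.1 (t * y))] at h
  rw [h, omC, h1]
  have h2 : ∀ x : G, χ.1 (x * g * x⁻¹) = χ.1 g := fun x => χ.conj x g
  simp only [h2, Finset.sum_const, Finset.card_univ, nsmul_eq_mul]
  ring

/-- column orthogonality -/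
theorem col_orth (g h : G) :
    ∑ χ : Irr G, χ.1 g * χ.1 h⁻¹ = Nat.card {x : G // x * g * x⁻¹ = h} := by
  classical
  have h0 : (Fintype.card G : ℂ) ≠ 0 := by exact_mod_cast Fintype.card_ne_zero
  have h1 : ∀ χ : Irr G, χ.1 g * χ.1 h⁻¹ =
      (Fintype.card G : ℂ)⁻¹ * ∑ x : G, χ.1 1 * χ.1 (x * g * x⁻¹ * h⁻¹) := by
    intro χ
    rw [← Finset.mul_sum, sum_conj_irr]
    have := χ.one_ne_zero
    field_simp
  rw [Finset.sum_congr rfl fun χ _ => h1 χ, ← Finset.mul_sum, Finset.sum_comm]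
  simp only [sum_irr_one]
  rw [← Finset.sum_filter, Finset.sum_const, nsmul_eq_mul, Nat.card_eq_fintype_card,
    Fintype.card_subtype, mul_comm, mul_assoc, mul_inv_cancel₀ h0, mul_one]
  congr 3
  ext x
  rw [mul_inv_eq_one]

/-- expansion of a class function -/
theorem cf_expand {f : G → ℂ} (hf : IsCF f) (x : G) :
    f x = ∑ χ : Irr G, ((Fintype.card G : ℂ)⁻¹ * ∑ g : G, f g * χ.1 g⁻¹) * χ.1 x := by
  classical
  have h0 : (Fintype.card G : ℂ) ≠ 0 := by exact_mod_cast Fintype.card_ne_zero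
  have h1 : ∀ χ : Irr G, ((Fintype.card G : ℂ)⁻¹ * ∑ g : G, f g * χ.1 g⁻¹) * χ.1 x =
      (Fintype.card G : ℂ)⁻¹ * ∑ g : G, f g * (χ.1 x * χ.1 g⁻¹) := by
    intro χ
    rw [mul_assoc, Finset.sum_mul]
    congr 1
    exact Finset.sum_congr rfl fun g _ => by ring
  rw [Finset.sum_congr rfl fun χ _ => h1 χ, ← Finset.mul_sum, Finset.sum_comm]
  simp only [← Finset.mul_sum, col_orth]
  have h2 : ∀ g : G, f g * (Nat.card {t : G // t * x * t⁻¹ = g} : ℂ) =
      ∑ t : G, if t * x * t⁻¹ = g then f x else 0 := by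
    intro g
    rw [← Finset.sum_filter, Finset.sum_const, nsmul_eq_mul, Nat.card_eq_fintype_card,
      Fintype.card_subtype, mul_comm]
    rcases Finset.eq_empty_or_nonempty (Finset.univ.filter fun t : G => t * x * t⁻¹ = g) with
      he | ⟨t, ht⟩
    · rw [he]; simp
    · rw [mem_filter] at ht
      rw [← ht.2, hf]
  rw [Finset.sum_congr rfl fun g _ => h2 g, Finset.sum_comm]
  simp only [Finset.sum_ite_eq, mem_univ, if_true, Finset.sum_const, Finset.card_univ,
    nsmul_eq_mul]
  field_simp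

end Central

end P179P

namespace P179P

open P179H524 P179C P179A Finset Matrix

section Trace

variable {V : Type*} [AddCommGroup V] [Module ℂ V] [FiniteDimensional ℂ V]

/-- the trace of an endomorphism `T` with `T ^ (N + 2) = T` is an algebraic integer -/
theorem trace_integral_of_pow (T : Module.End ℂ V) (N : ℕ)
    (h : T ^ (N + 2) = T) : LinearMap.trace ℂ V T ∈ integralClosure ℤ ℂ := by
  rw [Module.End.trace_eq_sum_roots_charpoly_of_splits (IsAlgClosed.splits _)]
  refine Subalgebra.multiset_sum_mem (integralClosure ℤ ℂ) fun μ hμ => ?_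
  have h1 : Module.End.HasEigenvalue T μ :=
    (Module.End.hasEigenvalue_iff_isRoot_charpoly T μ).2 (Polynomial.isRoot_of_mem_roots hμ)
  have h2 : μ ^ (N + 2) = μ := by
    obtain ⟨v, hv⟩ := h1.exists_hasEigenvector
    have h6 := hv.pow_apply (N + 2)
    rw [h, hv.apply_eq_smul] at h6
    have h7 : (μ - μ ^ (N + 2)) • v = 0 := by rw [sub_smul, h6, sub_self]
    rcases smul_eq_zero.1 h7 with h8 | h8
    · exact (sub_eq_zero.1 h8).symm
    · exact absurd h8 hv.2
  refine ⟨Polynomial.X ^ (N + 2) - Polynomial.X, ?_, ?_⟩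
  · refine Polynomial.monic_X_pow_sub ?_
    rw [Polynomial.degree_X]
    exact_mod_cast (by omega : 1 < N + 2)
  · simp [h2]

theorem Irr.integral {G : Type*} [Group G] [Finite G] (χ : Irr G) (g : G) :
    χ.1 g ∈ integralClosure ℤ ℂ := by
  obtain ⟨χ, n, ρ, hρ, rfl⟩ := χ
  have h0 : orderOf g ≠ 0 := (isOfFinOrder_of_finite g).orderOf_pos.ne'
  exact trace_integral_of_pow (ρ g) (2 * orderOf g - 1) (by
    have h1 : 2 * orderOf g - 1 + 2 = 2 * orderOf g + 1 := by omega
    rw [h1, ← map_pow, pow_succ, pow_mul', pow_orderOf_eq_one]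
    simp)

/-- the trace of an idempotent is a natural number -/
theorem trace_nat_of_idem (T : Module.End ℂ V) (h : T * T = T) :
    ∃ n : ℕ, LinearMap.trace ℂ V T = n := by
  have h1 : LinearMap.IsProj (LinearMap.range T) T :=
    ⟨fun x => ⟨x, rfl⟩, fun x ⟨y, hy⟩ => by rw [← hy, ← Module.End.mul_apply, h]⟩
  exact ⟨_, h1.trace⟩

end Trace

section Conj

open scoped Classical ComplexOrder

/-- `χ(g⁻¹)` is the complex conjugate of `χ(g)` -/
theorem Irr.inv_eq_conj {G : Type*} [Group G] [Finite G] (χ : Irr G) (g : G) :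
    χ.1 g⁻¹ = (starRingEnd ℂ) (χ.1 g) := by
  have := Fintype.ofFinite G
  obtain ⟨χ, n, ρ, hρ, rfl⟩ := χ
  let M : G → Matrix (Fin n) (Fin n) ℂ := fun g => LinearMap.toMatrix' (ρ g)
  have hM : ∀ a b, M (a * b) = M a * M b := by
    intro a b
    simp only [M]
    rw [map_mul, Module.End.mul_eq_comp, LinearMap.toMatrix'_comp]
  have hM1 : M 1 = 1 := by simp [M, Module.End.one_eq_id]
  have htr : ∀ a, ρ.character a = (M a).trace := by
    intro a
    simp only [M]
    rw [← Matrix.trace_toLin'_eq, Matrix.toLin'_toMatrix']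
    rfl
  let H : Matrix (Fin n) (Fin n) ℂ := ∑ a : G, (M a)ᴴ * M a
  have hH : ∀ b, (M b)ᴴ * H * M b = H := by
    intro b
    simp only [H, Finset.mul_sum, Finset.sum_mul]
    rw [← Equiv.sum_comp (Equiv.mulRight b) (fun a => (M a)ᴴ * M a)]
    refine Finset.sum_congr rfl fun a _ => ?_
    simp only [Equiv.coe_mulRight, hM, Matrix.conjTranspose_mul, Matrix.mul_assoc]
  have hpos : H.PosDef := by
    have h1 : H = 1 + ∑ a ∈ (Finset.univ.erase (1 : G)), (M a)ᴴ * M a := by
      simp only [H]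
      rw [← Finset.add_sum_erase _ _ (Finset.mem_univ (1 : G)), hM1]
      simp
    rw [h1]
    refine Matrix.PosDef.add_posSemidef Matrix.PosDef.one ?_
    exact Matrix.posSemidef_sum _ fun a _ => Matrix.posSemidef_conjTranspose_mul_self _
  have hunit : IsUnit H.det := (Matrix.isUnit_iff_isUnit_det _).1 hpos.isUnit
  have key : M g⁻¹ = H⁻¹ * (M g)ᴴ * H := by
    have h1 : (M g)ᴴ * H = H * M g⁻¹ := by
      have h2 : M g * M g⁻¹ = 1 := by rw [← hM, mul_inv_cancel, hM1]
      calc (M g)ᴴ * H = (M g)ᴴ * H * (M g * M g⁻¹) := by rw [h2, Matrix.mul_one]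
        _ = ((M g)ᴴ * H * M g) * M g⁻¹ := by simp only [Matrix.mul_assoc]
        _ = H * M g⁻¹ := by rw [hH]
    rw [Matrix.mul_assoc, h1, ← Matrix.mul_assoc, Matrix.nonsing_inv_mul _ hunit, Matrix.one_mul]
  change ρ.character g⁻¹ = (starRingEnd ℂ) (ρ.character g)
  rw [htr, htr, key, Matrix.trace_mul_comm, ← Matrix.mul_assoc, Matrix.mul_nonsing_inv _ hunit,
    Matrix.one_mul, Matrix.trace_conjTranspose]
  rfl

end Conj

end P179P
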