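import Vale.Agent.P179.H905.Step1D

/-!
# (C5) Knörr–Robinson for simple modules, functional form
-/

namespace P179C

open Subgroup P179H524 P179A P179K

open scoped Classical Pointwise

universe u

section

variable {p : ℕ} {G : Type u} [Group G] [Finite G]

/-- orbit by orbit divisibility of sums over chains -/
theorem chains_dvd (f : Finset (Subgroup G) → ℤ) (hf : ∀ (g : G) s, f (g • s) = f s) (m : ℕ)
    (h : ∀ s, IsPChain p s → ((Nat.card (stab s) * m : ℕ) : ℤ) ∣ f s) :
    ((Nat.card G * m : ℕ) : ℤ) ∣ ∑ s ∈ chains p G, f s := by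
  have := Fintype.ofFinite (neChains p G)
  rw [sum_chains_eq]
  refine dvd_add ?_ ?_
  · have h1 := h ∅ (P179A.isPChain_empty p)
    have h2 : Nat.card (stab (∅ : Finset (Subgroup G))) = Nat.card G := by
      rw [P179A.stab_empty]
      exact Nat.card_congr (topEquiv (G := G)).toEquiv
    rwa [h2] at h1
  · refine dvd_orbits (Γ := G) (fun s : neChains p G => f s.1) ?_ _ ?_
    · intro g s
      exact hf g s.1
    · intro s
      have h3 : Nat.card (MulAction.orbit G s) * Nat.card (MulAction.stabilizer G s) =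
          Nat.card G := by
        have := Fintype.ofFinite G
        have := Fintype.ofFinite (MulAction.orbit G s)
        have := Fintype.ofFinite (MulAction.stabilizer G s)
        have h := MulAction.card_orbit_mul_card_stabilizer_eq_card_group G s
        rw [← Nat.card_eq_fintype_card, ← Nat.card_eq_fintype_card,
          ← Nat.card_eq_fintype_card] at h
        exact h
      rw [← h3, stabilizer_neChains, mul_assoc]
      push_cast
      refine mul_dvd_mul_left _ ?_
      have := h s.1 s.2.1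
      push_cast at this
      exact this

omit [Finite G] in
/-- `nL` of restrictions to conjugate subgroups -/
theorem nL_res_conj (z : G → ℤ) (hz : IsCF z) (g : G) (H H' : Subgroup G)
    (h : ∀ x, g * x * g⁻¹ ∈ H' ↔ x ∈ H) : nL p (res H' z) = nL p (res H z) := by
  let e : H ≃* H' :=
    { toFun := fun x => ⟨g * x * g⁻¹, (h _).mpr x.2⟩
      invFun := fun x => ⟨g⁻¹ * x * g, by
        rw [← h]
        have : g * (g⁻¹ * x * g) * g⁻¹ = (x : G) := by group
        rw [this]; exact x.2⟩
      left_inv := fun x => by apply Subtype.ext; simp [mul_assoc]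
      right_inv := fun x => by apply Subtype.ext; simp [mul_assoc]
      map_mul' := fun x y => by apply Subtype.ext; simp [mul_assoc] }
  rw [← nL_comp e]
  congr 1
  funext x
  exact hz g x

/-- The sum over the `p`-elements `v` of `stab s` of `nL` of the centraliser. -/
noncomputable def Psi (p : ℕ) [Fintype G] (z : G → ℤ) (s : Finset (Subgroup G)) : ℤ :=
  ∑ v : G, if (∃ n : ℕ, v ^ p ^ n = 1) ∧ v ∈ stab s then
    nL p (res (centralizer {v} ⊓ stab s) z) else 0

omit [Finite G] in
theorem Psi_smul [Fintype G] (z : G → ℤ) (hz : IsCF z) (g : G) (s : Finset (Subgroup G)) :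
    Psi p z (g • s) = Psi p z s := by
  unfold Psi
  rw [← (MulAut.conj g).toEquiv.sum_comp]
  refine Finset.sum_congr rfl fun v _ => ?_
  change (if (∃ n : ℕ, (g * v * g⁻¹) ^ p ^ n = 1) ∧ g * v * g⁻¹ ∈ stab (g • s) then
    nL p (res (centralizer {g * v * g⁻¹} ⊓ stab (g • s)) z) else 0) = _
  have h1 : (∃ n : ℕ, (g * v * g⁻¹) ^ p ^ n = 1) ↔ ∃ n : ℕ, v ^ p ^ n = 1 := pEl_conj g v
  have h2 : nL p (res (centralizer {g * v * g⁻¹} ⊓ stab (g • s)) z) =
      nL p (res (centralizer {v} ⊓ stab s) z) := by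
    refine nL_res_conj z hz g _ _ fun x => ?_
    rw [mem_inf, mem_inf, mem_stab_smul, mem_centralizer_singleton_iff,
      mem_centralizer_singleton_iff]
    refine and_congr_left fun _ => ?_
    have e1 : g * x * g⁻¹ * (g * v * g⁻¹) = g * (x * v) * g⁻¹ := by group
    have e2 : g * v * g⁻¹ * (g * x * g⁻¹) = g * (v * x) * g⁻¹ := by group
    rw [e1, e2, mul_left_inj, mul_right_inj]
  simp only [h1, mem_stab_smul, h2]

theorem Psi_eq [Fintype G] (z : G → ℤ) (s : Finset (Subgroup G)) :
    ∑ᶠ v : {v : stab s // ∃ n : ℕ, v ^ p ^ n = 1},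
      nL p (res (centralizer {v.1}) (res (stab s) z)) = Psi p z s := by
  have := Fintype.ofFinite {v : stab s // ∃ n : ℕ, v ^ p ^ n = 1}
  unfold Psi
  rw [finsum_eq_sum_of_fintype, ← Finset.sum_filter]
  refine Finset.sum_bij (fun v _ => ((v.1 : stab s) : G)) ?_ ?_ ?_ ?_
  · rintro ⟨v, n, hn⟩ _
    rw [Finset.mem_filter]
    refine ⟨Finset.mem_univ _, ⟨n, ?_⟩, v.2⟩
    have := congrArg Subtype.val hn
    simpa using this
  · rintro ⟨v, hv⟩ _ ⟨v', hv'⟩ _ h
    exact Subtype.ext (Subtype.ext h)
  · intro v hv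
    rw [Finset.mem_filter] at hv
    obtain ⟨n, hn⟩ := hv.2.1
    exact ⟨⟨⟨v, hv.2.2⟩, ⟨n, Subtype.ext hn⟩⟩, Finset.mem_univ _, rfl⟩
  · rintro ⟨v, hv⟩ _
    let e : (centralizer {v} : Subgroup (stab s)) ≃*
        (centralizer {(v : G)} ⊓ stab s : Subgroup G) :=
      { toFun := fun x => ⟨((x.1 : stab s) : G), by
          have h := mem_centralizer_singleton_iff.mp x.2
          exact ⟨mem_centralizer_singleton_iff.mpr (congrArg Subtype.val h), x.1.2⟩⟩
        invFun := fun x => ⟨⟨x.1, x.2.2⟩, mem_centralizer_singleton_iff.mpr (Subtype.ext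
          (mem_centralizer_singleton_iff.mp x.2.1))⟩
        left_inv := fun x => rfl
        right_inv := fun x => rfl
        map_mul' := fun x y => rfl }
    rw [← nL_comp e]
    rfl

/-- cancellation by toggling with `⟨v⟩` -/
theorem sum_Psi [hp : Fact p.Prime] [Fintype G] (z : G → ℤ) :
    ∑ s ∈ chains p G, (-1) ^ s.card * Psi p z s =
      ∑ s ∈ chains p G, (-1) ^ s.card * nL p (res (stab s) z) := by
  unfold Psi
  have h0 : ∀ s ∈ chains p G, (-1 : ℤ) ^ s.card * ∑ v : G,
      (if (∃ n : ℕ, v ^ p ^ n = 1) ∧ v ∈ stab s then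
        nL p (res (centralizer {v} ⊓ stab s) z) else 0) =
      ∑ v : G, (-1 : ℤ) ^ s.card * (if (∃ n : ℕ, v ^ p ^ n = 1) ∧ v ∈ stab s then
        nL p (res (centralizer {v} ⊓ stab s) z) else 0) := fun s _ => Finset.mul_sum _ _ _
  rw [Finset.sum_congr rfl h0, Finset.sum_comm]
  rw [Finset.sum_eq_single (1 : G)]
  · refine Finset.sum_congr rfl fun s _ => ?_
    have h1 : (∃ n : ℕ, (1 : G) ^ p ^ n = 1) ∧ (1 : G) ∈ stab s := ⟨⟨0, by simp⟩, one_mem _⟩
    rw [if_pos h1]
    have h2 : (centralizer {(1 : G)} ⊓ stab s : Subgroup G) = stab s := by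
      rw [inf_eq_right]
      intro x _
      rw [mem_centralizer_singleton_iff]; simp
    rw [h2]
  · intro v _ hv
    by_cases hvp : ∃ n : ℕ, v ^ p ^ n = 1
    · -- toggle with `⟨v⟩`
      have hV : IsPGroup p (zpowers v) := by
        obtain ⟨n, hn⟩ := hvp
        obtain ⟨m, -, hm⟩ := (Nat.dvd_prime_pow hp.out).mp (orderOf_dvd_of_pow_eq_one hn)
        rw [IsPGroup.iff_card]
        exact ⟨m, by rw [Nat.card_zpowers, hm]⟩
      have hV1 : zpowers v ≠ ⊥ := by rwa [Ne, zpowers_eq_bot]
      have hVn : ∀ x ∈ centralizer {v}, x ∈ normalizer ((zpowers v : Subgroup G) : Set G) := by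
        intro x hx
        refine mem_normalizer_of_comm fun w hw => ?_
        obtain ⟨n, rfl⟩ := mem_zpowers_iff.mp hw
        have : Commute x v := mem_centralizer_singleton_iff.mp hx
        exact (this.zpow_right n)
      have hv1 : v ∈ normalizer ((zpowers v : Subgroup G) : Set G) :=
        hVn v (mem_centralizer_singleton_iff.mpr rfl)
      have hstab : ∀ s, IsPChain p s → v ∈ stab s → zpowers v ≤ stab s :=
        fun s _ h => by rwa [zpowers_le]
      have hmem : ∀ s, IsPChain p s → v ∈ stab s → v ∈ stab (tog (zpowers v) s) :=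
        fun s hs h => (mem_stab_tog hs hV hV1 (hstab s hs h) hv1).mpr h
      have key : ∀ s ∈ chains p G, ((-1 : ℤ) ^ s.card * (if (∃ n : ℕ, v ^ p ^ n = 1) ∧
          v ∈ stab s then nL p (res (centralizer {v} ⊓ stab s) z) else 0)) =
          if v ∈ stab s then (-1 : ℤ) ^ s.card * nL p (res (centralizer {v} ⊓ stab s) z) else 0 := by
        intro s _
        by_cases h : v ∈ stab s
        · rw [if_pos ⟨hvp, h⟩, if_pos h]
        · rw [if_neg (fun h' => h h'.2), if_neg h, mul_zero]
      rw [Finset.sum_congr rfl key, ← Finset.sum_filter]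
      refine Finset.sum_involution (fun s _ => tog (zpowers v) s) ?_ ?_ ?_ ?_
      · intro s hs
        rw [Finset.mem_filter, mem_chains] at hs
        have h2 : (centralizer {v} ⊓ stab (tog (zpowers v) s) : Subgroup G) =
            centralizer {v} ⊓ stab s := by
          ext x
          rw [mem_inf, mem_inf]
          refine and_congr_right fun hx => ?_
          exact mem_stab_tog hs.1 hV hV1 (hstab s hs.1 hs.2) (hVn x hx)
        rw [h2, neg_one_pow_card_tog]; ring
      · intro s _ _
        exact tog_ne _ s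
      · intro s hs
        rw [Finset.mem_filter, mem_chains] at hs ⊢
        exact ⟨tog_isPChain hs.1 hV hV1 (hstab s hs.1 hs.2), hmem s hs.1 hs.2⟩
      · intro s _
        exact tog_tog _ s
    · refine Finset.sum_eq_zero fun s _ => ?_
      rw [if_neg (fun h => hvp h.1), mul_zero]
  · intro h
    exact absurd (Finset.mem_univ _) h

/-- (C5), from (C1). -/
theorem KR_L_of (p : ℕ) [Fact p.Prime]
    (hC1 : ∀ (K : Subgroup G) (z : K → ℤ), IsCF z → ((Nat.card K * p : ℕ) : ℤ) ∣
      nTr z - ∑ᶠ v : {v : K // ∃ n : ℕ, v ^ p ^ n = 1}, nL p (res (centralizer {v.1}) z))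
    (z : G → ℤ) (hz : IsCF z) :
    ((Nat.card G * p : ℕ) : ℤ) ∣
      ∑ s ∈ chains p G, (-1) ^ s.card * (nTr (res (stab s) z) - nL p (res (stab s) z)) := by
  have := Fintype.ofFinite G
  have h1 : ∑ s ∈ chains p G, (-1 : ℤ) ^ s.card * (nTr (res (stab s) z) - nL p (res (stab s) z)) =
      ∑ s ∈ chains p G, (-1 : ℤ) ^ s.card * (nTr (res (stab s) z) - Psi p z s) := by
    simp only [mul_sub, Finset.sum_sub_distrib]
    rw [sum_Psi]
  rw [h1]
  refine chains_dvd (fun s => (-1) ^ s.card * (nTr (res (stab s) z) - Psi p z s)) ?_ p ?_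
  · intro g s
    rw [card_smul, Psi_smul z hz, ← nTr_comp (stabEquiv g s), res_stab_smul hz g s]
  · intro s _
    refine Dvd.dvd.mul_left ?_ _
    have := hC1 (stab s) (res (stab s) z) (isCF_res _ hz)
    rwa [Psi_eq] at this

end

end P179C
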