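import Mathlib

/-!
# Chains of nontrivial `p`-subgroups and the toggling involution
-/

namespace P179A

open Subgroup

variable {G : Type*} [Group G]

/-- A (possibly empty) chain of nontrivial `p`-subgroups. -/
def IsPChain (p : ℕ) (s : Finset (Subgroup G)) : Prop :=
  (∀ Q ∈ s, IsPGroup p Q ∧ Q ≠ ⊥) ∧ IsChain (· ≤ ·) (s : Set (Subgroup G))

/-- The stabiliser of a chain: the elements normalising every member. -/
def stab (s : Finset (Subgroup G)) : Subgroup G :=
  ⨅ Q ∈ s, normalizer (Q : Set G)

theorem mem_stab {s : Finset (Subgroup G)} {g : G} :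
    g ∈ stab s ↔ ∀ Q ∈ s, g ∈ normalizer (Q : Set G) := by
  simp [stab, mem_iInf]

theorem le_stab {s : Finset (Subgroup G)} {H : Subgroup G} :
    H ≤ stab s ↔ ∀ Q ∈ s, H ≤ normalizer (Q : Set G) := by
  simp [stab]

/-- The finite set of all chains of nontrivial `p`-subgroups of a finite group. -/
noncomputable def chains (p : ℕ) (G : Type*) [Group G] [Finite G] : Finset (Finset (Subgroup G)) :=
  (Set.toFinite {s : Finset (Subgroup G) | IsPChain p s}).toFinset

@[simp] theorem mem_chains {p : ℕ} [Finite G] {s : Finset (Subgroup G)} :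
    s ∈ chains p G ↔ IsPChain p s := by
  simp [chains]

open Classical in
/-- The signed number of chains fixed by `x` and `y`. -/
noncomputable def W (p : ℕ) [Finite G] (x y : G) : ℤ :=
  ∑ s ∈ (chains p G).filter (fun s => x ∈ stab s ∧ y ∈ stab s), (-1) ^ s.card

open Classical in
/-- The supremum of the members of the chain not containing `U`. -/
noncomputable def lowSup (U : Subgroup G) (s : Finset (Subgroup G)) : Subgroup G :=
  (s.filter (fun Q => ¬ U ≤ Q)).sup id

/-- The subgroup that is toggled. -/
noncomputable def togR (U : Subgroup G) (s : Finset (Subgroup G)) : Subgroup G :=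
  lowSup U s ⊔ U

open Classical in
/-- Toggling: remove or insert `togR U s`. -/
noncomputable def tog (U : Subgroup G) (s : Finset (Subgroup G)) : Finset (Subgroup G) :=
  if togR U s ∈ s then s.erase (togR U s) else insert (togR U s) s

theorem le_togR (U : Subgroup G) (s : Finset (Subgroup G)) : U ≤ togR U s := le_sup_right

theorem mem_tog {U : Subgroup G} {s : Finset (Subgroup G)} {Q : Subgroup G} :
    Q ∈ tog U s ↔ (Q ∈ s ∧ Q ≠ togR U s) ∨ (Q = togR U s ∧ togR U s ∉ s) := by
  classical
  unfold tog
  split_ifs with h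
  · rw [Finset.mem_erase]
    constructor
    · rintro ⟨h1, h2⟩; exact Or.inl ⟨h2, h1⟩
    · rintro (⟨h1, h2⟩ | ⟨h1, h2⟩)
      · exact ⟨h2, h1⟩
      · exact absurd h h2
  · rw [Finset.mem_insert]
    constructor
    · rintro (h1 | h1)
      · exact Or.inr ⟨h1, h⟩
      · refine Or.inl ⟨h1, ?_⟩
        rintro rfl; exact h h1
    · rintro (⟨h1, h2⟩ | ⟨h1, h2⟩)
      · exact Or.inr h1
      · exact Or.inl h1

/-- The members not containing `U` are not changed by toggling. -/
theorem filter_tog (U : Subgroup G) (s : Finset (Subgroup G)) [DecidablePred (fun Q => ¬ U ≤ Q)] :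
    (tog U s).filter (fun Q => ¬ U ≤ Q) = s.filter (fun Q => ¬ U ≤ Q) := by
  classical
  ext Q
  simp only [Finset.mem_filter, mem_tog]
  constructor
  · rintro ⟨h | h, h2⟩
    · exact ⟨h.1, h2⟩
    · exact absurd (h.1 ▸ le_togR U s) h2
  · rintro ⟨h1, h2⟩
    refine ⟨Or.inl ⟨h1, ?_⟩, h2⟩
    rintro rfl
    exact h2 (le_togR U s)

theorem lowSup_tog (U : Subgroup G) (s : Finset (Subgroup G)) :
    lowSup U (tog U s) = lowSup U s := by
  classical
  unfold lowSup
  rw [filter_tog]

theorem togR_tog (U : Subgroup G) (s : Finset (Subgroup G)) :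
    togR U (tog U s) = togR U s := by
  unfold togR
  rw [lowSup_tog]

theorem tog_tog (U : Subgroup G) (s : Finset (Subgroup G)) : tog U (tog U s) = s := by
  classical
  ext Q
  rw [mem_tog, togR_tog, mem_tog, mem_tog]
  by_cases h : togR U s ∈ s <;> by_cases hQ : Q = togR U s <;> simp_all

theorem neg_one_pow_card_tog (U : Subgroup G) (s : Finset (Subgroup G)) :
    (-1 : ℤ) ^ (tog U s).card = - (-1) ^ s.card := by
  classical
  unfold tog
  split_ifs with h
  · have := Finset.card_erase_add_one h
    rw [← this, pow_succ]; ring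
  · rw [Finset.card_insert_of_notMem h, pow_succ]; ring

theorem tog_ne (U : Subgroup G) (s : Finset (Subgroup G)) : tog U s ≠ s := by
  intro h
  have := neg_one_pow_card_tog U s
  rw [h] at this
  have h2 : (-1 : ℤ) ^ s.card ≠ 0 := pow_ne_zero _ (by norm_num)
  exact h2 (by linarith)

/-- In a chain, the supremum of the members not containing `U` is `⊥` or a member. -/
theorem lowSup_eq (U : Subgroup G) {s : Finset (Subgroup G)}
    (hs : IsChain (· ≤ ·) (s : Set (Subgroup G))) :
    lowSup U s = ⊥ ∨ (lowSup U s ∈ s ∧ ¬ U ≤ lowSup U s) := by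
  classical
  unfold lowSup
  rcases (s.filter (fun Q => ¬ U ≤ Q)).eq_empty_or_nonempty with h | h
  · left; simp [h]
  · right
    obtain ⟨M, hM, hmax⟩ := Finset.exists_maximal h
    have hM' := Finset.mem_filter.1 hM
    have : (s.filter (fun Q => ¬ U ≤ Q)).sup id = M := by
      apply le_antisymm
      · apply Finset.sup_le
        intro Q hQ
        have hQ' := Finset.mem_filter.1 hQ
        rcases hs.total hQ'.1 hM'.1 with h1 | h1
        · exact h1
        · exact hmax hQ h1
      · exact Finset.le_sup (f := id) hM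
    rw [this]
    exact hM'

theorem le_of_mem_of_le {U : Subgroup G} {s : Finset (Subgroup G)}
    (hs : IsChain (· ≤ ·) (s : Set (Subgroup G))) {Q : Subgroup G} (hQ : Q ∈ s) (hU : U ≤ Q) :
    togR U s ≤ Q := by
  classical
  refine sup_le ?_ hU
  unfold lowSup
  apply Finset.sup_le
  intro R hR
  have hR' := Finset.mem_filter.1 hR
  rcases hs.total hR'.1 hQ with h1 | h1
  · exact h1
  · exact absurd (hU.trans h1) hR'.2

theorem le_togR_of_mem {U : Subgroup G} {s : Finset (Subgroup G)} {Q : Subgroup G} (hQ : Q ∈ s)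
    (hU : ¬ U ≤ Q) : Q ≤ togR U s := by
  classical
  refine le_trans ?_ le_sup_left
  exact Finset.le_sup (f := id) (Finset.mem_filter.2 ⟨hQ, hU⟩)

theorem tog_isPChain {p : ℕ} {U : Subgroup G} {s : Finset (Subgroup G)} (hs : IsPChain p s)
    (hU : IsPGroup p U) (hU1 : U ≠ ⊥) (hUs : U ≤ stab s) : IsPChain p (tog U s) := by
  classical
  constructor
  · intro Q hQ
    rcases mem_tog.1 hQ with h | h
    · exact hs.1 Q h.1
    · rw [h.1]
      constructor
      · rcases lowSup_eq U hs.2 with h1 | h1
        · unfold togR; rw [h1, bot_sup_eq]; exact hU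
        · unfold togR
          rw [sup_comm]
          exact IsPGroup.to_sup_of_normal_right' hU (hs.1 _ h1.1).1 (le_stab.1 hUs _ h1.1)
      · intro h2
        have := le_togR U s
        rw [h2, le_bot_iff] at this
        exact hU1 this
  · intro Q hQ Q' hQ' _
    simp only [Finset.mem_coe, mem_tog] at hQ hQ'
    rcases hQ with hQ | hQ <;> rcases hQ' with hQ' | hQ'
    · exact hs.2.total hQ.1 hQ'.1
    · rw [hQ'.1]
      by_cases h : U ≤ Q
      · exact Or.inr (le_of_mem_of_le hs.2 hQ.1 h)
      · exact Or.inl (le_togR_of_mem hQ.1 h)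
    · rw [hQ.1]
      by_cases h : U ≤ Q'
      · exact Or.inl (le_of_mem_of_le hs.2 hQ'.1 h)
      · exact Or.inr (le_togR_of_mem hQ'.1 h)
    · rw [hQ.1, hQ'.1]; exact Or.inl le_rfl

/-- An element normalising two subgroups normalises their supremum. -/
theorem mem_normalizer_sup {A B : Subgroup G} {g : G} (hA : g ∈ normalizer (A : Set G))
    (hB : g ∈ normalizer (B : Set G)) : g ∈ normalizer ((A ⊔ B : Subgroup G) : Set G) := by
  have key : ∀ (C : Subgroup G) (x : G), x ∈ normalizer (C : Set G) ↔
      C.map (MulAut.conj x).toMonoidHom = C := by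
    intro C x
    rw [mem_normalizer_iff]
    constructor
    · intro h
      ext z
      simp only [mem_map, MulEquiv.toMonoidHom_eq_coe, MonoidHom.coe_coe, MulAut.conj_apply]
      constructor
      · rintro ⟨w, hw, rfl⟩; exact (h w).1 hw
      · intro hz
        refine ⟨x⁻¹ * z * x, ?_, by group⟩
        rw [h]
        convert hz using 1
        group
    · intro h z
      constructor
      · intro hz
        rw [← h]
        exact ⟨z, hz, rfl⟩
      · intro hz
        rw [← h] at hz
        obtain ⟨w, hw, hw2⟩ := hz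
        simp only [MulEquiv.toMonoidHom_eq_coe, MonoidHom.coe_coe, MulAut.conj_apply] at hw2
        have : w = z := by
          have := congrArg (fun t => x⁻¹ * t * x) hw2
          simpa [mul_assoc] using this
        rw [← this]; exact hw
  rw [key] at hA hB ⊢
  rw [Subgroup.map_sup, hA, hB]

theorem mem_stab_tog_of_mem {U : Subgroup G} {s : Finset (Subgroup G)}
    (hs : IsChain (· ≤ ·) (s : Set (Subgroup G))) {g : G} (hg : g ∈ normalizer (U : Set G))
    (h : g ∈ stab s) : g ∈ stab (tog U s) := by
  rw [mem_stab] at h ⊢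
  intro Q hQ
  rcases mem_tog.1 hQ with h1 | h1
  · exact h Q h1.1
  · rw [h1.1]
    unfold togR
    apply mem_normalizer_sup _ hg
    rcases lowSup_eq U hs with h2 | h2
    · rw [h2]
      rw [mem_normalizer_iff]
      intro z
      simp [mem_bot]
    · exact h _ h2.1

theorem mem_stab_tog {p : ℕ} {U : Subgroup G} {s : Finset (Subgroup G)} (hs : IsPChain p s)
    (hU : IsPGroup p U) (hU1 : U ≠ ⊥) (hUs : U ≤ stab s) {g : G}
    (hg : g ∈ normalizer (U : Set G)) : g ∈ stab (tog U s) ↔ g ∈ stab s := by
  constructor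
  · intro h
    have := mem_stab_tog_of_mem (tog_isPChain hs hU hU1 hUs).2 hg h
    rwa [tog_tog] at this
  · exact mem_stab_tog_of_mem hs.2 hg

theorem le_stab_tog {p : ℕ} {U : Subgroup G} {s : Finset (Subgroup G)} (hs : IsPChain p s)
    (hU : IsPGroup p U) (hU1 : U ≠ ⊥) (hUs : U ≤ stab s) {H : Subgroup G}
    (hH : H ≤ normalizer (U : Set G)) : H ≤ stab (tog U s) ↔ H ≤ stab s := by
  constructor
  · intro h x hx
    exact (mem_stab_tog hs hU hU1 hUs (hH hx)).1 (h hx)
  · intro h x hx
    exact (mem_stab_tog hs hU hU1 hUs (hH hx)).2 (h hx)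

end P179A
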