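import Vale.Agent.P179.H143.CFun

/-!
# The `p`-regular part, and `p`-regular elements in a coset of a normal `p`-subgroup
-/

namespace P179C905

open Subgroup P179H524 P179A P179C

theorem prExp_spec (p : ℕ) [hp : Fact p.Prime] {n : ℕ} (hn : n ≠ 0) :
    ordProj[p] n ∣ prExp p n ∧ prExp p n ≡ 1 [MOD ordCompl[p] n] := by
  have hcop : Nat.Coprime (ordProj[p] n) (ordCompl[p] n) :=
    Nat.Coprime.pow_left _ ((Nat.Prime.coprime_iff_not_dvd hp.out).mpr
      (Nat.not_dvd_ordCompl hp.out hn))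
  obtain ⟨e, he1, he2⟩ := Nat.chineseRemainder hcop 0 1
  have h : ∃ e : ℕ, ordProj[p] n ∣ e ∧ e ≡ 1 [MOD ordCompl[p] n] :=
    ⟨e, (Nat.modEq_zero_iff_dvd.mp he1), he2⟩
  unfold prExp
  rw [dif_pos h]
  exact h.choose_spec

/-- The `p`-regular part of a product of commuting `p`-regular and `p`-elements. -/
theorem pr_mul (p : ℕ) [hp : Fact p.Prime] {K : Type*} [Group K] {a b : K}
    (hab : a * b = b * a) (ha : orderOf a ≠ 0) (hpa : ¬ p ∣ orderOf a)
    (hb : ∃ n : ℕ, b ^ p ^ n = 1) : pr p (a * b) = a := by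
  obtain ⟨n, hn⟩ := hb
  obtain ⟨k, -, hk⟩ := (Nat.dvd_prime_pow hp.out).mp (orderOf_dvd_of_pow_eq_one hn)
  have hb0 : orderOf b ≠ 0 := by rw [hk]; exact pow_ne_zero _ hp.out.ne_zero
  have hcop : Nat.Coprime (orderOf a) (orderOf b) := by
    rw [hk]
    exact Nat.Coprime.pow_right _ (((Nat.Prime.coprime_iff_not_dvd hp.out).mpr hpa).symm)
  have hc : Commute a b := hab
  have hord : orderOf (a * b) = orderOf a * orderOf b := hc.orderOf_mul_eq_mul_orderOf_of_coprime hcop
  have h0 : orderOf (a * b) ≠ 0 := by rw [hord]; exact mul_ne_zero ha hb0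
  obtain ⟨h1, h2⟩ := prExp_spec p h0
  have hf : (orderOf (a * b)).factorization p = k := by
    rw [hord, hk, Nat.factorization_mul ha (pow_ne_zero _ hp.out.ne_zero), Finsupp.add_apply,
      Nat.factorization_eq_zero_of_not_dvd hpa, hp.out.factorization_pow]
    simp
  have hcompl : orderOf (a * b) / p ^ k = orderOf a := by
    rw [hord, hk, Nat.mul_div_cancel _ (pow_pos hp.out.pos k)]
  rw [hf] at h1 h2
  rw [hcompl] at h2
  unfold pr
  rw [hc.mul_pow]
  have h3 : a ^ prExp p (orderOf (a * b)) = a := by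
    conv_rhs => rw [← pow_one a]
    exact pow_eq_pow_iff_modEq.mpr h2
  have h4 : b ^ prExp p (orderOf (a * b)) = 1 := by
    rw [← orderOf_dvd_iff_pow_eq_one, hk]; exact h1
  rw [h3, h4, mul_one]

/-- The decomposition into `p`-regular and `p`-part. -/
theorem pr_decomp (p : ℕ) [hp : Fact p.Prime] {K : Type*} [Group K] [Finite K] (x : K) :
    ∃ v : K, pr p x * v = x ∧ pr p x * v = v * pr p x ∧ (∃ n : ℕ, v ^ p ^ n = 1) ∧
      ¬ p ∣ orderOf (pr p x) := by
  have h0 : orderOf x ≠ 0 := (orderOf_pos x).ne'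
  obtain ⟨h1, h2⟩ := prExp_spec p h0
  have hc : Commute x (pr p x) := (Commute.refl x).pow_right _
  refine ⟨(pr p x)⁻¹ * x, by group, ?_, ⟨(orderOf x).factorization p, ?_⟩, ?_⟩
  · have h3 : pr p x * x = x * pr p x := hc.symm
    rw [mul_inv_cancel_left, mul_assoc, ← h3]; group
  · have h3 : Commute (pr p x)⁻¹ x := hc.symm.inv_left
    rw [h3.mul_pow, inv_pow, inv_mul_eq_one]
    unfold pr
    rw [← pow_mul]
    refine pow_eq_pow_iff_modEq.mpr ?_
    have h4 : orderOf x = ordProj[p] (orderOf x) * ordCompl[p] (orderOf x) :=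
      (Nat.ordProj_mul_ordCompl_eq_self _ p).symm
    have h5 := h2.mul_left' (c := ordProj[p] (orderOf x))
    rw [← h4, mul_one, mul_comm] at h5
    exact h5
  · intro h
    have h3 : orderOf (pr p x) ∣ ordCompl[p] (orderOf x) := by
      apply orderOf_dvd_of_pow_eq_one
      unfold pr
      rw [← pow_mul, ← orderOf_dvd_iff_pow_eq_one]
      conv_lhs => rw [← Nat.ordProj_mul_ordCompl_eq_self (orderOf x) p]
      exact mul_dvd_mul_right h1 _
    exact Nat.not_dvd_ordCompl hp.out h0 (h.trans h3)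

/-- An element whose order divides the order of `x` and `x` have a common exponent. -/
theorem map_pr (p : ℕ) [hp : Fact p.Prime] {K L : Type*} [Group K] [Group L] [Finite K]
    (π : K →* L) (x : K) : π (pr p x) = pr p (π x) := by
  obtain ⟨v, h1, h2, ⟨n, hn⟩, h4⟩ := pr_decomp p x
  conv_rhs => rw [← h1]
  rw [map_mul]
  symm
  refine pr_mul p ?_ ?_ ?_ ⟨n, ?_⟩
  · rw [← map_mul, h2, map_mul]
  · have : orderOf (π (pr p x)) ∣ orderOf (pr p x) := orderOf_map_dvd π _
    intro h
    rw [h, zero_dvd_iff] at this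
    exact (orderOf_pos _).ne' this
  · exact fun h => h4 (h.trans (orderOf_map_dvd π _))
  · rw [← map_pow, hn, map_one]

/-- **`p`-regular elements in a coset of a normal `p`-subgroup are conjugate.** -/
theorem conj_of_coset (p : ℕ) [hp : Fact p.Prime] {K : Type*} [Group K] [Finite K]
    (R : Subgroup K) [hR : R.Normal] (hRp : IsPGroup p R) {g h : K} (hg : ¬ p ∣ orderOf g)
    (hh : ¬ p ∣ orderOf h) (hgh : g⁻¹ * h ∈ R) : ∃ r ∈ R, h = r * g * r⁻¹ := by
  classical
  -- the `p`-regular elements in the coset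
  let X := {w : K // ¬ p ∣ orderOf w ∧ g⁻¹ * w ∈ R}
  have hconj : ∀ (r w : K), r ∈ R → g⁻¹ * w ∈ R → g⁻¹ * (r * w * r⁻¹) ∈ R := by
    intro r w hr hw
    have h1 : g⁻¹ * (r * w * r⁻¹) = (g⁻¹ * r * g) * (g⁻¹ * w) * r⁻¹ := by group
    rw [h1]
    have h2 := hR.conj_mem r hr g⁻¹
    rw [inv_inv] at h2
    exact mul_mem (mul_mem h2 hw) (inv_mem hr)
  have hord : ∀ r w : K, orderOf (r * w * r⁻¹) = orderOf w := by
    intro r w
    have := MulEquiv.orderOf_eq (MulAut.conj r) w
    rwa [MulAut.conj_apply] at this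
  let _ : MulAction R X :=
    { smul := fun r w => ⟨r * w.1 * (r : K)⁻¹, by rw [hord]; exact w.2.1, hconj _ _ r.2 w.2.2⟩
      one_smul := fun w => Subtype.ext (by
        change ((1 : R) : K) * w.1 * ((1 : R) : K)⁻¹ = w.1; simp)
      mul_smul := fun r s w => Subtype.ext (by
        change ((r * s : R) : K) * w.1 * ((r * s : R) : K)⁻¹ = r * (s * w.1 * (s : K)⁻¹) * (r : K)⁻¹
        rw [Subgroup.coe_mul]; group) }
  have hsmul : ∀ (r : R) (w : X), ((r • w : X) : K) = r * w.1 * (r : K)⁻¹ := fun _ _ => rfl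
  -- the counting
  have hcount : Nat.card (Σ r : R, MulAction.fixedBy X r) = Nat.card R := by
    refine (Nat.card_congr (Equiv.ofBijective
      (fun t : (Σ r : R, MulAction.fixedBy X r) => (⟨g⁻¹ * t.2.1.1 * t.1.1, ?_⟩ : R)) ⟨?_, ?_⟩))
    · exact mul_mem t.2.1.2.2 t.1.2
    · rintro ⟨r, w, hw⟩ ⟨r', w', hw'⟩ heq
      have h1 : g⁻¹ * w.1 * r.1 = g⁻¹ * w'.1 * r'.1 := congrArg Subtype.val heq
      rw [mul_assoc, mul_assoc] at h1
      have h2 := mul_left_cancel h1
      have c1 : w.1 * r.1 = r.1 * w.1 := by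
        have := congrArg Subtype.val hw
        rw [hsmul, mul_inv_eq_iff_eq_mul] at this
        exact this.symm
      have c2 : w'.1 * r'.1 = r'.1 * w'.1 := by
        have := congrArg Subtype.val hw'
        rw [hsmul, mul_inv_eq_iff_eq_mul] at this
        exact this.symm
      obtain ⟨n, hn⟩ := hRp r
      obtain ⟨n', hn'⟩ := hRp r'
      have e1 := pr_mul p c1 (orderOf_pos _).ne' w.2.1 ⟨n, by
        have := congrArg Subtype.val hn; simpa using this⟩
      have e2 := pr_mul p c2 (orderOf_pos _).ne' w'.2.1 ⟨n', by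
        have := congrArg Subtype.val hn'; simpa using this⟩
      have h3 : w = w' := Subtype.ext (by rw [← e1, ← e2, h2])
      subst h3
      have h4 : r = r' := Subtype.ext (mul_left_cancel h2)
      subst h4
      rfl
    · rintro ⟨r, hr⟩
      -- the element `g r` of the coset
      obtain ⟨v, h1, h2, h3, h4⟩ := pr_decomp p (g * r)
      have h5 : g⁻¹ * pr p (g * r) ∈ R := by
        rw [← QuotientGroup.eq]
        have e1 : (QuotientGroup.mk' R) (pr p (g * r)) = pr p ((QuotientGroup.mk' R) (g * r)) :=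
          map_pr p _ _
        have e2 : (QuotientGroup.mk' R) (g * r) = (QuotientGroup.mk' R) g := by
          rw [map_mul]
          have : (QuotientGroup.mk' R) r = 1 := by
            rw [← MonoidHom.mem_ker, QuotientGroup.ker_mk']; exact hr
          rw [this, mul_one]
        have e3 : (QuotientGroup.mk' R) (pr p g) = pr p ((QuotientGroup.mk' R) g) := map_pr p _ _
        have e4 : pr p g = g := by
          have := pr_mul p (a := g) (b := 1) (by simp) (orderOf_pos _).ne' hg ⟨0, by simp⟩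
          rwa [mul_one] at this
        have : (QuotientGroup.mk' R) g = (QuotientGroup.mk' R) (pr p (g * r)) := by
          rw [e1, e2, ← e3, e4]
        exact this
      have h6 : v ∈ R := by
        have e0 : (g⁻¹ * pr p (g * r))⁻¹ * (g⁻¹ * (g * r)) = (pr p (g * r))⁻¹ * (g * r) := by
          rw [mul_inv_rev, inv_inv, mul_assoc, mul_inv_cancel_left]
        have e1 : v = (g⁻¹ * pr p (g * r))⁻¹ * (g⁻¹ * (g * r)) := by
          rw [e0, eq_inv_mul_iff_mul_eq, h1]
        rw [e1]
        refine mul_mem (inv_mem h5) ?_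
        rw [inv_mul_cancel_left]; exact hr
      refine ⟨⟨⟨v, h6⟩, ⟨⟨pr p (g * r), h4, h5⟩, ?_⟩⟩, ?_⟩
      · apply Subtype.ext
        rw [hsmul]
        change v * pr p (g * r) * v⁻¹ = pr p (g * r)
        rw [← h2, mul_inv_cancel_right]
      · apply Subtype.ext
        change g⁻¹ * pr p (g * r) * v = r
        rw [mul_assoc, h1, inv_mul_cancel_left]
  have hB := Nat.card_congr (MulAction.sigmaFixedByEquivOrbitsProdGroup R X)
  rw [hcount, Nat.card_prod] at hB
  have hone : Nat.card (MulAction.orbitRel.Quotient R X) = 1 := by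
    have h1 : 0 < Nat.card R := Nat.card_pos
    have h2 : 1 * Nat.card R = Nat.card (MulAction.orbitRel.Quotient R X) * Nat.card R := by
      rw [one_mul]; exact hB
    exact (Nat.eq_of_mul_eq_mul_right h1 h2).symm
  have hsub := (Nat.card_eq_one_iff_unique.mp hone).1
  let wg : X := ⟨g, hg, by rw [inv_mul_cancel]; exact one_mem _⟩
  let wh : X := ⟨h, hh, hgh⟩
  have h1 : (Quotient.mk'' wh : MulAction.orbitRel.Quotient R X) = Quotient.mk'' wg :=
    hsub.elim _ _
  obtain ⟨r, hr⟩ := Quotient.exact h1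
  refine ⟨r.1, r.2, ?_⟩
  have := congrArg Subtype.val hr
  exact this.symm

/-- For `r` in a normal `p`-subgroup, the `p`-regular parts of `x` and `x r` are conjugate. -/
theorem pr_conj (p : ℕ) [hp : Fact p.Prime] {K : Type*} [Group K] [Finite K]
    (R : Subgroup K) [hR : R.Normal] (hRp : IsPGroup p R) (x r : K) (hr : r ∈ R) :
    ∃ t ∈ R, pr p (x * r) = t * pr p x * t⁻¹ := by
  obtain ⟨_, _, _, _, h1⟩ := pr_decomp p x
  obtain ⟨_, _, _, _, h2⟩ := pr_decomp p (x * r)
  refine conj_of_coset p R hRp h1 h2 ?_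
  rw [← QuotientGroup.eq]
  have e1 : (QuotientGroup.mk' R) (pr p (x * r)) = pr p ((QuotientGroup.mk' R) (x * r)) :=
    map_pr p _ _
  have e2 : (QuotientGroup.mk' R) (x * r) = (QuotientGroup.mk' R) x := by
    rw [map_mul]
    have : (QuotientGroup.mk' R) r = 1 := by
      rw [← MonoidHom.mem_ker, QuotientGroup.ker_mk']; exact hr
    rw [this, mul_one]
  have e3 : (QuotientGroup.mk' R) (pr p x) = pr p ((QuotientGroup.mk' R) x) := map_pr p _ _
  have : (QuotientGroup.mk' R) (pr p x) = (QuotientGroup.mk' R) (pr p (x * r)) := by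
    rw [e1, e2, ← e3]
  exact this

end P179C905
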