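import Vale.Agent.P179.H905.Ord
import Vale.Agent.P179.H526.XDefs
import Vale.Agent.P179.H905.Coset

/-!
# (N4) the number of simple modules in `B` is at most the number of `p`-rational characters in `B`
-/

namespace P179P

open P179H524 P179C P179A Finset

open P179X (IrrB Srat SameSec pp X4)

section PP

variable {p : ℕ} [hp : Fact p.Prime] {G : Type*} [Group G] [Finite G]

omit [Finite G] in
theorem pow_eq_of_modEq_of_dvd {x : G} {m : ℕ} (hm1 : m ≡ 1 [MOD ordCompl[p] (Nat.card G)])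
    (hx : ¬ p ∣ orderOf x) : x ^ m = x := by
  have h1 : orderOf x ∣ ordCompl[p] (Nat.card G) := by
    have h2 : orderOf x ∣ Nat.card G := orderOf_dvd_natCard x
    rw [← Nat.ordProj_mul_ordCompl_eq_self (Nat.card G) p] at h2
    refine Nat.Coprime.dvd_of_dvd_mul_left ?_ h2
    exact Nat.Coprime.pow_right _ ((Nat.Prime.coprime_iff_not_dvd hp.out).2 hx).symm
  conv_rhs => rw [← pow_one x]
  exact pow_eq_pow_iff_modEq.2 (hm1.of_dvd h1)

/-- the `p`-part is a `p`-element -/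
theorem pp_pow_eq_one (x : G) : ∃ n : ℕ, pp p x ^ p ^ n = 1 := by
  obtain ⟨v, h1, h2, h3, -⟩ := P179C905.pr_decomp p x
  have : pp p x = v := by
    unfold pp
    rw [mul_inv_eq_iff_eq_mul, ← h2, h1]
  rw [this]; exact h3

theorem pr_regular' (x : G) : ¬ p ∣ orderOf (pr p x) := by
  obtain ⟨v, -, -, -, h⟩ := P179C905.pr_decomp p x
  exact h

omit hp [Finite G] in
theorem pp_mul_pr (x : G) : pp p x * pr p x = x := by
  unfold pp; group

omit hp [Finite G] in
theorem pp_comm (x : G) : pp p x * pr p x = pr p x * pp p x := by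
  have hc : Commute x (pr p x) := (Commute.refl x).pow_right _
  unfold pp
  rw [inv_mul_cancel_right, ← mul_assoc, ← hc.eq, mul_assoc, mul_inv_cancel, mul_one]

/-- characterisation of the `p`-part -/
theorem pp_eq {a b : G} (hab : a * b = b * a) (ha : ∃ n : ℕ, a ^ p ^ n = 1)
    (hb : ¬ p ∣ orderOf b) : pp p (a * b) = a := by
  unfold pp
  rw [hab, P179C905.pr_mul p hab.symm (orderOf_pos b).ne' hb ha, ← hab, mul_inv_cancel_right]

theorem pp_eq_one_iff (x : G) : pp p x = 1 ↔ ¬ p ∣ orderOf x := by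
  constructor
  · intro h
    have h1 := pp_mul_pr (p := p) x
    rw [h, one_mul] at h1
    rw [← h1]
    exact pr_regular' x
  · intro h
    have := pp_eq (p := p) (a := 1) (b := x) (by simp) ⟨0, by simp⟩ h
    rwa [one_mul] at this

theorem pp_conj (g x : G) : pp p (g * x * g⁻¹) = g * pp p x * g⁻¹ := by
  obtain ⟨n, hn⟩ := pp_pow_eq_one (p := p) x
  have h1 : g * x * g⁻¹ = (g * pp p x * g⁻¹) * (g * pr p x * g⁻¹) := by
    conv_lhs => rw [← pp_mul_pr (p := p) x]
    group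
  rw [h1]
  refine pp_eq ?_ ⟨n, ?_⟩ ?_
  · have := pp_comm (p := p) x
    calc g * pp p x * g⁻¹ * (g * pr p x * g⁻¹) = g * (pp p x * pr p x) * g⁻¹ := by group
      _ = g * (pr p x * pp p x) * g⁻¹ := by rw [this]
      _ = _ := by group
  · rw [conj_pow, hn]; simp
  · have := MulEquiv.orderOf_eq (MulAut.conj g) (pr p x)
    rw [MulAut.conj_apply] at this
    rw [this]
    exact pr_regular' x

theorem pp_pow (x : G) (m : ℕ) : pp p (x ^ m) = pp p x ^ m := by
  obtain ⟨n, hn⟩ := pp_pow_eq_one (p := p) x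
  have hc : Commute (pp p x) (pr p x) := pp_comm x
  conv_lhs => rw [← pp_mul_pr (p := p) x, hc.mul_pow]
  refine pp_eq (hc.pow_pow m m).eq ⟨n, ?_⟩ ?_
  · rw [← pow_mul, mul_comm, pow_mul, hn, one_pow]
  · exact fun h => pr_regular' x (h.trans (orderOf_pow_dvd m))

end PP

variable {p : ℕ} [hp : Fact p.Prime] {k : Type*} [Field k] {red : integralClosure ℤ ℂ →+* k}
  {G : Type} [Group G] [Finite G]

theorem isIrr_of_mem_IrrB {B : MonoidAlgebra k G} {χ : G → ℂ} (h : χ ∈ IrrB red B) :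
    IsIrrChar χ := by
  classical
  unfold P179X.IrrB at h
  exact P179X.mem_Irr.1 (mem_filter.1 h).1

theorem isIrr_of_mem_IrrB' {G : Type*} [Group G] [Finite G] {B : MonoidAlgebra k G} {χ : G → ℂ}
    (h : χ ∈ IrrB red B) : IsIrrChar χ := by
  classical
  unfold P179X.IrrB at h
  exact P179X.mem_Irr.1 (mem_filter.1 h).1

/-- **(N4)** -/
theorem N4 {G : Type} [Group G] [Fintype G] {B : MonoidAlgebra k G} (m : ℕ) (hm1 : m ≡ 1 [MOD ordCompl[p] (Nat.card G)])
    (h1 : ∀ χ ∈ IrrB red B, (fun g => χ (g ^ m)) ∈ IrrB red B)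
    (h2 : ∀ x y : G, ¬ SameSec p x y → ∑ χ ∈ IrrB red B, χ x * χ y⁻¹ = 0)
    (h3 : X4 p red B)
    (hfus : ∀ u : G, u ≠ 1 → (∃ n : ℕ, u ^ p ^ n = 1) → ¬ IsConj u (u ^ m)) :
    numSimpleIn B ≤ (Srat red m B).card := by
  classical
  have hG : (Fintype.card G : ℂ) ≠ 0 := by exact_mod_cast Fintype.card_ne_zero
  obtain ⟨r, hr, hr2⟩ := h3
  suffices h : r = (Srat red m B).card by rw [← h]; exact hr
  have e1 : ∑ χ ∈ IrrB red B, ∑ g : G, χ (g ^ m) * χ g⁻¹ =
      ((Srat red m B).card : ℂ) * Fintype.card G := by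
    have e2 : ∀ χ ∈ IrrB red B, ∑ g : G, χ (g ^ m) * χ g⁻¹ =
        if (∀ g, χ (g ^ m) = χ g) then (Fintype.card G : ℂ) else 0 := by
      intro χ hχ
      have e3 := irrChar_inner (isIrr_of_mem_IrrB (h1 χ hχ)) (isIrr_of_mem_IrrB hχ)
      beta_reduce at e3
      rw [e3]
      by_cases h : ∀ g, χ (g ^ m) = χ g
      · rw [if_pos h, if_pos (funext h)]
      · rw [if_neg h, if_neg (fun h' => h (congrFun h'))]
    have e0 : Srat red m B = (IrrB red B).filter (fun χ => ∀ g, χ (g ^ m) = χ g) := by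
      ext χ
      simp only [P179X.Srat, mem_filter]
    rw [Finset.sum_congr rfl e2, ← Finset.sum_filter, Finset.sum_const, nsmul_eq_mul, e0]
  rw [Finset.sum_comm] at e1
  have e4 : ∑ g : G, ∑ χ ∈ IrrB red B, χ (g ^ m) * χ g⁻¹ =
      ∑ g ∈ univ.filter (fun g : G => ¬ p ∣ orderOf g), ∑ χ ∈ IrrB red B, χ g * χ g⁻¹ := by
    rw [Finset.sum_filter]
    refine Finset.sum_congr rfl fun g _ => ?_
    split_ifs with hg
    · refine h2 _ _ fun hs => ?_
      unfold SameSec at hs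
      rw [pp_pow] at hs
      refine hfus (pp p g) (fun h => ?_) (pp_pow_eq_one g) hs.symm
      exact ((pp_eq_one_iff g).1 h) hg
    · rw [pow_eq_of_modEq_of_dvd hm1 hg]
  rw [e4] at e1
  have e5 : (r : ℂ) * Nat.card G = ((Srat red m B).card : ℂ) * Fintype.card G := by
    rw [hr2, ← e1]
  rw [Nat.card_eq_fintype_card] at e5
  exact_mod_cast mul_right_cancel₀ hG e5

end P179P
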