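import Mathlib

/-!
# Proper subgroups of an abelian `p`-group lie in the kernel of a nonzero map to `ZMod p`
-/

namespace P179I

open Subgroup

open scoped IsMulCommutative

theorem exists_hom_Q0 {p : ℕ} [hp : Fact p.Prime] {Q : Type*} [AddCommGroup Q]
    [Module (ZMod p) Q] {x : Q} (hx : x ≠ 0) : ∃ g : Q →+ ZMod p, g x ≠ 0 := by
  by_contra hcon
  push Not at hcon
  exact hx ((Module.forall_dual_apply_eq_zero_iff (ZMod p) x).1 fun g => hcon g.toAddMonoidHom)

theorem exists_hom_Q {p : ℕ} [hp : Fact p.Prime] {Q : Type*} [AddCommGroup Q]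
    (hQ : ∀ x : Q, p • x = 0) {x : Q} (hx : x ≠ 0) : ∃ g : Q →+ ZMod p, g x ≠ 0 := by
  have : Module (ZMod p) Q := AddCommGroup.zmodModule hQ
  exact exists_hom_Q0 hx

theorem exists_hom_of_ne_top {p : ℕ} [hp : Fact p.Prime] {A : Type*} [AddCommGroup A] [Finite A]
    (hA : ∃ n : ℕ, ∀ x : A, p ^ n • x = 0) (K : AddSubgroup A) (hK : K ≠ ⊤) :
    ∃ f : A →+ ZMod p, f ≠ 0 ∧ ∀ x ∈ K, f x = 0 := by
  obtain ⟨n, hn⟩ := hA
  set P : AddSubgroup A := (nsmulAddMonoidHom p : A →+ A).range with hP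
  set S : AddSubgroup A := K ⊔ P with hS
  have hS1 : S ≠ ⊤ := by
    intro htop
    apply hK
    -- `A = K + p^j A` for all `j`
    have h1 : ∀ j : ℕ, ∀ x : A, ∃ y ∈ K, ∃ z : A, x = y + p ^ j • z := by
      intro j
      induction j with
      | zero => intro x; exact ⟨0, K.zero_mem, x, by simp⟩
      | succ j ih =>
        intro x
        obtain ⟨y, hy, z, hz⟩ := ih x
        have h2 : z ∈ S := by rw [htop]; trivial
        rw [hS, AddSubgroup.mem_sup] at h2
        obtain ⟨y', hy', z', ⟨w, rfl⟩, h3⟩ := h2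
        refine ⟨y + p ^ j • y', K.add_mem hy (K.nsmul_mem hy' _), w, ?_⟩
        rw [hz, ← h3, pow_succ, mul_smul, smul_add, ← add_assoc]
        rfl
    rw [eq_top_iff]
    intro x _
    obtain ⟨y, hy, z, hz⟩ := h1 n x
    rw [hz, hn, add_zero]
    exact hy
  let Q := A ⧸ S
  have hQ : ∀ x : Q, p • x = 0 := by
    intro x
    obtain ⟨y, rfl⟩ := QuotientAddGroup.mk_surjective x
    rw [← QuotientAddGroup.mk_nsmul, QuotientAddGroup.eq_zero_iff]
    exact le_sup_right (a := K) (⟨y, rfl⟩ : p • y ∈ P)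
  obtain ⟨x, hx⟩ : ∃ x : A, x ∉ S := by
    by_contra hcon
    push Not at hcon
    exact hS1 (eq_top_iff.2 fun x _ => hcon x)
  have hx' : (QuotientAddGroup.mk x : Q) ≠ 0 := by
    rw [Ne, QuotientAddGroup.eq_zero_iff]
    exact hx
  obtain ⟨g, hg⟩ := exists_hom_Q hQ hx'
  refine ⟨g.comp (QuotientAddGroup.mk' S), ?_, ?_⟩
  · intro h0
    apply hg
    exact DFunLike.congr_fun h0 x
  · intro y hy
    have h1 : (QuotientAddGroup.mk' S) y = 0 := by
      rw [QuotientAddGroup.mk'_apply, QuotientAddGroup.eq_zero_iff]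
      exact le_sup_left (b := P) hy
    rw [AddMonoidHom.comp_apply, h1, map_zero]

/-- the multiplicative form -/
theorem exists_hom_of_lt {p : ℕ} [hp : Fact p.Prime] {G : Type*} [Group G] [Finite G]
    {D : Subgroup G} [IsMulCommutative D] (hD : IsPGroup p D) {K : Subgroup G} (hK : ¬ D ≤ K) :
    ∃ f : Additive D →+ ZMod p, f ≠ 0 ∧ ∀ b : Additive D, ((b.toMul : D) : G) ∈ K → f b = 0 := by
  have h1 : ∃ n : ℕ, ∀ x : Additive D, p ^ n • x = 0 := by
    obtain ⟨n, hn⟩ := (IsPGroup.iff_card (p := p)).1 hD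
    refine ⟨n, fun x => ?_⟩
    rw [← hn]
    have h2 : Nat.card D = Nat.card (Additive D) := rfl
    rw [h2]
    exact card_nsmul_eq_zero'
  obtain ⟨f, hf, hf2⟩ := exists_hom_of_ne_top (p := p) (A := Additive D) h1
    (Subgroup.toAddSubgroup (K.subgroupOf D)) (by
    intro htop
    apply hK
    intro x hx
    have h2 : Additive.ofMul (⟨x, hx⟩ : D) ∈ Subgroup.toAddSubgroup (K.subgroupOf D) := by
      rw [htop]; trivial
    exact h2)
  exact ⟨f, hf, fun b hb => hf2 b hb⟩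

end P179I
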