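import Vale.Agent.P179.H905.Step1C

/-!
# Theorem C, Step 1: assembly
-/

namespace P179C

open Subgroup P179H524 P179A P179K

open scoped Classical Pointwise

/-- The alternating sum of the traces on the stabilisers of the chains. -/
noncomputable def FF (p : ℕ) {G : Type*} [Group G] [Finite G] (z : G → ℤ) : ℤ :=
  ∑ s ∈ chains p G, (-1) ^ s.card * nTr (res (stab s) z)

/-- The sum of `W` over the pairs with commutator `g`. -/
noncomputable def SS (p : ℕ) {G : Type*} [Group G] [Finite G] [Fintype G] (g : G) : ℤ :=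
  ∑ t ∈ (Finset.univ : Finset (G × G)).filter (fun t => t.1 * t.2 * t.1⁻¹ * t.2⁻¹ = g),
    W p t.1 t.2

section

variable {p : ℕ} {G : Type*} [Group G] [Finite G]

theorem nTr_res [Fintype G] (H : Subgroup G) (z : G → ℤ) :
    nTr (res H z) = ∑ t : G × G, if t.1 ∈ H ∧ t.2 ∈ H then z (t.1 * t.2 * t.1⁻¹ * t.2⁻¹) else 0 := by
  have := Fintype.ofFinite H
  unfold nTr
  rw [finsum_eq_sum_of_fintype, ← Finset.sum_filter]
  refine Finset.sum_bij (fun t _ => ((t.1 : G), (t.2 : G))) ?_ ?_ ?_ ?_
  · intro t _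
    rw [Finset.mem_filter]
    exact ⟨Finset.mem_univ _, t.1.2, t.2.2⟩
  · intro t _ t' _ h
    have h' := Prod.ext_iff.mp h
    exact Prod.ext (Subtype.ext h'.1) (Subtype.ext h'.2)
  · intro t ht
    rw [Finset.mem_filter] at ht
    exact ⟨(⟨t.1, ht.2.1⟩, ⟨t.2, ht.2.2⟩), Finset.mem_univ _, rfl⟩
  · intro t _
    rfl

theorem FF_eq [Fintype G] (z : G → ℤ) :
    FF p z = ∑ t : G × G, z (t.1 * t.2 * t.1⁻¹ * t.2⁻¹) * W p t.1 t.2 := by
  unfold FF
  have h1 : ∀ s ∈ chains p G, (-1 : ℤ) ^ s.card * nTr (res (stab s) z) =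
      ∑ t : G × G, z (t.1 * t.2 * t.1⁻¹ * t.2⁻¹) *
        (if t.1 ∈ stab s ∧ t.2 ∈ stab s then (-1 : ℤ) ^ s.card else 0) := by
    intro s _
    rw [nTr_res, Finset.mul_sum]
    refine Finset.sum_congr rfl fun t _ => ?_
    split_ifs <;> ring
  rw [Finset.sum_congr rfl h1, Finset.sum_comm]
  refine Finset.sum_congr rfl fun t _ => ?_
  rw [← Finset.mul_sum]
  congr 1
  unfold W
  rw [Finset.sum_filter]

theorem FF_eq_SS [Fintype G] (z : G → ℤ) : FF p z = ∑ g : G, z g * SS p g := by
  rw [FF_eq]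
  unfold SS
  have h1 : ∀ g : G, z g * ∑ t ∈ (Finset.univ : Finset (G × G)).filter
      (fun t => t.1 * t.2 * t.1⁻¹ * t.2⁻¹ = g), W p t.1 t.2 =
      ∑ t : G × G, if t.1 * t.2 * t.1⁻¹ * t.2⁻¹ = g then
        z (t.1 * t.2 * t.1⁻¹ * t.2⁻¹) * W p t.1 t.2 else 0 := by
    intro g
    rw [Finset.mul_sum, Finset.sum_filter]
    refine Finset.sum_congr rfl fun t _ => ?_
    split_ifs with h
    · rw [h]
    · rfl
  rw [Finset.sum_congr rfl fun g _ => h1 g, Finset.sum_comm]
  refine Finset.sum_congr rfl fun t _ => ?_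
  rw [Finset.sum_ite_eq]
  simp

theorem FF_sub (z w : G → ℤ) : FF p (fun g => z g - w g) = FF p z - FF p w := by
  have := Fintype.ofFinite G
  rw [FF_eq, FF_eq, FF_eq, ← Finset.sum_sub_distrib]
  exact Finset.sum_congr rfl fun t _ => by ring

theorem SS_conj [Fintype G] (g x : G) : SS p (g * x * g⁻¹) = SS p x := by
  unfold SS
  symm
  refine Finset.sum_bij (fun t _ => (g * t.1 * g⁻¹, g * t.2 * g⁻¹)) ?_ ?_ ?_ ?_
  · intro t ht
    rw [Finset.mem_filter] at ht ⊢
    refine ⟨Finset.mem_univ _, ?_⟩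
    rw [← ht.2]
    group
  · intro t _ t' _ h
    have h3 := Prod.ext_iff.mp h
    refine Prod.ext ?_ ?_
    · have := h3.1
      simpa using this
    · have := h3.2
      simpa using this
  · intro t ht
    rw [Finset.mem_filter] at ht
    refine ⟨(g⁻¹ * t.1 * g, g⁻¹ * t.2 * g), ?_, ?_⟩
    · rw [Finset.mem_filter]
      refine ⟨Finset.mem_univ _, ?_⟩
      have h4 : x = g⁻¹ * (t.1 * t.2 * t.1⁻¹ * t.2⁻¹) * g := by rw [ht.2]; group
      rw [h4]
      group
    · refine Prod.ext ?_ ?_
      · change g * (g⁻¹ * t.1 * g) * g⁻¹ = t.1; group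
      · change g * (g⁻¹ * t.2 * g) * g⁻¹ = t.2; group
  · intro t _
    exact (W_conj p g t.1 t.2).symm

/-- the orbits on chains -/
theorem FF_dvd_aux (z : G → ℤ) (hz : IsCF z) (m : ℕ)
    (h : ∀ s : Finset (Subgroup G), IsPChain p s → s.Nonempty →
      ((Nat.card (stab s) * m : ℕ) : ℤ) ∣ nTr (res (stab s) z)) :
    ((Nat.card G * m : ℕ) : ℤ) ∣ FF p z - nTr z := by
  have := Fintype.ofFinite (neChains p G)
  have e' : ∃ e : G ≃* stab (∅ : Finset (Subgroup G)), ∀ x, (e x : G) = x := by
    rw [P179A.stab_empty]; exact ⟨topEquiv.symm, fun _ => rfl⟩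
  obtain ⟨e, he⟩ := e'
  have h4 : (fun x => res (stab (∅ : Finset (Subgroup G))) z (e x)) = z := by
    ext x
    exact congrArg z (he x)
  have h5 : nTr (res (stab (∅ : Finset (Subgroup G))) z) = nTr z := by
    rw [← nTr_comp e, h4]
  unfold FF
  rw [sum_chains_eq, Finset.card_empty, pow_zero, one_mul, h5, add_sub_cancel_left]
  refine dvd_orbits (Γ := G) (fun s : neChains p G => (-1) ^ s.1.card * nTr (res (stab s.1) z))
    ?_ _ ?_
  · intro g s
    have key : ∀ t : Finset (Subgroup G), (-1 : ℤ) ^ (g • t).card * nTr (res (stab (g • t)) z) =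
        (-1 : ℤ) ^ t.card * nTr (res (stab t) z) := by
      intro t
      rw [card_smul, ← nTr_comp (stabEquiv g t), res_stab_smul hz g t]
    exact key s.1
  · intro s
    have h3 : Nat.card (MulAction.orbit G s) * Nat.card (MulAction.stabilizer G s) =
        Nat.card G := by
      have := Fintype.ofFinite G
      have := Fintype.ofFinite (MulAction.orbit G s)
      have := Fintype.ofFinite (MulAction.stabilizer G s)
      have h := MulAction.card_orbit_mul_card_stabilizer_eq_card_group G s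
      rw [← Nat.card_eq_fintype_card, ← Nat.card_eq_fintype_card, ← Nat.card_eq_fintype_card] at h
      exact h
    rw [← h3, stabilizer_neChains, mul_assoc]
    push_cast
    refine mul_dvd_mul_left _ (Dvd.dvd.mul_left ?_ _)
    have := h s.1 s.2.1 s.2.2
    push_cast at this
    exact this

/-- `|G|` divides the alternating sum. -/
theorem card_dvd_FF (z : G → ℤ) (hz : IsCF z) : (Nat.card G : ℤ) ∣ FF p z := by
  have h1 := FF_dvd_aux (p := p) z hz 1 (fun s _ _ => by
    rw [mul_one]; exact card_dvd_nTr _ (isCF_res _ hz))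
  rw [mul_one] at h1
  have := dvd_add h1 (card_dvd_nTr z hz)
  rwa [sub_add_cancel] at this

theorem card_orbit_conj (g : G) : Nat.card (MulAction.orbit (ConjAct G) g) *
    Nat.card (centralizer ({g} : Set G)) = Nat.card G := by
  have h3 : Nat.card (MulAction.orbit (ConjAct G) g) * Nat.card (MulAction.stabilizer
      (ConjAct G) g) = Nat.card (ConjAct G) := by
    have : Finite (ConjAct G) := inferInstanceAs (Finite G)
    have := Fintype.ofFinite (ConjAct G)
    have := Fintype.ofFinite (MulAction.orbit (ConjAct G) g)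
    have := Fintype.ofFinite (MulAction.stabilizer (ConjAct G) g)
    have h := MulAction.card_orbit_mul_card_stabilizer_eq_card_group (ConjAct G) g
    rw [← Nat.card_eq_fintype_card, ← Nat.card_eq_fintype_card, ← Nat.card_eq_fintype_card] at h
    exact h
  have h4 : Nat.card (MulAction.stabilizer (ConjAct G) g) =
      Nat.card (centralizer ({g} : Set G)) := by
    refine Nat.card_congr ?_
    refine (ConjAct.ofConjAct (G := G)).toEquiv.subtypeEquiv fun c => ?_
    rw [MulAction.mem_stabilizer_iff, ConjAct.smul_def, mul_inv_eq_iff_eq_mul,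
      mem_centralizer_singleton_iff]
    rfl
  rw [h4] at h3
  exact h3

/-- `|G|` divides `|cl(g)| * SS g`. -/
theorem card_dvd_SS [Fintype G] (g : G) :
    (Nat.card G : ℤ) ∣ (Nat.card (MulAction.orbit (ConjAct G) g) : ℤ) * SS p g := by
  have h1 := card_dvd_FF (p := p) (fun x : G => if x ∈ MulAction.orbit (ConjAct G) g then 1 else 0)
    (by
      intro h x
      have : h * x * h⁻¹ ∈ MulAction.orbit (ConjAct G) g ↔ x ∈ MulAction.orbit (ConjAct G) g := by
        rw [← ConjAct.toConjAct_smul]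
        constructor
        · rintro ⟨c, hc⟩
          refine ⟨(ConjAct.toConjAct h)⁻¹ * c, ?_⟩
          change ((ConjAct.toConjAct h)⁻¹ * c) • g = x
          rw [mul_smul, inv_smul_eq_iff]
          exact hc
        · rintro ⟨c, hc⟩
          refine ⟨ConjAct.toConjAct h * c, ?_⟩
          change (ConjAct.toConjAct h * c) • g = ConjAct.toConjAct h • x
          rw [mul_smul]
          exact congrArg _ hc
      simp only [this])
  rw [FF_eq_SS] at h1
  have h2 : ∑ x : G, (if x ∈ MulAction.orbit (ConjAct G) g then (1 : ℤ) else 0) * SS p x =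
      (Nat.card (MulAction.orbit (ConjAct G) g) : ℤ) * SS p g := by
    simp only [ite_mul, one_mul, zero_mul]
    rw [← Finset.sum_filter, Finset.sum_congr rfl (g := fun _ => SS p g)]
    · rw [Finset.sum_const, nsmul_eq_mul]
      congr 2
      rw [Nat.card_eq_fintype_card, ← Set.toFinset_card]
      congr 1
      ext y
      simp
    · intro x hx
      rw [Finset.mem_filter] at hx
      obtain ⟨h, rfl⟩ := hx.2
      obtain ⟨h, rfl⟩ := ConjAct.toConjAct.surjective h
      change SS p (ConjAct.toConjAct h • g) = _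
      rw [ConjAct.toConjAct_smul, SS_conj]
  rwa [h2] at h1

end

end P179C
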