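import Vale.Agent.P179.H905.ThmN7
import Vale.Agent.P179.H143.Transp

/-!
# Theorem N
-/

namespace P179N

open Subgroup Finset P179H524 P179C P179A P179P P179Y

open scoped Classical

section ThmN

variable {k : Type*} [Field k] [IsAlgClosed k] {p : ℕ} [hp : Fact p.Prime] [CharP k p]
  (red : AA →+* k)

/-- the nonvanishing of the generalised decomposition numbers (a consequence of (CONG)) -/
def NVT (p : ℕ) (red : AA →+* k) {G : Type} [Group G] [Fintype G] (D : Subgroup G)
    (l : (G → k) → k) : Prop :=
  ∀ u ∈ D, ∀ φ, ND red p (lres (centralizer {u}) l) (Nat.card D) φ →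
    ∀ χ : Irr G, InL red l χ.1 → dn p (centralizer {u}) (Nat.card D) φ u χ.1 ≠ 0

omit [IsAlgClosed k] [CharP k p] hp in
theorem card_subgroupOf {G : Type} [Group G] {D H : Subgroup G} (h : D ≤ H) :
    Nat.card (D.subgroupOf H) = Nat.card D :=
  Nat.card_congr (Subgroup.subgroupOfEquivOfLe h).toEquiv

/-- Theorem N for a class of Brauer pairs stable under restriction to the centralizers of the
elements of `D` -/
theorem thmN_aux (Cl : ∀ (G : Type) [Group G] [Fintype G] (D : Subgroup G), ((G → k) → k) → Prop)
    (hstab : ∀ (G : Type) [Group G] [Fintype G] (D : Subgroup G) (l : (G → k) → k),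
      Cl G D l → BP p D l → IsPGroup p D → D ≤ centralizer (D : Set G) →
      stabT D l ≤ centralizer (D : Set G))
    (hnv : ∀ (G : Type) [Group G] [Fintype G] (D : Subgroup G) (l : (G → k) → k),
      Cl G D l → BP p D l → IsPGroup p D → D ≤ centralizer (D : Set G) → NVT p red D l)
    (hres : ∀ (G : Type) [Group G] [Fintype G] (D : Subgroup G) (l : (G → k) → k),
      Cl G D l → BP p D l → IsPGroup p D → D ≤ centralizer (D : Set G) → ∀ u ∈ D,
      Cl (centralizer {u} : Subgroup G) (D.subgroupOf (centralizer {u}))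
        (lres (centralizer {u}) l)) (n : ℕ) : ∀ (G : Type) [Group G] [Fintype G]
    (D : Subgroup G) (l : (G → k) → k), Nat.card G = n → Cl G D l → BP p D l → IsPGroup p D →
    D ≤ centralizer (D : Set G) → ∃ φ, ND red p l (Nat.card D) φ := by
  induction n using Nat.strong_induction_on with
  | _ n ih =>
  intro G _ _ D l hn hCl hl hD hab
  by_cases hnc : ∃ u ∈ D, u ∉ center G
  · refine thmN_step red hl hD hab (hstab G D l hCl hl hD hab) hnc (fun u hu huc => ?_)
      (fun u hu _ φ hφ χ hχ => hnv G D l hCl hl hD hab u hu φ hφ χ hχ)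
    have hDH : D ≤ centralizer {u} := le_cent_of_mem hu hab
    have hCH : centralizer (D : Set G) ≤ centralizer {u} := cent_le_of_mem hu
    have hlt : Nat.card (centralizer {u} : Subgroup G) < n := by
      rw [← hn]
      refine lt_of_le_of_ne (Subgroup.card_le_card_group _) fun h => huc ?_
      have h1 := Subgroup.eq_top_of_card_eq _ h
      rw [Subgroup.mem_center_iff]
      intro x
      exact mem_centralizer_singleton_iff.1 (h1 ▸ mem_top x)
    have h1 := ih _ hlt (centralizer {u} : Subgroup G) (D.subgroupOf (centralizer {u}))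
      (lres (centralizer {u}) l) rfl (hres G D l hCl hl hD hab u hu) (hl.restrict hDH hCH)
      hD.comap_subtype
      (fun x hx => (mem_cent_subgroupOf hDH x).2 (hab (Subgroup.mem_subgroupOf.1 hx)))
    rw [card_subgroupOf hDH] at h1
    exact h1
  · push Not at hnc
    exact thmN_central red hl hD fun d hd x => (Subgroup.mem_center_iff.1 (hnc d hd)) x

/-- **Theorem N.** Blocks with abelian defect group `D` and `N_G(D) = C_G(D)` are nilpotent. -/
theorem thmN : P179Y.ThmN p red := fun G _ _ D l hl hD hab hN => by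
  refine thmN_aux red (fun G _ _ D _ => normalizer (D : Set G) ≤ centralizer (D : Set G))
    ?_ ?_ ?_ _ G D l rfl hN hl hD hab
  · intro G _ _ D l hN _ _ _
    exact (stabT_le_norm D l).trans hN
  · intro G _ _ D l hN hl hD hab u hu φ hφ χ hχ
    obtain ⟨a, b, -, hb, hab'⟩ := hφ.unit
    have h1 : (centralizer (D : Set G)).relIndex (stabT D l) = 1 := by
      rw [relIndex_eq_one]
      exact (stabT_le_norm D l).trans hN
    have h2 := K5P_of p red hl hD hab (u := u) ⟨hu, fun n hn _ => hN hn⟩
    rw [h1, Nat.cast_one] at h2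
    exact dn_ne_zero p red (centralizer {u}) Nat.card_pos.ne' hφ hb hab' u (fun x => mem_cs)
      hl.smul one_ne_zero h2 χ hχ
  · intro G _ _ D l hN _ _ hab u hu
    have hDH : D ≤ centralizer {u} := le_cent_of_mem hu hab
    exact fun x hx => (mem_cent_subgroupOf hDH x).2 (hN ((mem_norm_subgroupOf hDH x).1 hx))

/-- **Theorem N**, inertial form: from (K5) for the elements which are regular for the inertial
group. -/
theorem thmN_stab (hK5 : ∀ (G : Type) [Group G] [Fintype G] (D : Subgroup G) (l : (G → k) → k),
      BP p D l → IsPGroup p D → D ≤ centralizer (D : Set G) →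
      stabT D l ≤ centralizer (D : Set G) → ∀ u ∈ D, K5P red (centralizer {u}) l u 1)
    {G : Type} [Group G] [Fintype G] {D : Subgroup G} {l : (G → k) → k} (hl : BP p D l)
    (hD : IsPGroup p D) (hab : D ≤ centralizer (D : Set G))
    (hT : stabT D l ≤ centralizer (D : Set G)) : ∃ φ, ND red p l (Nat.card D) φ := by
  refine thmN_aux red (fun G _ _ D l => stabT D l ≤ centralizer (D : Set G))
    ?_ ?_ ?_ _ G D l rfl hT hl hD hab
  · intro G _ _ D l hT _ _ _
    exact hT
  · intro G _ _ D l hT hl hD hab u hu φ hφ χ hχ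
    obtain ⟨a, b, -, hb, hab'⟩ := hφ.unit
    exact dn_ne_zero p red (centralizer {u}) Nat.card_pos.ne' hφ hb hab' u (fun x => mem_cs)
      hl.smul one_ne_zero (hK5 G D l hl hD hab hT u hu) χ hχ
  · intro G _ _ D l hT _ _ hab u hu
    have hDH : D ≤ centralizer {u} := le_cent_of_mem hu hab
    have hCH : centralizer (D : Set G) ≤ centralizer {u} := cent_le_of_mem hu
    intro x hx
    rw [mem_stabT_lres hDH hCH] at hx
    exact (mem_cent_subgroupOf hDH x).2 (hT hx)

end ThmN

end P179N
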