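import Vale.Agent.P179.H905.I19

/-!
# (COH) the integral vectors
-/

namespace P179I

open Finset P179P P179C P179Y Subgroup P179H524

open scoped Classical IsMulCommutative

universe v

set_option linter.unusedSectionVars false

section

variable {p : ℕ} [hp : Fact p.Prime] {k : Type v} [Field k] [CharP k p] {red : AA →+* k}
  {G : Type} [Group G] [Fintype G] {D : Subgroup G} {l : (G → k) → k}
  {Φ : ∀ H : Subgroup G, Irr H} {aH bH : Subgroup G → ℕ} {ε : Subgroup G → ℤ} {κ₀ : k}

theorem Loc.Ad_eq_zero (h : Loc p red D l Φ aH bH ε κ₀) (hl : BP p D l) (hD : IsPGroup p D)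
    {u : G} (hu : u ∈ D) (hu1 : u ≠ 1) (χ : Irr G) (hχ : ¬ InL red l χ.1) :
    Ad p D Φ ε u χ = 0 := by
  obtain ⟨n, hn⟩ := hD ⟨u, hu⟩
  apply Subtype.ext
  unfold Ad
  push_cast
  rw [h.dn_coe hu hu1, dn_eq_zero p red (centralizer {u}) (hl.lres_coe (cent_le_of_mem hu))
    (h.nd u hu hu1) u ⟨n, by simpa using congrArg Subtype.val hn⟩ (mem_cz u) χ hχ, mul_zero]

include hp in
theorem Loc.Ad_ne_zero [IsAlgClosed k] (h : Loc p red D l Φ aH bH ε κ₀) (hl : BP p D l)
    (hD : IsPGroup p D) (hab : D ≤ centralizer (D : Set G))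
    (hreg : ∀ u ∈ D, u ≠ 1 → RegT D l u)
    (he : ((centralizer (D : Set G)).relIndex (stabT D l) : k) ≠ 0)
    {u : G} (hu : u ∈ D) (hu1 : u ≠ 1) (χ : Irr G) (hχ : InL red l χ.1) :
    Ad p D Φ ε u χ ≠ 0 := by
  have h1 := dn_ne_zero p red (centralizer {u}) Nat.card_pos.ne' (h.nd u hu hu1) (h.hb u hu hu1)
    (h.unit u hu hu1) u (mem_cz u) hl.smul he (K5P_ofT p red hl hD hab (hreg u hu hu1)) χ hχ
  intro h0
  apply h1
  rw [← h.dn_coe hu hu1]
  have h2 := congrArg (fun x : AA => (x : ℂ)) h0
  unfold Ad at h2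
  push_cast at h2
  rcases mul_eq_zero.1 h2 with h3 | h3
  · exfalso
    have h4 : ε (centralizer {u}) = 0 := by exact_mod_cast h3
    rcases h.sgn u hu hu1 with h5 | h5 <;> rw [h5] at h4 <;> norm_num at h4
  · exact h3

variable [IsMulCommutative D]

/-- invariance under the inertial group -/
theorem Loc.V_actC (h : Loc p red D l Φ aH bH ε κ₀) (hl : BP p D l)
    (V : AddChar (Additive D) ℂ → Irr G → ℤ)
    (hV : ∀ ψ χ, ∑ b : Additive D, (if b = 0 then 0 else (lamA ψ b - 1) *
      Ad p D Φ ε (b.toMul : G) χ) = (Nat.card D : AA) * V ψ χ) (t : stabT D l)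
    (ψ : AddChar (Additive D) ℂ) (χ : Irr G) : V (actC t ψ) χ = V ψ χ := by
  have hq : (Nat.card D : AA) ≠ 0 := by
    intro h0
    have h1 := congrArg (fun x : AA => (x : ℂ)) h0
    push_cast at h1
    exact Nat.card_pos.ne' (by exact_mod_cast h1 : Nat.card D = 0)
  have key : (V (actC t ψ) χ : AA) = V ψ χ := by
    apply mul_left_cancel₀ hq
    rw [← hV, ← hV]
    -- reindex
    let σ : Additive D ≃ Additive D :=
      { toFun := fun b => Additive.ofMul (cjD t⁻¹ b.toMul)
        invFun := fun b => Additive.ofMul (cjD t b.toMul)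
        left_inv := fun b => by
          change Additive.ofMul (cjD t (cjD t⁻¹ b.toMul)) = b
          rw [← cjD_mul, mul_inv_cancel, cjD_one]
          rfl
        right_inv := fun b => by
          change Additive.ofMul (cjD t⁻¹ (cjD t b.toMul)) = b
          rw [← cjD_mul, inv_mul_cancel, cjD_one]
          rfl }
    refine Fintype.sum_equiv σ _ _ fun b => ?_
    by_cases hb : b = 0
    · have h1 : σ b = 0 := by
        rw [hb]
        change Additive.ofMul (cjD t⁻¹ 1) = 0
        rw [map_one]
        rfl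
      rw [if_pos hb, if_pos h1]
    · have h1 : σ b ≠ 0 := by
        intro h0
        apply hb
        apply σ.injective
        rw [h0]
        change 0 = Additive.ofMul (cjD t⁻¹ 1)
        rw [map_one]
        rfl
      rw [if_neg hb, if_neg h1]
      have hb1 : (b.toMul : G) ≠ 1 := by
        intro h1
        apply hb
        apply Additive.toMul.injective
        exact Subtype.ext h1
      have h2 : (((σ b).toMul : D) : G) = (t : G)⁻¹ * (b.toMul : G) * (t : G)⁻¹⁻¹ := by
        change ((cjD t⁻¹ b.toMul : D) : G) = _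
        rw [cjD_coe]
        push_cast
        rfl
      rw [h2, h.ad_conj hl b.toMul.2 hb1 (inv_mem t.2) χ]
      rfl
  exact_mod_cast congrArg (fun x : AA => (x : ℂ)) key

include hp in
/-- nonvanishing -/
theorem Loc.V_ne_zero [IsAlgClosed k] (h : Loc p red D l Φ aH bH ε κ₀) (hl : BP p D l)
    (hD : IsPGroup p D) (hab : D ≤ centralizer (D : Set G))
    (hreg : ∀ u ∈ D, u ≠ 1 → RegT D l u)
    (he : ((centralizer (D : Set G)).relIndex (stabT D l) : k) ≠ 0)
    (V : AddChar (Additive D) ℂ → Irr G → ℤ)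
    (hV : ∀ ψ χ, ∑ b : Additive D, (if b = 0 then 0 else (lamA ψ b - 1) *
      Ad p D Φ ε (b.toMul : G) χ) = (Nat.card D : AA) * V ψ χ)
    (hD1 : ∃ u ∈ D, u ≠ 1) (χ : Irr G) (hχ : InL red l χ.1) :
    ∃ ψ, ψ ≠ 0 ∧ V ψ χ ≠ 0 := by
  by_contra hcon
  push Not at hcon
  obtain ⟨u, hu, hu1⟩ := hD1
  set A : Additive D → ℂ := fun b => if b = 0 then 0 else (Ad p D Φ ε (b.toMul : G) χ : ℂ) with hA
  have h0 : ∀ ψ : AddChar (Additive D) ℂ, ∑ b, ψ b * A b = ∑ b, A b := by
    intro ψ
    have h1 : (Nat.card D : AA) * V ψ χ = 0 := by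
      by_cases hψ : ψ = 0
      · rw [← hV, hψ]
        refine Finset.sum_eq_zero fun b _ => ?_
        rw [lamA_zero, sub_self, zero_mul, ite_self]
      · rw [hcon ψ hψ]; push_cast; ring
    rw [← hV] at h1
    have h2 := congrArg (fun x : AA => (x : ℂ)) h1
    push_cast at h2
    rw [← sub_eq_zero, ← Finset.sum_sub_distrib]
    refine Eq.trans (Finset.sum_congr rfl fun b _ => ?_) h2
    simp only [hA]
    by_cases hb : b = 0
    · simp only [if_pos hb, mul_zero, sub_zero]
      rfl
    · simp only [if_neg hb]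
      push_cast
      rw [lamA_coe]
      ring
  -- inversion
  set b₀ : Additive D := Additive.ofMul ⟨u, hu⟩ with hb₀
  have hb₀0 : b₀ ≠ 0 := by
    intro h1
    apply hu1
    exact congrArg (fun x : Additive D => (x.toMul : G)) h1
  have h1 : ∑ ψ : AddChar (Additive D) ℂ, ψ (-b₀) * ∑ b, ψ b * A b = Nat.card D * A b₀ := by
    simp only [Finset.mul_sum]
    rw [Finset.sum_comm]
    have h2 : ∀ b, ∑ ψ : AddChar (Additive D) ℂ, ψ (-b₀) * (ψ b * A b) =
        if b = b₀ then (Nat.card D : ℂ) * A b else 0 := by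
      intro b
      have h3 : ∀ ψ : AddChar (Additive D) ℂ, ψ (-b₀) * (ψ b * A b) = ψ (-b₀ + b) * A b := by
        intro ψ
        rw [AddChar.map_add_eq_mul]; ring
      rw [Finset.sum_congr rfl fun ψ _ => h3 ψ, ← Finset.sum_mul, AddChar.sum_apply_eq_ite]
      by_cases hb : b = b₀
      · rw [if_pos (by rw [hb, neg_add_cancel]), if_pos hb, Nat.card_eq_fintype_card,
          Fintype.card_congr (Additive.toMul (α := D))]
      · rw [if_neg (fun h4 => hb (neg_add_eq_zero.1 h4).symm), if_neg hb, zero_mul]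
    rw [Finset.sum_congr rfl fun b _ => h2 b, Finset.sum_ite_eq' univ b₀, if_pos (mem_univ _)]
  have h2 : ∑ ψ : AddChar (Additive D) ℂ, ψ (-b₀) * ∑ b, ψ b * A b = 0 := by
    rw [Finset.sum_congr rfl fun ψ _ => by rw [h0 ψ], ← Finset.sum_mul, AddChar.sum_apply_eq_ite,
      if_neg (neg_ne_zero.2 hb₀0), zero_mul]
  rw [h1] at h2
  rcases mul_eq_zero.1 h2 with h3 | h3
  · exact Nat.card_pos.ne' (by exact_mod_cast h3 : Nat.card D = 0)
  · have h4 : A b₀ = (Ad p D Φ ε u χ : ℂ) := by
      simp only [hA]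
      rw [if_neg hb₀0]
      rfl
    rw [h4] at h3
    exact h.Ad_ne_zero hl hD hab hreg he hu hu1 χ hχ (Subtype.ext h3)

/-- the Gram matrix of the integral vectors at representatives of the orbits -/
theorem Loc.gram_V (h : Loc p red D l Φ aH bH ε κ₀)
    (hl : BP p D l) (hD : IsPGroup p D) (hab : D ≤ centralizer (D : Set G))
    (hreg : ∀ u ∈ D, u ≠ 1 → RegT D l u) (V : AddChar (Additive D) ℂ → Irr G → ℤ)
    (hV : ∀ ψ χ, ∑ b : Additive D, (if b = 0 then 0 else (lamA ψ b - 1) *
      Ad p D Φ ε (b.toMul : G) χ) = (Nat.card D : AA) * V ψ χ)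
    (i j : MulAction.orbitRel.Quotient (stabT D l) (NC D)) :
    ∑ χ : Irr G, V i.out.1 χ * V j.out.1 χ =
      ((centralizer (D : Set G)).relIndex (stabT D l) : ℤ) + if i = j then 1 else 0 := by
  have hq : (Nat.card D : AA) ≠ 0 := by
    intro h0
    have h1 := congrArg (fun x : AA => (x : ℂ)) h0
    push_cast at h1
    exact Nat.card_pos.ne' (by exact_mod_cast h1 : Nat.card D = 0)
  have h1 := fourier_gram h hl hD hab hreg i.out.2 j.out.2
  simp only [hV] at h1
  have h2 : ∑ χ : Irr G, (Nat.card D : AA) * (V i.out.1 χ : AA) * ((Nat.card D : AA) * (V j.out.1 χ : AA)) =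
      (Nat.card D : AA) * Nat.card D * ∑ χ : Irr G, (V i.out.1 χ : AA) * (V j.out.1 χ : AA) := by
    rw [Finset.mul_sum]
    exact Finset.sum_congr rfl fun χ _ => by ring
  rw [h2] at h1
  have h3 := mul_left_cancel₀ (mul_ne_zero hq hq) h1
  -- the sum over the cosets
  have h4 : (∑ c : G ⧸ centralizer (D : Set G),
        (if hc : c.out ∈ stabT D l then (1 + if i.out.1 = actC ⟨c.out, hc⟩ j.out.1 then (1 : AA) else 0)
          else 0)) =
      ((centralizer (D : Set G)).relIndex (stabT D l) : AA) + if i = j then 1 else 0 := by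
    have h5 : ∀ c : G ⧸ centralizer (D : Set G),
        (if hc : c.out ∈ stabT D l then (1 + if i.out.1 = actC ⟨c.out, hc⟩ j.out.1 then (1 : AA) else 0)
          else 0) = (if c.out ∈ stabT D l then 1 else 0) +
          if c = ((1 : G) : G ⧸ centralizer (D : Set G)) then (if i = j then 1 else 0) else 0 := by
      intro c
      by_cases hc : c.out ∈ stabT D l
      · rw [dif_pos hc, if_pos hc]
        congr 1
        by_cases hij : i.out.1 = actC ⟨c.out, hc⟩ j.out.1
        · rw [if_pos hij]
          have h6 : i.out = (⟨c.out, hc⟩ : stabT D l) • j.out := Subtype.ext hij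
          have h7 : i = j := by
            rw [← Quotient.out_eq i, ← Quotient.out_eq j]
            apply Quotient.sound
            exact ⟨⟨c.out, hc⟩, h6.symm⟩
          rw [if_pos h7]
          subst h7
          have h8 : (⟨c.out, hc⟩ : stabT D l) ∈ MulAction.stabilizer (stabT D l) i.out :=
            MulAction.mem_stabilizer_iff.2 h6.symm
          rw [stab_NC hreg, Subgroup.mem_subgroupOf] at h8
          rw [if_pos]
          rw [← QuotientGroup.out_eq' c, QuotientGroup.eq, mul_one]
          exact inv_mem h8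
        · rw [if_neg hij]
          symm
          by_cases hc1 : c = ((1 : G) : G ⧸ centralizer (D : Set G))
          · rw [if_pos hc1, if_neg]
            intro h7
            apply hij
            subst h7
            have h8 : c.out ∈ centralizer (D : Set G) := by
              have h9 := hc1
              rw [← QuotientGroup.out_eq' c, QuotientGroup.eq, mul_one] at h9
              exact inv_mem_iff.1 h9
            have h9 : (⟨c.out, hc⟩ : stabT D l) ∈ MulAction.stabilizer (stabT D l) i.out := by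
              rw [stab_NC hreg, Subgroup.mem_subgroupOf]
              exact h8
            have h10 := MulAction.mem_stabilizer_iff.1 h9
            rw [← smul_NC, h10]
          · rw [if_neg hc1]
      · rw [dif_neg hc, if_neg hc, zero_add]
        symm
        rw [if_neg]
        intro hc1
        apply hc
        obtain ⟨x, hx⟩ := QuotientGroup.mk_out_eq_mul (centralizer (D : Set G)) (1 : G)
        rw [hc1, hx, one_mul]
        exact cent_le_stabT D l x.2
    rw [Finset.sum_congr rfl fun c _ => h5 c, Finset.sum_add_distrib, ← Finset.sum_filter,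
      Finset.sum_const, nsmul_one, card_cosets _ _ (cent_le_stabT D l), Finset.sum_ite_eq',
      if_pos (mem_univ _)]
  rw [h4] at h3
  have h6 := congrArg (fun x : AA => (x : ℂ)) h3
  by_cases hij : i = j
  · rw [if_pos hij] at h6 ⊢
    push_cast at h6
    exact_mod_cast h6
  · rw [if_neg hij] at h6 ⊢
    push_cast at h6
    exact_mod_cast h6

end

end P179I
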