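import Vale.Agent.P179.H905.Step1D

/-!
# Theorem C, Step 1: conclusion
-/

namespace P179C

open Subgroup P179H524 P179A P179K

open scoped Classical Pointwise

section

variable {p : ℕ} [hp : Fact p.Prime] {G : Type*} [Group G] [Finite G]

theorem exists_sylow_centralizer' (g : G) (q : ℕ) (hq : ∃ n, (g ^ q) ^ p ^ n = 1) :
    ∃ P : Subgroup G, IsPGroup p P ∧ g ^ q ∈ P ∧ P ≤ centralizer {g} ∧
      Nat.card P = p ^ ((Nat.card (centralizer ({g} : Set G))).factorization p) := by
  set C := centralizer ({g} : Set G)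
  have hgC : g ^ q ∈ C := mem_centralizer_singleton_iff.mpr (Commute.pow_self g q)
  have h1 : IsPGroup p (zpowers (⟨g ^ q, hgC⟩ : C)) := by
    obtain ⟨n, hn⟩ := hq
    have h2 : orderOf (⟨g ^ q, hgC⟩ : C) ∣ p ^ n := by
      apply orderOf_dvd_of_pow_eq_one
      exact Subtype.ext hn
    obtain ⟨m, -, hm⟩ := (Nat.dvd_prime_pow hp.out).mp h2
    rw [IsPGroup.iff_card]
    exact ⟨m, by rw [Nat.card_zpowers, hm]⟩
  obtain ⟨P₀, hP₀⟩ := h1.exists_le_sylow
  refine ⟨(P₀ : Subgroup C).map C.subtype, P₀.2.map _, ?_, ?_, ?_⟩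
  · exact ⟨⟨g ^ q, hgC⟩, hP₀ (mem_zpowers _), rfl⟩
  · rintro _ ⟨a, -, rfl⟩
    exact a.2
  · rw [← P₀.card_eq_multiplicity]
    exact Nat.card_congr ((P₀ : Subgroup C).equivMapOfInjective C.subtype
      C.subtype_injective).toEquiv.symm

theorem SS_dvd [Fintype G] (g : G) (hg : p ∣ orderOf g)
    (hab : ∀ P : Subgroup G, IsPGroup p P → P ≤ centralizer {g} → ∀ a ∈ P, ∀ b ∈ P, a * b = b * a) :
    (p : ℤ) ^ ((Nat.card (centralizer ({g} : Set G))).factorization p + 1) ∣ SS p g := by
  obtain ⟨q, hq, hq'⟩ := exists_exponent p G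
  obtain ⟨P, hP, hgP, hPC, hcard⟩ := exists_sylow_centralizer' (p := p) g q (hq g)
  have h1 := main_lemma p g q hq P hP (hab P hP hPC)
    (fun a ha => mem_centralizer_singleton_iff.mp (hPC ha)) hgP
  refine dvd_trans ?_ h1
  rw [hcard, pow_succ]
  push_cast
  refine mul_dvd_mul_left _ ?_
  have h2 : p ∣ orderOf (g ^ q) := by
    obtain ⟨n, hn⟩ := hq g
    obtain ⟨m, -, hm⟩ := (Nat.dvd_prime_pow hp.out).mp (orderOf_dvd_of_pow_eq_one hn)
    rw [hm]
    rcases Nat.eq_zero_or_pos m with h0 | h0
    · exfalso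
      rw [h0, pow_zero, orderOf_eq_one_iff] at hm
      -- an element of order `p` in `⟨g⟩`
      set x := g ^ (orderOf g / p) with hx
      have hx1 : x ^ p = 1 := by
        rw [hx, ← pow_mul, Nat.div_mul_cancel hg, pow_orderOf_eq_one]
      have hx2 : x ^ q = x := hq' x ⟨1, by rw [pow_one]; exact hx1⟩
      have hx3 : x ^ q = 1 := by
        rw [hx, ← pow_mul, mul_comm, pow_mul, hm, one_pow]
      have hx4 : x = 1 := by rw [← hx2, hx3]
      have h5 : orderOf g ∣ orderOf g / p := by
        rw [orderOf_dvd_iff_pow_eq_one]; exact hx4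
      have h6 : 0 < orderOf g := orderOf_pos g
      have h7 : 0 < orderOf g / p := Nat.div_pos (Nat.le_of_dvd h6 hg) hp.out.pos
      have h8 := Nat.le_of_dvd h7 h5
      have h9 : orderOf g / p < orderOf g := Nat.div_lt_self h6 hp.out.one_lt
      omega
    · exact dvd_pow_self p h0.ne'
  exact_mod_cast h2

theorem FF_sing (z : G → ℤ) (hz : IsCF z) (hab : Zab p z) (hs : ∀ g, z g ≠ 0 → p ∣ orderOf g) :
    ((Nat.card G * p : ℕ) : ℤ) ∣ FF p z := by
  have := Fintype.ofFinite G
  rw [FF_eq_SS]
  refine dvd_orbits (Γ := ConjAct G) (fun g => z g * SS p g) ?_ _ ?_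
  · intro g x
    obtain ⟨g, rfl⟩ := ConjAct.toConjAct.surjective g
    rw [ConjAct.toConjAct_smul]
    change z (g * x * g⁻¹) * SS p (g * x * g⁻¹) = z x * SS p x
    rw [hz, SS_conj]
  · intro g
    by_cases h0 : z g = 0
    · simp [h0]
    have h1 := card_dvd_SS (p := p) g
    by_cases h2 : (p : ℤ) ∣ z g
    · obtain ⟨c, hc⟩ := h2
      obtain ⟨d, hd⟩ := h1
      refine ⟨c * d, ?_⟩
      rw [hc]
      push_cast
      calc (Nat.card (MulAction.orbit (ConjAct G) g) : ℤ) * (p * c * SS p g)
          = p * c * ((Nat.card (MulAction.orbit (ConjAct G) g) : ℤ) * SS p g) := by ring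
        _ = _ := by rw [hd]; ring
    · have h3 := SS_dvd g (hs g h0) (hab g h2)
      set o := Nat.card (MulAction.orbit (ConjAct G) g) with ho
      have h4 : o * Nat.card (centralizer ({g} : Set G)) = Nat.card G := card_orbit_conj g
      have ho0 : o ≠ 0 := by
        intro h; rw [h, zero_mul] at h4; exact Nat.card_pos.ne h4
      have h5 : (Nat.card G).factorization p = o.factorization p +
          (Nat.card (centralizer ({g} : Set G))).factorization p := by
        rw [← h4, Nat.factorization_mul ho0 Nat.card_pos.ne', Finsupp.add_apply]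
      have h6 : (p : ℤ) ^ ((Nat.card G).factorization p + 1) ∣ (o : ℤ) * SS p g := by
        rw [h5, add_assoc, pow_add]
        refine mul_dvd_mul ?_ h3
        exact_mod_cast Nat.ordProj_dvd _ p
      -- combine with the divisibility by `|G|`
      set m := ordCompl[p] (Nat.card G) with hm
      have h7 : Nat.card G = p ^ (Nat.card G).factorization p * m :=
        (Nat.ordProj_mul_ordCompl_eq_self _ p).symm
      have h8 : (m : ℤ) ∣ (o : ℤ) * SS p g := by
        refine dvd_trans ?_ h1
        exact_mod_cast (Dvd.intro_left _ h7.symm)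
      have hcop : IsCoprime ((p : ℤ) ^ ((Nat.card G).factorization p + 1)) (m : ℤ) := by
        have : Nat.Coprime (p ^ ((Nat.card G).factorization p + 1)) m :=
          Nat.Coprime.pow_left _ ((Nat.Prime.coprime_iff_not_dvd hp.out).mpr
            (Nat.not_dvd_ordCompl hp.out Nat.card_pos.ne'))
        have := Nat.isCoprime_iff_coprime.mpr this
        push_cast at this
        exact this
      have h9 := hcop.mul_dvd h6 h8
      have h10 : ((Nat.card G * p : ℕ) : ℤ) = (p : ℤ) ^ ((Nat.card G).factorization p + 1) * m := by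
        conv_lhs => rw [h7]
        push_cast
        ring
      rw [h10]
      have h11 : (o : ℤ) * (z g * SS p g) = z g * (o * SS p g) := by ring
      rw [h11]
      exact h9.mul_left _

theorem om_sub {K : Type*} [Group K] [Finite K] (χ : K → ℂ) (z w : K → ℤ) :
    om χ (fun g => z g - w g) = om χ z - om χ w := by
  have := Fintype.ofFinite K
  unfold om
  rw [finsum_eq_sum_of_fintype, finsum_eq_sum_of_fintype, finsum_eq_sum_of_fintype, ← sub_div,
    ← Finset.sum_sub_distrib]
  congr 1
  refine Finset.sum_congr rfl fun g _ => ?_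
  push_cast
  ring

omit hp in
theorem dz_sub {K : Type*} [Group K] [Finite K] (z w : K → ℤ) :
    dz p (fun g => z g - w g) = dz p z - dz p w := by
  have := Fintype.ofFinite {χ : K → ℂ // IsDefectZeroChar p χ}
  unfold dz
  rw [finsum_eq_sum_of_fintype, finsum_eq_sum_of_fintype, finsum_eq_sum_of_fintype,
    ← Finset.sum_sub_distrib]
  exact Finset.sum_congr rfl fun χ _ => om_sub χ.1 z w

/-- (C4) Step 1, from the facts on sections and on `p`-singular classes. -/
theorem step1_of (O : ValuationSubring ℂ) [CharP (IsLocalRing.ResidueField O) p]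
    (hsec : ∀ z : G → ℤ, IsCF z →
      (∀ u v : G, u * v = v * u → (∃ n : ℕ, v ^ p ^ n = 1) → z (u * v) = z u) →
      Cong O (Nat.card G) (nTr z) (Nat.card G * dz p z))
    (hsing : ∀ z : G → ℤ, IsCF z → (∀ g : G, z g ≠ 0 → p ∣ orderOf g) → Cong O 1 (dz p z) 0)
    (z : G → ℤ) (hz : IsCF z) (hab : Zab p z) :
    Cong O (Nat.card G) ((∑ s ∈ chains p G, (-1) ^ s.card * nTr (res (stab s) z) : ℤ) : ℂ)
      (Nat.card G * dz p z) := by
  have hG0 : Nat.card G ≠ 0 := Nat.card_pos.ne'
  have hGC : (Nat.card G : ℂ) ≠ 0 := by exact_mod_cast hG0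
  -- the section function and the difference
  let y : G → ℤ := fun g => z (pr p g)
  let w : G → ℤ := fun g => y g - z g
  have hy : IsCF y := by
    intro g x
    have h := P179C905.map_pr p (MulAut.conj g).toMonoidHom x
    have h' : g * pr p x * g⁻¹ = pr p (g * x * g⁻¹) := h
    change z (pr p (g * x * g⁻¹)) = z (pr p x)
    rw [← h', hz]
  have hw : IsCF w := fun g x => by
    change y (g * x * g⁻¹) - z (g * x * g⁻¹) = y x - z x
    rw [hy, hz]
  have hyS : ∀ (K : Subgroup G) (u v : K), u * v = v * u → (∃ n : ℕ, v ^ p ^ n = 1) →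
      res K y (u * v) = res K y u := by
    intro K u v huv hv
    obtain ⟨n, hn⟩ := hv
    change z (pr p ((u * v : K) : G)) = z (pr p (u : G))
    obtain ⟨a, h1, h2, ⟨m, hm⟩, h4⟩ := P179C905.pr_decomp p (u : G)
    have huv' : (u : G) * v = v * u := congrArg Subtype.val huv
    have hc : Commute (v : G) (pr p (u : G)) := by
      have : Commute (u : G) (v : G) := huv'
      exact (this.pow_left _).symm
    have hca : Commute a (v : G) := by
      have e : a = (pr p (u : G))⁻¹ * u := by rw [eq_inv_mul_iff_mul_eq, h1]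
      rw [e]
      have : Commute (u : G) (v : G) := huv'
      exact (hc.symm.inv_left).mul_left this
    have e : ((u * v : K) : G) = pr p (u : G) * (a * v) := by
      rw [Subgroup.coe_mul, ← mul_assoc, h1]
    rw [e]
    congr 1
    refine P179C905.pr_mul p ?_ (orderOf_pos _).ne' h4 ⟨m + n, ?_⟩
    · have h5 : Commute (pr p (u : G)) (a * (v : G)) :=
        Commute.mul_right h2 hc.symm
      exact h5
    · have hn' : (v : G) ^ p ^ n = 1 := by
        have := congrArg Subtype.val hn
        simpa using this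
      rw [hca.mul_pow, pow_add, pow_mul, hm, one_pow, one_mul, mul_comm, pow_mul, hn', one_pow]
  have hwab : Zab p w := by
    intro g hg P hP hPg
    have h1 : ¬ (p : ℤ) ∣ y g ∨ ¬ (p : ℤ) ∣ z g := by
      by_contra h
      push Not at h
      exact hg (dvd_sub h.1 h.2)
    rcases h1 with h1 | h1
    · refine hab _ h1 P hP ?_
      intro x hx
      have h2 := mem_centralizer_singleton_iff.mp (hPg hx)
      rw [mem_centralizer_singleton_iff]
      exact Commute.pow_right h2 _
    · exact hab g h1 P hP hPg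
  have hws : ∀ g, w g ≠ 0 → p ∣ orderOf g := by
    intro g hg
    by_contra h
    apply hg
    have e : pr p g = g := by
      have := P179C905.pr_mul p (a := g) (b := 1) (by simp) (orderOf_pos _).ne' h ⟨0, by simp⟩
      rwa [mul_one] at this
    change z (pr p g) - z g = 0
    rw [e, sub_self]
  -- the section part
  have hyG : ∀ u v : G, u * v = v * u → (∃ n : ℕ, v ^ p ^ n = 1) → y (u * v) = y u := by
    intro u v huv hv
    obtain ⟨n, hn⟩ := hv
    exact hyS ⊤ ⟨u, mem_top _⟩ ⟨v, mem_top _⟩ (Subtype.ext huv) ⟨n, Subtype.ext hn⟩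
  have h1 : ((Nat.card G * p : ℕ) : ℤ) ∣ FF p y - nTr y :=
    FF_dvd_aux y hy p fun s hs hne =>
      sec_normal p (not_opTrivial_stab hs hne) _ (isCF_res _ hy) (hyS (stab s))
  have h2 := FF_sing w hw hwab hws
  have h3 := hsec y hy hyG
  have h4 := hsing w hw hws
  have hyw : z = fun g => y g - w g := by
    funext g
    change z g = y g - (y g - z g)
    ring
  have h5 : FF p z = (FF p y - nTr y) - FF p w + nTr y := by
    conv_lhs => rw [hyw]
    rw [FF_sub]; ring
  have h6 : dz p z = dz p y - dz p w := by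
    conv_lhs => rw [hyw]
    rw [dz_sub]
  change Cong O (Nat.card G) ((FF p z : ℤ) : ℂ) (Nat.card G * dz p z)
  have h7 : ((Nat.card G * p : ℕ) : ℤ) ∣ (FF p y - nTr y) - FF p w := dvd_sub h1 h2
  have h8 := valuation_of_dvd O hG0 h7
  unfold Cong at h3 h4 ⊢
  rw [Nat.cast_one, div_one, sub_zero] at h4
  have h9 : (((FF p z : ℤ) : ℂ) - Nat.card G * dz p z) / Nat.card G =
      ((((FF p y - nTr y) - FF p w : ℤ) : ℂ) / Nat.card G +
        ((nTr y : ℂ) - Nat.card G * dz p y) / Nat.card G) + dz p w := by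
    rw [h5, h6]
    push_cast
    field_simp
    ring
  rw [h9]
  exact O.valuation.map_add_lt (O.valuation.map_add_lt h8 h3) h4

end

end P179C
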