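import Vale.Agent.P179.H143.CStat

/-!
# (C9e) coefficients of blocks with abelian defect groups
-/

namespace P179C

open Subgroup P179H524

namespace H905

/-- If an invariant function over a finite set acted on by a `p`-group has nonzero sum in a ring
of characteristic `p`, there is a fixed point. -/
theorem exists_fixed (p : ℕ) [hp : Fact p.Prime] {k : Type*} [Field k] [CharP k p]
    {P X : Type*} [Group P] [MulAction P X] [Fintype X] (hP : IsPGroup p P)
    [Finite P] (φ : X → k) (hφ : ∀ (g : P) (x : X), φ (g • x) = φ x) (h : ∑ x, φ x ≠ 0) :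
    ∃ x : X, ∀ g : P, g • x = x := by
  classical
  by_contra hcon
  push Not at hcon
  apply h
  have := Fintype.ofFinite (MulAction.orbitRel.Quotient P X)
  rw [← Finset.sum_fiberwise (s := Finset.univ)
    (g := fun x : X => (Quotient.mk'' x : MulAction.orbitRel.Quotient P X))]
  apply Finset.sum_eq_zero
  intro q _
  induction q using Quotient.inductionOn' with
  | h x =>
  rw [Finset.sum_congr rfl (g := fun _ => φ x)]
  · rw [Finset.sum_const, nsmul_eq_mul]
    have h1 : (Finset.univ.filter fun y : X => (Quotient.mk'' y :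
        MulAction.orbitRel.Quotient P X) = Quotient.mk'' x).card =
        Nat.card (MulAction.orbit P x) := by
      rw [Nat.card_eq_fintype_card, ← Fintype.card_subtype]
      apply Fintype.card_congr
      refine Equiv.subtypeEquivRight fun y => ?_
      rw [Quotient.eq'', MulAction.orbitRel_apply]
    rw [h1]
    obtain ⟨n, hn⟩ := hP.card_orbit x
    rw [hn]
    have h3 : n ≠ 0 := by
      rintro rfl
      rw [pow_zero] at hn
      obtain ⟨g, hg⟩ := hcon x
      apply hg
      have h4 : x ∈ MulAction.fixedPoints P X := by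
        rw [MulAction.mem_fixedPoints_iff_card_orbit_eq_one, ← Nat.card_eq_fintype_card]
        exact hn
      exact h4 g
    obtain ⟨m, rfl⟩ := Nat.exists_eq_succ_of_ne_zero h3
    rw [Nat.succ_eq_add_one, pow_succ]
    push_cast
    rw [CharP.cast_eq_zero k p]
    ring
  · intro y hy
    have h1 := (Finset.mem_filter.1 hy).2
    obtain ⟨g, hg⟩ := Quotient.exact' h1
    dsimp only at hg
    rw [← hg, hφ]

theorem coeff_conjBy {k : Type*} [Field k] {G : Type*} [Group G] (c g : G)
    (a : MonoidAlgebra k G) : (conjBy c a).coeff g = a.coeff (c⁻¹ * g * c) := by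
  unfold conjBy
  rw [MonoidAlgebra.coeff_mul_single_apply, MonoidAlgebra.coeff_single_mul_apply]
  simp [mul_assoc]

end H905

theorem zab_of_relTrace (p : ℕ) [hp : Fact p.Prime] {k : Type*} [Field k] [CharP k p] {G : Type*}
    [Group G] [Finite G] (B : MonoidAlgebra k G) (D : Subgroup G) (hD : IsRelTrace B D)
    (g : G) (hg : B.coeff g ≠ 0) (P : Subgroup G) (hP : IsPGroup p P)
    (hPg : P ≤ centralizer {g}) : ∃ c : G, ∀ x ∈ P, c⁻¹ * x * c ∈ D := by
  classical
  have := Fintype.ofFinite G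
  have := Fintype.ofFinite (G ⧸ D)
  obtain ⟨a, ha, hB⟩ := hD
  have haD : ∀ d ∈ D, ∀ x : G, a.coeff (d⁻¹ * x * d) = a.coeff x := by
    intro d hd x
    rw [← H905.coeff_conjBy, ha d hd]
  have hwell : ∀ c c' : G, (c : G ⧸ D) = (c' : G ⧸ D) →
      a.coeff (c⁻¹ * g * c) = a.coeff (c'⁻¹ * g * c') := by
    intro c c' h
    have h1 : c⁻¹ * c' ∈ D := QuotientGroup.eq.mp h
    rw [← haD _ h1]
    congr 1
    group
  have hsum : B.coeff g = ∑ c : G ⧸ D, a.coeff (c.out⁻¹ * g * c.out) := by
    rw [hB, finsum_eq_sum_of_fintype, MonoidAlgebra.coeff_sum, Finsupp.finsetSum_apply]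
    exact Finset.sum_congr rfl fun c _ => H905.coeff_conjBy _ _ _
  rw [hsum] at hg
  obtain ⟨c, hc⟩ := H905.exists_fixed p (P := P) hP
    (fun c : G ⧸ D => a.coeff (c.out⁻¹ * g * c.out)) (by
      intro x c
      have h1 : ((x • c).out : G ⧸ D) = (((x : G) * c.out : G) : G ⧸ D) := by
        rw [QuotientGroup.out_eq']
        conv_lhs => rw [← QuotientGroup.out_eq' c]
        rfl
      rw [hwell _ _ h1]
      congr 1
      have h2 := mem_centralizer_singleton_iff.mp (hPg x.2)
      rw [mul_inv_rev]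
      have h3 : c.out⁻¹ * (x : G)⁻¹ * g * ((x : G) * c.out)
          = c.out⁻¹ * ((x : G)⁻¹ * (g * x)) * c.out := by group
      rw [h3, ← h2, inv_mul_cancel_left]) hg
  refine ⟨c.out, fun x hx => ?_⟩
  have h1 := hc ⟨x, hx⟩
  have h2 : (((x : G) * c.out : G) : G ⧸ D) = ((c.out : G) : G ⧸ D) := by
    have h3 : (⟨x, hx⟩ : P) • c = (((x : G) * c.out : G) : G ⧸ D) := by
      conv_lhs => rw [← QuotientGroup.out_eq' c]
      rfl
    rw [← h3, h1, QuotientGroup.out_eq']
  have h4 := QuotientGroup.eq.mp h2.symm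
  rwa [← mul_assoc] at h4

/-- (C9e) -/
theorem zab_of_defect (p : ℕ) [Fact p.Prime] {k : Type*} [Field k] [CharP k p] {G : Type*}
    [Group G] [Finite G] (B : MonoidAlgebra k G) (D : Subgroup G)
    (hD : IsDefectGroup B D) (hab : ∀ a ∈ D, ∀ b ∈ D, a * b = b * a) (g : G) (hg : B.coeff g ≠ 0)
    (P : Subgroup G) (hP : IsPGroup p P) (hPg : P ≤ centralizer {g}) :
    ∀ a ∈ P, ∀ b ∈ P, a * b = b * a := by
  obtain ⟨c, hc⟩ := zab_of_relTrace p B D hD.1 g hg P hP hPg
  intro a ha b hb
  have h := hab _ (hc a ha) _ (hc b hb)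
  have h1 : c * ((c⁻¹ * a * c) * (c⁻¹ * b * c)) * c⁻¹
      = c * ((c⁻¹ * b * c) * (c⁻¹ * a * c)) * c⁻¹ := by rw [h]
  have e1 : c * ((c⁻¹ * a * c) * (c⁻¹ * b * c)) * c⁻¹ = a * b := by group
  have e2 : c * ((c⁻¹ * b * c) * (c⁻¹ * a * c)) * c⁻¹ = b * a := by group
  rwa [e1, e2] at h1

end P179C
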