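import Vale.Agent.P179.H905.MainLem3

/-!
# The main lemma: conclusion
-/

set_option linter.unusedSectionVars false

namespace P179A

open Subgroup

open scoped Classical Pointwise

variable {G : Type*} [Group G] [Finite G]

section abstract

variable {P : Type*} [CommGroup P] [MulAction P (Tri G)] {ι : P →* G}
  (hι : Function.Injective ι) (hact : ∀ (e : P) (w : Tri G), e • w = ι e • w)
  {p : ℕ} {g : G} (hg : ∀ e : P, ι e * g = g * ι e)

include hι hact hg in
/-- The transfer of `s1^q` on a union of classes with `L = ⊥` is trivial. -/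
theorem delta_closed [hp : Fact p.Prime] (hP : IsPGroup p ι.range) {q : ℕ}
    (hq : ∀ x : G, ∃ n : ℕ, (x ^ q) ^ (p ^ n) = 1) {ε : ℤ} {c : Tri G → P}
    (hc : Triv (F1 p g ι.range ε) c) :
    ∀ (n : ℕ) (S : Finset (Tri G)), S.card ≤ n → S ⊆ F1 p g ι.range ε →
      (∀ w ∈ S, ∀ w', Rel ι q w w' → w' ∈ S) → delta c (s1^[q]) S = 1 := by
  intro n
  induction n with
  | zero =>
    intro S hS _ _
    have : S = ∅ := Finset.card_eq_zero.1 (Nat.le_zero.1 hS)
    subst this
    simp [delta, reps]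
  | succ n ih =>
    intro S hS hSF hcl
    rcases S.eq_empty_or_nonempty with rfl | ⟨w, hw⟩
    · simp [delta, reps]
    · have hwF := hSF hw
      have hsub : Cl p g ι q ε w ⊆ S := by
        intro w' hw'
        exact hcl w hw w' ((mem_Cl hact hg hwF).1 hw')
      have hwC : w ∈ Cl p g ι q ε w := (mem_Cl hact hg hwF).2 (Rel.refl w)
      have h1 : S = Cl p g ι q ε w ∪ (S \ Cl p g ι q ε w) := (Finset.union_sdiff_of_subset hsub).symm
      rw [h1, delta_union Finset.disjoint_sdiff, class_delta hι hact hg hP hq hc hwF, one_mul]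
      refine ih _ ?_ (Finset.sdiff_subset.trans hSF) ?_
      · have : (S \ Cl p g ι q ε w).card < S.card := by
          refine Finset.card_lt_card ⟨Finset.sdiff_subset, fun h => ?_⟩
          exact (Finset.mem_sdiff.1 (h hw)).2 hwC
        omega
      · intro w' hw' w'' h
        rw [Finset.mem_sdiff] at hw' ⊢
        refine ⟨hcl w' hw'.1 w'' h, fun h2 => hw'.2 ?_⟩
        rw [mem_Cl hact hg hwF] at h2 ⊢
        exact h2.trans hact (h.symm hact)

include hι hact hg in
theorem delta_F1 [hp : Fact p.Prime] (hP : IsPGroup p ι.range) {q : ℕ}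
    (hq : ∀ x : G, ∃ n : ℕ, (x ^ q) ^ (p ^ n) = 1) {ε : ℤ} {c : Tri G → P}
    (hc : Triv (F1 p g ι.range ε) c) : delta c (s1^[q]) (F1 p g ι.range ε) = 1 :=
  delta_closed hι hact hg hP hq hc _ _ le_rfl (Finset.Subset.refl _) fun _ hw _ h =>
    (Finset.mem_filter.1 ((mem_Cl hact hg hw).2 h)).1

include hι hact hg in
/-- The abstract main lemma. -/
theorem main_abstract [hp : Fact p.Prime] (hP : IsPGroup p ι.range) {q : ℕ}
    (hq : ∀ x : G, ∃ n : ℕ, (x ^ q) ^ (p ^ n) = 1) {u : P} (hu : ι u = g ^ q) :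
    ((Nat.card P * orderOf u : ℕ) : ℤ) ∣ ∑ w ∈ OF p g, (-1 : ℤ) ^ w.s.card := by
  rw [sum_OF_eq hP (range_comm ι)]
  obtain ⟨c1, hc1⟩ := exists_triv (FP p g ι.range 1) (fun w hw e => FP_stable hact hg hw e)
    (fun w hw e he => FP_free hι hact hw he)
  obtain ⟨c2, hc2⟩ := exists_triv (FP p g ι.range (-1)) (fun w hw e => FP_stable hact hg hw e)
    (fun w hw e he => FP_free hι hact hw he)
  have t1 := twist_eq hact hg hc1 hu (q := q)
  have t2 := twist_eq hact hg hc2 hu (q := q)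
  have m1 : ∀ ε : ℤ, F1 p g ι.range ε ⊆ FP p g ι.range ε := fun ε => Finset.filter_subset _ _
  have m2 : ∀ ε : ℤ, F2 p g ι.range ε ⊆ FP p g ι.range ε := fun ε => Finset.filter_subset _ _
  have d1 : delta c1 (s1^[q]) (FP p g ι.range 1) = delta c1 (s1^[q]) (F2 p g ι.range 1) := by
    rw [← F_union ι.range 1, delta_union (F_disjoint ι.range 1),
      delta_F1 hι hact hg hP hq (hc1.mono (m1 1) (F1_stable hact hg 1)), one_mul]
  have d2 : delta c2 (s1^[q]) (FP p g ι.range (-1)) = delta c2 (s1^[q]) (F2 p g ι.range (-1)) := by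
    rw [← F_union ι.range (-1), delta_union (F_disjoint ι.range (-1)),
      delta_F1 hι hact hg hP hq (hc2.mono (m1 (-1)) (F1_stable hact hg (-1))), one_mul]
  have d3 : delta c1 (s1^[q]) (F2 p g ι.range 1) = delta c2 (s1^[q]) (F2 p g ι.range (-1)) := by
    refine delta_iso (hc1.mono (m2 1) (F2_stable hact hg 1))
      (hc2.mono (m2 (-1)) (F2_stable hact hg (-1))) (eqv_sq_F2 hact hg 1 q) (eqv_tgL hact hP 1) ?_
    intro w hw
    rw [tgL, L_sq, sq_eq, tgL, sq_eq]
    rfl
  have key : (u⁻¹) ^ (reps c1 (FP p g ι.range 1)).card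
      = (u⁻¹) ^ (reps c2 (FP p g ι.range (-1))).card := by
    rw [t1, t2, d1, d2, d3]
  rw [card_eq hc1, card_eq hc2]
  have hdiv : ((orderOf u : ℕ) : ℤ) ∣ ((reps c1 (FP p g ι.range 1)).card : ℤ)
      - (reps c2 (FP p g ι.range (-1))).card := by
    rw [← orderOf_inv u]
    rw [pow_eq_pow_iff_modEq] at key
    exact (Int.natCast_modEq_iff.2 key).symm.dvd
  push_cast
  rw [← mul_sub]
  exact mul_dvd_mul_left _ hdiv

end abstract

/-- **Main lemma.** -/
theorem main_lemma [Fintype G] (p : ℕ) [hp : Fact p.Prime] (g : G) (q : ℕ)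
    (hq : ∀ x : G, ∃ n : ℕ, (x ^ q) ^ (p ^ n) = 1)
    (P : Subgroup G) (hP : IsPGroup p P) (hc : ∀ a ∈ P, ∀ b ∈ P, a * b = b * a)
    (hg : ∀ a ∈ P, a * g = g * a) (hgP : g ^ q ∈ P) :
    ((Nat.card P * orderOf (g ^ q) : ℕ) : ℤ) ∣
      ∑ t ∈ (Finset.univ : Finset (G × G)).filter (fun t => t.1 * t.2 * t.1⁻¹ * t.2⁻¹ = g),
        W p t.1 t.2 := by
  let _ : CommGroup P := { (inferInstance : Group P) with
    mul_comm := fun a b => Subtype.ext (hc a.1 a.2 b.1 b.2) }
  let ι : P →* G := P.subtype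
  let _ : MulAction P (Tri G) := MulAction.compHom (Tri G) ι
  have hr : ι.range = P := P.range_subtype
  rw [sum_W_eq]
  have h := main_abstract (ι := ι) (p := p) (g := g) P.subtype_injective (fun _ _ => rfl)
    (fun e => hg e.1 e.2) (by rw [hr]; exact hP) hq (u := ⟨g ^ q, hgP⟩) rfl
  rwa [orderOf_mk] at h

end P179A
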