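import Vale.Agent.P179.H143.SecOrth

/-!
# Characters of defect zero vanish on `p`-singular elements
-/

namespace P179P

open P179H524 P179C P179A Finset

open P179X (pp)

open scoped Classical

theorem omC_expand {K : Type*} [Group K] [Fintype K] [Fintype (ConjClasses K)]
    {χ : K → ℂ} {a : K → ℂ} (ha : IsCF a) :
    omC χ a = ∑ D : ConjClasses K, a D.out * om χ (ind D) := by
  unfold om omC
  simp only [finsum_eq_sum_of_fintype, mul_div_assoc', ← Finset.sum_div]
  congr 1
  rw [Finset.sum_congr rfl fun g _ => congrArg (fun m : ℂ => m * χ g) (cf_eq_sum ha g)]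
  simp only [Finset.mul_sum, Finset.sum_mul]
  rw [Finset.sum_comm]
  refine Finset.sum_congr rfl fun g _ => ?_
  refine Finset.sum_congr rfl fun D _ => ?_
  ring

theorem omC_mem {K : Type*} [Group K] [Fintype K] (χ : Irr K) {a : K → ℂ} (ha : IsCF a)
    (hint : ∀ g, a g ∈ integralClosure ℤ ℂ) : omC χ.1 a ∈ integralClosure ℤ ℂ := by
  have := Fintype.ofFinite (ConjClasses K)
  rw [omC_expand ha]
  exact Subalgebra.sum_mem _ fun D _ => mul_mem (hint _) (isIntegral_om χ.2 (isCF_ind D))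

section

variable {k : Type*} [Field k] (red : AA →+* k)

/-- the reduction of `omC` is determined by the values at class sums -/
theorem red_omC_eq {K : Type*} [Group K] [Fintype K] (χ ψ : Irr K)
    (h : ∀ (z : K → ℤ) (hz : IsCF z), red (omA χ z hz) = red (omA ψ z hz))
    {a : K → ℂ} (ha : IsCF a) (hint : ∀ g, a g ∈ integralClosure ℤ ℂ) :
    red ⟨omC χ.1 a, omC_mem χ ha hint⟩ = red ⟨omC ψ.1 a, omC_mem ψ ha hint⟩ := by
  have := Fintype.ofFinite (ConjClasses K)
  have key : ∀ θ : Irr K, (⟨omC θ.1 a, omC_mem θ ha hint⟩ : AA) =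
      ∑ D : ConjClasses K, (⟨a D.out, hint _⟩ : AA) * omA θ (ind D) (isCF_ind D) := by
    intro θ
    apply Subtype.ext
    push_cast
    exact omC_expand ha
  rw [key χ, key ψ, map_sum, map_sum]
  refine Finset.sum_congr rfl fun D _ => ?_
  rw [map_mul, map_mul, h]

end

section

variable {k : Type*} [Field k] (p : ℕ) [hp : Fact p.Prime] [CharP k p] (red : AA →+* k)

include red in
/-- **Characters of defect zero vanish on `p`-singular elements.** -/
theorem dz_vanish {K : Type*} [Group K] [Finite K] {φ : K → ℂ} (hφ : IsDefectZeroChar p φ)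
    {g : K} (hg : p ∣ orderOf g) : φ g = 0 := by
  have := Fintype.ofFinite K
  have := Fintype.ofFinite (ConjClasses K)
  obtain ⟨hirr, d, hd, hdp⟩ := hφ
  let φ' : Irr K := ⟨φ, hirr⟩
  have hd0 : d ≠ 0 := by
    rintro rfl
    exact φ'.one_ne_zero (by rw [show φ'.1 = φ from rfl, hd]; simp)
  have hdC : (d : ℂ) ≠ 0 := by exact_mod_cast hd0
  have hK : (Fintype.card K : ℂ) ≠ 0 := by exact_mod_cast Fintype.card_ne_zero
  -- the central element `∑ φ(g⁻¹) g`
  set a : K → ℂ := fun g => φ g⁻¹ with ha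
  have hacf : IsCF a := by
    intro t x
    have h1 : (t * x * t⁻¹)⁻¹ = t * x⁻¹ * t⁻¹ := by group
    simp only [ha, h1]
    exact φ'.conj t x⁻¹
  have haint : ∀ g, a g ∈ integralClosure ℤ ℂ := fun g => φ'.integral g⁻¹
  have hval : ∀ ψ : Irr K, omC ψ.1 a = (if ψ = φ' then (Fintype.card K : ℂ) else 0) / ψ.1 1 := by
    intro ψ
    unfold omC
    congr 1
    rw [← row_orth ψ φ']
    exact Finset.sum_congr rfl fun g _ => by simp only [ha]; ring
  have hφval : omC φ'.1 a = Fintype.card K / d := by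
    rw [hval, if_pos rfl]
    congr 1
  -- `|K| / d` is an integer prime to `p`
  obtain ⟨t, ht⟩ : ∃ t : ℕ, Fintype.card K = d * t := by
    obtain ⟨b, hb⟩ : ∃ b : ℤ, ((Fintype.card K : ℂ) / d) = b := by
      have h1 := omC_mem φ' hacf haint
      rw [hφval] at h1
      obtain ⟨b, hb⟩ : ∃ b : ℤ, ((Fintype.card K : ℂ) / d) = b := by
        have h2 : IsIntegral ℤ ((algebraMap ℚ ℂ) ((Fintype.card K : ℚ) / d)) := by
          have : (algebraMap ℚ ℂ) ((Fintype.card K : ℚ) / d) = (Fintype.card K : ℂ) / d := by simp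
          rw [this]; exact h1
        rw [isIntegral_algebraMap_iff (algebraMap ℚ ℂ).injective] at h2
        obtain ⟨b, hb⟩ := IsIntegrallyClosed.isIntegral_iff.1 h2
        refine ⟨b, ?_⟩
        have := congrArg (algebraMap ℚ ℂ) hb
        simpa using this.symm
      exact ⟨b, hb⟩
    rw [div_eq_iff hdC] at hb
    have h3 : (Fintype.card K : ℤ) = b * d := by exact_mod_cast hb
    have h4 : (d : ℤ) ∣ Fintype.card K := ⟨b, by rw [h3]; ring⟩
    obtain ⟨t, ht⟩ := Int.natCast_dvd_natCast.1 h4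
    exact ⟨t, ht⟩
  have ht0 : t ≠ 0 := by
    rintro rfl
    rw [mul_zero] at ht
    exact Fintype.card_ne_zero ht
  have hpt : ¬ p ∣ t := by
    rw [Nat.card_eq_fintype_card, ht, Nat.factorization_mul hd0 ht0, Finsupp.add_apply] at hdp
    have h5 : t.factorization p = 0 := by omega
    rw [Nat.factorization_eq_zero_iff] at h5
    rcases h5 with h5 | h5 | h5
    · exact absurd hp.out h5
    · exact h5
    · exact absurd h5 ht0
  have hφval2 : omC φ'.1 a = t := by
    rw [hφval, ht]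
    push_cast
    field_simp
  -- separation
  have hsep : ∀ ψ : Irr K, ψ ≠ φ' → ∃ (z : K → ℤ) (hz : IsCF z),
      red (omA ψ z hz) ≠ red (omA φ' z hz) := by
    intro ψ hψ
    by_contra hcon
    push Not at hcon
    have h1 := red_omC_eq red ψ φ' hcon hacf haint
    have h2 : (⟨omC ψ.1 a, omC_mem ψ hacf haint⟩ : AA) = 0 := by
      apply Subtype.ext
      change omC ψ.1 a = 0
      rw [hval, if_neg hψ, zero_div]
    have h3 : (⟨omC φ'.1 a, omC_mem φ' hacf haint⟩ : AA) = (t : AA) := by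
      apply Subtype.ext
      change omC φ'.1 a = ((t : AA) : ℂ)
      rw [hφval2]
      push_cast
      rfl
    rw [h2, h3, map_zero, map_natCast] at h1
    exact hpt ((CharP.cast_eq_zero_iff k p t).1 h1.symm)
  -- the restriction to the `p`-regular elements
  let S : Set K := {y | ¬ p ∣ orderOf y}
  have hS : ∀ a b : K, pp p a = pp p b → (a ∈ S ↔ b ∈ S) := by
    intro a b hab
    change ¬ p ∣ orderOf a ↔ ¬ p ∣ orderOf b
    rw [← pp_eq_one_iff, ← pp_eq_one_iff, hab]
  have hSc : ∀ a t : K, t * a * t⁻¹ ∈ S ↔ a ∈ S := by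
    intro a t
    change ¬ p ∣ orderOf (t * a * t⁻¹) ↔ ¬ p ∣ orderOf a
    rw [P179C.orderOf_conj]
  let f : K → ℂ := fun y => if y ∈ S then φ y else 0
  have hf : IsCF f := by
    intro t y
    have h1 : φ (t * y * t⁻¹) = φ y := φ'.conj t y
    simp only [f, hSc, h1]
  have hexp : ∀ x, f x = ((Fintype.card K : ℂ)⁻¹ * ∑ g : K, f g * φ g⁻¹) * φ x := by
    intro x
    rw [cf_expand hf x, Finset.sum_eq_single φ']
    · intro ψ _ hψ
      obtain ⟨z, hz, hne⟩ := hsep ψ hψ
      have h1 := sec_orth_two p red ψ φ' z hz hne S hS hSc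
      have h2 : ∑ g : K, f g * ψ.1 g⁻¹ = 0 := by
        rw [← h1]
        refine Finset.sum_congr rfl fun g _ => ?_
        simp only [f]
        split_ifs
        · rfl
        · rw [zero_mul]
      rw [h2, mul_zero, zero_mul]
    · intro h; exact absurd (mem_univ _) h
  have h1S : (1 : K) ∈ S := by
    change ¬ p ∣ orderOf (1 : K)
    rw [orderOf_one]
    exact hp.out.one_lt.ne' ∘ Nat.dvd_one.1
  have hc := hexp 1
  have hf1 : f 1 = φ 1 := if_pos h1S
  have hφ1 : φ 1 ≠ 0 := φ'.one_ne_zero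
  rw [hf1] at hc
  have hc1 : ((Fintype.card K : ℂ)⁻¹ * ∑ g : K, f g * φ g⁻¹) = 1 := by
    have h6 : 1 * φ 1 = ((Fintype.card K : ℂ)⁻¹ * ∑ g : K, f g * φ g⁻¹) * φ 1 := by
      rw [one_mul]; exact hc
    exact (mul_right_cancel₀ hφ1 h6).symm
  have h7 := hexp g
  rw [hc1, one_mul] at h7
  rw [← h7]
  exact if_neg (fun h : ¬ p ∣ orderOf g => h hg)

end

end P179P
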