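import Vale.Agent.P179.H905.N5c

/-!
# (N5) rationality and congruence of the values; the final bound
-/

namespace P179P

open P179H524 P179C P179A Finset Subgroup

open P179X (IrrB Srat SameSec pp X4 IsCompl aval autOrd)

open scoped Classical

section Rat

variable {p : ℕ} [hp : Fact p.Prime] {G : Type*} [Group G] [Fintype G]

omit hp in
/-- the sum of a character over the product of two commuting subgroups -/
theorem sum_prod_nat (χ : Irr G) (K U : Subgroup G) (hKU : ∀ s ∈ K, ∀ u ∈ U, u * s = s * u) :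
    ∃ n : ℕ, ∑ u : U, ∑ s : K, χ.1 ((u : G) * s) = (Nat.card U * Nat.card K : ℂ) * n := by
  obtain ⟨χ, n, ρ, hρ, rfl⟩ := χ
  let f : U × K →* G :=
    { toFun := fun x => (x.1 : G) * x.2
      map_one' := by simp
      map_mul' := by
        rintro ⟨a, b⟩ ⟨c, d⟩
        change ((a : G) * c) * ((b : G) * d) = (a : G) * b * (c * d)
        have := hKU b b.2 c c.2
        calc ((a : G) * c) * ((b : G) * d) = a * ((c : G) * b) * d := by group
          _ = a * ((b : G) * c) * d := by rw [this]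
          _ = _ := by group }
  have hne : (Nat.card (U × K) : ℂ) ≠ 0 := by exact_mod_cast Nat.card_pos.ne'
  let _ : Invertible (Nat.card (U × K) : ℂ) := invertibleOfNonzero hne
  have h := Representation.card_inv_mul_sum_char_eq_finrank (ρ.comp f : Representation ℂ (U × K) _)
  rw [inv_mul_eq_iff_eq_mul₀ hne] at h
  refine ⟨Module.finrank ℂ (Representation.invariants
    (MonoidHom.comp ρ f : Representation ℂ (U × K) (Fin n → ℂ))), ?_⟩
  rw [← Fintype.sum_prod_type (f := fun x : U × K => ρ.character ((x.1 : G) * x.2))]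
  have h2 : (Nat.card (U × K) : ℂ) = Nat.card U * Nat.card K := by
    rw [Nat.card_prod]; push_cast; ring
  rw [← h2]
  exact h

/-- the values of a `p`-rational character -/
theorem aval_rat (χ : Irr G) {w : G} (hw : ∃ n : ℕ, w ^ p ^ n = 1) {K : Subgroup G}
    (hK : IsCompl p w K) {m : ℕ} (hm1 : m ≡ 1 [MOD ordCompl[p] (Nat.card G)])
    (hgen : ∀ j : ℕ, ¬ p ∣ j → ∃ i : ℕ, m ^ i ≡ j [MOD ordProj[p] (Nat.card G)])
    (hχ : ∀ g, χ.1 (g ^ m) = χ.1 g) : ∃ q : ℚ, aval K χ.1 w = q := by
  have hK0 : (Nat.card K : ℂ) ≠ 0 := by exact_mod_cast Nat.card_pos.ne'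
  have hcomm : ∀ s ∈ K, ∀ u ∈ zpowers w, u * s = s * u := by
    intro s hs u hu
    obtain ⟨j, rfl⟩ := mem_zpowers_iff.1 hu
    have h1 : Commute w s := mem_cent_iff.1 (hK.le hs)
    exact (h1.zpow_left j).eq
  let T : G → ℂ := fun u => ∑ s : K, χ.1 (u * s)
  have hT : aval K χ.1 w = T w / Nat.card K := by
    rw [aval, finsum_eq_sum_of_fintype]
  have hsub : ∀ U : Subgroup G, U ≤ zpowers w → ∃ n : ℕ, ∑ u : U, T u =
      (Nat.card U * Nat.card K : ℂ) * n := by
    intro U hU
    exact sum_prod_nat χ K U fun s hs u hu => hcomm s hs u (hU hu)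
  have hpow : ∀ i : ℕ, ∀ g, χ.1 (g ^ m ^ i) = χ.1 g := by
    intro i
    induction i with
    | zero => intro g; rw [pow_zero, pow_one]
    | succ i ih => intro g; rw [pow_succ, pow_mul, hχ, ih]
  have hwdvd : orderOf w ∣ ordProj[p] (Nat.card G) := by
    obtain ⟨n, hn⟩ := hw
    obtain ⟨a, -, ha⟩ := (Nat.dvd_prime_pow hp.out).1 (orderOf_dvd_of_pow_eq_one hn)
    rw [ha]
    refine pow_dvd_pow p ?_
    refine (hp.out.pow_dvd_iff_le_factorization Nat.card_pos.ne').1 ?_
    rw [← ha]; exact orderOf_dvd_natCard w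
  have hTj : ∀ j : ℕ, ¬ p ∣ j → T (w ^ j) = T w := by
    intro j hj
    obtain ⟨i, hi⟩ := hgen j hj
    refine Finset.sum_congr rfl fun s _ => ?_
    rw [← hpow i (w * s)]
    have h1 : Commute w (s : G) := mem_cent_iff.1 (hK.le s.2)
    rw [h1.mul_pow]
    have h2 : w ^ m ^ i = w ^ j := pow_eq_pow_iff_modEq.2 (hi.of_dvd hwdvd)
    have h3 : (s : G) ^ m ^ i = s := by
      refine pow_eq_of_modEq_of_dvd (p := p) ?_ ((IsCompl.mem_iff hK s.1).1 s.2).2
      have := hm1.pow i
      rwa [one_pow] at this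
    rw [h2, h3]
  by_cases hw1 : w = 1
  · obtain ⟨n, hn⟩ := hsub ⊥ bot_le
    have h1 : ∀ U : Subgroup G, U = ⊥ → ∑ u : U, T u = T 1 := by
      intro U hU
      rw [Fintype.sum_eq_single (1 : U) fun x hx => ?_]
      · rfl
      · exfalso
        apply hx
        apply Subtype.ext
        exact mem_bot.1 (hU.le x.2)
    rw [h1 ⊥ rfl] at hn
    refine ⟨n, ?_⟩
    rw [hT, hw1, hn, Subgroup.card_bot]
    field_simp
    push_cast
    ring
  · let U := zpowers w
    let U' := zpowers (w ^ p)
    have hU'U : U' ≤ U := by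
      rw [zpowers_le]
      exact pow_mem (mem_zpowers w) p
    obtain ⟨n, hn⟩ := hsub U le_rfl
    obtain ⟨n', hn'⟩ := hsub U' hU'U
    have hsumU : ∀ V : Subgroup G, ∑ u : V, T u = ∑ u ∈ univ.filter (fun g : G => g ∈ V), T u := by
      intro V
      rw [← Finset.sum_subtype (s := univ.filter (fun g : G => g ∈ V)) (p := fun g => g ∈ V)
        (fun x => by simp)]
    have hlt : Nat.card U' < Nat.card U := by
      have h1 : Nat.card U = orderOf w := Nat.card_zpowers w
      have h2 : Nat.card U' = orderOf (w ^ p) := Nat.card_zpowers _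
      rw [h1, h2]
      have h3 : p ∣ orderOf w := by
        obtain ⟨n, hn⟩ := hw
        obtain ⟨a, -, ha⟩ := (Nat.dvd_prime_pow hp.out).1 (orderOf_dvd_of_pow_eq_one hn)
        rw [ha]
        refine dvd_pow_self p fun h0 => hw1 ?_
        rw [← orderOf_eq_one_iff, ha, h0, pow_zero]
      rw [orderOf_pow_of_dvd hp.out.ne_zero h3]
      exact Nat.div_lt_self (orderOf_pos w) hp.out.one_lt
    have hdiff : ∑ u ∈ (univ.filter (fun g : G => g ∈ U)) \ (univ.filter (fun g : G => g ∈ U')), T u =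
        ((Nat.card U : ℂ) - Nat.card U') * T w := by
      have h1 : ∀ u ∈ (univ.filter (fun g : G => g ∈ U)) \ (univ.filter (fun g : G => g ∈ U')),
          T u = T w := by
        intro u hu
        simp only [mem_sdiff, mem_filter, mem_univ, true_and] at hu
        obtain ⟨j, rfl⟩ := (mem_powers_iff_mem_zpowers (x := w) (y := u)).2 hu.1
        refine hTj j fun ⟨t, ht⟩ => hu.2 ?_
        change w ^ j ∈ zpowers (w ^ p)
        rw [ht, pow_mul]
        exact pow_mem (mem_zpowers _) t
      rw [Finset.sum_congr rfl h1, Finset.sum_const, nsmul_eq_mul, card_sdiff_of_subset (by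
        intro x hx
        simp only [mem_filter, mem_univ, true_and] at hx ⊢
        exact hU'U hx)]
      congr 1
      have e1 : ∀ V : Subgroup G, (univ.filter (fun g : G => g ∈ V)).card = Nat.card V := by
        intro V
        rw [Nat.card_eq_fintype_card, Fintype.card_subtype]
      rw [e1, e1, Nat.cast_sub hlt.le]
    have hss : (univ.filter (fun g : G => g ∈ U')) ⊆ (univ.filter (fun g : G => g ∈ U)) := by
      intro x hx
      simp only [mem_filter, mem_univ, true_and] at hx ⊢
      exact hU'U hx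
    rw [Finset.sum_sdiff_eq_sub hss, ← hsumU, ← hsumU, hn, hn'] at hdiff
    have hne : ((Nat.card U : ℂ) - Nat.card U') ≠ 0 := by
      rw [sub_ne_zero]
      exact_mod_cast hlt.ne'
    refine ⟨((Nat.card U : ℚ) * n - Nat.card U' * n') / ((Nat.card U : ℚ) - Nat.card U'), ?_⟩
    rw [hT]
    push_cast
    rw [div_eq_div_iff hK0 hne]
    linear_combination -hdiff

omit hp in
/-- the values are algebraic integers -/
theorem aval_integral (χ : Irr G) {w : G} {K : Subgroup G}
    (hK : IsCompl p w K) : aval K χ.1 w ∈ integralClosure ℤ ℂ := by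
  obtain ⟨χ, n, ρ, hρ, rfl⟩ := χ
  have hK0 : (Nat.card K : ℂ) ≠ 0 := by exact_mod_cast Nat.card_pos.ne'
  let e : Module.End ℂ (Fin n → ℂ) := (Nat.card K : ℂ)⁻¹ • ∑ s : K, ρ (s : G)
  have hse : ∀ s : K, ρ (s : G) * e = e := by
    intro s
    simp only [e]
    rw [mul_smul_comm, Finset.mul_sum]
    congr 1
    rw [← Equiv.sum_comp (Equiv.mulLeft s) (fun t : K => ρ (t : G))]
    refine Finset.sum_congr rfl fun t _ => ?_
    rw [← map_mul]; rfl
  have hee : e * e = e := by
    conv_lhs => enter [1]; simp only [e]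
    rw [smul_mul_assoc, Finset.sum_mul, Finset.sum_congr rfl fun s _ => hse s, Finset.sum_const,
      Finset.card_univ, ← Nat.card_eq_fintype_card, ← Nat.cast_smul_eq_nsmul ℂ, smul_smul,
      inv_mul_cancel₀ hK0, one_smul]
  have hwe : Commute (ρ w) e := by
    change ρ w * e = e * ρ w
    simp only [e]
    rw [mul_smul_comm, smul_mul_assoc, Finset.mul_sum, Finset.sum_mul]
    congr 1
    refine Finset.sum_congr rfl fun s _ => ?_
    rw [← map_mul, ← map_mul, mem_cent_iff.1 (hK.le s.2)]
  have h0 : orderOf w ≠ 0 := (isOfFinOrder_of_finite w).orderOf_pos.ne'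
  have h := trace_integral_of_pow (ρ w * e) (2 * orderOf w - 1) (by
    have h1 : 2 * orderOf w - 1 + 2 = 2 * orderOf w + 1 := by omega
    have h2 : e ^ (2 * orderOf w + 1) = e := (show IsIdempotentElem e from hee).pow_succ_eq _
    rw [h1, hwe.mul_pow, h2, ← map_pow, pow_succ, pow_mul', pow_orderOf_eq_one]
    simp)
  have h3 : LinearMap.trace ℂ _ (ρ w * e) = aval K ρ.character w := by
    simp only [e]
    rw [mul_smul_comm, map_smul, Finset.mul_sum, map_sum, aval, finsum_eq_sum_of_fintype,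
      smul_eq_mul, div_eq_inv_mul]
    congr 1
    refine Finset.sum_congr rfl fun s _ => ?_
    rw [← map_mul]
    rfl
  rw [← h3]
  exact h

theorem int_of_rat_integral {x : ℂ} (hx : x ∈ integralClosure ℤ ℂ) (hq : ∃ q : ℚ, x = q) :
    ∃ a : ℤ, x = a := by
  obtain ⟨q, rfl⟩ := hq
  have h1 : IsIntegral ℤ ((algebraMap ℚ ℂ) q) := hx
  rw [isIntegral_algebraMap_iff (algebraMap ℚ ℂ).injective] at h1
  obtain ⟨a, ha⟩ := IsIntegrallyClosed.isIntegral_iff.1 h1
  refine ⟨a, ?_⟩
  rw [← ha]
  simp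

end Rat

end P179P
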