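import Vale.Agent.P179.H905.N5b

/-!
# Fusion of powers in groups with abelian Sylow `p`-subgroups; existence of the exponent `m`
-/

namespace P179P

open P179H524 P179C P179A Finset Subgroup

open P179X (autOrd)

open scoped Classical

variable {p : ℕ} [hp : Fact p.Prime] {G : Type*} [Group G] [Finite G]

/-- If `m` generates the units modulo `p` and `m ^ e = 1` mod `p`, `e > 0`, then `p - 1 ≤ e`. -/
theorem le_of_pow_modEq_one {m e : ℕ} (he : 0 < e) (h : m ^ e ≡ 1 [MOD p])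
    (hgen : ∀ j : ℕ, ¬ p ∣ j → ∃ i : ℕ, m ^ i ≡ j [MOD p]) : p - 1 ≤ e := by
  have hu : IsUnit (m : ZMod p) := by
    have h1 : ((m : ZMod p)) ^ e = 1 := by
      have := (ZMod.natCast_eq_natCast_iff _ _ p).2 h
      simpa using this
    exact (isUnit_pow_iff he.ne').1 (h1 ▸ isUnit_one)
  obtain ⟨u, hu⟩ := hu
  have h1 : u ^ e = 1 := by
    apply Units.ext
    rw [Units.val_pow_eq_pow_val, hu, Units.val_one]
    have := (ZMod.natCast_eq_natCast_iff _ _ p).2 h
    simpa using this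
  have h2 : ∀ v : (ZMod p)ˣ, v ∈ Subgroup.zpowers u := by
    intro v
    have hv : ¬ p ∣ (v : ZMod p).val := by
      intro hd
      have h3 : (v : ZMod p).val = 0 :=
        Nat.eq_zero_of_dvd_of_lt hd (ZMod.val_lt _)
      rw [ZMod.val_eq_zero] at h3
      exact v.ne_zero h3
    obtain ⟨i, hi⟩ := hgen _ hv
    rw [Subgroup.mem_zpowers_iff]
    refine ⟨i, Units.ext ?_⟩
    rw [zpow_natCast, Units.val_pow_eq_pow_val, hu]
    have := (ZMod.natCast_eq_natCast_iff _ _ p).2 hi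
    rw [Nat.cast_pow, ZMod.natCast_zmod_val] at this
    exact this
  have h3 : orderOf u = p - 1 := by
    rw [orderOf_eq_card_of_forall_mem_zpowers h2, Nat.card_eq_fintype_card, ZMod.card_units]
  rw [← h3]
  exact Nat.le_of_dvd he (orderOf_dvd_of_pow_eq_one h1)

/-- the powers of `p`-elements are not conjugate -/
theorem not_isConj_pow (P : Sylow p G) (hab : ∀ a ∈ P, ∀ b ∈ P, a * b = b * a)
    (he : autOrd (P : Subgroup G) < p - 1) {m : ℕ}
    (hgen : ∀ j : ℕ, ¬ p ∣ j → ∃ i : ℕ, m ^ i ≡ j [MOD ordProj[p] (Nat.card G)])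
    (u : G) (hu1 : u ≠ 1) (hu : ∃ n : ℕ, u ^ p ^ n = 1) : ¬ IsConj u (u ^ m) := by
  intro hc
  -- conjugate `u` into `P`
  have hPz : IsPGroup p (zpowers u) := by
    rintro ⟨x, hx⟩
    obtain ⟨j, rfl⟩ := mem_zpowers_iff.1 hx
    obtain ⟨n, hn⟩ := hu
    refine ⟨n, Subtype.ext ?_⟩
    change (u ^ j) ^ p ^ n = 1
    rw [← zpow_natCast, ← zpow_mul, mul_comm, zpow_mul, zpow_natCast, hn, one_zpow]
  obtain ⟨Q, hQ⟩ := hPz.exists_le_sylow
  obtain ⟨g, hg⟩ := MulAction.exists_smul_eq G Q P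
  let v := g * u * g⁻¹
  have hvP : v ∈ P := by
    rw [← hg]
    exact (Subgroup.smul_mem_pointwise_smul_iff (a := MulAut.conj g) (S := (Q : Subgroup G))
      (x := u)).2 (hQ (mem_zpowers u))
  have hv1 : v ≠ 1 := by
    intro h
    apply hu1
    have : u = g⁻¹ * v * g := by simp only [v]; group
    rw [this, h]; group
  have hvc : IsConj v (v ^ m) := by
    have h1 : IsConj u v := isConj_iff.2 ⟨g, rfl⟩
    have h2 : IsConj (u ^ m) (v ^ m) := isConj_iff.2 ⟨g, by simp only [v]; rw [conj_pow]⟩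
    exact (h1.symm.trans hc).trans h2
  obtain ⟨t, ht⟩ := isConj_iff.1 hvc
  have : IsMulCommutative (P : Subgroup G) := ⟨⟨fun a b => Subtype.ext (hab a a.2 b b.2)⟩⟩
  obtain ⟨n, hn, hn2⟩ := P.conj_eq_normalizer_conj_of_mem v t⁻¹ hvP (by
    rw [inv_inv, ht]; exact pow_mem hvP m)
  rw [inv_inv, ht] at hn2
  -- powers of `n⁻¹`
  have hpow : ∀ i : ℕ, (n⁻¹) ^ i * v * ((n⁻¹) ^ i)⁻¹ = v ^ m ^ i := by
    intro i
    induction i with
    | zero => simp
    | succ i ih =>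
      have h1 : (n⁻¹) ^ (i + 1) * v * ((n⁻¹) ^ (i + 1))⁻¹ =
          n⁻¹ * ((n⁻¹) ^ i * v * ((n⁻¹) ^ i)⁻¹) * (n⁻¹)⁻¹ := by
        rw [pow_succ']; group
      rw [h1, ih, ← conj_pow, inv_inv, ← hn2, ← pow_mul, ← pow_succ']
  let N := normalizer ((P : Subgroup G) : Set G)
  let C' : Subgroup N := (centralizer ((P : Subgroup G) : Set G)).subgroupOf N
  have hC'n : C'.Normal := by
    have : (centralizer ((P : Subgroup G) : Set G)).subgroupOf N =
        (centralizer ((P : Subgroup G) : Set G)).subgroupOf N := rfl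
    refine ⟨fun c hc x => ?_⟩
    rw [mem_subgroupOf, mem_centralizer_iff] at hc ⊢
    intro y hy
    have h1 : (x : G)⁻¹ * y * x ∈ P := by
      have := (mem_normalizer_iff.1 (inv_mem x.2)) y
      rw [inv_inv] at this
      exact this.1 hy
    have h2 := hc _ h1
    change y * ((x : G) * c * (x : G)⁻¹) = (x : G) * c * (x : G)⁻¹ * y
    calc y * ((x : G) * c * (x : G)⁻¹) = x * ((x : G)⁻¹ * y * x * c) * (x : G)⁻¹ := by group
      _ = x * ((c : G) * ((x : G)⁻¹ * y * x)) * (x : G)⁻¹ := by rw [h2]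
      _ = _ := by group
  have hcard : Nat.card (N ⧸ C') = autOrd (P : Subgroup G) := rfl
  have hepos : 0 < autOrd (P : Subgroup G) := by rw [← hcard]; exact Nat.card_pos
  have h3 : (QuotientGroup.mk' C' (⟨n⁻¹, inv_mem hn⟩ : N)) ^ (autOrd (P : Subgroup G)) = 1 := by
    rw [← hcard]; exact pow_card_eq_one'
  rw [← map_pow] at h3
  have h4 : (⟨n⁻¹, inv_mem hn⟩ : N) ^ (autOrd (P : Subgroup G)) ∈ C' :=
    (QuotientGroup.eq_one_iff _).1 h3
  rw [mem_subgroupOf, mem_centralizer_iff] at h4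
  have h5 := h4 v hvP
  have h6 : v ^ m ^ (autOrd (P : Subgroup G)) = v := by
    rw [← hpow, mul_inv_eq_iff_eq_mul]
    exact h5.symm
  have h7 : m ^ (autOrd (P : Subgroup G)) ≡ 1 [MOD orderOf v] := by
    rw [← pow_eq_pow_iff_modEq, h6, pow_one]
  have hpv : p ∣ orderOf v := by
    obtain ⟨j, hj⟩ := P.2 ⟨v, hvP⟩
    have hj' : v ^ p ^ j = 1 := by simpa using congrArg Subtype.val hj
    obtain ⟨a, -, ha⟩ := (Nat.dvd_prime_pow hp.out).1 (orderOf_dvd_of_pow_eq_one hj')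
    rw [ha]
    refine dvd_pow_self p fun h0 => hv1 ?_
    rw [← orderOf_eq_one_iff, ha, h0, pow_zero]
  have hpG : p ∣ ordProj[p] (Nat.card G) := by
    have h8 : p ∣ Nat.card G := hpv.trans (orderOf_dvd_natCard v)
    have h9 : 1 ≤ (Nat.card G).factorization p :=
      (hp.out.pow_dvd_iff_le_factorization Nat.card_pos.ne').1 (by rwa [pow_one])
    exact dvd_pow_self p (by omega)
  have h10 := le_of_pow_modEq_one (p := p) hepos (h7.of_dvd hpv) (fun j hj => by
    obtain ⟨i, hi⟩ := hgen j hj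
    exact ⟨i, hi.of_dvd hpG⟩)
  omega

omit [Finite G] in
/-- existence of the exponent -/
theorem exists_exponent (hp2 : p ≠ 2) (n : ℕ) (hn : n ≠ 0) :
    ∃ m : ℕ, m.Coprime n ∧ m ≡ 1 [MOD ordCompl[p] n] ∧
      ∀ j : ℕ, ¬ p ∣ j → ∃ i : ℕ, m ^ i ≡ j [MOD ordProj[p] n] := by
  have hcyc : IsCyclic (ZMod (ordProj[p] n))ˣ := ZMod.isCyclic_units_of_prime_pow p hp.out hp2 _
  obtain ⟨g, hg⟩ := hcyc.exists_generator
  have hne : NeZero (ordProj[p] n) := ⟨pow_ne_zero _ hp.out.ne_zero⟩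
  have hcop : Nat.Coprime (ordProj[p] n) (ordCompl[p] n) :=
    Nat.Coprime.pow_left _ ((Nat.Prime.coprime_iff_not_dvd hp.out).mpr
      (Nat.not_dvd_ordCompl hp.out hn))
  obtain ⟨m, hm1, hm2⟩ := Nat.chineseRemainder hcop (g : ZMod (ordProj[p] n)).val 1
  have hmg : (m : ZMod (ordProj[p] n)) = g := by
    have := (ZMod.natCast_eq_natCast_iff _ _ _).2 hm1
    rw [this, ZMod.natCast_zmod_val]
  refine ⟨m, ?_, hm2, ?_⟩
  · rw [← Nat.ordProj_mul_ordCompl_eq_self n p]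
    refine Nat.Coprime.mul_right ?_ ?_
    · have := (ZMod.isUnit_iff_coprime m (ordProj[p] n)).1 (by rw [hmg]; exact g.isUnit)
      exact this
    · have h := hm2.gcd_eq
      rw [Nat.gcd_one_left] at h
      exact h
  · intro j hj
    have hju : IsUnit (j : ZMod (ordProj[p] n)) := by
      rw [ZMod.isUnit_iff_coprime]
      exact Nat.Coprime.pow_right _ ((Nat.Prime.coprime_iff_not_dvd hp.out).2 hj).symm
    obtain ⟨v, hv⟩ := hju
    have h1 := hg v
    rw [← mem_powers_iff_mem_zpowers] at h1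
    obtain ⟨i, hi⟩ := h1
    refine ⟨i, ?_⟩
    rw [← ZMod.natCast_eq_natCast_iff, Nat.cast_pow, hmg, ← hv]
    have := congrArg Units.val hi
    simpa using this

end P179P
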