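import Vale.Agent.P179.H905.N5d

/-!
# (N5) the congruence for the principal block and the bound `|S| < p`
-/

namespace P179P

open P179H524 P179C P179A Finset Subgroup

open P179X (IrrB Srat SameSec pp X4 IsCompl aval autOrd)

open scoped Classical

section Congr

variable {p : ℕ} [hp : Fact p.Prime] {k : Type*} [Field k] [CharP k p]
  {red : integralClosure ℤ ℂ →+* k} {G : Type*} [Group G] [Fintype G]

omit [CharP k p] hp in
/-- characters in the same block have the same reduction of the central character -/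
theorem lam_eq_of_mem {B : MonoidAlgebra k G} {χ ψ : G → ℂ} (hχ : χ ∈ IrrB red B)
    (hψ : ψ ∈ IrrB red B) (a : G → k) : lam red χ a = lam red ψ a := by
  unfold P179X.IrrB at hχ hψ
  rw [mem_filter, P179X.mem_Irr] at hχ hψ
  unfold lam
  refine finsum_congr fun D => ?_
  congr 1
  obtain ⟨h, rfl⟩ := ConjClasses.exists_rep D
  rw [om_ind hχ.1, om_ind hψ.1, ← hχ.2 h, ← hψ.2 h]

/-- the indicator of the `p`-section of `w` -/
noncomputable def secInd (p : ℕ) {G : Type*} [Group G] (w : G) : G → ℤ :=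
  fun y => if IsConj w (pp p y) then 1 else 0

theorem isCF_secInd (w : G) : IsCF (secInd p w) := by
  intro g y
  unfold secInd
  rw [pp_conj]
  have h1 : IsConj (pp p y) (g * pp p y * g⁻¹) := isConj_iff.2 ⟨g, rfl⟩
  have h2 : IsConj w (g * pp p y * g⁻¹) ↔ IsConj w (pp p y) :=
    ⟨fun h => h.trans h1.symm, fun h => h.trans h1⟩
  by_cases h : IsConj w (pp p y)
  · rw [if_pos h, if_pos (h2.2 h)]
  · rw [if_neg h, if_neg (fun h' => h (h2.1 h'))]

omit hp in
theorem om_secInd (χ : G → ℂ) (w : G) : om χ (secInd p w) = secSum p w χ / χ 1 := by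
  unfold om secSum secInd
  rw [finsum_eq_sum_of_fintype]
  congr 1
  refine Finset.sum_congr rfl fun y _ => ?_
  split_ifs <;> simp

theorem not_dvd_card_Sec {P : Sylow p G} (hab : ∀ a ∈ P, ∀ b ∈ P, a * b = b * a) {w : G}
    (hwP : w ∈ P) {K : Subgroup G} (hK : IsCompl p w K) : ¬ p ∣ (Sec p w).card := by
  have h1 := card_Sec hab hwP hK
  rw [← Nat.card_eq_fintype_card] at h1
  have h2 : Nat.card P * (P : Subgroup G).index = Nat.card G := Subgroup.card_mul_index _
  have h3 : (Sec p w).card = (P : Subgroup G).index := by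
    have h4 : Nat.card P * (Sec p w).card = Nat.card P * (P : Subgroup G).index := by rw [h1, h2]
    exact Nat.eq_of_mul_eq_mul_left Nat.card_pos h4
  rw [h3]
  exact P.not_dvd_index

/-- the congruence -/
theorem aval_congr {B : MonoidAlgebra k G} {χ : Irr G} (hχ : χ.1 ∈ IrrB red B)
    (h1 : (fun _ : G => (1 : ℂ)) ∈ IrrB red B) {P : Sylow p G}
    (hab : ∀ a ∈ P, ∀ b ∈ P, a * b = b * a) {w : G}
    (hwP : w ∈ P) {K : Subgroup G} (hK : IsCompl p w K) {a : ℤ} (ha : aval K χ.1 w = a)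
    {d : ℕ} (hd0 : 0 < d) (hd : χ.1 1 = d) : a ≠ 0 ∧ a ≡ d [ZMOD p] := by
  have hz := isCF_secInd (p := p) w
  have hirr1 : IsIrrChar (fun _ : G => (1 : ℂ)) := isIrr_of_mem_IrrB' h1
  have hPne : (Nat.card P : ℂ) ≠ 0 := by exact_mod_cast Nat.card_pos.ne'
  have hGP := card_Sec hab hwP hK
  have hdC : (d : ℂ) ≠ 0 := by exact_mod_cast hd0.ne'
  -- the two central characters
  have e1 : om χ.1 (secInd p w) * d = (Sec p w).card * a := by
    rw [om_secInd, hd, div_mul_cancel₀ _ hdC]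
    have e2 := card_mul_secSum_aval hab hwP hK χ
    rw [ha] at e2
    have e3 : (Fintype.card G : ℂ) = Nat.card P * (Sec p w).card := by exact_mod_cast hGP.symm
    rw [e3, mul_assoc] at e2
    exact mul_left_cancel₀ hPne e2
  have e4 : om (fun _ : G => (1 : ℂ)) (secInd p w) = (Sec p w).card := by
    rw [om_secInd, div_one, secSum_eq_sum]
    simp
  have hint := isIntegral_om χ.2 hz
  have hrat : ∃ q : ℚ, om χ.1 (secInd p w) = q := by
    refine ⟨(Sec p w).card * a / d, ?_⟩
    push_cast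
    rw [eq_div_iff hdC, e1]
  obtain ⟨t, ht⟩ := int_of_rat_integral hint hrat
  have e5 : redC red (om χ.1 (secInd p w)) = redC red (om (fun _ : G => (1 : ℂ)) (secInd p w)) := by
    rw [← lam_int red χ.2 hz, ← lam_int red hirr1 hz]
    exact lam_eq_of_mem hχ h1 _
  have hredint : ∀ n : ℤ, redC red (n : ℂ) = (n : k) := by
    intro n
    have h := redC_intCast_mul red (one_mem (integralClosure ℤ ℂ)) n
    rw [mul_one, redC_of_mem red (one_mem _)] at h
    have h2 : red ⟨1, one_mem (integralClosure ℤ ℂ)⟩ = 1 := map_one red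
    rw [h, h2, mul_one]
  rw [ht, e4, hredint] at e5
  have e6 : redC red (((Sec p w).card : ℕ) : ℂ) = ((Sec p w).card : k) := by
    have := hredint ((Sec p w).card : ℤ)
    push_cast at this
    exact this
  rw [e6] at e5
  have e7 : (p : ℤ) ∣ t - (Sec p w).card := by
    rw [← CharP.intCast_eq_zero_iff k p]
    push_cast
    rw [e5, sub_self]
  have e8 : t * d = (Sec p w).card * a := by
    rw [ht] at e1
    exact_mod_cast e1
  have hS := not_dvd_card_Sec hab hwP hK
  -- valuations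
  obtain ⟨v, d', hd', hdd⟩ := Nat.exists_eq_pow_mul_and_not_dvd hd0.ne' p hp.out.ne_one
  have e9 : (p : ℤ) ^ (v + 1) ∣ a - d := by
    have h2 : (p : ℤ) ^ (v + 1) ∣ (Sec p w).card * (a - d) := by
      have h3 : ((Sec p w).card : ℤ) * (a - d) = (t - (Sec p w).card) * d := by
        rw [mul_sub, ← e8]; ring
      rw [h3, pow_succ', hdd]
      push_cast
      rw [mul_comm ((p : ℤ) ^ v) (d' : ℤ), ← mul_assoc]
      exact mul_dvd_mul (e7.mul_right _) dvd_rfl
    have hcop : IsCoprime ((p : ℤ) ^ (v + 1)) ((Sec p w).card : ℤ) := by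
      apply IsCoprime.pow_left
      exact Nat.isCoprime_iff_coprime.2 ((Nat.Prime.coprime_iff_not_dvd hp.out).2 hS)
    exact hcop.dvd_of_dvd_mul_left h2
  refine ⟨?_, ?_⟩
  · rintro rfl
    rw [zero_sub, dvd_neg] at e9
    have h3 : p ^ (v + 1) ∣ d := by exact_mod_cast e9
    rw [hdd, pow_succ] at h3
    exact hd' ((Nat.mul_dvd_mul_iff_left (pow_pos hp.out.pos v)).1 h3)
  · have h3 : (p : ℤ) ∣ a - d := (dvd_pow_self _ (Nat.succ_ne_zero v)).trans e9
    exact (Int.modEq_iff_dvd.2 h3).symm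

end Congr

section Final

variable {p : ℕ} [hp : Fact p.Prime] {k : Type*} [Field k] [CharP k p]
  {red : integralClosure ℤ ℂ →+* k} {G : Type} [Group G] [Fintype G]

/-- **(N5)** the number of `p`-rational characters in the principal block is less than `p`. -/
theorem N5 (hX9 : P179X.X9) {B : MonoidAlgebra k G}
    (h1 : (fun _ : G => (1 : ℂ)) ∈ IrrB red B) {P : Sylow p G}
    (hab : ∀ a ∈ P, ∀ b ∈ P, a * b = b * a) (h4 : 4 * autOrd (P : Subgroup G) ≤ p)
    {m : ℕ} (hm1 : m ≡ 1 [MOD ordCompl[p] (Nat.card G)])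
    (hgen : ∀ j : ℕ, ¬ p ∣ j → ∃ i : ℕ, m ^ i ≡ j [MOD ordProj[p] (Nat.card G)]) :
    (Srat red m B).card < p := by
  have hK' : ∀ w : G, ∃ K : Subgroup G, w ∈ WW P → IsCompl p w K := by
    intro w
    by_cases hw : w ∈ WW P
    · obtain ⟨K, hK⟩ := exists_compl hab (mem_WW.1 hw)
      exact ⟨K, fun _ => hK⟩
    · exact ⟨⊥, fun h => absurd h hw⟩
  choose K hK using hK'
  have hmem : ∀ χ ∈ Srat red m B, χ ∈ IrrB red B ∧ ∀ g, χ (g ^ m) = χ g := by
    intro χ hχ
    simp only [P179X.Srat, mem_filter] at hχ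
    exact hχ
  let toIrr : {χ // χ ∈ Srat red m B} → Irr G := fun χ => ⟨χ.1, isIrr_of_mem_IrrB' (hmem χ.1 χ.2).1⟩
  have hint : ∀ (χ : {χ // χ ∈ Srat red m B}) (w : {w // w ∈ WW P}),
      ∃ a : ℤ, aval (K w.1) χ.1 w.1 = a := by
    intro χ w
    exact int_of_rat_integral (aval_integral (toIrr χ) (hK w.1 w.2))
      (aval_rat (toIrr χ) (isPEl_of_mem (mem_WW.1 w.2).1) (hK w.1 w.2) hm1 hgen (hmem χ.1 χ.2).2)
  choose a ha using hint
  have hcardW : Fintype.card {w // w ∈ WW P} = (WW P).card := Fintype.card_coe _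
  have hcardI : Fintype.card {χ // χ ∈ Srat red m B} = (Srat red m B).card := Fintype.card_coe _
  have hWreg : Nat.card {w : G // IsRegEl (P : Subgroup G) w} = (WW P).card := by
    rw [Nat.card_eq_fintype_card, Fintype.card_subtype]
    rfl
  have he1 : 1 ≤ autOrd (P : Subgroup G) := by
    have : 0 < Nat.card (normalizer ((P : Subgroup G) : Set G) ⧸
      (centralizer ((P : Subgroup G) : Set G)).subgroupOf (normalizer ((P : Subgroup G) : Set G))) :=
      Nat.card_pos
    exact this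
  rw [← hcardI]
  refine hX9 p (autOrd (P : Subgroup G)) (Nat.card P) hp.out he1 h4 Nat.card_pos
    {w // w ∈ WW P} {χ // χ ∈ Srat red m B} a ?_ ?_ ?_ ?_ ?_ ?_
  · rw [hcardW, Nat.card_eq_fintype_card, Fintype.card_subtype]
    refine Finset.card_le_card fun w hw => ?_
    simp only [mem_filter, mem_univ, true_and]
    exact (mem_WW.1 hw).1
  · rw [hcardW, ← hWreg]
    exact card_regEl P
  · intro χ w
    obtain ⟨d, hd0, hd⟩ := (toIrr χ).exists_deg
    exact (aval_congr (χ := toIrr χ) (hmem χ.1 χ.2).1 h1 hab (mem_WW.1 w.2).1 (hK w.1 w.2)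
      (ha χ w) hd0 hd).1
  · intro χ
    obtain ⟨d, hd0, hd⟩ := (toIrr χ).exists_deg
    exact ⟨d, fun w => (aval_congr (χ := toIrr χ) (hmem χ.1 χ.2).1 h1 hab (mem_WW.1 w.2).1
      (hK w.1 w.2) (ha χ w) hd0 hd).2⟩
  · intro χ
    have h := L2_bound hab hK (toIrr χ)
    rw [← Finset.sum_coe_sort] at h
    have h2 : ∀ w : {w // w ∈ WW P}, ‖aval (K w.1) (toIrr χ).1 w.1‖ ^ 2 = ((a χ w : ℝ)) ^ 2 := by
      intro w
      have : aval (K w.1) (toIrr χ).1 w.1 = a χ w := ha χ w
      rw [this, Complex.norm_intCast, sq_abs]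
    rw [Finset.sum_congr rfl fun w _ => h2 w] at h
    have h3 : ((∑ w, a χ w ^ 2 : ℤ) : ℝ) ≤ ((Nat.card P : ℤ) * (autOrd (P : Subgroup G) : ℤ) : ℤ) := by
      push_cast
      linarith [h]
    exact_mod_cast h3
  · have h := bessel_bound hab hK (Finset.univ.image toIrr)
    have hinj : Function.Injective toIrr := by
      intro x y hxy
      have h := congrArg Subtype.val hxy
      exact Subtype.ext h
    rw [Finset.sum_image fun x _ y _ hxy => hinj hxy] at h
    have h2 : ∀ χ : {χ // χ ∈ Srat red m B}, ‖∑ w ∈ WW P, aval (K w) (toIrr χ).1 w‖ ^ 2 =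
        ((∑ w, a χ w : ℤ) : ℝ) ^ 2 := by
      intro χ
      rw [← Finset.sum_coe_sort]
      have : ∀ w : {w // w ∈ WW P}, aval (K w.1) (toIrr χ).1 w.1 = ((a χ w : ℤ) : ℂ) :=
        fun w => ha χ w
      rw [Finset.sum_congr rfl fun w _ => this w, ← Int.cast_sum, Complex.norm_intCast, sq_abs]
    rw [Finset.sum_congr rfl fun χ _ => h2 χ] at h
    have h3 : ((∑ χ, (∑ w, a χ w) ^ 2 : ℤ) : ℝ) ≤
        ((Nat.card P : ℤ) * (Fintype.card {w // w ∈ WW P} : ℤ) *
          (autOrd (P : Subgroup G) : ℤ) : ℤ) := by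
      rw [hcardW]
      push_cast
      push_cast at h
      linarith [h]
    exact_mod_cast h3

end Final

end P179P
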