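import Vale.Agent.P179.H905.N5e
import Vale.Agent.P179.H166.Blocks

/-!
# The principal block contains the trivial character
-/

namespace P179P

open P179H524 P179C P179A Finset Subgroup

open P179X (IrrB Srat IsPrincipal)

open scoped Classical

section

variable {k : Type*} [Field k] {G : Type*} [Group G]

theorem trivial_irreducible (k : Type*) [Field k] (G : Type*) [Group G] :
    (Representation.trivial k G (Fin 1 → k)).IsIrreducible := by
  have hfin : Module.finrank k (Fin 1 → k) = 1 := by simp
  refine { exists_pair_ne := ⟨⊥, ⊤, ?_⟩, eq_bot_or_eq_top := ?_ }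
  · intro h
    have h1 : (1 : Fin 1 → k) ∈ (⊥ : Subrepresentation (Representation.trivial k G (Fin 1 → k))) := by
      rw [h]; trivial
    have h2 : (1 : Fin 1 → k) = 0 := h1
    exact one_ne_zero (congrFun h2 0)
  · intro W
    rcases eq_or_ne W.toSubmodule ⊥ with h | h
    · left
      exact Subrepresentation.toSubmodule_injective h
    · right
      refine Subrepresentation.toSubmodule_injective ?_
      obtain ⟨v, hv, hv0⟩ := (Submodule.ne_bot_iff _).1 h
      change W.toSubmodule = ⊤
      rw [eq_top_iff]
      intro x _
      have hv1 : v 0 ≠ 0 := by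
        intro h0
        apply hv0
        ext i
        rw [Subsingleton.elim i 0]; exact h0
      have : x = (x 0 / v 0) • v := by
        ext i
        rw [Subsingleton.elim i 0]
        simp [hv1]
      rw [this]
      exact W.toSubmodule.smul_mem _ hv

/-- the trivial representation -/
noncomputable def trivIrr (k : Type*) [Field k] (G : Type*) [Group G] : IrrRep k G :=
  ⟨⟨1, Representation.trivial k G (Fin 1 → k)⟩, trivial_irreducible k G⟩

/-- the augmentation -/
noncomputable def augHom (k : Type*) [Field k] (G : Type*) [Group G] : MonoidAlgebra k G →ₐ[k] k :=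
  MonoidAlgebra.lift k k G (1 : G →* k)

theorem augHom_apply [Finite G] (z : MonoidAlgebra k G) : augHom k G z = ∑ᶠ g : G, z.coeff g := by
  have := Fintype.ofFinite G
  rw [finsum_eq_sum_of_fintype]
  induction z using MonoidAlgebra.induction_linear with
  | zero => simp
  | add x y hx hy => simp [hx, hy, Finset.sum_add_distrib]
  | single g a =>
    simp only [augHom, MonoidAlgebra.lift_single, MonoidHom.one_apply, smul_eq_mul, mul_one,
      MonoidAlgebra.coeff_single, Finsupp.single_apply]
    rw [Finset.sum_ite_eq, if_pos (mem_univ _)]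

theorem trivIrr_apply (z : MonoidAlgebra k G) :
    (trivIrr k G).1.2.asAlgebraHom z = augHom k G z • 1 := by
  induction z using MonoidAlgebra.induction_linear with
  | zero => simp
  | add x y hx hy => rw [map_add, map_add, hx, hy, add_smul]
  | single g a =>
    rw [Representation.asAlgebraHom_single]
    simp only [augHom, MonoidAlgebra.lift_single, MonoidHom.one_apply, smul_eq_mul, mul_one]
    rfl

end

section

variable {k : Type*} [Field k] [IsAlgClosed k] {G : Type} [Group G] [Finite G]

/-- the central character of the principal block -/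
theorem centralChar_principal {B : MonoidAlgebra k G} (hB : IsBlock B) (hp : IsPrincipal B)
    (z : MonoidAlgebra k G) (hz : z ∈ Subalgebra.center k (MonoidAlgebra k G)) :
    centralChar B z = augHom k G z := by
  have h1 : InBlock (trivIrr k G) B := by
    unfold P179C.InBlock
    rw [trivIrr_apply, augHom_apply]
    unfold P179X.IsPrincipal at hp
    rw [hp, one_smul]
  exact P179C.centralChar_eq B hB (trivIrr k G) h1
    ((augHom k G).comp (Subalgebra.val _)) (fun z => trivIrr_apply _) ⟨z, hz⟩

theorem isIrrChar_one (G : Type*) [Group G] : IsIrrChar (fun _ : G => (1 : ℂ)) := by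
  refine ⟨1, Representation.trivial ℂ G (Fin 1 → ℂ), trivial_irreducible ℂ G, ?_⟩
  ext g
  have : (Representation.trivial ℂ G (Fin 1 → ℂ)) g = 1 := rfl
  rw [Representation.character, this, LinearMap.trace_one]
  simp

omit [IsAlgClosed k] in
theorem redC_natCast (red : integralClosure ℤ ℂ →+* k) (n : ℕ) : redC red (n : ℂ) = (n : k) := by
  have h := redC_intCast_mul red (one_mem (integralClosure ℤ ℂ)) (n : ℤ)
  rw [mul_one, redC_of_mem red (one_mem _)] at h
  have h2 : red ⟨1, one_mem (integralClosure ℤ ℂ)⟩ = 1 := map_one red
  rw [h2, mul_one] at h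
  simpa using h

/-- the trivial character is in the principal block -/
theorem one_mem_IrrB (red : integralClosure ℤ ℂ →+* k) {B : MonoidAlgebra k G} (hB : IsBlock B)
    (hp : IsPrincipal B) : (fun _ : G => (1 : ℂ)) ∈ IrrB red B := by
  unfold P179X.IrrB
  rw [mem_filter, P179X.mem_Irr]
  refine ⟨isIrrChar_one G, fun h => ?_⟩
  rw [centralChar_principal hB hp _ (classSum_mem_center h), augHom_apply]
  have := Fintype.ofFinite G
  rw [finsum_eq_sum_of_fintype]
  simp only [coeff_classSum]
  rw [mul_one, div_one, redC_natCast, Nat.card_eq_fintype_card, Fintype.card_subtype]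
  have h2 : ∀ x : G, ((ind (ConjClasses.mk h) x : ℤ) : k) = if IsConj h x then 1 else 0 := by
    intro x
    unfold ind
    by_cases hx : IsConj h x
    · rw [if_pos hx, if_pos (ConjClasses.mk_eq_mk_iff_isConj.mpr hx.symm)]; simp
    · rw [if_neg hx, if_neg (fun h' => hx (ConjClasses.mk_eq_mk_iff_isConj.mp h').symm)]; simp
  rw [Finset.sum_congr rfl fun x _ => h2 x]
  simp

end

end P179P
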