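import Vale.Agent.P179.H905.DZV
import Vale.Agent.P179.H905.N5e
import Vale.Agent.P179.H166.NumW
import Vale.Agent.P179.H905.Triv

/-!
# (N6) the weights of the principal block: the congruence, and the radical subgroup
-/

namespace P179P

open P179H524 P179C P179A Finset Subgroup

open P179X (IsPrincipal autOrd)

open scoped Classical

section

variable {p : ℕ} [hp : Fact p.Prime] {k : Type*} [Field k] [IsAlgClosed k] [CharP k p]
  (red : integralClosure ℤ ℂ →+* k) {G : Type} [Group G] [Fintype G]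

omit hp [IsAlgClosed k] in
theorem redC_ne_zero_of_nat {n : ℕ} (h : ¬ p ∣ n) : redC red (n : ℂ) ≠ 0 := by
  rw [redC_natCast]
  intro h0
  exact h ((CharP.cast_eq_zero_iff k p n).1 h0)

/-- the weight `w` belongs to the principal block, in terms of central characters -/
def PW (w : P179H524.Weight p G) : Prop :=
  ∀ g : G, redC red (wOm w (ind (ConjClasses.mk g))) = (Nat.card {x : G // IsConj g x} : k)

theorem ind_mk (g x : G) : ind (ConjClasses.mk g) x = if IsConj g x then (1 : ℤ) else 0 := by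
  unfold ind
  by_cases hx : IsConj g x
  · rw [if_pos hx, if_pos (ConjClasses.mk_eq_mk_iff_isConj.mpr hx.symm)]
  · rw [if_neg hx, if_neg (fun h' => hx (ConjClasses.mk_eq_mk_iff_isConj.mp h').symm)]

omit hp in
theorem wOm_eq (w : P179H524.Weight p G) (z : G → ℤ) :
    wOm w z = om (Weight.infl w) (res (normalizer (w.Q : Set G)) z) := by
  have := Fintype.ofFinite (NQ w.Q)
  exact om_push (QuotientGroup.mk' (w.Q.subgroupOf (normalizer (w.Q : Set G)))) w.φ
    (res (normalizer (w.Q : Set G)) z)

/-- weights in the principal block -/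
theorem pw_of_weightInBlock {B : MonoidAlgebra k G} (hB : IsBlock B) (hpB : IsPrincipal B)
    (w : P179H524.Weight p G) (hw : WeightInBlock red w B) : PW red w := by
  intro g
  have h1 := (weightInBlock_iff_mu red w P179C.blockHomStmt P179C.homBlockStmt B).1 hw
    ⟨classSum k g, classSum_mem_center g⟩
  rw [muHom_apply] at h1
  change lam red (Weight.infl w)
    (fun n : normalizer (w.Q : Set G) => (classSum k g).coeff (n : G)) = _ at h1
  rw [centralChar_principal hB hpB _ (classSum_mem_center g), augHom_apply,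
    finsum_eq_sum_of_fintype] at h1
  simp only [coeff_classSum] at h1
  have h2 : lam red (Weight.infl w) (fun n : normalizer (w.Q : Set G) =>
      ((ind (ConjClasses.mk g) (n : G) : ℤ) : k)) =
      redC red (om (Weight.infl w) (res (normalizer (w.Q : Set G)) (ind (ConjClasses.mk g)))) :=
    lam_int red (isIrrChar_infl w) (isCF_res _ (isCF_ind _))
  rw [h2, ← wOm_eq] at h1
  rw [h1]
  simp only [ind_mk]
  rw [Nat.card_eq_fintype_card, Fintype.card_subtype]
  simp

omit hp [IsAlgClosed k] [CharP k p] [Fintype G] in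
theorem PW.conj {a b : P179H524.Weight p G} (h : PW red a) (hab : a.Conj b) : PW red b := by
  intro g
  rw [← wOm_conj hab (isCF_ind _)]
  exact h g

omit hp [IsAlgClosed k] [CharP k p] in
/-- the basic congruence -/
theorem weight_cong' (w : P179H524.Weight p G) (hw : PW red w) (g : G) :
    (∑ n : normalizer (w.Q : Set G), if IsConj g (n : G) then w.φ (QuotientGroup.mk n)
      else 0) / w.φ 1 ∈ integralClosure ℤ ℂ ∧
    redC red ((∑ n : normalizer (w.Q : Set G), if IsConj g (n : G) then w.φ (QuotientGroup.mk n)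
      else 0) / w.φ 1) = (Nat.card {x : G // IsConj g x} : k) := by
  have h1 := hw g
  rw [wOm_eq] at h1
  have h4 : om (Weight.infl w) (res (normalizer (w.Q : Set G)) (ind (ConjClasses.mk g))) =
      (∑ n : normalizer (w.Q : Set G), if IsConj g (n : G) then w.φ (QuotientGroup.mk n)
      else 0) / w.φ 1 := by
    unfold om
    rw [finsum_eq_sum_of_fintype]
    congr 1
    refine Finset.sum_congr rfl fun n _ => ?_
    unfold res
    rw [ind_mk]
    unfold Weight.infl
    split_ifs <;> simp
  have h5 := isIntegral_om (isIrrChar_infl w)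
    (isCF_res (normalizer (w.Q : Set G)) (isCF_ind (ConjClasses.mk g)))
  rw [h4] at h1 h5
  exact ⟨h5, h1⟩

omit hp [IsAlgClosed k] [CharP k p] in
theorem weight_cong (w : P179H524.Weight p G) (hw : PW red w) (g : G) :
    redC red (∑ n : normalizer (w.Q : Set G), if IsConj g (n : G) then w.φ (QuotientGroup.mk n)
      else 0) = (Nat.card {x : G // IsConj g x} : k) * redC red (w.φ 1) := by
  obtain ⟨h5, h1⟩ := weight_cong' red w hw g
  have hφ1 : w.φ 1 ≠ 0 := Irr.one_ne_zero ⟨w.φ, w.defectZero.1⟩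
  have h6 : w.φ 1 ∈ integralClosure ℤ ℂ := Irr.integral ⟨w.φ, w.defectZero.1⟩ 1
  rw [← h1, ← redC_mul red h5 h6, div_mul_cancel₀ _ hφ1]

omit hp [Fintype G] in
/-- elements of the centralizer of `P` of `p`-power order lie in `P` -/
theorem mem_of_centralizes (P : Sylow p G) (x : G) (hx : ∃ n : ℕ, x ^ p ^ n = 1)
    (hc : ∀ a ∈ P, a * x = x * a) : x ∈ P := by
  have hPz : IsPGroup p (zpowers x) := by
    rintro ⟨y, hy⟩
    obtain ⟨j, rfl⟩ := mem_zpowers_iff.1 hy
    obtain ⟨n, hn⟩ := hx
    refine ⟨n, Subtype.ext ?_⟩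
    change (x ^ j) ^ p ^ n = 1
    rw [← zpow_natCast, ← zpow_mul, mul_comm, zpow_mul, zpow_natCast, hn, one_zpow]
  have hnorm : zpowers x ≤ normalizer ((P : Subgroup G) : Set G) := by
    rw [zpowers_le, mem_normalizer_iff]
    intro a
    constructor
    · intro ha
      rw [← hc a ha, mul_inv_cancel_right]
      exact ha
    · intro ha
      have h2 := hc _ ha
      have h3 : x * a = x * (x * a * x⁻¹) := by
        rw [← h2, mul_assoc, inv_mul_cancel, mul_one]
      rw [mul_left_cancel h3]
      exact ha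
  have h1 : IsPGroup p (zpowers x ⊔ (P : Subgroup G) : Subgroup G) :=
    hPz.to_sup_of_normal_right' P.2 hnorm
  have h2 := P.3 h1 le_sup_right
  have h3 : x ∈ (zpowers x ⊔ (P : Subgroup G) : Subgroup G) :=
    (le_sup_left : zpowers x ≤ _) (mem_zpowers x)
  rw [h2] at h3
  exact h3

/-- the congruence between a class and its intersection with the centralizer of `P` -/
theorem card_class_modEq (P : Sylow p G) (g : G) :
    Nat.card {x : G // IsConj g x} ≡
      Nat.card {x : G // IsConj g x ∧ ∀ a ∈ P, a * x = x * a} [MOD p] := by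
  let act : MulAction (P : Subgroup G) {x : G // IsConj g x} :=
    { smul := fun a x => ⟨(a : G) * x.1 * (a : G)⁻¹, x.2.trans (isConj_iff.2 ⟨a, rfl⟩)⟩
      one_smul := fun x => Subtype.ext (by
        change ((1 : (P : Subgroup G)) : G) * x.1 * ((1 : (P : Subgroup G)) : G)⁻¹ = x.1
        simp)
      mul_smul := fun a b x => Subtype.ext (by
        change ((a * b : (P : Subgroup G)) : G) * x.1 * ((a * b : (P : Subgroup G)) : G)⁻¹ =
          a * (b * x.1 * (b : G)⁻¹) * (a : G)⁻¹
        simp [mul_assoc]) }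
  have h1 := P.2.card_modEq_card_fixedPoints {x : G // IsConj g x}
  refine h1.trans ?_
  rw [Nat.card_congr (α := MulAction.fixedPoints (P : Subgroup G) {x : G // IsConj g x})
    (β := {x : G // IsConj g x ∧ ∀ a ∈ P, a * x = x * a}) ?_]
  exact
    { toFun := fun x => ⟨x.1.1, x.1.2, fun a ha => by
        have h2 := congrArg Subtype.val (x.2 ⟨a, ha⟩)
        exact mul_inv_eq_iff_eq_mul.1 h2⟩
      invFun := fun x => ⟨⟨x.1, x.2.1⟩, fun a => Subtype.ext
        (mul_inv_eq_iff_eq_mul.2 (x.2.2 a.1 a.2))⟩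
      left_inv := fun x => rfl
      right_inv := fun x => rfl }

/-- the order of a nontrivial element of `p`-power order -/
theorem dvd_orderOf_of_pow {K : Type*} [Group K] {x : K} (hx : ∃ n : ℕ, x ^ p ^ n = 1)
    (h1 : x ≠ 1) : p ∣ orderOf x := by
  obtain ⟨n, hn⟩ := hx
  obtain ⟨j, -, hj⟩ := (Nat.dvd_prime_pow hp.out).1 (orderOf_dvd_of_pow_eq_one hn)
  rcases Nat.eq_zero_or_pos j with rfl | hj0
  · rw [pow_zero, orderOf_eq_one_iff] at hj
    exact absurd hj h1
  · rw [hj]; exact dvd_pow_self p hj0.ne'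

omit [IsAlgClosed k] in
include red in
/-- the radical subgroup of a weight of the principal block is a Sylow subgroup -/
theorem weight_sylow (w : P179H524.Weight p G) (hw : PW red w) (P : Sylow p G)
    (hab : ∀ a ∈ P, ∀ b ∈ P, a * b = b * a) (he : autOrd (P : Subgroup G) < p)
    (hQ : w.Q ≤ (P : Subgroup G)) :
    w.Q = (P : Subgroup G) := by
  by_contra hne
  obtain ⟨u, huP, huQ⟩ : ∃ u ∈ (P : Subgroup G), u ∉ w.Q := by
    by_contra hcon
    push Not at hcon
    exact hne (le_antisymm hQ hcon)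
  have hup : ∃ n : ℕ, u ^ p ^ n = 1 := by
    obtain ⟨j, hj⟩ := P.2 ⟨u, huP⟩
    exact ⟨j, by simpa using congrArg Subtype.val hj⟩
  have hxp : ∀ x : G, IsConj u x → ∃ n : ℕ, x ^ p ^ n = 1 := by
    intro x hx
    obtain ⟨n, hn⟩ := hup
    obtain ⟨c, hc⟩ := isConj_iff.1 hx
    exact ⟨n, by rw [← hc, conj_pow, hn, mul_one, mul_inv_cancel]⟩
  have hφ1 : w.φ 1 ≠ 0 := Irr.one_ne_zero ⟨w.φ, w.defectZero.1⟩
  obtain ⟨-, h1⟩ := weight_cong' red w hw u
  -- the left hand side is the number of elements of `u^G` in `Q`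
  have h2 : ∀ n : normalizer (w.Q : Set G), (if IsConj u (n : G) then w.φ (QuotientGroup.mk n)
      else 0) = (if IsConj u (n : G) ∧ (n : G) ∈ w.Q then w.φ 1 else 0) := by
    intro n
    by_cases hc : IsConj u (n : G)
    · rw [if_pos hc]
      by_cases hnQ : (n : G) ∈ w.Q
      · rw [if_pos ⟨hc, hnQ⟩]
        congr 1
        exact (QuotientGroup.eq_one_iff n).2 (mem_subgroupOf.2 hnQ)
      · rw [if_neg (fun h => hnQ h.2)]
        refine dz_vanish p red w.defectZero ?_
        refine dvd_orderOf_of_pow ?_ (fun h => hnQ (mem_subgroupOf.1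
          ((QuotientGroup.eq_one_iff n).1 h)))
        obtain ⟨j, hj⟩ := hxp n hc
        refine ⟨j, ?_⟩
        have h3 : n ^ p ^ j = 1 := Subtype.ext (by simpa using hj)
        rw [← QuotientGroup.mk_pow, h3]
        rfl
    · rw [if_neg hc, if_neg (fun h => hc h.1)]
  have h3 : (∑ n : normalizer (w.Q : Set G), if IsConj u (n : G) then w.φ (QuotientGroup.mk n)
      else 0) = (Nat.card {x : G // IsConj u x ∧ x ∈ w.Q} : ℂ) * w.φ 1 := by
    rw [Finset.sum_congr rfl fun n _ => h2 n, ← Finset.sum_filter, Finset.sum_const, nsmul_eq_mul]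
    congr 2
    rw [← Fintype.card_subtype, ← Nat.card_eq_fintype_card]
    refine Nat.card_congr ?_
    exact
      { toFun := fun x => ⟨x.1.1, x.2⟩
        invFun := fun x => ⟨⟨x.1, le_normalizer x.2.2⟩, x.2⟩
        left_inv := fun x => rfl
        right_inv := fun x => rfl }
  rw [h3, mul_div_cancel_right₀ _ hφ1, redC_natCast] at h1
  -- the right hand side
  have h4 := card_class_modEq P u
  have h5 : Nat.card {x : G // IsConj u x ∧ ∀ a ∈ P, a * x = x * a} =
      Nat.card {x : G // IsConj u x ∧ x ∈ P} := by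
    refine Nat.card_congr (Equiv.subtypeEquivRight fun x => ?_)
    constructor
    · rintro ⟨hx, hc⟩
      exact ⟨hx, mem_of_centralizes P x (hxp x hx) hc⟩
    · rintro ⟨hx, hc⟩
      exact ⟨hx, fun a ha => hab a ha x hc⟩
  rw [h5] at h4
  have h6 : Nat.card {x : G // IsConj u x ∧ x ∈ w.Q} ≡ Nat.card {x : G // IsConj u x ∧ x ∈ P}
      [MOD p] := by
    refine Nat.ModEq.trans ?_ h4
    exact (CharP.natCast_eq_natCast k p).1 h1
  have h7 : Nat.card {x : G // IsConj u x ∧ x ∈ P} ≤ autOrd (P : Subgroup G) := by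
    refine le_trans (le_of_eq ?_) (card_fusion P hab u)
    refine Nat.card_congr (Equiv.subtypeEquivRight fun x => ?_)
    exact ⟨fun h => ⟨h.2, h.1.symm⟩, fun h => ⟨h.2.symm, h.1⟩⟩
  have h8 : Nat.card {x : G // IsConj u x ∧ x ∈ w.Q} < Nat.card {x : G // IsConj u x ∧ x ∈ P} := by
    let f : {x : G // IsConj u x ∧ x ∈ w.Q} → {x : G // IsConj u x ∧ x ∈ P} :=
      fun x => ⟨x.1, x.2.1, hQ x.2.2⟩
    rw [Nat.card_eq_fintype_card, Nat.card_eq_fintype_card]
    refine Fintype.card_lt_of_injective_of_notMem f ?_ (b := ⟨u, IsConj.refl u, huP⟩) ?_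
    · intro x y hxy
      have h := congrArg Subtype.val hxy
      exact Subtype.ext h
    · rintro ⟨x, hx⟩
      have h := congrArg Subtype.val hx
      change x.1 = u at h
      exact huQ (h ▸ x.2.2)
  have h9 := h6.eq_of_lt_of_lt (by omega) (by omega)
  omega

end

end P179P
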