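import Vale.Agent.P179.H905.N6b

/-!
# (N6) at most `|N_G(P) : C_G(P)|` weights in the principal block
-/

namespace P179P

open P179H524 P179C P179A Finset Subgroup

open P179X (IsPrincipal autOrd)

open scoped Classical

section

variable {p : ℕ} [hp : Fact p.Prime] {k : Type*} [Field k] [CharP k p]
  (red : integralClosure ℤ ℂ →+* k)

omit hp in
/-- an irreducible representation whose character is constant modulo the maximal ideal on a normal
subgroup of order prime to `p` is trivial on this subgroup -/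
theorem trivial_of_const {K : Type*} [Group K] [Finite K] {n : ℕ}
    (ρ : Representation ℂ K (Fin n → ℂ)) (hρ : ρ.IsIrreducible) (M : Subgroup K) [M.Normal]
    (hM : ¬ p ∣ Nat.card M) (hn : ¬ p ∣ n)
    (hc : ∀ c ∈ M, redC red (ρ.character c) = redC red (n : ℂ)) : ∀ c ∈ M, ρ c = 1 := by
  have := Fintype.ofFinite M
  let e : Module.End ℂ (Fin n → ℂ) := ∑ c : M, ρ (c : K)
  have he1 : ∀ c ∈ M, ρ c * e = e := by
    intro c hcM
    simp only [e]
    rw [Finset.mul_sum]
    refine Finset.sum_bij (fun d _ => (⟨c, hcM⟩ : M) * d) (fun _ _ => mem_univ _)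
      (fun a _ b _ h => mul_left_cancel h) (fun b _ => ⟨(⟨c, hcM⟩ : M)⁻¹ * b, mem_univ _, by simp⟩)
      (fun d _ => ?_)
    rw [← map_mul]
    rfl
  obtain ⟨l, hl⟩ := exists_scalar ρ hρ e (fun g => by
    simp only [e]
    rw [Finset.mul_sum, Finset.sum_mul]
    refine Finset.sum_bij (fun (d : M) _ =>
      (⟨g⁻¹ * d * g, by
        have := (inferInstance : M.Normal).conj_mem d d.2 g⁻¹
        rwa [inv_inv] at this⟩ : M)) (fun _ _ => mem_univ _) ?_ ?_ ?_
    · intro a _ b _ h
      have h1 := congrArg Subtype.val h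
      have h2 : g⁻¹ * (a : K) * g = g⁻¹ * b * g := h1
      exact Subtype.ext (mul_left_cancel (mul_right_cancel h2))
    · intro b _
      refine ⟨⟨g * b * g⁻¹, (inferInstance : M.Normal).conj_mem b b.2 g⟩, mem_univ _, ?_⟩
      apply Subtype.ext
      change g⁻¹ * (g * b * g⁻¹) * g = (b : K)
      group
    · intro d _
      rw [← map_mul, ← map_mul]
      congr 1
      group)
  have htr : ∑ c : M, ρ.character (c : K) = l * n := by
    have h1 := congrArg (LinearMap.trace ℂ (Fin n → ℂ)) hl
    rw [Algebra.algebraMap_eq_smul_one, map_smul, LinearMap.trace_one] at h1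
    simp only [e, map_sum] at h1
    rw [Module.finrank_fin_fun, smul_eq_mul] at h1
    exact h1
  have hl0 : l ≠ 0 := by
    rintro rfl
    rw [zero_mul] at htr
    have h1 : redC red (∑ c : M, ρ.character (c : K)) = (Nat.card M : k) * (n : k) := by
      have hint : ∀ c ∈ (univ : Finset M), ρ.character (c : K) ∈ integralClosure ℤ ℂ :=
        fun c _ => Irr.integral ⟨ρ.character, n, ρ, hρ, rfl⟩ (c : K)
      rw [redC_sum red _ _ hint,
        Finset.sum_congr rfl fun (c : M) _ => hc c c.2, Finset.sum_const, nsmul_eq_mul,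
        redC_natCast,
        Finset.card_univ, Nat.card_eq_fintype_card]
    have h2 : redC red (0 : ℂ) = 0 := by
      rw [redC_of_mem red (zero_mem _)]; exact map_zero red
    rw [htr, h2] at h1
    rcases mul_eq_zero.1 h1.symm with h3 | h3
    · exact hM ((CharP.cast_eq_zero_iff k p _).1 h3)
    · exact hn ((CharP.cast_eq_zero_iff k p _).1 h3)
  intro c hcM
  have h1 := he1 c hcM
  rw [hl, Algebra.algebraMap_eq_smul_one, mul_smul_comm, mul_one] at h1
  exact smul_right_injective _ hl0 h1

/-- the number of irreducible characters is at most the order -/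
theorem card_irr_le (K : Type*) [Group K] [Finite K] : Nat.card (Irr K) ≤ Nat.card K := by
  have := Fintype.ofFinite K
  have h1 := sum_irr_one (G := K) 1
  rw [if_pos rfl] at h1
  have h2 : ∀ χ : Irr K, ∃ d : ℕ, 0 < d ∧ χ.1 1 = d := fun χ => χ.exists_deg
  choose d hd hd2 using h2
  have h3 : ∑ χ : Irr K, d χ * d χ = Fintype.card K := by
    have h4 : ((∑ χ : Irr K, d χ * d χ : ℕ) : ℂ) = Fintype.card K := by
      rw [← h1]
      push_cast
      refine Finset.sum_congr rfl fun χ _ => ?_
      rw [hd2]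
    exact_mod_cast h4
  rw [Nat.card_eq_fintype_card, Nat.card_eq_fintype_card, ← h3, ← Finset.card_univ,
    Finset.card_eq_sum_ones]
  exact Finset.sum_le_sum fun χ _ => Nat.mul_pos (hd χ) (hd χ)

/-- the centralizer of `Q` in the normalizer of `Q` -/
abbrev CN {G : Type*} [Group G] (Q : Subgroup G) : Subgroup (normalizer (Q : Set G)) :=
  (centralizer (Q : Set G)).subgroupOf (normalizer (Q : Set G))

instance CN_normal {G : Type*} [Group G] (Q : Subgroup G) : (CN Q).Normal := by
  refine ⟨fun c hc x => ?_⟩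
  rw [mem_subgroupOf, mem_centralizer_iff] at hc ⊢
  intro y hy
  have h1 : (x : G)⁻¹ * y * x ∈ Q := by
    have := (mem_normalizer_iff.1 (inv_mem x.2)) y
    rw [inv_inv] at this
    exact this.1 hy
  have h2 := hc _ h1
  change y * ((x : G) * c * (x : G)⁻¹) = (x : G) * c * (x : G)⁻¹ * y
  calc y * ((x : G) * c * (x : G)⁻¹) = x * ((x : G)⁻¹ * y * x * c) * (x : G)⁻¹ := by group
    _ = x * ((c : G) * ((x : G)⁻¹ * y * x)) * (x : G)⁻¹ := by rw [h2]
    _ = _ := by group

/-- the character of a weight of the principal block descends to `N/C` -/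
theorem weight_descends {G : Type} [Group G] [Fintype G] (w : P179H524.Weight p G)
    (hw : PW red w) (P : Sylow p G) (hQ : w.Q = (P : Subgroup G)) :
    ∃ ψ : (normalizer (w.Q : Set G)) ⧸ CN w.Q → ℂ, IsIrrChar ψ ∧
      ∀ n : normalizer (w.Q : Set G), w.φ (QuotientGroup.mk n) = ψ (QuotientGroup.mk n) := by
  have hmemQ : ∀ a : G, a ∈ w.Q ↔ a ∈ P := fun a => by rw [hQ]; exact Iff.rfl
  have hcard : ¬ p ∣ Nat.card (NQ w.Q) := by
    intro hd
    have h1 : Nat.card (NQ w.Q) = (w.Q).relIndex (normalizer (w.Q : Set G)) := rfl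
    rw [h1] at hd
    have h2 : (w.Q).relIndex (normalizer (w.Q : Set G)) ∣ (w.Q).index :=
      Dvd.intro _ (Subgroup.relIndex_mul_index le_normalizer)
    have h3 := hd.trans h2
    rw [hQ] at h3
    exact P.not_dvd_index h3
  obtain ⟨Q, hQp, φ, hφ⟩ := w
  dsimp only at *
  obtain ⟨⟨n, ρ, hρ, rfl⟩, d, hd, hdp⟩ := hφ
  have hdn : d = n := by
    have h1 : ρ.character 1 = n := by
      rw [Representation.char_one]; simp
    rw [h1] at hd
    exact_mod_cast hd.symm
  subst hdn
  have hn : ¬ p ∣ d := by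
    intro hdd
    have hd0 : d ≠ 0 := by
      rintro rfl
      exact Irr.one_ne_zero (⟨ρ.character, 0, ρ, hρ, rfl⟩ : Irr (NQ Q)) (by
        change ρ.character 1 = 0
        rw [hd]; simp)
    rw [Nat.factorization_eq_zero_of_not_dvd hcard, Nat.factorization_eq_zero_iff] at hdp
    rcases hdp with h | h | h
    · exact h hp.out
    · exact h hdd
    · exact hd0 h
  let M : Subgroup (NQ Q) := (CN Q).map (QuotientGroup.mk' _)
  have hMn : M.Normal := Subgroup.Normal.map inferInstance _ (QuotientGroup.mk'_surjective _)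
  have htriv := trivial_of_const red ρ hρ M
    (fun h => hcard (h.trans (Subgroup.card_subgroup_dvd_card M))) hn (by
      rintro c ⟨x, hx, rfl⟩
      have h1 : redC red (ρ.character (QuotientGroup.mk x)) = redC red (ρ.character 1) :=
        weight_const red ⟨Q, hQp, ρ.character, ⟨d, ρ, hρ, rfl⟩, d, hd, hdp⟩ hw P hQ x
          (fun a ha => (mem_centralizer_iff.1 (mem_subgroupOf.1 hx)) a ((hmemQ a).2 ha))
      exact h1.trans (congrArg (redC red) hd))
  let ρ1 : Representation ℂ (normalizer (Q : Set G)) (Fin d → ℂ) :=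
    ρ.comp (QuotientGroup.mk' (Q.subgroupOf (normalizer (Q : Set G))))
  have hρ1 : ρ1.IsIrreducible :=
    (isIrreducible_comp_iff ρ _ (QuotientGroup.mk'_surjective _)).2 hρ
  have hker : ∀ x ∈ CN Q, ρ1 x = 1 := by
    intro x hx
    exact htriv _ ⟨x, hx, rfl⟩
  let ρ2 : Representation ℂ ((normalizer (Q : Set G)) ⧸ CN Q) (Fin d → ℂ) :=
    QuotientGroup.lift (CN Q) ρ1 hker
  have h2 : (ρ2.comp (QuotientGroup.mk' (CN Q)) :
      Representation ℂ (normalizer (Q : Set G)) (Fin d → ℂ)) = ρ1 := by
    ext g : 1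
    rfl
  have hρ2 : ρ2.IsIrreducible := by
    rw [← isIrreducible_comp_iff ρ2 (QuotientGroup.mk' (CN Q)) (QuotientGroup.mk'_surjective _), h2]
    exact hρ1
  exact ⟨ρ2.character, ⟨d, ρ2, hρ2, rfl⟩, fun x => rfl⟩

end

end P179P
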