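import Vale.Agent.P179.H905.WA1

/-!
# Theorem R, the weights of `G ≀ Q` in the base group, II: the count
-/

namespace P179R

open P179H524 P179C P179A P179P P179Y Finset Subgroup RegularWreathProduct

open scoped Classical

section Count

/-- the number of non constant tuples up to the shift -/
theorem card_nonconst (p : ℕ) [hp : Fact p.Prime] (Q : Type) [Group Q] [Finite Q]
    (hQ : Nat.card Q = p) (X : Type) [Finite X] :
    p * Nat.card (Quot fun a b : {c : Q → X // ¬ ∀ q q', c q = c q'} =>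
      ∃ τ : Q, ∀ q, a.1 (τ * q) = b.1 q) + Nat.card X = Nat.card X ^ p := by
  have hX : Finite (Q → X) := inferInstance
  set T := {c : Q → X // ¬ ∀ q q', c q = c q'} with hT
  let act : MulAction Q T :=
    { smul := fun τ c => ⟨fun q => c.1 (τ⁻¹ * q), fun h => c.2 fun q q' => by
        have := h (τ * q) (τ * q')
        simpa using this⟩
      one_smul := fun c => by
        apply Subtype.ext
        funext q
        change c.1 (1⁻¹ * q) = c.1 q
        simp
      mul_smul := fun a b c => by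
        apply Subtype.ext
        funext q
        change c.1 ((a * b)⁻¹ * q) = c.1 (b⁻¹ * (a⁻¹ * q))
        simp [mul_assoc] }
  have hsm : ∀ (τ : Q) (c : T) (q : Q), (τ • c).1 q = c.1 (τ⁻¹ * q) := fun _ _ _ => rfl
  have hfree : ∀ c : T, MulAction.stabilizer Q c = ⊥ := by
    intro c
    rw [eq_bot_iff]
    intro τ hτ
    rw [mem_bot]
    by_contra hne
    apply c.2
    have h1 : ∀ q, c.1 (τ⁻¹ * q) = c.1 q := fun q => by
      rw [← hsm, MulAction.mem_stabilizer_iff.1 hτ]
    have hgen : ∀ q : Q, ∃ n : ℕ, (τ⁻¹) ^ n = q := by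
      intro q
      have h4 : q ∈ Subgroup.zpowers τ⁻¹ := by
        have hord : orderOf τ⁻¹ = p := by
          have h3 : orderOf τ⁻¹ ∣ p := hQ ▸ orderOf_dvd_natCard τ⁻¹
          rcases (Nat.dvd_prime hp.out).1 h3 with h4 | h4
          · exact absurd (inv_eq_one.1 (orderOf_eq_one_iff.1 h4)) hne
          · exact h4
        have h5 : Subgroup.zpowers τ⁻¹ = ⊤ := by
          apply Subgroup.eq_top_of_card_eq
          rw [Nat.card_zpowers, hord, hQ]
        rw [h5]; exact Subgroup.mem_top q
      rw [← mem_powers_iff_mem_zpowers] at h4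
      obtain ⟨n, hn⟩ := h4
      exact ⟨n, hn⟩
    have h3 : ∀ (n : ℕ) q, c.1 ((τ⁻¹) ^ n * q) = c.1 q := by
      intro n
      induction n with
      | zero => intro q; rw [pow_zero, one_mul]
      | succ n ih =>
        intro q
        rw [pow_succ, mul_assoc, ih, h1]
    have h4 : ∀ q, c.1 q = c.1 1 := by
      intro q
      obtain ⟨n, hn⟩ := hgen q
      have := h3 n 1
      rwa [hn, mul_one] at this
    exact fun q q' => (h4 q).trans (h4 q').symm
  have e1 := MulAction.selfEquivOrbitsQuotientProd hfree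
  have h1 : Nat.card T = Nat.card (Quotient (MulAction.orbitRel Q T)) * p := by
    rw [Nat.card_congr e1, Nat.card_prod, hQ]
  have h2 : Nat.card (Quotient (MulAction.orbitRel Q T)) =
      Nat.card (Quot fun a b : T => ∃ τ : Q, ∀ q, a.1 (τ * q) = b.1 q) := by
    refine Nat.card_congr (Quot.congrRight fun a b => ?_)
    change a ∈ MulAction.orbit Q b ↔ _
    rw [MulAction.mem_orbit_iff]
    constructor
    · rintro ⟨τ, rfl⟩
      exact ⟨τ, fun q => by rw [hsm, inv_mul_cancel_left]⟩
    · rintro ⟨τ, h⟩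
      refine ⟨τ, Subtype.ext (funext fun q => ?_)⟩
      rw [hsm, ← h, mul_inv_cancel_left]
  have h3 : Nat.card T + Nat.card X = Nat.card (Q → X) := by
    have h4 : Nat.card {c : Q → X // ∀ q q', c q = c q'} = Nat.card X := by
      refine Nat.card_congr ⟨fun c => c.1 1, fun x => ⟨fun _ => x, fun _ _ => rfl⟩, fun c => ?_,
        fun x => rfl⟩
      apply Subtype.ext
      funext q
      exact c.2 1 q
    rw [← h4, add_comm, ← Nat.card_sum]
    exact Nat.card_congr (Equiv.sumCompl _)
  rw [Nat.card_fun, hQ] at h3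
  rw [← h2, mul_comm, ← h1, h3]

end Count

section TypeA

variable {p : ℕ} [hp : Fact p.Prime] {k : Type*} [Field k] [CharP k p]
  (red : integralClosure ℤ ℂ →+* k) {G : Type} [Group G] [Fintype G] {Q : Type} [Group Q]
  [Fintype Q]

theorem in_ehat_iff [Fintype (G ≀ᵣ Q)] {e : MonoidAlgebra k G}
    (he : e ∈ Subalgebra.center k (MonoidAlgebra k G)) (hee : e * e = e)
    {w : WF p (G ≀ᵣ Q)} {v : Q → WF p G} (h : Cov (incl G Q) w (prodWF v)) :
    w.In red (ehat Q e) ↔ ∀ q, (v q).In red e := by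
  have hc : IsCF (fun x : G ≀ᵣ Q => (ehat Q e).coeff x) := fun x y =>
    (P179C.mem_center_iff _).1 (ehat_mem (Q := Q) e he) x y
  have h0 : ∀ x, x ∉ (incl G Q).range → (ehat Q e).coeff x = 0 := by
    intro x hx
    rw [coeff_ehat, wcoef, if_neg]
    rwa [mem_incl_range] at hx
  have h1 := Cov.lam_eq (incl G Q) incl_injective red h _ hc h0
  have h2 := in_prodWF_iff red v he hee
  rw [← h2]
  unfold WF.In
  rw [← h1]
  have h3 : (fun n : normalizer ((prodWF v).R : Set (Q → G)) => (ehat Q e).coeff (incl G Q n)) =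
      fun n : normalizer ((prodWF v).R : Set (Q → G)) => ∏ q, e.coeff ((n : Q → G) q) := by
    funext n
    rw [coeff_ehat, wcoef_incl]
  rw [h3]

/-- **type A**: the weights of `G ≀ Q` in `ehat Q e` below the base group -/
theorem card_typeA (hQ : Nat.card Q = p) {e : MonoidAlgebra k G}
    (he : e ∈ Subalgebra.center k (MonoidAlgebra k G)) (hee : e * e = e) :
    p * Nat.card (Quot fun a b : {w : WF p (G ≀ᵣ Q) // w.R ≤ (incl G Q).range ∧
      w.In red (ehat Q e)} => WF.Rel a.1 b.1) + numW p red e = numW p red e ^ p := by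
  have hfin : Fintype (G ≀ᵣ Q) := Fintype.ofFinite _
  let S := {v : WF p G // v.In red e}
  let r : S → S → Prop := fun a b => WF.Rel a.1 b.1
  have hr : Equivalence r := ⟨fun a => WF.Rel.refl _, fun h => WF.Rel.symm h,
    fun h h' => WF.Rel.trans h h'⟩
  let X := Quot r
  have hX : numW p red e = Nat.card X := rfl
  have hmk : ∀ a b : S, (Quot.mk r a = Quot.mk r b) ↔ WF.Rel a.1 b.1 := fun a b =>
    ⟨fun h => (hr.eqvGen_iff).1 (Quot.eqvGen_exact h), fun h => Quot.sound h⟩
  have hfX : Finite X := inferInstance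
  rw [hX, ← card_nonconst p Q hQ X]
  congr 2
  let A := {w : WF p (G ≀ᵣ Q) // w.R ≤ (incl G Q).range ∧ w.In red (ehat Q e)}
  let T := {c : Q → X // ¬ ∀ q q', c q = c q'}
  -- the tuples of classes attached to a weight
  have hidx : (incl G Q).range.index = p := by rw [incl_index, hQ]
  have h1 : ∀ w : A, ∃ u : Q → S, Cov (incl G Q) w.1 (prodWF fun q => (u q).1) := by
    intro w
    obtain ⟨v, hv⟩ := exists_cov (incl G Q) incl_injective red hidx w.1 w.2.1
    obtain ⟨u, rfl⟩ := prodWF_surjective (p := p) v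
    have h2 := (in_ehat_iff red he hee hv).1 w.2.2
    exact ⟨fun q => ⟨u q, h2 q⟩, hv⟩
  choose u hu using h1
  have hgood : ∀ w : A, Good (incl G Q) incl_injective (prodWF fun q => (u w q).1) := fun w =>
    Cov.good (incl G Q) incl_injective red hidx (hu w)
  let F : A → T := fun w => ⟨fun q => Quot.mk r (u w q), by
    have h2 := (good_prodWF_iff hQ _).1 (hgood w)
    intro h
    exact h2 fun q q' => (hmk _ _).1 (h q q')⟩
  have hF : ∀ a b : A, WF.Rel a.1 b.1 ↔ ∃ τ : Q, ∀ q, (F a).1 (τ * q) = (F b).1 q := by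
    intro a b
    rw [Cov.rel_iff (incl G Q) incl_injective (hgood b) (hu a) (hu b), relG_prodWF_iff]
    refine exists_congr fun τ => forall_congr' fun q => ?_
    exact (hmk _ _).symm
  have hsurj : ∀ c : T, ∃ a : A, ∃ τ : Q, ∀ q, (F a).1 (τ * q) = c.1 q := by
    intro c
    have h2 : ∀ q, ∃ s : S, Quot.mk r s = c.1 q := fun q => Quot.exists_rep _
    choose s hs using h2
    have h3 : Good (incl G Q) incl_injective (prodWF fun q => (s q).1) := by
      rw [good_prodWF_iff hQ]
      intro h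
      apply c.2
      intro q q'
      rw [← hs q, ← hs q']
      exact (hmk _ _).2 (h q q')
    obtain ⟨w, hw⟩ := exists_cov_of_good (incl G Q) incl_injective (prodWF fun q => (s q).1) h3
    have h4 : w.R ≤ (incl G Q).range := by rw [hw.1]; exact map_le_range _ _
    have h5 : w.In red (ehat Q e) := (in_ehat_iff red he hee hw).2 fun q => (s q).2
    let a : A := ⟨w, h4, h5⟩
    refine ⟨a, ?_⟩
    have h6 := (Cov.rel_iff (incl G Q) incl_injective h3 (hu a) hw).1 (WF.Rel.refl _)
    obtain ⟨τ, hτ⟩ := (relG_prodWF_iff _ _).1 h6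
    refine ⟨τ, fun q => ?_⟩
    rw [← hs q]
    exact (hmk _ _).2 (hτ q)
  have hrT : Equivalence (fun a b : T => ∃ τ : Q, ∀ q, a.1 (τ * q) = b.1 q) := by
    refine ⟨fun a => ⟨1, fun q => by rw [one_mul]⟩, ?_, ?_⟩
    · rintro a b ⟨τ, h⟩
      exact ⟨τ⁻¹, fun q => by rw [← h, mul_inv_cancel_left]⟩
    · rintro a b c ⟨τ, h⟩ ⟨σ, h'⟩
      exact ⟨τ * σ, fun q => by rw [mul_assoc, h, h']⟩
  let Φ : (Quot fun a b : A => WF.Rel a.1 b.1) →
      Quot (fun a b : T => ∃ τ : Q, ∀ q, a.1 (τ * q) = b.1 q) :=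
    Quot.map F fun a b h => (hF a b).1 h
  refine Nat.card_eq_of_bijective Φ ⟨?_, ?_⟩
  · intro x y
    induction x using Quot.inductionOn with
    | _ a =>
    induction y using Quot.inductionOn with
    | _ b =>
    intro h
    have h2 := (hrT.eqvGen_iff).1 (Quot.eqvGen_exact h)
    exact Quot.sound ((hF a b).2 h2)
  · intro y
    induction y using Quot.inductionOn with
    | _ c =>
    obtain ⟨a, ha⟩ := hsurj c
    exact ⟨Quot.mk _ a, Quot.sound ha⟩

end TypeA

end P179R
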