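import Vale.Agent.P179.H905.Coset
import Vale.Agent.P179.H905.MainLem4
import Vale.Agent.P179.H166.MainFun
import Vale.Agent.P179.H166.Final

/-!
# Theorem C, Step 1: sections in groups with a normal `p`-subgroup, assembly
-/

namespace P179C

open Subgroup P179H524 P179A

open scoped Classical

/-- Divisibility of an invariant sum, orbit by orbit (as in `H525/Step2.lean`). -/
theorem dvd_orbits {Γ X : Type*} [Group Γ] [MulAction Γ X] [Fintype X]
    (F : X → ℤ) (hF : ∀ (g : Γ) (x : X), F (g • x) = F x) (M : ℤ)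
    (h : ∀ x, M ∣ (Nat.card (MulAction.orbit Γ x) : ℤ) * F x) : M ∣ ∑ x, F x := by
  have : Fintype (MulAction.orbitRel.Quotient Γ X) := Quotient.fintype _
  rw [← Finset.sum_fiberwise (g := fun x => (Quotient.mk'' x : MulAction.orbitRel.Quotient Γ X))]
  refine Finset.dvd_sum fun ω _ => ?_
  induction ω using Quotient.inductionOn' with
  | h x =>
    have h1 : ∀ y, (Quotient.mk'' y : MulAction.orbitRel.Quotient Γ X) = Quotient.mk'' x ↔
        y ∈ MulAction.orbit Γ x := by
      intro y
      rw [Quotient.eq'']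
      exact MulAction.orbitRel_apply
    have h2 : ∀ y ∈ Finset.univ.filter (fun y => (Quotient.mk'' y :
        MulAction.orbitRel.Quotient Γ X) = Quotient.mk'' x), F y = F x := by
      intro y hy
      rw [Finset.mem_filter, h1] at hy
      obtain ⟨g, rfl⟩ := hy.2
      exact hF g x
    rw [Finset.sum_congr rfl h2, Finset.sum_const, nsmul_eq_mul]
    have h3 : (Finset.univ.filter (fun y => (Quotient.mk'' y :
        MulAction.orbitRel.Quotient Γ X) = Quotient.mk'' x)).card
        = Nat.card (MulAction.orbit Γ x) := by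
      rw [Nat.card_eq_fintype_card, ← Set.toFinset_card]
      congr 1
      ext y
      rw [Finset.mem_filter, h1, Set.mem_toFinset]
      simp
    rw [h3]
    exact h x

section trace

variable {K : Type*} [Group K] [Finite K]

omit [Finite K] in
theorem nTr_eq_sum [Fintype K] (z : K → ℤ) :
    nTr z = ∑ y : K, ∑ x : K, z (x * y * x⁻¹ * y⁻¹) := by
  unfold nTr
  rw [finsum_eq_sum_of_fintype, Fintype.sum_prod_type, Finset.sum_comm]

omit [Finite K] in
theorem bij_quot (C : Subgroup K) :
    Function.Bijective (fun t : (K ⧸ C) × C => t.1.out * (t.2 : K)) := by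
  constructor
  · rintro ⟨q, c⟩ ⟨q', c'⟩ h
    have h' : q.out * (c : K) = q'.out * (c' : K) := h
    have h1 : ((q.out * (c : K) : K) : K ⧸ C) = ((q'.out * (c' : K) : K) : K ⧸ C) := by rw [h']
    rw [QuotientGroup.mk_mul_of_mem _ c.2, QuotientGroup.mk_mul_of_mem _ c'.2,
      QuotientGroup.out_eq', QuotientGroup.out_eq'] at h1
    subst h1
    exact Prod.ext rfl (Subtype.ext (mul_left_cancel h'))
  · intro x
    have h1 : ((x : K ⧸ C).out)⁻¹ * x ∈ C := by
      rw [← QuotientGroup.eq, QuotientGroup.out_eq']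
    exact ⟨((x : K ⧸ C), ⟨_, h1⟩), mul_inv_cancel_left _ _⟩

/-- the sum of a function which is constant on the left cosets of `C` -/
theorem sum_coset [Fintype K] (C : Subgroup K) [Fintype (K ⧸ C)] (f : K → ℤ)
    (hf : ∀ x, ∀ c ∈ C, f (x * c) = f x) :
    ∑ x, f x = Nat.card C * ∑ q : K ⧸ C, f q.out := by
  have := Fintype.ofFinite C
  rw [← (Equiv.ofBijective _ (bij_quot C)).sum_comp, Fintype.sum_prod_type, Finset.mul_sum]
  refine Finset.sum_congr rfl fun q _ => ?_
  have h : ∀ c : C, f (Equiv.ofBijective _ (bij_quot C) (q, c)) = f q.out := fun c => hf _ _ c.2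
  rw [Finset.sum_congr rfl fun c _ => h c, Finset.sum_const, nsmul_eq_mul, Finset.card_univ,
    ← Nat.card_eq_fintype_card]

theorem card_dvd_sum_coset [Fintype K] (C : Subgroup K) (f : K → ℤ)
    (hf : ∀ x, ∀ c ∈ C, f (x * c) = f x) : (Nat.card C : ℤ) ∣ ∑ x, f x := by
  have := Fintype.ofFinite (K ⧸ C)
  rw [sum_coset C f hf]
  exact Dvd.intro _ rfl

/-- The trace of an integral class function is an integer. -/
theorem card_dvd_nTr (z : K → ℤ) (hz : IsCF z) : (Nat.card K : ℤ) ∣ nTr z := by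
  have := Fintype.ofFinite K
  rw [nTr_eq_sum]
  have hcard : Nat.card (ConjAct K) = Nat.card K := rfl
  have : Finite (ConjAct K) := inferInstanceAs (Finite K)
  refine dvd_orbits (Γ := ConjAct K) (fun y => ∑ x : K, z (x * y * x⁻¹ * y⁻¹)) ?_ _ ?_
  · intro g y
    obtain ⟨g, rfl⟩ := ConjAct.toConjAct.surjective g
    rw [ConjAct.toConjAct_smul]
    rw [← (MulAut.conj g).toEquiv.sum_comp]
    refine Finset.sum_congr rfl fun x _ => ?_
    have e : (MulAut.conj g).toEquiv x * (g * y * g⁻¹) * ((MulAut.conj g).toEquiv x)⁻¹ *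
        (g * y * g⁻¹)⁻¹ = g * (x * y * x⁻¹ * y⁻¹) * g⁻¹ := by
      change (g * x * g⁻¹) * (g * y * g⁻¹) * (g * x * g⁻¹)⁻¹ * (g * y * g⁻¹)⁻¹ = _
      group
    rw [e, hz]
  · intro y
    have h3 : Nat.card (MulAction.orbit (ConjAct K) y) * Nat.card (MulAction.stabilizer
        (ConjAct K) y) = Nat.card K := by
      have := Fintype.ofFinite (ConjAct K)
      have := Fintype.ofFinite (MulAction.orbit (ConjAct K) y)
      have := Fintype.ofFinite (MulAction.stabilizer (ConjAct K) y)
      have h := MulAction.card_orbit_mul_card_stabilizer_eq_card_group (ConjAct K) y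
      rw [← Nat.card_eq_fintype_card, ← Nat.card_eq_fintype_card, ← Nat.card_eq_fintype_card] at h
      exact h
    have h4 : Nat.card (MulAction.stabilizer (ConjAct K) y) =
        Nat.card (centralizer ({y} : Set K)) := by
      refine Nat.card_congr ?_
      refine (ConjAct.ofConjAct (G := K)).toEquiv.subtypeEquiv fun c => ?_
      rw [MulAction.mem_stabilizer_iff, ConjAct.smul_def, mul_inv_eq_iff_eq_mul,
        mem_centralizer_singleton_iff]
      rfl
    rw [h4] at h3
    rw [← h3]
    push_cast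
    refine mul_dvd_mul_left _ ?_
    refine card_dvd_sum_coset _ (fun x => z (x * y * x⁻¹ * y⁻¹)) ?_
    intro x c hc
    have hc' := mem_centralizer_singleton_iff.mp hc
    congr 1
    have : x * c * y * (x * c)⁻¹ = x * y * x⁻¹ := by
      calc x * c * y * (x * c)⁻¹ = x * (c * y * c⁻¹) * x⁻¹ := by group
        _ = x * y * x⁻¹ := by rw [hc', mul_inv_cancel_right]
    rw [this]

/-- class functions which depend only on the `p`-regular part are constant on the cosets of normal
`p`-subgroups -/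
theorem section_coset (p : ℕ) [hp : Fact p.Prime] (R : Subgroup K) [hR : R.Normal]
    (hRp : IsPGroup p R) (z : K → ℤ) (hz : IsCF z)
    (hz' : ∀ u v : K, u * v = v * u → (∃ n : ℕ, v ^ p ^ n = 1) → z (u * v) = z u)
    (x r : K) (hr : r ∈ R) : z (x * r) = z x := by
  have key : ∀ y : K, z y = z (pr p y) := by
    intro y
    obtain ⟨v, h1, h2, h3, _⟩ := P179C905.pr_decomp p y
    conv_lhs => rw [← h1]
    exact hz' _ _ h2 h3
  obtain ⟨t, _, ht⟩ := P179C905.pr_conj p R hRp x r hr
  rw [key (x * r), key x, ht, hz]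

/-- In a group with a nontrivial normal `p`-subgroup the trace of a class function which depends
only on the `p`-regular part is divisible by `p`. -/
theorem sec_normal (p : ℕ) [hp : Fact p.Prime] (hK : ¬ OpTrivial p K)
    (z : K → ℤ) (hz : IsCF z)
    (hz' : ∀ u v : K, u * v = v * u → (∃ n : ℕ, v ^ p ^ n = 1) → z (u * v) = z u) :
    ((Nat.card K * p : ℕ) : ℤ) ∣ nTr z := by
  have := Fintype.ofFinite K
  simp only [OpTrivial, not_forall] at hK
  obtain ⟨R, hR, hRp, hR1⟩ := hK
  have := Fintype.ofFinite (K ⧸ R)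
  have hc := section_coset p R hRp z hz hz'
  -- the class function on the quotient
  let zb : K ⧸ R → ℤ := fun q => z q.out
  have hzb : ∀ x : K, zb (x : K ⧸ R) = z x := by
    intro x
    have h1 : x⁻¹ * ((x : K ⧸ R).out) ∈ R := by
      rw [← QuotientGroup.eq, QuotientGroup.out_eq']
    have := hc x _ h1
    rw [mul_inv_cancel_left] at this
    exact this
  have hzbcf : IsCF zb := by
    intro g x
    obtain ⟨g, rfl⟩ := QuotientGroup.mk_surjective g
    obtain ⟨x, rfl⟩ := QuotientGroup.mk_surjective x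
    rw [← QuotientGroup.mk_mul, ← QuotientGroup.mk_inv, ← QuotientGroup.mk_mul, hzb, hzb, hz]
  have h1 : nTr z = Nat.card R * (Nat.card R * nTr zb) := by
    rw [nTr_eq_sum, nTr_eq_sum]
    have h2 : ∀ x y : K, z (x * y * x⁻¹ * y⁻¹)
        = zb ((x : K ⧸ R) * (y : K ⧸ R) * (x : K ⧸ R)⁻¹ * (y : K ⧸ R)⁻¹) := by
      intro x y
      rw [← hzb]; rfl
    simp only [h2]
    have h3 : ∀ c ∈ R, ∀ x : K, ((x * c : K) : K ⧸ R) = (x : K ⧸ R) :=
      fun c hc x => QuotientGroup.mk_mul_of_mem _ hc
    rw [sum_coset R (fun y : K => ∑ x : K,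
      zb ((x : K ⧸ R) * (y : K ⧸ R) * (x : K ⧸ R)⁻¹ * (y : K ⧸ R)⁻¹))
      (fun y c hc => by simp only [h3 c hc])]
    congr 1
    rw [Finset.mul_sum]
    refine Finset.sum_congr rfl fun q _ => ?_
    rw [sum_coset R (fun x : K =>
      zb ((x : K ⧸ R) * (q.out : K ⧸ R) * (x : K ⧸ R)⁻¹ * (q.out : K ⧸ R)⁻¹))
      (fun x c hc => by simp only [h3 c hc])]
    simp only [QuotientGroup.out_eq']
  obtain ⟨t, ht⟩ := card_dvd_nTr zb hzbcf
  have hcard : Nat.card K = Nat.card (K ⧸ R) * Nat.card R :=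
    card_eq_card_quotient_mul_card_subgroup R
  obtain ⟨m, hm⟩ := (IsPGroup.iff_card.mp hRp)
  have hm0 : m ≠ 0 := by
    rintro rfl
    rw [pow_zero] at hm
    exact hR1 (Subgroup.card_eq_one.mp hm)
  obtain ⟨m', rfl⟩ : ∃ m', m = m' + 1 := ⟨m - 1, by omega⟩
  refine ⟨(p : ℤ) ^ m' * t, ?_⟩
  rw [h1, ht, hcard, hm]
  push_cast
  ring

end trace

end P179C
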