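import Vale.Agent.P179.H905.N6
import Vale.Agent.P179.H524.N3
import Vale.Agent.P179.H143.Adams
import Vale.Agent.P179.H143.RegBlock
import Vale.Agent.P179.H143.CBridge
import Vale.Agent.P179.H905.Fus
import Vale.Agent.P179.H526.Ineq

/-!
# The equality theorem for principal blocks
-/

namespace P179P

open P179H524 P179C P179A Finset Subgroup

open P179X (IsPrincipal autOrd IrrB Srat SameSec X4)

open scoped Classical

section

variable {p : ℕ} [hp : Fact p.Prime] {k : Type*} [Field k] [IsAlgClosed k] [CharP k p]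
  (red : integralClosure ℤ ℂ →+* k) {G : Type} [Group G] [Fintype G]

omit [Fintype G] in
/-- `p`-regular elements are fixed by the power map -/
theorem pow_eq_of_regular [Finite G] {m : ℕ} (hm1 : m ≡ 1 [MOD ordCompl[p] (Nat.card G)])
    {g : G} (hg : ¬ p ∣ orderOf g) : g ^ m = g := by
  have h1 : orderOf g ∣ ordCompl[p] (Nat.card G) := by
    have h2 : orderOf g ∣ Nat.card G := orderOf_dvd_natCard g
    rw [← Nat.ordProj_mul_ordCompl_eq_self (Nat.card G) p] at h2
    refine Nat.Coprime.dvd_of_dvd_mul_left ?_ h2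
    exact (Nat.Coprime.pow_left _ ((Nat.Prime.coprime_iff_not_dvd Fact.out).2 hg)).symm
  conv_rhs => rw [← pow_one g]
  exact pow_eq_pow_iff_modEq.2 (hm1.of_dvd h1)

omit [CharP k p] [IsAlgClosed k] [Fintype G] in
/-- a central element is a relative trace from a Sylow subgroup -/
theorem isRelTrace_sylow [CharP k p] [Finite G] {B : MonoidAlgebra k G} (hB : IsBlock B)
    (P : Sylow p G) : IsRelTrace B (P : Subgroup G) := by
  have hconj : ∀ (g : G) (c : k), P179C.conjBy g (c • B) = c • B := by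
    intro g c
    have h1 := (Subalgebra.mem_center_iff.1 hB.1) (MonoidAlgebra.single g 1)
    unfold P179C.conjBy
    rw [mul_smul_comm, h1, smul_mul_assoc, mul_assoc, MonoidAlgebra.single_mul_single,
      mul_inv_cancel, one_mul]
    change c • (B * 1) = _
    rw [mul_one]
  have hidx : ((P : Subgroup G).index : k) ≠ 0 := by
    intro h0
    exact P.not_dvd_index ((CharP.cast_eq_zero_iff k p _).1 h0)
  refine ⟨((P : Subgroup G).index : k)⁻¹ • B, fun d _ => hconj d _, ?_⟩
  have := Fintype.ofFinite (G ⧸ (P : Subgroup G))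
  simp only [hconj]
  rw [finsum_eq_sum_of_fintype, Finset.sum_const, Finset.card_univ, ← Nat.card_eq_fintype_card]
  change B = (P : Subgroup G).index • _
  rw [← Nat.cast_smul_eq_nsmul k, smul_smul, mul_inv_cancel₀ hidx, one_smul]

theorem equality {B : MonoidAlgebra k G} (hB : IsBlock B) (hpB : IsPrincipal B) (P : Sylow p G)
    (hab : ∀ a ∈ P, ∀ b ∈ P, a * b = b * a) (he : 4 * autOrd (P : Subgroup G) ≤ p) :
    numSimpleIn B = numWeightsIn p red B := by
  have he0 : 0 < autOrd (P : Subgroup G) :=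
    Nat.pos_of_ne_zero (Subgroup.index_ne_zero_of_finite (H :=
      (centralizer ((P : Subgroup G) : Set G)).subgroupOf (normalizer ((P : Subgroup G) : Set G))))
  have he1 : autOrd (P : Subgroup G) < p := by omega
  have he2 : autOrd (P : Subgroup G) < p - 1 := by omega
  have hp2 : p ≠ 2 := by omega
  obtain ⟨m, hmc, hm1, hgen⟩ := exists_exponent (p := p) hp2 (Nat.card G) Nat.card_pos.ne'
  have h2 : ∀ x y : G, ¬ SameSec p x y → ∑ χ ∈ IrrB red B, χ x * χ y⁻¹ = 0 :=
    fun x y => sec_orth p red B x y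
  have h1 : ∀ χ ∈ IrrB red B, (fun g => χ (g ^ m)) ∈ IrrB red B := by
    intro χ hχ
    simp only [P179X.IrrB, mem_filter, P179X.mem_Irr] at hχ ⊢
    refine ⟨irr_pow hχ.1 hmc, ?_⟩
    exact charInBlock_of_reg p red hχ.1 (irr_pow hχ.1 hmc)
      (fun g hg => by rw [pow_eq_of_regular hm1 hg]) hχ.2
  have h3 : numSimpleIn B ≤ (Srat red m B).card :=
    N4 m hm1 h1 h2 (N3 p red hB h2) (fun u hu1 hu => not_isConj_pow P hab he2 hgen u hu1 hu)
  have h4 : (Srat red m B).card < p :=
    N5 (fun _ _ _ hp h1 h2 h3 _ _ _ _ a _ h4 h5 h6 h7 h8 =>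
      P179X.final_ineq hp h1 h2 h3 a h4 h5 h6 h7 h8) (one_mem_IrrB red hB hpB) hab he hm1 hgen
  have h5 : numWeightsIn p red B ≤ autOrd (P : Subgroup G) := N6 red hB hpB P hab he1
  -- an abelian defect group
  obtain ⟨D, hDP, hD⟩ : ∃ D : Subgroup G, D ≤ (P : Subgroup G) ∧ IsDefectGroup B D := by
    obtain ⟨D, hD, hD2⟩ := exists_minimal_le_of_wellFoundedLT (IsRelTrace B) (P : Subgroup G)
      (isRelTrace_sylow hB P)
    exact ⟨D, hD, hD2⟩
  have h6 := P179C.theoremC p red B hB D hD (fun a ha b hb => hab a (hDP ha) b (hDP hb))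
  exact h6.eq_of_lt_of_lt (h3.trans_lt h4) (h5.trans_lt he1)

end

end P179P
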