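import Vale.Agent.P179.H905.K3

/-!
# The equality, when the elements which are not regular lie in the union of few proper subgroups
-/

namespace P179I

open P179H524 P179C P179A Finset P179P Subgroup P179Y

open P179X (pp SameSec IrrB Srat autOrd)

open P179B (inertialGroup inertialIndex regularElements)

open scoped Classical IsMulCommutative

set_option linter.unusedSectionVars false

/-- the fixed points of the nontrivial elements of `T / C(D)` -/
theorem exists_cover {G : Type*} [Group G] [Finite G] (D T : Subgroup G) :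
    ∃ K : Fin ((centralizer (D : Set G)).relIndex T - 1) → Subgroup G, (∀ i, ¬ D ≤ K i) ∧
      ∀ w ∈ D, (∃ n ∈ T, n * w * n⁻¹ = w ∧ n ∉ centralizer (D : Set G)) → ∃ i, w ∈ K i := by
  set C : Subgroup G := centralizer (D : Set G) with hC
  let Q := T ⧸ C.subgroupOf T
  have := Fintype.ofFinite Q
  have hQ : Fintype.card Q = C.relIndex T := by
    rw [← Nat.card_eq_fintype_card]
    rfl
  let Q' := {c : Q // c ≠ QuotientGroup.mk 1}
  have hQ' : Fintype.card Q' = C.relIndex T - 1 := by
    rw [Fintype.card_subtype_compl, hQ]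
    simp
  let ε := Fintype.equivFinOfCardEq hQ'
  refine ⟨fun i => centralizer {(((ε.symm i).1.out : T) : G)}, ?_, ?_⟩
  · intro i hle
    apply (ε.symm i).2
    have h3 : ((ε.symm i).1.out : T) ∈ C.subgroupOf T := by
      rw [Subgroup.mem_subgroupOf]
      change (((ε.symm i).1.out : T) : G) ∈ centralizer (D : Set G)
      rw [mem_centralizer_iff]
      intro y hy
      exact mem_centralizer_singleton_iff.1 (hle hy)
    have h5 : (QuotientGroup.mk ((ε.symm i).1.out : T) : Q) = (ε.symm i).1 := Quotient.out_eq' _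
    rw [← h5, QuotientGroup.eq, mul_one]
    exact inv_mem h3
  · rintro w hw ⟨n, hn, hnw, hnC⟩
    have hne : (QuotientGroup.mk (⟨n, hn⟩ : T) : Q) ≠ QuotientGroup.mk 1 := by
      intro h
      rw [QuotientGroup.eq] at h
      have h' : (n : G)⁻¹ * 1 ∈ C := h
      rw [mul_one] at h'
      exact hnC (by simpa using inv_mem h')
    refine ⟨ε ⟨QuotientGroup.mk ⟨n, hn⟩, hne⟩, ?_⟩
    beta_reduce
    rw [Equiv.symm_apply_apply, mem_centralizer_singleton_iff]
    set m : T := (QuotientGroup.mk (⟨n, hn⟩ : T) : Q).out with hm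
    have h2 : (QuotientGroup.mk m : Q) = QuotientGroup.mk ⟨n, hn⟩ := Quotient.out_eq' _
    rw [QuotientGroup.eq] at h2
    have h3 : (m : G)⁻¹ * n ∈ C := h2
    have h4 : ((m : G)⁻¹ * n) * w = w * ((m : G)⁻¹ * n) := (mem_centralizer_iff.1 h3 w hw).symm
    have h5 : n * w = w * n := mul_inv_eq_iff_eq_mul.1 hnw
    have h6 : (m : G)⁻¹ * (w * n) = w * ((m : G)⁻¹ * n) := by rw [← h4, mul_assoc, h5]
    have h7 : (m : G)⁻¹ * w = w * (m : G)⁻¹ := by
      have := congrArg (· * n⁻¹) h6
      simpa [mul_assoc] using this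
    have h8 := congrArg (fun x => (m : G) * x * m) h7
    simp only [mul_assoc, mul_inv_cancel_left, inv_mul_cancel, mul_one] at h8
    exact h8

section

variable {p : ℕ} [hp : Fact p.Prime] {k : Type*} [Field k] [IsAlgClosed k] [CharP k p]
  (red : integralClosure ℤ ℂ →+* k) {G : Type} [Group G] [Fintype G]

/-- **Theorem Z'**: the equality for a block with abelian defect group `D` and inertial index `e`,
if the elements of `D` which are not regular lie in the union of `s` proper subgroups and
`e + s + 1 ≤ p` -/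
theorem equality_cover {B : MonoidAlgebra k G} (hB : IsBlock B) {D : Subgroup G}
    (hD : IsDefectGroup B D) (hab : ∀ a ∈ D, ∀ b ∈ D, a * b = b * a)
    {b : MonoidAlgebra k (centralizer (D : Set G))} (hb : IsBlock b) (hbB : InducesTo b B)
    {s : ℕ} (K : Fin s → Subgroup G) (hK : ∀ i, ¬ D ≤ K i)
    (hcov : ∀ u ∈ D, u ≠ 1 → u ∉ regularElements D b → ∃ i, u ∈ K i)
    (hes : inertialIndex D b + s + 1 ≤ p) :
    numSimpleIn B = numWeightsIn p red B := by
  obtain ⟨hDp, -⟩ := exists_BP_of_block (p := p) B hB D hD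
  obtain ⟨l, hl, hlz, hlb⟩ := exists_BP_of_subblock (p := p) hB hD hab hb hbB
  have hT := stabT_eq_inertialGroup hb hlb
  have hlB : ∀ χ : Irr G, InL red l χ.1 ↔ CharInBlock red χ.1 B := inL_iff red hB hlz
  have hab' : D ≤ centralizer (D : Set G) := by
    intro x hx
    rw [mem_centralizer_iff]
    intro y hy
    exact hab y hy x hx
  have he : inertialIndex D b = (centralizer (D : Set G)).relIndex (stabT D l) := by
    rw [hT]
    rfl
  have hepos : 0 < (centralizer (D : Set G)).relIndex (stabT D l) :=
    Nat.pos_of_ne_zero (Subgroup.index_ne_zero_of_finite (H :=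
      (centralizer (D : Set G)).subgroupOf (stabT D l)))
  have hreg : ∀ u, RegT D l u ↔ u ∈ regularElements D b := by
    intro u
    unfold regularElements RegT
    rw [hT]
    rfl
  have hdiv := hT_of_block hB hD hDp hab hl hlz
  have hw := K6plus red hl hDp hab' hdiv hlz
  have hC := P179C.theoremC p red B hB D hD hab
  rcases Nat.eq_zero_or_pos s with hs | hs
  · subst hs
    by_cases hp2 : p = 2
    · -- `e = 1`
      have he1 : (centralizer (D : Set G)).relIndex (stabT D l) = 1 := by omega
      have hTC : stabT D l ≤ centralizer (D : Set G) := Subgroup.relIndex_eq_one.1 he1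
      obtain ⟨φ, hφ⟩ := thmNT p red G D l hl hDp hab' hTC
      have h1 := numSimple_le_one hφ hB hlB
      exact hC.eq_of_lt_of_lt (by omega) (by omega)
    · refine equality_free red hB hD hab hb hbB hp2 ?_ (by omega)
      intro u hu hu1
      by_contra hcon
      obtain ⟨i, -⟩ := hcov u hu hu1 hcon
      exact i.elim0
  · have hp2 : p ≠ 2 := by omega
    obtain ⟨m, hmc, hm1, hgen⟩ := exists_exponent (p := p) hp2 (Nat.card G) Nat.card_pos.ne'
    have h1 : ∀ χ ∈ IrrB red B, (fun g => χ (g ^ m)) ∈ IrrB red B := by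
      intro χ hχ
      simp only [P179X.IrrB, mem_filter, P179X.mem_Irr] at hχ ⊢
      refine ⟨irr_pow hχ.1 hmc, ?_⟩
      exact charInBlock_of_reg p red hχ.1 (irr_pow hχ.1 hmc)
        (fun g hg => by rw [pow_eq_of_regular hm1 hg]) hχ.2
    have h3 : numSimpleIn B ≤ (Srat red m B).card :=
      P7 red hB l hlB m hmc hm1 h1 (K7T red hl hDp hab (by omega) hmc hgen)
    have h4 := card_Srat_le_of_cover red hl hDp hab' hp2 (by
      rw [Ne, CharP.cast_eq_zero_iff k p]
      exact hdiv) hlB hs K hK (by
      intro u hu hun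
      by_cases hu1 : u = 1
      · exact ⟨⟨0, hs⟩, by rw [hu1]; exact one_mem _⟩
      · exact hcov u hu hu1 fun h => hun ((hreg u).2 h)) (by omega) hmc hm1 hgen
    set r := (Srat red m B).card with hr
    set e := (centralizer (D : Set G)).relIndex (stabT D l) with hedef
    have h5 : r < p := by
      by_contra hcon
      push Not at hcon
      obtain ⟨d, hd⟩ : ∃ d, p = s + d := ⟨p - s, by omega⟩
      have h6 : r * p = r * s + r * d := by rw [hd]; ring
      have h7 : r * d ≤ p * e := by omega
      have h8 : p * d ≤ r * d := Nat.mul_le_mul_right _ hcon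
      have h9 := Nat.le_of_mul_le_mul_left (h8.trans h7) hp.out.pos
      omega
    exact hC.eq_of_lt_of_lt (h3.trans_lt h5) (by omega)

/-- the inertial index at most `p / 2` -/
theorem equality_half {B : MonoidAlgebra k G} (hB : IsBlock B) {D : Subgroup G}
    (hD : IsDefectGroup B D) (hab : ∀ a ∈ D, ∀ b ∈ D, a * b = b * a)
    {b : MonoidAlgebra k (centralizer (D : Set G))} (hb : IsBlock b) (hbB : InducesTo b B)
    (hes : 2 * inertialIndex D b ≤ p) :
    numSimpleIn B = numWeightsIn p red B := by
  obtain ⟨K, hK, hcov⟩ := exists_cover D (inertialGroup D b)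
  have hpos : 0 < inertialIndex D b := Nat.pos_of_ne_zero (Subgroup.index_ne_zero_of_finite (H :=
      (centralizer (D : Set G)).subgroupOf (inertialGroup D b)))
  refine equality_cover red hB hD hab hb hbB K hK ?_ ?_
  · intro w hw _ hwn
    refine hcov w hw ?_
    by_contra hcon
    push Not at hcon
    apply hwn
    unfold regularElements
    exact ⟨hw, hcon⟩
  · have h1 : inertialIndex D b + (inertialIndex D b - 1) + 1 ≤ p := by omega
    exact h1

end

end P179I
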