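import Vale.Agent.P179.H905.WP4

/-!
# Theorem R, weights of products, V: all weights of `Q → G` are products
-/

namespace P179R

open P179H524 P179C P179A P179P Finset Subgroup

theorem WF.ext' {p : ℕ} {G : Type} [Group G] {a b : WF p G} (h1 : a.R = b.R) (h2 : a.χ = b.χ) :
    a = b := by
  obtain ⟨R, χ, _, _, _, _, _⟩ := a
  obtain ⟨R', χ', _, _, _, _, _⟩ := b
  subst h1 h2
  rfl

section

variable {p : ℕ} {G : Type} [Group G] [Finite G]

omit [Finite G] in
theorem WF.one_ne_zero (w : WF p G) : w.χ 1 ≠ 0 := Irr.one_ne_zero ⟨_, w.irr⟩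

omit [Finite G] in
theorem WF.Rel.card {a b : WF p G} (g : G) (h : ∀ x, x ∈ b.R ↔ g⁻¹ * x * g ∈ a.R) (x : G) :
    x ∈ normalizer (b.R : Set G) ↔ g⁻¹ * x * g ∈ normalizer (a.R : Set G) := by
  simp only [mem_normalizer_iff]
  constructor
  · intro h1 y
    have h2 := h1 (g * y * g⁻¹)
    rw [h, h] at h2
    have e1 : g⁻¹ * (g * y * g⁻¹) * g = y := by group
    have e2 : g⁻¹ * (x * (g * y * g⁻¹) * x⁻¹) * g = g⁻¹ * x * g * y * (g⁻¹ * x * g)⁻¹ := by group
    rw [e1, e2] at h2
    exact h2
  · intro h1 y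
    have h2 := h1 (g⁻¹ * y * g)
    rw [h, h]
    have e2 : g⁻¹ * x * g * (g⁻¹ * y * g) * (g⁻¹ * x * g)⁻¹ = g⁻¹ * (x * y * x⁻¹) * g := by group
    rw [e2] at h2
    exact h2

/-- conjugate weights with proportional characters -/
theorem rel_of_prop (a b : WF p G) (g : G) (h : ∀ x, x ∈ b.R ↔ g⁻¹ * x * g ∈ a.R)
    (hp : ∀ x, b.χ x / b.χ 1 = a.χ (g⁻¹ * x * g) / a.χ 1) : WF.Rel a b := by
  have := Fintype.ofFinite G
  have hf : Fintype (normalizer (b.R : Set G)) := Fintype.ofFinite _
  refine ⟨g, h, fun x => ?_⟩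
  have hN := WF.Rel.card g h
  by_cases hx : x ∈ normalizer (b.R : Set G)
  · -- the conjugate of the character of `a`
    let e : normalizer (b.R : Set G) →* normalizer (a.R : Set G) :=
      { toFun := fun n => ⟨g⁻¹ * n * g, (hN n).1 n.2⟩
        map_one' := Subtype.ext (by simp)
        map_mul' := fun m n => Subtype.ext (by
          change g⁻¹ * ((m : G) * n) * g = (g⁻¹ * m * g) * (g⁻¹ * n * g)
          group) }
    have he : Function.Surjective e := by
      intro y
      refine ⟨⟨g * y * g⁻¹, (hN _).2 ?_⟩, Subtype.ext ?_⟩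
      · have : g⁻¹ * (g * (y : G) * g⁻¹) * g = y := by group
        rw [this]; exact y.2
      · change g⁻¹ * (g * (y : G) * g⁻¹) * g = y
        group
    have h2 : (⟨fun n => b.χ n, b.irr⟩ : Irr (normalizer (b.R : Set G))) =
        ⟨fun n => a.χ (e n), a.irr.comp e he⟩ := by
      refine irr_eq_of_prop _ _ fun n => ?_
      change b.χ n / b.χ 1 = a.χ (g⁻¹ * n * g) / a.χ (g⁻¹ * 1 * g)
      rw [hp]
      have : g⁻¹ * 1 * g = 1 := by group
      rw [this]
    exact congrFun (congrArg Subtype.val h2) ⟨x, hx⟩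
  · rw [b.supp x hx, a.supp _ (fun h3 => hx ((hN x).2 h3))]

theorem eq_of_prop (a b : WF p G) (h : a.R = b.R)
    (hp : ∀ x, b.χ x / b.χ 1 = a.χ x / a.χ 1) : a = b := by
  obtain ⟨g, h1, h2⟩ := rel_of_prop a b 1 (fun x => by simp [h]) (fun x => by
    have : (1 : G)⁻¹ * x * 1 = x := by group
    rw [this]; exact hp x)
  -- redo with the explicit conjugator
  have hf : Fintype (normalizer (b.R : Set G)) := Fintype.ofFinite _
  refine WF.ext' h (funext fun x => ?_)
  by_cases hx : x ∈ normalizer (b.R : Set G)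
  · have hR : normalizer (b.R : Set G) = normalizer (a.R : Set G) := by rw [h]
    let e : normalizer (b.R : Set G) ≃* normalizer (a.R : Set G) := MulEquiv.subgroupCongr hR
    have h2 : (⟨fun n => b.χ n, b.irr⟩ : Irr (normalizer (b.R : Set G))) =
        ⟨fun n => a.χ (e n), a.irr.comp e.toMonoidHom e.surjective⟩ := by
      refine irr_eq_of_prop _ _ fun n => ?_
      change b.χ n / b.χ 1 = a.χ (e n) / a.χ (e 1)
      rw [hp]
      rfl
    exact (congrFun (congrArg Subtype.val h2) ⟨x, hx⟩).symm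
  · rw [b.supp x hx, a.supp _ (by rw [h]; exact hx)]

variable {Q : Type} [Fintype Q]

omit [Finite G] [Fintype Q] in
theorem mulSingle_mem_pi [DecidableEq Q] (R : Q → Subgroup G) (q : Q) (z : G) :
    (Pi.mulSingle q z : Q → G) ∈ Subgroup.pi Set.univ R ↔ z ∈ R q := by
  rw [Subgroup.mem_pi]
  constructor
  · intro h; simpa using h q trivial
  · intro h j _
    by_cases hj : j = q
    · subst hj; simpa using h
    · rw [Pi.mulSingle_eq_of_ne hj]; exact one_mem _

omit [Finite G] [Fintype Q] in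
theorem pi_inj (R R' : Q → Subgroup G)
    (h : (Subgroup.pi Set.univ R : Subgroup (Q → G)) = Subgroup.pi Set.univ R') : R = R' := by
  classical
  funext q
  ext x
  rw [← mulSingle_mem_pi R, h, mulSingle_mem_pi]

omit [Finite G] in
theorem prod_mulSingle [DecidableEq Q] (χ : Q → G → ℂ) (q : Q) (x : G) :
    ∏ j, χ j ((Pi.mulSingle q x : Q → G) j) = χ q x * ∏ j ∈ univ.erase q, χ j 1 := by
  rw [← Finset.mul_prod_erase _ _ (Finset.mem_univ q), Pi.mulSingle_eq_same]
  congr 1
  refine Finset.prod_congr rfl fun j hj => ?_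
  rw [Pi.mulSingle_eq_of_ne (Finset.ne_of_mem_erase hj)]

omit [Finite G] in
theorem quot_mulSingle [DecidableEq Q] (v : Q → WF p G) (q : Q) (x : G) :
    (∏ j, (v j).χ ((Pi.mulSingle q x : Q → G) j)) / ∏ j, (v j).χ 1 =
      (v q).χ x / (v q).χ 1 := by
  have h1 : ∏ j, (v j).χ 1 = (v q).χ 1 * ∏ j ∈ univ.erase q, (v j).χ 1 :=
    (Finset.mul_prod_erase _ _ (Finset.mem_univ q)).symm
  rw [prod_mulSingle (fun j => (v j).χ), h1, mul_div_mul_right]
  exact Finset.prod_ne_zero_iff.2 fun j _ => (v j).one_ne_zero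

theorem prodWF_injective : Function.Injective (prodWF : (Q → WF p G) → WF p (Q → G)) := by
  classical
  intro v v' h
  have hR := pi_inj _ _ (congrArg WF.R h)
  funext q
  refine eq_of_prop _ _ (congrFun hR q) fun x => ?_
  rw [← quot_mulSingle v q x, ← quot_mulSingle v' q x]
  have h1 := fun f => congrFun (congrArg WF.χ h) f
  simp only [prodWF_χ] at h1
  have h2 := h1 (fun _ => 1)
  rw [h1, h2]

/-- conjugacy of products of weights -/
theorem rel_prodWF_iff (v v' : Q → WF p G) :
    WF.Rel (prodWF v) (prodWF v') ↔ ∀ q, WF.Rel (v q) (v' q) := by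
  classical
  constructor
  · rintro ⟨g, h1, h2⟩ q
    have e1 : ∀ x : G, g⁻¹ * Pi.mulSingle q x * g = (Pi.mulSingle q ((g q)⁻¹ * x * g q) : Q → G) := by
      intro x
      funext j
      by_cases hj : j = q
      · subst hj; simp
      · simp [Pi.mulSingle_eq_of_ne hj]
    refine rel_of_prop _ _ (g q) (fun x => ?_) (fun x => ?_)
    · have h3 := h1 (Pi.mulSingle q x)
      rw [e1, prodWF_R, prodWF_R, mulSingle_mem_pi, mulSingle_mem_pi] at h3
      exact h3
    · rw [← quot_mulSingle v' q x, ← quot_mulSingle v q ((g q)⁻¹ * x * g q)]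
      have h3 := h2 (Pi.mulSingle q x)
      rw [e1, prodWF_χ, prodWF_χ] at h3
      have h4 := h2 1
      have e2 : g⁻¹ * 1 * g = 1 := by group
      rw [e2, prodWF_χ, prodWF_χ] at h4
      simp only [Pi.one_apply] at h4
      rw [h3, h4]
  · intro h
    choose g h1 h2 using h
    refine ⟨g, fun x => ?_, fun x => ?_⟩
    · rw [prodWF_R, prodWF_R, Subgroup.mem_pi, Subgroup.mem_pi]
      exact forall_congr' fun q => forall_congr' fun _ => h1 q (x q)
    · rw [prodWF_χ, prodWF_χ]
      exact Finset.prod_congr rfl fun q _ => h2 q (x q)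

variable [hp : Fact p.Prime]

/-- **(L2)** every weight of a product is a product of weights -/
theorem prodWF_surjective : Function.Surjective (prodWF : (Q → WF p G) → WF p (Q → G)) := by
  classical
  have := Fintype.ofFinite G
  intro w
  -- the subgroup
  let R : Q → Subgroup G := fun q => w.R.map (Pi.evalMonoidHom (fun _ : Q => G) q)
  have hpR : ∀ q, IsPGroup p (R q) := fun q => w.pgp.map _
  have hle : w.R ≤ Subgroup.pi Set.univ R := by
    intro f hf
    rw [Subgroup.mem_pi]
    exact fun q _ => ⟨f, hf, rfl⟩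
  have hnorm : normalizer (w.R : Set (Q → G)) ≤
      normalizer ((Subgroup.pi Set.univ R : Subgroup (Q → G)) : Set (Q → G)) := by
    intro x hx
    rw [mem_normalizer_pi]
    intro q
    have key : ∀ x ∈ normalizer (w.R : Set (Q → G)), ∀ y ∈ R q, x q * y * (x q)⁻¹ ∈ R q := by
      rintro x hx y ⟨f, hf, rfl⟩
      exact ⟨x * f * x⁻¹, (mem_normalizer_iff.1 hx f).1 hf, rfl⟩
    rw [mem_normalizer_iff]
    intro y
    refine ⟨key x hx y, fun h => ?_⟩
    have h1 := key x⁻¹ (inv_mem hx) _ h
    have h2 : (x⁻¹ : Q → G) q * (x q * y * (x q)⁻¹) * ((x⁻¹ : Q → G) q)⁻¹ = y := by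
      simp only [Pi.inv_apply]
      group
    rwa [h2] at h1
  have hR : w.R = Subgroup.pi Set.univ R := le_antisymm hle (w.le_of_norm (isPGroup_pi R hpR) hnorm)
  clear hle hnorm
  clear_value R
  obtain ⟨wR, wχ, wp, ws, wi, wt, wd⟩ := w
  dsimp only at *
  subst hR
  -- the character
  have hfin : ∀ q, Fintype (normalizer (R q : Set G)) := fun q => Fintype.ofFinite _
  have hirr : IsIrrChar (fun n : ∀ q, normalizer (R q : Set G) => wχ fun q => n q) :=
    wi.comp (normPi R).symm.toMonoidHom (normPi R).symm.surjective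
  obtain ⟨χ, hχ⟩ := exists_prod_irr hirr
  let X : Q → G → ℂ := fun q g => if h : g ∈ normalizer (R q : Set G) then (χ q).1 ⟨g, h⟩ else 0
  have hX : ∀ q (n : normalizer (R q : Set G)), X q n = (χ q).1 n := fun q n => by
    simp only [X, dif_pos n.2]
  have hX1 : ∀ q, X q 1 = (χ q).1 1 := fun q => hX q 1
  have hwX : ∀ f : Q → G, wχ f = ∏ q, X q (f q) := by
    intro f
    by_cases hf : f ∈ normalizer ((Subgroup.pi Set.univ R : Subgroup (Q → G)) : Set (Q → G))
    · have h1 := hχ (normPi R ⟨f, hf⟩)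
      rw [show wχ f = _ from h1]
      refine Finset.prod_congr rfl fun q _ => ?_
      exact (hX q (normPi R ⟨f, hf⟩ q)).symm
    · rw [ws f hf]
      rw [mem_normalizer_pi] at hf
      push Not at hf
      obtain ⟨q, hq⟩ := hf
      exact (Finset.prod_eq_zero (Finset.mem_univ q) (by simp only [X, dif_neg hq])).symm
  have hne : ∀ q, ∏ j ∈ univ.erase q, X j 1 ≠ 0 := fun q =>
    Finset.prod_ne_zero_iff.2 fun j _ => by rw [hX1]; exact (χ j).one_ne_zero
  have htriv : ∀ q, ∀ r ∈ R q, ∀ x, X q (x * r) = X q x := by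
    intro q r hr x
    have h1 := wt (Pi.mulSingle q r) ((mulSingle_mem_pi R q r).2 hr) (Pi.mulSingle q x)
    rw [← Pi.mulSingle_mul, hwX, hwX, prod_mulSingle, prod_mulSingle] at h1
    exact mul_right_cancel₀ (hne q) h1
  have hdeg : ∀ q, ∃ d : ℕ, 0 < d ∧ (χ q).1 1 = d := fun q => (χ q).exists_deg
  choose d hd hd1 using hdeg
  -- divisibility of degrees
  have hdvd : ∀ q, d q * Nat.card (R q) ∣ Nat.card (normalizer (R q : Set G)) := by
    intro q
    obtain ⟨ψ, hψ, h2⟩ := irr_quot ((R q).subgroupOf (normalizer (R q : Set G))) (χ q).2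
      (fun r hr x => by
        have := htriv q r (mem_subgroupOf.1 hr) x
        rw [← Subgroup.coe_mul, hX, hX] at this
        exact this)
    have h3 : ψ 1 = d q := by
      rw [← hd1 q]
      exact (h2 1).symm
    have h4 : Nat.card (normalizer (R q : Set G)) = Nat.card (normalizer (R q : Set G) ⧸
        (R q).subgroupOf (normalizer (R q : Set G))) * Nat.card (R q) := by
      rw [card_eq_card_quotient_mul_card_subgroup ((R q).subgroupOf (normalizer (R q : Set G))),
        Nat.card_congr (subgroupOfEquivOfLe (le_normalizer : R q ≤ normalizer (R q : Set G))).toEquiv]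
    rw [h4]
    exact Nat.mul_dvd_mul_right (deg_dvd hψ h3) _
  have hdz : ∀ q, (d q * Nat.card (R q)).factorization p =
      (Nat.card (normalizer (R q : Set G))).factorization p := by
    obtain ⟨D, hD, hDp⟩ := wd
    have h5 : D = ∏ q, d q := by
      have h6 := hwX 1
      rw [hD] at h6
      have h7 : (D : ℂ) = ((∏ q, d q : ℕ) : ℂ) := by
        rw [h6]
        push_cast
        refine Finset.prod_congr rfl fun q _ => ?_
        rw [Pi.one_apply, hX1, hd1]
      exact_mod_cast h7
    rw [h5, Nat.card_congr (piEquiv R), Nat.card_congr (normPi R).toEquiv, Nat.card_pi, Nat.card_pi,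
      ← Finset.prod_mul_distrib, Nat.factorization_prod, Nat.factorization_prod,
      Finsupp.finsetSum_apply, Finsupp.finsetSum_apply] at hDp
    · have h6 := (Finset.sum_eq_sum_iff_of_le (fun q _ =>
        (Nat.factorization_le_iff_dvd (mul_ne_zero (hd q).ne' Nat.card_pos.ne')
          Nat.card_pos.ne').2 (hdvd q) p)).1 hDp
      exact fun q => h6 q (Finset.mem_univ q)
    · intro q _; exact Nat.card_pos.ne'
    · intro q _; exact mul_ne_zero (hd q).ne' Nat.card_pos.ne'
  let v : Q → WF p G := fun q =>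
    { R := R q
      χ := X q
      pgp := hpR q
      supp := fun x hx => by simp only [X, dif_neg hx]
      irr := by
        have : (fun n : normalizer (R q : Set G) => X q n) = (χ q).1 := funext fun n => hX q n
        rw [this]
        exact (χ q).2
      triv := htriv q
      dz := ⟨d q, (hX1 q).trans (hd1 q), hdz q⟩ }
  exact ⟨v, WF.ext' rfl (funext fun f => (hwX f).symm)⟩

end

end P179R
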