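import Vale.Agent.P179.H905.Chain

/-!
# Conjugation of chains

(Adapted from `Vale.Agent.P179.H166.Toggle`.)
-/

namespace P179A

open Subgroup

open scoped Classical Pointwise

variable {G : Type*} [Group G]

theorem isPChain_empty (p : ℕ) : IsPChain p (∅ : Finset (Subgroup G)) := by
  simp [IsPChain]

theorem stab_empty : stab (∅ : Finset (Subgroup G)) = ⊤ := by
  simp [stab]

theorem tog_eq_symmDiff (U : Subgroup G) (s : Finset (Subgroup G)) :
    tog U s = symmDiff s {togR U s} := by
  ext Q
  rw [mem_tog, Finset.mem_symmDiff]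
  simp only [Finset.mem_singleton]
  constructor
  · rintro (h | h)
    · exact Or.inl h
    · exact Or.inr ⟨h.1, by rw [h.1]; exact h.2⟩
  · rintro (h | h)
    · exact Or.inl h
    · exact Or.inr ⟨h.1, by rw [← h.1]; exact h.2⟩

theorem smul_togR (φ : MulAut G) (U : Subgroup G) (s : Finset (Subgroup G)) :
    φ • togR U s = togR (φ • U) (φ • s) := by
  have key : ∀ t : Finset (Subgroup G), φ • (t.sup id) = (φ • t).sup id := by
    intro t
    induction t using Finset.induction_on with
    | empty => simp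
    | insert a t ha ih =>
      rw [Finset.sup_insert, Finset.smul_finset_insert, Finset.sup_insert, Subgroup.smul_sup, ih]
      rfl
  rw [togR, togR, lowSup, lowSup, Subgroup.smul_sup, key]
  congr 2
  ext Q
  simp only [Finset.mem_filter, Finset.mem_smul_finset]
  constructor
  · rintro ⟨R, ⟨hR, hU⟩, rfl⟩
    exact ⟨⟨R, hR, rfl⟩, by rwa [Subgroup.pointwise_smul_le_pointwise_smul_iff]⟩
  · rintro ⟨⟨R, hR, rfl⟩, hU⟩
    exact ⟨R, ⟨hR, by rwa [Subgroup.pointwise_smul_le_pointwise_smul_iff] at hU⟩, rfl⟩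

theorem smul_tog (φ : MulAut G) (U : Subgroup G) (s : Finset (Subgroup G)) :
    φ • tog U s = tog (φ • U) (φ • s) := by
  rw [tog_eq_symmDiff, tog_eq_symmDiff, ← smul_togR, Finset.smul_finset_symmDiff,
    Finset.smul_finset_singleton]

theorem smul_mem_normalizer_iff (φ : MulAut G) (g : G) (Q : Subgroup G) :
    φ g ∈ normalizer ((φ • Q : Subgroup G) : Set G) ↔ g ∈ normalizer (Q : Set G) := by
  have h1 : ∀ x : G, φ x ∈ φ • Q ↔ x ∈ Q := fun x => by
    rw [← MulAut.smul_def, Subgroup.smul_mem_pointwise_smul_iff]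
  rw [mem_normalizer_iff, mem_normalizer_iff]
  constructor
  · intro h x
    have := h (φ x)
    rw [h1] at this
    rw [this, ← h1]; simp
  · intro h x
    obtain ⟨x, rfl⟩ := φ.surjective x
    rw [h1, h x, ← h1]; simp

theorem smul_mem_stab_iff (φ : MulAut G) (g : G) (s : Finset (Subgroup G)) :
    φ g ∈ stab (φ • s) ↔ g ∈ stab s := by
  rw [mem_stab, mem_stab]
  constructor
  · intro h Q hQ
    rw [← smul_mem_normalizer_iff φ]
    exact h _ (Finset.smul_mem_smul_finset hQ)
  · intro h Q hQ
    obtain ⟨R, hR, rfl⟩ := Finset.mem_smul_finset.mp hQ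
    rw [smul_mem_normalizer_iff]
    exact h _ hR

theorem isPChain_smul_iff (p : ℕ) (φ : MulAut G) (s : Finset (Subgroup G)) :
    IsPChain p (φ • s) ↔ IsPChain p s := by
  have key : ∀ (φ : MulAut G) (s : Finset (Subgroup G)), IsPChain p s → IsPChain p (φ • s) := by
    intro φ s hs
    constructor
    · intro Q hQ
      obtain ⟨R, hR, rfl⟩ := Finset.mem_smul_finset.mp hQ
      refine ⟨?_, ?_⟩
      · exact (hs.1 R hR).1.of_equiv (Subgroup.equivSMul φ R)
      · intro h
        apply (hs.1 R hR).2
        rw [← Subgroup.smul_bot φ] at h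
        exact (MulAction.injective φ) h
    · intro Q hQ R hR _
      rw [Finset.mem_coe] at hQ hR
      obtain ⟨Q', hQ', rfl⟩ := Finset.mem_smul_finset.mp hQ
      obtain ⟨R', hR', rfl⟩ := Finset.mem_smul_finset.mp hR
      simp only [Subgroup.pointwise_smul_le_pointwise_smul_iff]
      exact hs.2.total (Finset.mem_coe.mpr hQ') (Finset.mem_coe.mpr hR')
  refine ⟨fun h => ?_, key φ s⟩
  have := key φ⁻¹ _ h
  rwa [inv_smul_smul] at this

theorem card_smul_chain (φ : MulAut G) (s : Finset (Subgroup G)) : (φ • s).card = s.card :=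
  Finset.card_smul_finset φ s

theorem conj_smul_eq_self_of_mem {g : G} {s : Finset (Subgroup G)} (hg : g ∈ stab s) :
    MulAut.conj g • s = s := by
  have key : ∀ Q ∈ s, MulAut.conj g • Q = Q := by
    intro Q hQ
    have := mem_stab.mp hg Q hQ
    ext x
    rw [Subgroup.mem_pointwise_smul_iff_inv_smul_mem]
    rw [mem_normalizer_iff''] at this
    rw [this x]
    simp [MulAut.smul_def]
  ext Q
  rw [Finset.mem_smul_finset]
  constructor
  · rintro ⟨R, hR, rfl⟩
    rwa [key R hR]
  · intro hQ
    exact ⟨Q, hQ, key Q hQ⟩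

/-- An element of a finite group which fixes a chain setwise normalises all of its members. -/
theorem mem_stab_of_conj_smul_eq [Finite G] {g : G} {s : Finset (Subgroup G)}
    (hs : IsChain (· ≤ ·) (s : Set (Subgroup G))) (hg : MulAut.conj g • s = s) :
    g ∈ stab s := by
  rw [mem_stab]
  intro Q hQ
  have h1 : MulAut.conj g • Q ∈ s := by
    rw [← hg]; exact Finset.smul_mem_smul_finset hQ
  have hcard : Nat.card (MulAut.conj g • Q : Subgroup G) = Nat.card Q :=
    (Nat.card_congr (Subgroup.equivSMul (MulAut.conj g) Q).toEquiv).symm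
  have h2 : MulAut.conj g • Q = Q := by
    rcases hs.total (Finset.mem_coe.mpr h1) (Finset.mem_coe.mpr hQ) with h | h
    · exact Subgroup.eq_of_le_of_card_ge h hcard.ge
    · exact (Subgroup.eq_of_le_of_card_ge h hcard.le).symm
  rw [mem_normalizer_iff]
  intro x
  have : g * x * g⁻¹ = MulAut.conj g • x := by simp [MulAut.smul_def]
  rw [this]
  conv_rhs => rw [← h2]
  rw [Subgroup.smul_mem_pointwise_smul_iff]

end P179A
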