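import Mathlib

/-!
# The transfer of an equivariant permutation of a free `P`-set, `P` abelian

`S` is a finite `P`-stable subset of a `P`-set `Ω`, `c : Ω → P` a trivialisation of `S`
(`c (e • w) = e * c w` on `S`, so `P` acts freely on `S`), `a : Ω → Ω` a map which restricts to a
`P`-equivariant permutation of `S`.  Then `delta c a S` is the product over the `P`-orbits in `S`
of `c (a w) / c w`.
-/

namespace P179A

variable {P Ω : Type*} [CommGroup P] [MulAction P Ω]

/-- `c` is a trivialisation of the `P`-stable finite set `S`. -/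
structure Triv (S : Finset Ω) (c : Ω → P) : Prop where
  stable : ∀ w ∈ S, ∀ e : P, e • w ∈ S
  map : ∀ w ∈ S, ∀ e : P, c (e • w) = e * c w

/-- `a` restricts to a `P`-equivariant injection `S → S'`. -/
structure Eqv (P : Type*) {Ω : Type*} [CommGroup P] [MulAction P Ω] (S S' : Finset Ω)
    (a : Ω → Ω) : Prop where
  maps : ∀ w ∈ S, a w ∈ S'
  comm : ∀ w ∈ S, ∀ e : P, a (e • w) = e • a w
  inj : ∀ w ∈ S, ∀ w' ∈ S, a w = a w' → w = w'
  surj : ∀ w' ∈ S', ∃ w ∈ S, a w = w'

open Classical in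
/-- Representatives of the orbits. -/
noncomputable def reps (c : Ω → P) (S : Finset Ω) : Finset Ω := S.filter (fun w => c w = 1)

/-- The transfer. -/
noncomputable def delta (c : Ω → P) (a : Ω → Ω) (S : Finset Ω) : P := ∏ w ∈ reps c S, c (a w)

omit [MulAction P Ω] in
theorem mem_reps {c : Ω → P} {S : Finset Ω} {w : Ω} : w ∈ reps c S ↔ w ∈ S ∧ c w = 1 := by
  classical
  simp [reps]

theorem Triv.free {S : Finset Ω} {c : Ω → P} (h : Triv S c) {w : Ω} (hw : w ∈ S) {e : P}
    (he : e • w = w) : e = 1 := by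
  have := h.map w hw e
  rw [he] at this
  exact mul_eq_right.1 this.symm

theorem Triv.rep_mem {S : Finset Ω} {c : Ω → P} (h : Triv S c) {w : Ω} (hw : w ∈ S) :
    (c w)⁻¹ • w ∈ reps c S := by
  rw [mem_reps]
  refine ⟨h.stable w hw _, ?_⟩
  rw [h.map w hw, inv_mul_cancel]

theorem Triv.rep_eq {S : Finset Ω} {c : Ω → P} (h : Triv S c) {w : Ω} (hw : w ∈ reps c S)
    (e : P) : (c (e • w))⁻¹ • (e • w) = w := by
  rw [mem_reps] at hw
  rw [h.map w hw.1, hw.2, mul_one, inv_smul_smul]

/-- Invariant functions have the same product over the representatives. -/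
theorem prod_reindex {M : Type*} [CommMonoid M] {S S' : Finset Ω} {c c' : Ω → P} (hc : Triv S c)
    (hc' : Triv S' c')
    {b : Ω → Ω} (hb : Eqv P S S' b) {F : Ω → M} (hF : ∀ w ∈ S', ∀ e : P, F (e • w) = F w) :
    ∏ w ∈ reps c S, F (b w) = ∏ w ∈ reps c' S', F w := by
  refine Finset.prod_bij (fun w _ => (c' (b w))⁻¹ • b w) ?_ ?_ ?_ ?_
  · intro w hw
    exact hc'.rep_mem (hb.maps w (mem_reps.1 hw).1)
  · intro w hw w' hw' h
    have h1 := (mem_reps.1 hw).1
    have h2 := (mem_reps.1 hw').1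
    rw [← hb.comm w h1, ← hb.comm w' h2] at h
    have h3 := hb.inj _ (hc.stable w h1 _) _ (hc.stable w' h2 _) h
    have h4 := congrArg (fun z => (c z)⁻¹ • z) h3
    beta_reduce at h4
    rwa [hc.rep_eq hw, hc.rep_eq hw'] at h4
  · intro w' hw'
    have hw1 := mem_reps.1 hw'
    obtain ⟨w, hw, rfl⟩ := hb.surj w' hw1.1
    refine ⟨(c w)⁻¹ • w, hc.rep_mem hw, ?_⟩
    rw [hb.comm w hw]
    exact hc'.rep_eq hw' _
  · intro w hw
    have h1 := (mem_reps.1 hw).1
    rw [hF _ (hb.maps w h1)]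

theorem Eqv.id_ (S : Finset Ω) : Eqv P S S (fun w => w) :=
  ⟨fun _ h => h, fun _ _ _ => rfl, fun _ _ _ _ h => h, fun w h => ⟨w, h, rfl⟩⟩

theorem prod_reps_eq {M : Type*} [CommMonoid M] {S : Finset Ω} {c c' : Ω → P} (hc : Triv S c)
    (hc' : Triv S c') {F : Ω → M} (hF : ∀ w ∈ S, ∀ e : P, F (e • w) = F w) :
    ∏ w ∈ reps c S, F w = ∏ w ∈ reps c' S, F w :=
  prod_reindex hc hc' (Eqv.id_ S) hF

theorem ratio_inv {S S' : Finset Ω} {c c' : Ω → P} (hc : Triv S c) (hc' : Triv S' c') {a : Ω → Ω}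
    (ha : Eqv P S S' a) : ∀ w ∈ S, ∀ e : P,
      c' (a (e • w)) * (c (e • w))⁻¹ = c' (a w) * (c w)⁻¹ := by
  intro w hw e
  rw [ha.comm w hw, hc'.map _ (ha.maps w hw), hc.map w hw]
  rw [mul_inv, mul_mul_mul_comm, mul_inv_cancel, one_mul]

omit [MulAction P Ω] in
theorem delta_eq_ratio {S : Finset Ω} {c : Ω → P} {a : Ω → Ω} :
    delta c a S = ∏ w ∈ reps c S, (c (a w) * (c w)⁻¹) := by
  unfold delta
  refine Finset.prod_congr rfl fun w hw => ?_
  rw [(mem_reps.1 hw).2, inv_one, mul_one]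

/-- The transfer does not depend on the trivialisation. -/
theorem delta_indep {S : Finset Ω} {c c' : Ω → P} (hc : Triv S c) (hc' : Triv S c') {a : Ω → Ω}
    (ha : Eqv P S S a) : delta c a S = delta c' a S := by
  rw [delta_eq_ratio, delta_eq_ratio, prod_reps_eq hc hc' (ratio_inv hc hc ha)]
  have hh : ∀ w ∈ S, ∀ e : P, c' (e • w) * (c (e • w))⁻¹ = c' w * (c w)⁻¹ := by
    intro w hw e
    rw [hc'.map w hw, hc.map w hw, mul_inv, mul_mul_mul_comm, mul_inv_cancel, one_mul]
  have key := prod_reindex (F := fun w => c' w * (c w)⁻¹) hc' hc' ha hh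
  have : ∀ w ∈ reps c' S, c' (a w) * (c' w)⁻¹
      = (c (a w) * (c w)⁻¹) * ((c' (a w) * (c (a w))⁻¹) * (c' w * (c w)⁻¹)⁻¹) := by
    intro w _
    have aux : ∀ x y z t : P, x * y⁻¹ = z * t⁻¹ * ((x * z⁻¹) * (y * t⁻¹)⁻¹) := by
      intro x y z t
      rw [mul_inv, inv_inv]
      have : z * t⁻¹ * (x * z⁻¹ * (y⁻¹ * t)) = x * y⁻¹ * (z * z⁻¹) * (t⁻¹ * t) := by ac_rfl
      rw [this, mul_inv_cancel, inv_mul_cancel, mul_one, mul_one]
    exact aux _ _ _ _
  have h2 : ∏ w ∈ reps c' S, ((c' (a w) * (c (a w))⁻¹) * (c' w * (c w)⁻¹)⁻¹) = 1 := by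
    rw [Finset.prod_mul_distrib, Finset.prod_inv_distrib, key, mul_inv_cancel]
  rw [Finset.prod_congr rfl this]
  rw [Finset.prod_mul_distrib (f := fun w => c (a w) * (c w)⁻¹), h2, mul_one]

/-- The transfer is multiplicative. -/
theorem delta_comp {S : Finset Ω} {c : Ω → P} (hc : Triv S c) {a b : Ω → Ω} (ha : Eqv P S S a)
    (hb : Eqv P S S b) : delta c (fun w => a (b w)) S = delta c a S * delta c b S := by
  have key := prod_reindex (F := fun w => c (a w) * (c w)⁻¹) hc hc hb (ratio_inv hc hc ha)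
  rw [delta_eq_ratio (a := a), ← key]
  unfold delta
  rw [← Finset.prod_mul_distrib]
  refine Finset.prod_congr rfl fun w _ => ?_
  group

theorem Eqv.comp {S S' S'' : Finset Ω} {a b : Ω → Ω} (ha : Eqv P S' S'' a) (hb : Eqv P S S' b) :
    Eqv P S S'' (fun w => a (b w)) where
  maps w hw := ha.maps _ (hb.maps w hw)
  comm w hw e := by rw [hb.comm w hw, ha.comm _ (hb.maps w hw)]
  inj w hw w' hw' h := hb.inj w hw w' hw' (ha.inj _ (hb.maps w hw) _ (hb.maps w' hw') h)
  surj w' hw' := by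
    obtain ⟨v, hv, rfl⟩ := ha.surj w' hw'
    obtain ⟨w, hw, rfl⟩ := hb.surj v hv
    exact ⟨w, hw, rfl⟩

theorem Eqv.iterate {S : Finset Ω} {a : Ω → Ω} (ha : Eqv P S S a) (n : ℕ) :
    Eqv P S S (a^[n]) := by
  induction n with
  | zero => exact Eqv.id_ S
  | succ n ih =>
    have := ha.comp ih
    rwa [Function.iterate_succ'] 

omit [MulAction P Ω] in
theorem delta_id {S : Finset Ω} {c : Ω → P} : delta c (fun w => w) S = 1 := by
  unfold delta
  refine Finset.prod_eq_one fun w hw => (mem_reps.1 hw).2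

theorem delta_iterate {S : Finset Ω} {c : Ω → P} (hc : Triv S c) {a : Ω → Ω} (ha : Eqv P S S a)
    (n : ℕ) : delta c (a^[n]) S = delta c a S ^ n := by
  induction n with
  | zero => rw [pow_zero]; exact delta_id
  | succ n ih =>
    rw [Function.iterate_succ', pow_succ', ← ih]
    exact delta_comp hc ha (ha.iterate n)

/-- Isomorphic pairs have the same transfer. -/
theorem delta_iso {S S' : Finset Ω} {c c' : Ω → P} (hc : Triv S c) (hc' : Triv S' c')
    {a a' : Ω → Ω} (ha : Eqv P S S a) {f : Ω → Ω} (hf : Eqv P S S' f)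
    (hfa : ∀ w ∈ S, f (a w) = a' (f w)) : delta c a S = delta c' a' S' := by
  have hcf : Triv S (fun w => c' (f w)) :=
    ⟨hc.stable, fun w hw e => by rw [hf.comm w hw, hc'.map _ (hf.maps w hw)]⟩
  rw [delta_indep hc hcf ha]
  unfold delta
  refine Finset.prod_bij (fun w _ => f w) ?_ ?_ ?_ ?_
  · intro w hw
    rw [mem_reps] at hw ⊢
    exact ⟨hf.maps w hw.1, hw.2⟩
  · intro w hw w' hw' h
    exact hf.inj w (mem_reps.1 hw).1 w' (mem_reps.1 hw').1 h
  · intro w' hw'
    rw [mem_reps] at hw'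
    obtain ⟨w, hw, rfl⟩ := hf.surj w' hw'.1
    exact ⟨w, mem_reps.2 ⟨hw, hw'.2⟩, rfl⟩
  · intro w hw
    simp only
    rw [hfa w (mem_reps.1 hw).1]

omit [MulAction P Ω] in
theorem delta_congr {S : Finset Ω} {c : Ω → P} {a a' : Ω → Ω} (h : ∀ w ∈ S, a w = a' w) :
    delta c a S = delta c a' S := by
  unfold delta
  exact Finset.prod_congr rfl fun w hw => by rw [h w (mem_reps.1 hw).1]

/-- The transfer of an element of `P`. -/
theorem delta_smul {S : Finset Ω} {c : Ω → P} (hc : Triv S c) (u : P) :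
    delta c (fun w => u • w) S = u ^ (reps c S).card := by
  unfold delta
  rw [Finset.prod_congr rfl (g := fun _ => u), Finset.prod_const]
  intro w hw
  rw [hc.map w (mem_reps.1 hw).1, (mem_reps.1 hw).2, mul_one]

omit [MulAction P Ω] in
theorem delta_union {S S' : Finset Ω} [DecidableEq Ω] {c : Ω → P} {a : Ω → Ω}
    (h : Disjoint S S') : delta c a (S ∪ S') = delta c a S * delta c a S' := by
  classical
  unfold delta reps
  rw [Finset.filter_union, Finset.prod_union]
  exact Finset.disjoint_filter_filter h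

/-- The cardinality of a free `P`-set. -/
theorem card_eq {S : Finset Ω} {c : Ω → P} (hc : Triv S c) :
    S.card = Nat.card P * (reps c S).card := by
  classical
  by_cases hne : S.Nonempty
  · obtain ⟨w0, hw0⟩ := hne
    -- `P` is finite
    have hfin : Finite P := by
      refine Finite.of_injective (fun e : P => (⟨e • w0, hc.stable w0 hw0 e⟩ : {x // x ∈ S})) ?_
      intro e e' h
      have h1 : e • w0 = e' • w0 := congrArg Subtype.val h
      have h2 : (e'⁻¹ * e) • w0 = w0 := by rw [mul_smul, h1, inv_smul_smul]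
      have h3 := hc.free hw0 h2
      exact (inv_mul_eq_one.1 h3).symm
    have : Fintype P := Fintype.ofFinite P
    rw [Nat.card_eq_fintype_card, ← Finset.card_univ, ← Finset.card_product]
    refine (Finset.card_bij (fun (t : P × Ω) _ => t.1 • t.2) ?_ ?_ ?_).symm
    · intro t ht
      rw [Finset.mem_product] at ht
      exact hc.stable _ (mem_reps.1 ht.2).1 _
    · intro t ht t' ht' h
      rw [Finset.mem_product] at ht ht'
      have h1 := congrArg c h
      have m1 := mem_reps.1 ht.2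
      have m2 := mem_reps.1 ht'.2
      rw [hc.map _ m1.1, hc.map _ m2.1, m1.2, m2.2, mul_one, mul_one] at h1
      have h2 : t.2 = t'.2 := by
        simp only [h1] at h
        exact MulAction.injective _ h
      exact Prod.ext h1 h2
    · intro w hw
      refine ⟨(c w, (c w)⁻¹ • w), ?_, ?_⟩
      · rw [Finset.mem_product]
        exact ⟨Finset.mem_univ _, hc.rep_mem hw⟩
      · simp
  · rw [Finset.not_nonempty_iff_eq_empty] at hne
    subst hne
    simp [reps]

/-- A free stable set has a trivialisation. -/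
theorem exists_triv (S : Finset Ω) (hst : ∀ w ∈ S, ∀ e : P, e • w ∈ S)
    (hfree : ∀ w ∈ S, ∀ e : P, e • w = w → e = 1) : ∃ c : Ω → P, Triv S c := by
  classical
  let r : Ω → Ω := fun w => (Quotient.mk (MulAction.orbitRel P Ω) w).out
  have hr : ∀ w, ∃ e : P, e • r w = w := by
    intro w
    have h0 : Quotient.mk (MulAction.orbitRel P Ω) (r w) = Quotient.mk (MulAction.orbitRel P Ω) w :=
      Quotient.out_eq _
    have h1 : (MulAction.orbitRel P Ω) w (r w) := Quotient.exact h0.symm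
    exact h1
  choose c hcw using hr
  have hr2 : ∀ w (e : P), r (e • w) = r w := by
    intro w e
    have : Quotient.mk (MulAction.orbitRel P Ω) (e • w) = Quotient.mk (MulAction.orbitRel P Ω) w :=
      Quotient.sound ⟨e, rfl⟩
    simp only [r, this]
  refine ⟨c, hst, ?_⟩
  intro w hw e
  have h1 := hcw (e • w)
  rw [hr2] at h1
  have h2 := hcw w
  have hrS : r w ∈ S := by
    have : r w = (c w)⁻¹ • w := by rw [eq_inv_smul_iff]; exact h2
    rw [this]; exact hst w hw _
  have h3 : ((e * c w)⁻¹ * c (e • w)) • r w = r w := by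
    rw [mul_smul, h1, mul_inv_rev, mul_smul, inv_smul_smul]
    rw [inv_smul_eq_iff]; exact h2.symm
  have h4 := hfree _ hrS _ h3
  exact (inv_mul_eq_one.1 h4).symm

/-- **Transfer in an abelian situation.**  `S` is parametrised by `e • φ a`, `e ∈ P`, `a ∈ A`, with
`A` a commutative group; `s` acts as multiplication by `ξ` on the parameter. -/
theorem delta_transitive {A : Type*} [CommGroup A] {S : Finset Ω} {c : Ω → P} (hc : Triv S c)
    {s : Ω → Ω} (hs : Eqv P S S s) (φ : A → Ω) (hφ : ∀ a, φ a ∈ S)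
    (hsurj : ∀ w ∈ S, ∃ (e : P) (a : A), w = e • φ a)
    (hR : ∀ (a a' b : A) (e : P), φ a = e • φ a' → φ (a * b) = e • φ (a' * b))
    (ξ : A) (hξ : ∀ a, s (φ a) = φ (a * ξ)) :
    φ (ξ ^ (reps c S).card) = delta c s S • φ 1 := by
  classical
  choose! E α hEα using hsurj
  -- the multiplicative relation
  have hmul : ∀ (a a' : A) (e e' : P), φ a = e • φ 1 → φ a' = e' • φ 1 →
      φ (a * a') = (e * e') • φ 1 := by
    intro a a' e e' h h'
    rw [hR a 1 a' e h, one_mul, h', mul_smul]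
  have hprod : ∀ (R : Finset Ω) (g : Ω → A) (k : Ω → P), (∀ r ∈ R, φ (g r) = k r • φ 1) →
      φ (∏ r ∈ R, g r) = (∏ r ∈ R, k r) • φ 1 := by
    intro R
    induction R using Finset.induction_on with
    | empty => intro g k _; simp
    | insert r R hr ih =>
      intro g k h
      rw [Finset.prod_insert hr, Finset.prod_insert hr]
      exact hmul _ _ _ _ (h r (Finset.mem_insert_self _ _))
        (ih g k fun r' hr' => h r' (Finset.mem_insert_of_mem hr'))
  -- the representative of `s r`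
  let nx : Ω → Ω := fun r => (c (s r))⁻¹ • s r
  have hnx : ∀ r ∈ reps c S, nx r ∈ reps c S := fun r hr =>
    hc.rep_mem (hs.maps r (mem_reps.1 hr).1)
  have hrel : ∀ r ∈ reps c S, φ (α r * ξ * (α (nx r))⁻¹)
      = ((E r)⁻¹ * c (s r) * E (nx r)) • φ 1 := by
    intro r hr
    have h1 := hEα r (mem_reps.1 hr).1
    have h2 := hEα (nx r) (mem_reps.1 (hnx r hr)).1
    have h3 : s r = E r • φ (α r * ξ) := by
      conv_lhs => rw [h1]
      rw [hs.comm _ (hφ _), hξ]
    have h4 : s r = (c (s r) * E (nx r)) • φ (α (nx r)) := by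
      rw [mul_smul, ← h2]
      simp [nx]
    have h5 : φ (α r * ξ) = ((E r)⁻¹ * c (s r) * E (nx r)) • φ (α (nx r)) := by
      have : φ (α r * ξ) = (E r)⁻¹ • s r := by rw [h3, inv_smul_smul]
      rw [this, mul_assoc, mul_smul, ← h4]
    have h6 := hR _ _ (α (nx r))⁻¹ _ h5
    rwa [mul_inv_cancel] at h6
  have hE : ∏ r ∈ reps c S, E (nx r) = ∏ r ∈ reps c S, E r := by
    have hEinv : ∀ (R : Finset Ω), R = reps c S → 
        ∏ r ∈ R, E (nx r) = ∏ r ∈ R, E r := by
      rintro R rfl
      refine Finset.prod_bij (fun r _ => nx r) hnx ?_ ?_ (fun _ _ => rfl)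
      · intro w hw w' hw' h
        have h1 := (mem_reps.1 hw).1
        have h2 := (mem_reps.1 hw').1
        change (c (s w))⁻¹ • s w = (c (s w'))⁻¹ • s w' at h
        rw [← hs.comm w h1, ← hs.comm w' h2] at h
        have h3 := hs.inj _ (hc.stable w h1 _) _ (hc.stable w' h2 _) h
        have h4 := congrArg (fun z => (c z)⁻¹ • z) h3
        beta_reduce at h4
        rwa [hc.rep_eq hw, hc.rep_eq hw'] at h4
      · intro w' hw'
        obtain ⟨w, hw, rfl⟩ := hs.surj w' (mem_reps.1 hw').1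
        refine ⟨(c w)⁻¹ • w, hc.rep_mem hw, ?_⟩
        simp only [nx]
        rw [hs.comm w hw]
        exact hc.rep_eq hw' _
    exact hEinv _ rfl
  have hα : ∏ r ∈ reps c S, α (nx r) = ∏ r ∈ reps c S, α r := by
    refine Finset.prod_bij (fun r _ => nx r) hnx ?_ ?_ (fun _ _ => rfl)
    · intro w hw w' hw' h
      have h1 := (mem_reps.1 hw).1
      have h2 := (mem_reps.1 hw').1
      change (c (s w))⁻¹ • s w = (c (s w'))⁻¹ • s w' at h
      rw [← hs.comm w h1, ← hs.comm w' h2] at h
      have h3 := hs.inj _ (hc.stable w h1 _) _ (hc.stable w' h2 _) h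
      have h4 := congrArg (fun z => (c z)⁻¹ • z) h3
      beta_reduce at h4
      rwa [hc.rep_eq hw, hc.rep_eq hw'] at h4
    · intro w' hw'
      obtain ⟨w, hw, rfl⟩ := hs.surj w' (mem_reps.1 hw').1
      refine ⟨(c w)⁻¹ • w, hc.rep_mem hw, ?_⟩
      simp only [nx]
      rw [hs.comm w hw]
      exact hc.rep_eq hw' _
  have hfin := hprod (reps c S) _ _ hrel
  rw [Finset.prod_mul_distrib, Finset.prod_mul_distrib, Finset.prod_mul_distrib,
    Finset.prod_mul_distrib, Finset.prod_inv_distrib, Finset.prod_inv_distrib, hE, hα,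
    Finset.prod_const] at hfin
  have e1 : (∏ r ∈ reps c S, α r) * ξ ^ (reps c S).card * (∏ r ∈ reps c S, α r)⁻¹
      = ξ ^ (reps c S).card := by
    rw [mul_comm (∏ r ∈ reps c S, α r), mul_inv_cancel_right]
  have e2 : (∏ r ∈ reps c S, E r)⁻¹ * (∏ r ∈ reps c S, c (s r)) * (∏ r ∈ reps c S, E r)
      = delta c s S := by
    rw [mul_comm _ (∏ r ∈ reps c S, c (s r)), inv_mul_cancel_right]
    rfl
  rw [e1, e2] at hfin
  exact hfin

/-- The number of `P`-orbits in the transitive situation. -/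
theorem card_transitive {A : Type*} [CommGroup A] [Finite A] [Finite P] {S : Finset Ω} {c : Ω → P}
    (hc : Triv S c) (φ : A → Ω) (hφ : ∀ a, φ a ∈ S)
    (hsurj : ∀ w ∈ S, ∃ (e : P) (a : A), w = e • φ a)
    (hR : ∀ (a a' b : A) (e : P), φ a = e • φ a' → φ (a * b) = e • φ (a' * b)) :
    Nat.card A = (reps c S).card * Nat.card {t : P × A // φ t.2 = t.1 • φ 1} := by
  classical
  have : Fintype P := Fintype.ofFinite P
  have : Fintype A := Fintype.ofFinite A
  have key : Fintype.card (P × A) = S.card * Nat.card {t : P × A // φ t.2 = t.1 • φ 1} := by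
    rw [← Finset.card_univ (α := P × A)]
    rw [Finset.card_eq_sum_card_fiberwise (f := fun t : P × A => t.1 • φ t.2) (t := S)
      (fun t _ => hc.stable _ (hφ _) _)]
    rw [Finset.sum_const_nat (m := Nat.card {t : P × A // φ t.2 = t.1 • φ 1})]
    intro w hw
    obtain ⟨E, α, rfl⟩ := hsurj w hw
    rw [Nat.card_eq_fintype_card, Fintype.card_subtype]
    refine Finset.card_bij (fun t _ => (t.1⁻¹ * E, t.2 * α⁻¹)) ?_ ?_ ?_
    · intro t ht
      simp only [Finset.mem_filter, Finset.mem_univ, true_and] at ht ⊢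
      have h1 : φ t.2 = (t.1⁻¹ * E) • φ α := by
        rw [mul_smul, ← ht, inv_smul_smul]
      have h2 := hR _ _ α⁻¹ _ h1
      rwa [mul_inv_cancel] at h2
    · intro t _ t' _ h
      simp only [Prod.mk.injEq, mul_left_inj, inv_inj] at h
      exact Prod.ext h.1 h.2
    · intro t ht
      simp only [Finset.mem_filter, Finset.mem_univ, true_and] at ht
      refine ⟨(E * t.1⁻¹, t.2 * α), ?_, ?_⟩
      · simp only [Finset.mem_filter, Finset.mem_univ, true_and]
        have h1 := hR _ _ α _ ht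
        rw [one_mul] at h1
        rw [h1, ← mul_smul, inv_mul_cancel_right]
      · simp
  rw [Fintype.card_prod, card_eq hc] at key
  have hP : 0 < Nat.card P := Nat.card_pos
  rw [Nat.card_eq_fintype_card (α := P)] at key hP
  rw [Nat.card_eq_fintype_card (α := A)]
  exact Nat.eq_of_mul_eq_mul_left hP (by rw [key]; ring)

end P179A
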