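import Vale.Agent.P179.H143.SecOrth
import Mathlib.Analysis.Fourier.FiniteAbelian.PontryaginDuality

/-!
# (INT) 1: integral combinations of the characters of a finite abelian group
-/

namespace P179I

open Finset P179P

open scoped Classical

section

variable {A : Type*} [AddCommGroup A] [Fintype A]

theorem isIntegral_addChar (ψ : AddChar A ℂ) (a : A) : ψ a ∈ integralClosure ℤ ℂ := by
  change IsIntegral ℤ (ψ a)
  refine IsIntegral.of_pow (n := Fintype.card A) Fintype.card_pos ?_
  rw [← AddChar.map_nsmul_eq_pow, card_nsmul_eq_zero, AddChar.map_zero_eq_one]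
  exact isIntegral_one

/-- the values of a linear character, as algebraic integers -/
noncomputable def lamA (ψ : AddChar A ℂ) (a : A) : AA := ⟨ψ a, isIntegral_addChar ψ a⟩

theorem lamA_coe (ψ : AddChar A ℂ) (a : A) : (lamA ψ a : ℂ) = ψ a := rfl

theorem lamA_add (ψ φ : AddChar A ℂ) (a : A) : lamA (ψ + φ) a = lamA ψ a * lamA φ a :=
  Subtype.ext (AddChar.add_apply _ _ _)

theorem lamA_map_add (ψ : AddChar A ℂ) (a b : A) : lamA ψ (a + b) = lamA ψ a * lamA ψ b :=
  Subtype.ext (AddChar.map_add_eq_mul _ _ _)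

theorem lamA_zero (a : A) : lamA (0 : AddChar A ℂ) a = 1 := Subtype.ext (by
  rw [lamA_coe, AddChar.zero_apply]; rfl)

/-- `f` is an integral combination of linear characters -/
def RI (f : A → AA) : Prop := ∃ c : AddChar A ℂ → AA, ∀ a, f a = ∑ ψ, c ψ * lamA ψ a

theorem RI.const (c : AA) : RI (fun _ : A => c) := by
  refine ⟨fun ψ => if ψ = 0 then c else 0, fun a => ?_⟩
  simp [lamA_zero]

theorem RI.add {f g : A → AA} (hf : RI f) (hg : RI g) : RI (fun a => f a + g a) := by
  obtain ⟨c, hc⟩ := hf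
  obtain ⟨d, hd⟩ := hg
  refine ⟨fun ψ => c ψ + d ψ, fun a => ?_⟩
  beta_reduce
  rw [hc, hd, ← Finset.sum_add_distrib]
  exact Finset.sum_congr rfl fun ψ _ => by ring

theorem RI.sum {ι : Type*} (s : Finset ι) {f : ι → A → AA} (hf : ∀ i ∈ s, RI (f i)) :
    RI (fun a => ∑ i ∈ s, f i a) := by
  induction s using Finset.induction_on with
  | empty => simpa using RI.const (A := A) 0
  | insert i s hi ih =>
    simp only [Finset.sum_insert hi]
    exact (hf i (mem_insert_self _ _)).add (ih fun j hj => hf j (mem_insert_of_mem hj))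

theorem RI.mul {f g : A → AA} (hf : RI f) (hg : RI g) : RI (fun a => f a * g a) := by
  obtain ⟨c, hc⟩ := hf
  obtain ⟨d, hd⟩ := hg
  refine ⟨fun κ => ∑ ψ, c ψ * d (κ - ψ), fun a => ?_⟩
  beta_reduce
  rw [hc, hd, Finset.sum_mul_sum]
  simp only [Finset.sum_mul]
  conv_rhs => rw [Finset.sum_comm]
  refine Finset.sum_congr rfl fun ψ _ => ?_
  rw [← Equiv.sum_comp (Equiv.addRight ψ)
    (fun κ => c ψ * d (κ - ψ) * lamA κ a)]
  refine Finset.sum_congr rfl fun φ _ => ?_
  rw [Equiv.coe_addRight, add_sub_cancel_right, lamA_add]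
  ring

theorem RI.pow {f : A → AA} (hf : RI f) (n : ℕ) : RI (fun a => f a ^ n) := by
  induction n with
  | zero => simpa using RI.const (A := A) 1
  | succ n ih =>
    simp only [pow_succ]
    exact ih.mul hf

theorem RI.const_mul {f : A → AA} (hf : RI f) (c : AA) : RI (fun a => c * f a) :=
  (RI.const c).mul hf

theorem RI.comp {f : A → AA} (hf : RI f) (g : A →+ A) : RI (fun a => f (g a)) := by
  obtain ⟨c, hc⟩ := hf
  refine ⟨fun κ => ∑ ψ ∈ univ.filter (fun ψ : AddChar A ℂ => ψ.compAddMonoidHom g = κ), c ψ,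
    fun a => ?_⟩
  beta_reduce
  rw [hc]
  simp only [Finset.sum_mul]
  rw [← Finset.sum_fiberwise univ (fun ψ : AddChar A ℂ => ψ.compAddMonoidHom g)]
  refine Finset.sum_congr rfl fun κ _ => Finset.sum_congr rfl fun ψ hψ => ?_
  rw [← (mem_filter.1 hψ).2]
  rfl

theorem RI.of_coeff {f : A → AA}
    (h : ∀ ψ : AddChar A ℂ, ∃ c : AA, (Fintype.card A : AA) * c = ∑ a, f a * lamA ψ (-a)) :
    RI f := by
  choose c hc using h
  refine ⟨c, fun b => ?_⟩
  have h0 : (Fintype.card A : AA) ≠ 0 := by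
    intro h
    have := congrArg (fun x : AA => (x : ℂ)) h
    simp at this
  apply mul_left_cancel₀ h0
  rw [Finset.mul_sum]
  have h1 : ∀ ψ : AddChar A ℂ, (Fintype.card A : AA) * (c ψ * lamA ψ b) =
      ∑ a, f a * lamA ψ (b - a) := by
    intro ψ
    rw [← mul_assoc, hc, Finset.sum_mul]
    refine Finset.sum_congr rfl fun a _ => ?_
    rw [sub_eq_neg_add, lamA_map_add]
    ring
  rw [Finset.sum_congr rfl fun ψ _ => h1 ψ, Finset.sum_comm]
  have h2 : ∀ a : A, ∑ ψ : AddChar A ℂ, f a * lamA ψ (b - a) =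
      if a = b then (Fintype.card A : AA) * f b else 0 := by
    intro a
    rw [← Finset.mul_sum]
    have h3 : ∑ ψ : AddChar A ℂ, lamA ψ (b - a) = if a = b then (Fintype.card A : AA) else 0 := by
      apply Subtype.ext
      push_cast
      simp only [lamA_coe]
      rw [AddChar.sum_apply_eq_ite]
      by_cases hab : a = b
      · rw [if_pos (by rw [hab, sub_self]), if_pos hab]
        simp
      · rw [if_neg (fun h => hab (sub_eq_zero.1 h).symm), if_neg hab]
        rfl
    rw [h3]
    split_ifs with hab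
    · rw [hab, mul_comm]
    · rw [mul_zero]
  rw [Finset.sum_congr rfl fun a _ => h2 a]
  simp

theorem RI.pair {f : A → AA} (hf : RI f) (ψ : AddChar A ℂ) :
    ∃ c : AA, (Fintype.card A : AA) * c = ∑ a, f a * lamA ψ a := by
  obtain ⟨c, hc⟩ := hf
  refine ⟨c (-ψ), ?_⟩
  have h1 : ∑ a, f a * lamA ψ a = ∑ φ : AddChar A ℂ, c φ * ∑ a, lamA (φ + ψ) a := by
    simp only [hc, Finset.sum_mul, Finset.mul_sum]
    rw [Finset.sum_comm]
    refine Finset.sum_congr rfl fun φ _ => Finset.sum_congr rfl fun a _ => ?_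
    rw [lamA_add]; ring
  have h2 : ∀ φ : AddChar A ℂ, ∑ a, lamA (φ + ψ) a = if φ = -ψ then (Fintype.card A : AA) else 0 := by
    intro φ
    apply Subtype.ext
    push_cast
    simp only [lamA_coe]
    rw [AddChar.sum_eq_ite]
    by_cases h : φ = -ψ
    · rw [if_pos (by rw [h]; simp), if_pos h]
      simp
    · rw [if_neg (fun h' => h (eq_neg_of_add_eq_zero_left h')), if_neg h]
      rfl
  rw [h1, Finset.sum_congr rfl fun φ _ => by rw [h2 φ]]
  simp [mul_comm]

end

end P179I
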