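import Vale.Agent.P179.H143.SecOrth

/-!
# (INT) 3: congruences modulo powers of `p`, locally at the kernel of `red`
-/

namespace P179I

open Finset P179P

section

variable {k : Type*} [Field k] (p : ℕ) (red : AA →+* k)

/-- the elements divisible by `p ^ N` in the localisation at the kernel of `red` -/
def QN (N : ℕ) : Ideal AA where
  carrier := {x | ∃ v : AA, red v ≠ 0 ∧ (p : AA) ^ N ∣ v * x}
  add_mem' := by
    rintro x y ⟨v, hv, h⟩ ⟨w, hw, h'⟩
    refine ⟨v * w, by rw [map_mul]; exact mul_ne_zero hv hw, ?_⟩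
    have : v * w * (x + y) = w * (v * x) + v * (w * y) := by ring
    rw [this]
    exact dvd_add (h.mul_left _) (h'.mul_left _)
  zero_mem' := ⟨1, by rw [map_one]; exact one_ne_zero, by simp⟩
  smul_mem' := by
    rintro c x ⟨v, hv, h⟩
    refine ⟨v, hv, ?_⟩
    have : v * (c • x) = c * (v * x) := by rw [smul_eq_mul]; ring
    rw [this]
    exact h.mul_left _

variable {p} {red}

theorem mem_QN {N : ℕ} {x : AA} : x ∈ QN p red N ↔ ∃ v : AA, red v ≠ 0 ∧ (p : AA) ^ N ∣ v * x :=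
  Iff.rfl

theorem mem_QN_of_dvd {N : ℕ} {x : AA} (h : (p : AA) ^ N ∣ x) : x ∈ QN p red N :=
  ⟨1, by rw [map_one]; exact one_ne_zero, by rwa [one_mul]⟩

theorem QN_mono {N M : ℕ} (h : N ≤ M) : QN p red M ≤ QN p red N := by
  rintro x ⟨v, hv, hx⟩
  exact ⟨v, hv, (pow_dvd_pow _ h).trans hx⟩

theorem mem_of_unit_mul {N : ℕ} {v x : AA} (hv : red v ≠ 0) (h : v * x ∈ QN p red N) :
    x ∈ QN p red N := by
  obtain ⟨w, hw, h⟩ := h
  exact ⟨w * v, by rw [map_mul]; exact mul_ne_zero hw hv, by rwa [mul_assoc]⟩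

theorem mul_mem_QN {a b : ℕ} {x y : AA} (hx : x ∈ QN p red a) (hy : y ∈ QN p red b) :
    x * y ∈ QN p red (a + b) := by
  obtain ⟨v, hv, hx⟩ := hx
  obtain ⟨w, hw, hy⟩ := hy
  refine ⟨v * w, by rw [map_mul]; exact mul_ne_zero hv hw, ?_⟩
  have : v * w * (x * y) = (v * x) * (w * y) := by ring
  rw [this, pow_add]
  exact mul_dvd_mul hx hy

theorem pow_mem_QN_mul {a : ℕ} {x : AA} (hx : x ∈ QN p red a) (n : ℕ) :
    x ^ n ∈ QN p red (a * n) := by
  induction n with
  | zero => exact mem_QN_of_dvd (by simp)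
  | succ n ih => rw [pow_succ, Nat.mul_succ]; exact mul_mem_QN ih hx

variable [CharP k p]

theorem red_eq_zero_of_mem {N : ℕ} (hN : N ≠ 0) {x : AA} (hx : x ∈ QN p red N) : red x = 0 := by
  obtain ⟨v, hv, y, hy⟩ := hx
  have h1 := congrArg red hy
  rw [map_mul, map_mul, map_pow, map_natCast, CharP.cast_eq_zero, zero_pow hN, zero_mul] at h1
  exact (mul_eq_zero.1 h1).resolve_left hv

theorem exists_pow_aux (x : AA) (hx : red x = 0) (n : ℕ) : ∀ P : Polynomial ℤ, P.natDegree ≤ n →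
    (∃ i, ¬ (p : ℤ) ∣ P.coeff i) → ∀ i : ℕ, (p : AA) ∣ x ^ i * Polynomial.aeval x P →
    ∃ (j : ℕ) (v : AA), red v ≠ 0 ∧ (p : AA) ∣ v * x ^ j := by
  have hred : ∀ P : Polynomial ℤ, red (Polynomial.aeval x P) = (P.coeff 0 : k) := by
    intro P
    rw [← Polynomial.divX_mul_X_add P]
    simp [hx]
  induction n with
  | zero =>
    intro P hP hi i h
    by_cases h0 : (p : ℤ) ∣ P.coeff 0
    · exfalso
      obtain ⟨j, hj⟩ := hi
      rcases Nat.eq_zero_or_pos j with rfl | hj0
      · exact hj h0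
      · exact hj (by rw [Polynomial.coeff_eq_zero_of_natDegree_lt (by omega)]; exact dvd_zero _)
    · refine ⟨i, Polynomial.aeval x P, ?_, by rwa [mul_comm]⟩
      rw [hred, Ne, CharP.intCast_eq_zero_iff k p]
      exact h0
  | succ n ih =>
    intro P hP hi i h
    by_cases h0 : (p : ℤ) ∣ P.coeff 0
    · refine ih P.divX ?_ ?_ (i + 1) ?_
      · rw [Polynomial.natDegree_divX_eq_natDegree_tsub_one]; omega
      · obtain ⟨j, hj⟩ := hi
        rcases Nat.eq_zero_or_pos j with rfl | hj0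
        · exact absurd h0 hj
        · refine ⟨j - 1, ?_⟩
          rw [Polynomial.coeff_divX, Nat.sub_add_cancel hj0]
          exact hj
      · have h1 : x ^ (i + 1) * Polynomial.aeval x P.divX =
            x ^ i * Polynomial.aeval x P - x ^ i * (P.coeff 0 : AA) := by
          conv_rhs => rw [← Polynomial.divX_mul_X_add P]
          simp only [map_add, map_mul, Polynomial.aeval_X, Polynomial.aeval_C]
          simp
          ring
        rw [h1]
        refine dvd_sub h (Dvd.dvd.mul_left ?_ _)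
        obtain ⟨c, hc⟩ := h0
        rw [hc]
        push_cast
        exact dvd_mul_right _ _
    · refine ⟨i, Polynomial.aeval x P, ?_, by rwa [mul_comm]⟩
      rw [hred, Ne, CharP.intCast_eq_zero_iff k p]
      exact h0

variable [hp : Fact p.Prime]

/-- elements of the kernel of `red` are topologically nilpotent -/
theorem exists_pow_mem (x : AA) (hx : red x = 0) (N : ℕ) :
    ∃ M : ℕ, ∀ m ≥ M, x ^ m ∈ QN p red N := by
  obtain ⟨P, hP, hPx⟩ := Algebra.IsIntegral.isIntegral (R := ℤ) x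
  obtain ⟨j, v, hv, hj⟩ := exists_pow_aux (p := p) x hx P.natDegree P le_rfl ⟨P.natDegree, by
    rw [Polynomial.coeff_natDegree, hP.leadingCoeff]
    intro h
    exact hp.out.one_lt.ne' (by
      have := Int.natAbs_dvd_natAbs.2 h
      simpa using this)⟩ 0 (by
    rw [Polynomial.aeval_def, hPx, mul_zero]; exact dvd_zero _)
  refine ⟨j * N, fun m hm => ?_⟩
  obtain ⟨t, rfl⟩ : ∃ t, m = j * N + t := ⟨m - j * N, by omega⟩
  rw [pow_add, pow_mul]
  refine Ideal.mul_mem_right _ _ ?_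
  have h1 : x ^ j ∈ QN p red 1 := ⟨v, hv, by rwa [pow_one]⟩
  have h2 := pow_mem_QN_mul h1 N
  rwa [one_mul] at h2

omit [CharP k p] in
theorem sub_pow_p_dvd (x y : AA) (m : ℕ) :
    (p : AA) ∣ (x - y) ^ p ^ m - (x ^ p ^ m - y ^ p ^ m) := by
  rw [← Ideal.mem_span_singleton, ← Ideal.Quotient.eq_zero_iff_mem]
  set I : Ideal AA := Ideal.span {(p : AA)}
  have hc : (p : AA ⧸ I) = 0 := by
    rw [← map_natCast (Ideal.Quotient.mk I), Ideal.Quotient.eq_zero_iff_mem]
    exact Ideal.mem_span_singleton_self _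
  rcases subsingleton_or_nontrivial (AA ⧸ I) with h | h
  · exact Subsingleton.elim _ _
  have : CharP (AA ⧸ I) p := (CharP.charP_iff_prime_eq_zero hp.out).2 hc
  simp only [map_sub, map_pow]
  rw [sub_pow_char_pow, sub_self]

theorem exists_pow_sub_mem (x y : AA) (h : red x = red y) (N : ℕ) :
    ∃ M : ℕ, ∀ m ≥ M, x ^ p ^ m - y ^ p ^ m ∈ QN p red N := by
  obtain ⟨M₀, hM₀⟩ := exists_pow_mem (p := p) (red := red) (x - y) (by rw [map_sub, h, sub_self]) 1
  have h1 : x ^ p ^ M₀ - y ^ p ^ M₀ ∈ QN p red 1 := by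
    have h2 := hM₀ (p ^ M₀) (Nat.lt_pow_self hp.out.one_lt).le
    have h3 : (x - y) ^ p ^ M₀ - (x ^ p ^ M₀ - y ^ p ^ M₀) ∈ QN p red 1 :=
      mem_QN_of_dvd (by rw [pow_one]; exact sub_pow_p_dvd x y M₀)
    have h4 := Ideal.sub_mem _ h2 h3
    rwa [sub_sub_cancel] at h4
  obtain ⟨v, hv, hd⟩ := h1
  rw [pow_one, mul_sub] at hd
  refine ⟨M₀ + N, fun m hm => ?_⟩
  obtain ⟨t, rfl⟩ : ∃ t, m = M₀ + (N + t) := ⟨m - (M₀ + N), by omega⟩
  have h2 := dvd_sub_pow_of_dvd_sub hd (N + t)
  rw [mul_pow, mul_pow, ← mul_sub, ← pow_mul, ← pow_mul, ← pow_add] at h2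
  refine mem_of_unit_mul (v := v ^ p ^ (N + t)) (by rw [map_pow]; exact pow_ne_zero _ hv) ?_
  exact QN_mono (by omega) (mem_QN_of_dvd h2)

/-- a product of many elements of the kernel of `red`, taken from a finite family -/
theorem exists_prod_mem {ι : Type*} [Fintype ι] (x : ι → AA) (hx : ∀ i, red (x i) = 0) (N : ℕ) :
    ∃ M : ℕ, ∀ n ≥ M, ∀ w : Fin n → ι, ∏ j, x (w j) ∈ QN p red N := by
  classical
  have h1 : ∀ i, ∃ M : ℕ, ∀ m ≥ M, x i ^ m ∈ QN p red N := fun i => exists_pow_mem (x i) (hx i) N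
  choose M hM using h1
  refine ⟨(∑ i, M i) + 1, fun n hn w => ?_⟩
  -- the word contains some letter often
  have h2 : ∏ j, x (w j) = ∏ i, x i ^ (univ.filter fun j => w j = i).card := by
    rw [← Finset.prod_fiberwise univ w]
    refine Finset.prod_congr rfl fun i _ => ?_
    rw [Finset.prod_congr rfl (g := fun _ => x i) fun j hj => by rw [(mem_filter.1 hj).2],
      Finset.prod_const]
  have h3 : ∃ i, M i ≤ (univ.filter fun j => w j = i).card := by
    by_contra hcon
    push Not at hcon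
    have h4 : n = ∑ i, (univ.filter fun j => w j = i).card := by
      have := Finset.card_eq_sum_card_fiberwise (s := (univ : Finset (Fin n))) (t := univ) (f := w)
        (fun _ _ => by simp)
      rwa [Finset.card_univ, Fintype.card_fin] at this
    have h5 : ∑ i, (univ.filter fun j => w j = i).card ≤ ∑ i, M i :=
      Finset.sum_le_sum fun i _ => (hcon i).le
    omega
  obtain ⟨i, hi⟩ := h3
  rw [h2, ← Finset.mul_prod_erase univ _ (mem_univ i)]
  exact Ideal.mul_mem_right _ _ (hM i _ hi)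

end

end P179I
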