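import Vale.Agent.P179.H905.I1
import Vale.Agent.P179.H905.I3

/-!
# (INT) 10: the abstract integrality argument
-/

namespace P179I

open Finset P179P

open scoped Classical

section

variable {k : Type*} [Field k] {p : ℕ} [hp : Fact p.Prime] [CharP k p] {red : AA →+* k}
  {A : Type*} [AddCommGroup A] [Fintype A] {X : Type*} [Fintype X]

theorem int_abs (hp2 : p ≠ 2) {a N : ℕ} (hA : Fintype.card A = p ^ a) (hN : a ≤ N)
    (F Aχ : X → A → AA) (C : A → AA) (m : X → AA) (hF : ∀ χ, RI (F χ))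
    (h1 : ∀ χ, ∀ b ≠ 0, F χ b - C b * Aχ χ b ∈ QN p red N)
    (h2 : ∀ b ≠ 0, (∑ χ, F χ b * m χ) - C b ^ 2 ∈ QN p red N)
    (γ : k) (hγ : γ ≠ 0) (h3 : ∀ b ≠ 0, red (C b) = γ) (ψ : AddChar A ℂ) (χ : X) :
    ∑ b, (if b = 0 then 0 else (lamA ψ b - 1) * Aχ χ b) ∈ QN p red a := by
  by_cases hne : ∃ b₀ : A, b₀ ≠ 0
  swap
  · push Not at hne
    rw [Finset.sum_eq_zero fun b _ => if_pos (hne b)]
    exact zero_mem _
  obtain ⟨b₀, hb₀⟩ := hne
  -- the exponent
  have hM : ∀ b : A, ∃ M : ℕ, b ≠ 0 → ∀ m ≥ M, C b ^ p ^ m - C b₀ ^ p ^ m ∈ QN p red N := by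
    intro b
    by_cases hb : b ≠ 0
    · obtain ⟨M, hM⟩ := exists_pow_sub_mem (p := p) (red := red) (C b) (C b₀)
        (by rw [h3 b hb, h3 b₀ hb₀]) N
      exact ⟨M, fun _ => hM⟩
    · exact ⟨0, fun h => absurd h hb⟩
  choose M hM using hM
  set M₀ := ∑ b, M b with hM₀
  set κ := C b₀ ^ p ^ M₀ with hκ
  have hκ' : ∀ b ≠ 0, C b ^ p ^ M₀ - κ ∈ QN p red N := fun b hb =>
    hM b hb M₀ (Finset.single_le_sum (fun _ _ => Nat.zero_le _) (mem_univ b))
  have hodd : Odd (p ^ M₀) := (hp.out.odd_of_ne_two hp2).pow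
  obtain ⟨h, hh⟩ := hodd
  set P : A → AA := fun b => ∑ χ, F χ b * m χ with hP
  have hPRI : RI P := by
    refine RI.sum univ fun χ _ => ?_
    exact (hF χ).mul (RI.const _)
  set f : A → AA := fun b => F χ b * P b ^ h with hf
  have hfRI : RI f := (hF χ).mul (hPRI.pow h)
  have key : ∀ b ≠ 0, f b - κ * Aχ χ b ∈ QN p red N := by
    intro b hb
    rw [← Ideal.Quotient.eq]
    have e1 := Ideal.Quotient.eq.2 (h1 χ b hb)
    have e2 := Ideal.Quotient.eq.2 (h2 b hb)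
    have e3 := Ideal.Quotient.eq.2 (hκ' b hb)
    have e4 : Ideal.Quotient.mk (QN p red N) (P b) = Ideal.Quotient.mk (QN p red N) (C b ^ 2) := e2
    simp only [hf, map_mul, map_pow] at e1 e3 e4 ⊢
    rw [e1, e4, ← e3, hh]
    ring
  -- conclusion
  obtain ⟨c₁, hc₁⟩ := hfRI.pair ψ
  obtain ⟨c₀, hc₀⟩ := hfRI.pair 0
  have e5 : ∑ b, (if b = 0 then 0 else (lamA ψ b - 1) * f b) = (p : AA) ^ a * (c₁ - c₀) := by
    have e6 : ∀ b, (if b = 0 then 0 else (lamA ψ b - 1) * f b) =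
        f b * lamA ψ b - f b * lamA 0 b := by
      intro b
      rw [lamA_zero]
      by_cases hb : b = 0
      · rw [if_pos hb, hb]
        have : lamA ψ (0 : A) = 1 := Subtype.ext (AddChar.map_zero_eq_one ψ)
        rw [this, sub_self]
      · rw [if_neg hb]; ring
    rw [Finset.sum_congr rfl fun b _ => e6 b, Finset.sum_sub_distrib, ← hc₁, ← hc₀, hA]
    push_cast
    ring
  refine mem_of_unit_mul (v := κ) ?_ ?_
  · rw [hκ, map_pow, h3 b₀ hb₀]
    exact pow_ne_zero _ hγ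
  · have e7 : κ * ∑ b, (if b = 0 then 0 else (lamA ψ b - 1) * Aχ χ b) =
        (p : AA) ^ a * (c₁ - c₀) -
          ∑ b, (if b = 0 then 0 else (lamA ψ b - 1) * (f b - κ * Aχ χ b)) := by
      rw [← e5, ← Finset.sum_sub_distrib, Finset.mul_sum]
      refine Finset.sum_congr rfl fun b _ => ?_
      split_ifs <;> ring
    rw [e7]
    refine Ideal.sub_mem _ (mem_QN_of_dvd (dvd_mul_right _ _)) (Ideal.sum_mem _ fun b _ => ?_)
    split_ifs with hb
    · exact zero_mem _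
    · exact Ideal.mul_mem_left _ _ (QN_mono hN (key b hb))

/-- from local to global -/
theorem int_of_mem {a : ℕ} {n : ℤ} (h : (n : AA) ∈ QN p red a) : (p : ℤ) ^ a ∣ n := by
  induction a generalizing n with
  | zero => simp
  | succ a ih =>
    have h1 : red (n : AA) = 0 := red_eq_zero_of_mem (Nat.succ_ne_zero a) h
    rw [map_intCast, CharP.intCast_eq_zero_iff k p] at h1
    obtain ⟨n', rfl⟩ := h1
    rw [pow_succ, mul_comm]
    refine mul_dvd_mul_left _ (ih ?_)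
    obtain ⟨v, hv, y, hy⟩ := h
    refine ⟨v, hv, y, ?_⟩
    have hp0 : (p : AA) ≠ 0 := by
      intro h0
      have := congrArg (fun x : AA => (x : ℂ)) h0
      simp [hp.out.ne_zero] at this
    apply mul_left_cancel₀ hp0
    push_cast at hy
    calc (p : AA) * (v * (n' : AA)) = v * (p * n') := by ring
      _ = _ := by rw [hy]; ring

end

end P179I
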