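import Vale.Agent.P179.H905.I9
import Vale.Agent.P179.H905.I10

/-!
# (INT) 11: the functions `Ψ`, their averages, and the units
-/

namespace P179I

open Finset P179P P179C P179Y Subgroup P179H524

open P179X (pp SameSec)

open scoped Classical IsMulCommutative

universe v

section

variable {p : ℕ} [hp : Fact p.Prime] {k : Type v} [Field k] [CharP k p] {red : AA →+* k}
  {G : Type} [Group G] [Fintype G] {D : Subgroup G} {l : (G → k) → k}

/-- `χ(g j^n)` -/
noncomputable def Psi (j : G → AA) (n : ℕ) (χ : Irr G) (g : G) : AA :=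
  ∑ w : Fin n → G, (∏ i, j (w i)) * chA χ (g * wprod w)

omit [Fintype G] in
theorem wprod_conj {n : ℕ} (d : G) (w : Fin n → G) :
    wprod (fun i => d * w i * d⁻¹) = d * wprod w * d⁻¹ := by
  unfold wprod
  have := map_list_prod (MulAut.conj d).toMonoidHom (List.ofFn w)
  rw [List.map_ofFn] at this
  exact this.symm

theorem RI_Psi [IsMulCommutative D] (j : G → AA) (hj : ∀ d ∈ D, ∀ g, j (d * g * d⁻¹) = j g) (n : ℕ)
    (χ : Irr G) : RI (fun a : Additive D => Psi j n χ (a.toMul : G)) := by
  set y : G → AA := fun g => ∑ w : Fin n → G, if wprod w = g then ∏ i, j (w i) else 0 with hy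
  have h1 : ∀ a : Additive D, Psi j n χ (a.toMul : G) = ∑ g, y g * chA χ ((a.toMul : G) * g) := by
    intro a
    simp only [hy, Finset.sum_mul]
    rw [Finset.sum_comm]
    unfold Psi
    refine Finset.sum_congr rfl fun w _ => ?_
    simp only [ite_mul, zero_mul]
    rw [Finset.sum_ite_eq univ (wprod w)]
    simp
  have h2 : ∀ d ∈ D, ∀ g, y (d * g * d⁻¹) = y g := by
    intro d hd g
    simp only [hy]
    symm
    refine Fintype.sum_equiv (Equiv.piCongrRight fun _ : Fin n => (MulAut.conj d).toEquiv) _ _
      fun w => ?_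
    have h3 : (Equiv.piCongrRight fun _ : Fin n => (MulAut.conj d).toEquiv) w =
        fun i => d * w i * d⁻¹ := rfl
    rw [h3, wprod_conj]
    have h4 : d * wprod w * d⁻¹ = d * g * d⁻¹ ↔ wprod w = g := by
      constructor
      · intro h; exact mul_left_cancel (mul_right_cancel h)
      · rintro h; rw [h]
    have h5 : ∏ i, j (d * w i * d⁻¹) = ∏ i, j (w i) :=
      Finset.prod_congr rfl fun i _ => hj d hd (w i)
    rw [h5]
    by_cases h : wprod w = g
    · rw [if_pos h, if_pos (h4.2 h)]
    · rw [if_neg h, if_neg (fun h' => h (h4.1 h'))]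
  have h3 := RI_sum (D := D) χ y h2
  convert h3 using 2 with a
  exact h1 a

/-- the average over the inertial group -/
noncomputable def AvT (D T : Subgroup G) (f : G → AA) (v : G) : AA :=
  ∑ c : G ⧸ centralizer (D : Set G), if c.out ∈ T then f (c.out⁻¹ * v * c.out) else 0

theorem RI_AvT [IsMulCommutative D] {T : Subgroup G} (hT : T ≤ normalizer (D : Set G)) {f : G → AA}
    (hf : RI (fun a : Additive D => f (a.toMul : G))) :
    RI (fun a : Additive D => AvT D T f (a.toMul : G)) := by
  refine RI.sum univ fun c _ => ?_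
  by_cases hc : c.out ∈ T
  · have hmem : ∀ d ∈ D, c.out⁻¹ * d * c.out ∈ D := by
      intro d hd
      have := (mem_normalizer_iff.1 (inv_mem (hT hc)) d).1 hd
      simpa using this
    let φ : D →* D :=
      { toFun := fun d => ⟨c.out⁻¹ * d * c.out, hmem d d.2⟩
        map_one' := Subtype.ext (by simp)
        map_mul' := fun a b => Subtype.ext (by simp [mul_assoc]) }
    have h1 := hf.comp (MonoidHom.toAdditive φ)
    simp only [if_pos hc]
    exact h1
  · simp only [if_neg hc]
    exact RI.const 0

omit hp [CharP k p] in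
theorem red_TrS (D H : Subgroup G) (j : G → AA) (g : G) :
    red (TrS D H j g) = TrS D H (fun g => red (j g)) g := by
  unfold TrS
  rw [map_sum]
  refine Finset.sum_congr rfl fun c _ => ?_
  split_ifs
  · rfl
  · exact map_zero red

include hp in
/-- the value of `φ_u` at `j`, modulo `p` -/
theorem value_S (hl : BP p D l) (hD : IsPGroup p D) (hab : D ≤ centralizer (D : Set G)) (j : G → AA)
    (hj : ∀ d ∈ D, ∀ g, j (d * g * d⁻¹) = j g)
    (hsep : ∀ n ∈ normalizer (D : Set G), n ∉ stabT D l →
      l (cj n (WW D (fun g => red (j g)))) = 0)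
    {u : G} (hu : RegT D l u) {φ : Irr (centralizer {u} : Subgroup G)}
    (hφ : ND red p (lres (centralizer {u}) l) (Nat.card D) φ.1) {a b : ℕ}
    (hab1 : (a : ℂ) * Nat.card (centralizer {u} : Subgroup G) = b * (Nat.card D * φ.1 1)) :
    (b : k) * ∑ h : (centralizer {u} : Subgroup G), red (j h) * red (chA φ h) =
      a * l (WW D (fun g => red (j g))) := by
  have hDH : D ≤ centralizer {u} := le_cent_of_mem hu.1 hab
  have hCH := cent_le_of_mem (D := D) hu.1
  have hz : IsCF (fun h : (centralizer {u} : Subgroup G) => TrS D (centralizer {u}) j h) :=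
    fun t x => TrS_inv hDH hj t.2 (x : G)
  obtain ⟨X, hX, hX2⟩ := exists_omAA red φ hz
  -- the reduction of `X`
  have h1 : red X = l (WW D (fun g => red (j g))) := by
    have hzk : IsCF (fun h : (centralizer {u} : Subgroup G) => red (TrS D (centralizer {u}) j h)) :=
      fun t x => congrArg red (hz t x)
    rw [hX2, hφ.mem _ hzk]
    simp only [red_TrS]
    rw [hl.lres_coe hCH (TrS D (centralizer {u}) (fun g => red (j g)))]
    exact l_TrS hl hD hab (fun d hd g => congrArg red (hj d hd g)) hsep hu
  -- the value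
  have hq0 : (Nat.card D : ℂ) ≠ 0 := by exact_mod_cast Nat.card_pos.ne'
  have h2 : (Nat.card (centralizer {u} : Subgroup G) : ℂ) =
      Nat.card D * D.relIndex (centralizer {u}) := by
    have h5 := relIndex_mul_relIndex (⊥ : Subgroup G) D (centralizer {u}) bot_le hDH
    rw [relIndex_bot_left, relIndex_bot_left] at h5
    exact_mod_cast h5.symm
  have h3 : (a : ℂ) * D.relIndex (centralizer {u}) = b * φ.1 1 := by
    apply mul_left_cancel₀ hq0
    rw [h2] at hab1
    linear_combination hab1
  have h4 : (X : ℂ) * φ.1 1 = D.relIndex (centralizer {u}) *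
      ∑ h : (centralizer {u} : Subgroup G), (j h : ℂ) * φ.1 h := by
    rw [hX, omC, div_mul_cancel₀ _ φ.one_ne_zero]
    have h5 := congrArg (fun x : AA => (x : ℂ)) (sum_TrS hDH (x := j) (chA φ) (chA_isCF φ))
    push_cast at h5
    exact h5
  have h6 : (a : AA) * X = b * ∑ h : (centralizer {u} : Subgroup G), j h * chA φ h := by
    apply Subtype.ext
    push_cast
    apply mul_right_cancel₀ φ.one_ne_zero
    have h7 : ∀ h : (centralizer {u} : Subgroup G), (chA φ h : ℂ) = φ.1 h := fun _ => rfl
    simp only [h7]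
    calc (a : ℂ) * X * φ.1 1 = a * (X * φ.1 1) := by ring
      _ = (a * D.relIndex (centralizer {u})) *
          ∑ h : (centralizer {u} : Subgroup G), (j h : ℂ) * φ.1 h := by rw [h4]; ring
      _ = _ := by rw [h3]; ring
  have h7 := congrArg red h6
  rw [map_mul, map_mul, map_natCast, map_natCast, h1, map_sum] at h7
  rw [h7]
  simp only [map_mul]

end

end P179I
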