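import Vale.Agent.P179.H905.I11

/-!
# (INT) 12: local data, Gram matrix
-/

namespace P179I

open Finset P179P P179C P179Y Subgroup P179H524

open P179X (pp SameSec)

open scoped Classical

universe v

section

variable (p : ℕ) [hp : Fact p.Prime] {k : Type v} [Field k] [CharP k p] (red : AA →+* k)
  {G : Type} [Group G] [Fintype G]

/-- the local data -/
structure Loc (D : Subgroup G) (l : (G → k) → k) (Φ : ∀ H : Subgroup G, Irr H)
    (aH bH : Subgroup G → ℕ) (ε : Subgroup G → ℤ) (κ₀ : k) : Prop where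
  nd : ∀ u ∈ D, u ≠ 1 → ND red p (lres (centralizer {u}) l) (Nat.card D) (Φ (centralizer {u})).1
  hb : ∀ u ∈ D, u ≠ 1 → ¬ p ∣ bH (centralizer {u})
  unit : ∀ u ∈ D, u ≠ 1 → (aH (centralizer {u}) : ℂ) * Nat.card (centralizer {u} : Subgroup G) =
    bH (centralizer {u}) * (Nat.card D * (Φ (centralizer {u})).1 1)
  sgn : ∀ u ∈ D, u ≠ 1 → ε (centralizer {u}) = 1 ∨ ε (centralizer {u}) = -1
  eps : ∀ u ∈ D, u ≠ 1 → (aH (centralizer {u}) : k) = ε (centralizer {u}) * κ₀ * bH (centralizer {u})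
  ne : κ₀ ≠ 0
  conj : ∀ u ∈ D, u ≠ 1 → ∀ t ∈ stabT D l, ε (centralizer {t * u * t⁻¹}) = ε (centralizer {u})

/-- the generalised decomposition numbers with signs -/
noncomputable def Ad (D : Subgroup G) (Φ : ∀ H : Subgroup G, Irr H) (ε : Subgroup G → ℤ) (u : G)
    (χ : Irr G) : AA :=
  (ε (centralizer {u}) : AA) * dnA p (centralizer {u}) (Nat.card D) (Φ (centralizer {u})).1 u χ.1

variable {p} {red} {D : Subgroup G} {l : (G → k) → k} {Φ : ∀ H : Subgroup G, Irr H}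
  {aH bH : Subgroup G → ℕ} {ε : Subgroup G → ℤ} {κ₀ : k}

omit [Fintype G] in
theorem mem_cz (u x : G) : x ∈ (centralizer {u} : Subgroup G) ↔ x * u = u * x :=
  mem_centralizer_singleton_iff

theorem Loc.dn_coe (h : Loc p red D l Φ aH bH ε κ₀) {u : G} (hu : u ∈ D) (hu1 : u ≠ 1)
    (χ : Irr G) : (dnA p (centralizer {u}) (Nat.card D) (Φ (centralizer {u})).1 u χ.1 : ℂ) =
      dn p (centralizer {u}) (Nat.card D) (Φ (centralizer {u})).1 u χ.1 :=
  dnA_coe p red _ Nat.card_pos.ne' (h.nd u hu hu1) (mem_cz u) χ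

omit hp [CharP k p] in
theorem Loc.sq (h : Loc p red D l Φ aH bH ε κ₀) {u : G} (hu : u ∈ D) (hu1 : u ≠ 1) :
    ε (centralizer {u}) * ε (centralizer {u}) = 1 := by
  rcases h.sgn u hu hu1 with h | h <;> rw [h] <;> norm_num

theorem Loc.ad_conj (h : Loc p red D l Φ aH bH ε κ₀) (hl : BP p D l) {u : G} (hu : u ∈ D)
    (hu1 : u ≠ 1) {t : G} (ht : t ∈ stabT D l) (χ : Irr G) :
    Ad p D Φ ε (t * u * t⁻¹) χ = Ad p D Φ ε u χ := by
  have hu' : t * u * t⁻¹ ∈ D := (mem_normalizer_iff.1 (stabT_le_norm D l ht) u).1 hu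
  have hu1' : t * u * t⁻¹ ≠ 1 := by
    intro h1
    apply hu1
    have : t⁻¹ * (t * u * t⁻¹) * t = t⁻¹ * 1 * t := by rw [h1]
    simpa [mul_assoc] using this
  unfold Ad
  rw [h.conj u hu hu1 t ht]
  congr 1
  apply Subtype.ext
  rw [h.dn_coe hu hu1, h.dn_coe hu' hu1']
  exact dn_conj hl hu ht (h.nd u hu hu1) (h.nd _ hu' hu1') χ

omit [Fintype G] in
theorem cz_inv (u : G) : (centralizer {u⁻¹} : Subgroup G) = centralizer {u} := by
  ext x
  rw [mem_cz, mem_cz]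
  constructor
  · intro h
    calc x * u = u * (u⁻¹ * x) * u := by group
      _ = u * (x * u⁻¹) * u := by rw [h]
      _ = u * x := by group
  · intro h
    calc x * u⁻¹ = u⁻¹ * (u * x) * u⁻¹ := by group
      _ = u⁻¹ * (x * u) * u⁻¹ := by rw [h]
      _ = u⁻¹ * x := by group

/-- the Gram matrix -/
theorem Loc.gram (h : Loc p red D l Φ aH bH ε κ₀) (hl : BP p D l) (hD : IsPGroup p D)
    (hab : D ≤ centralizer (D : Set G)) (hreg : ∀ u ∈ D, u ≠ 1 → RegT D l u) {u b : G} (hu : u ∈ D)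
    (hu1 : u ≠ 1) (hb : b ∈ D) (hb1 : b ≠ 1) :
    ∑ χ : Irr G, Ad p D Φ ε u χ * Ad p D Φ ε b χ =
      if ∃ t ∈ stabT D l, t * u * t⁻¹ = b⁻¹ then (Nat.card D : AA) else 0 := by
  have hbi : b⁻¹ ∈ D := inv_mem hb
  have hbi1 : b⁻¹ ≠ 1 := by simpa using hb1
  have hpel : ∀ w ∈ D, ∃ a : ℕ, w ^ p ^ a = 1 := by
    intro w hw
    obtain ⟨n, hn⟩ := hD ⟨w, hw⟩
    exact ⟨n, by simpa using congrArg Subtype.val hn⟩
  apply Subtype.ext
  -- the second factor
  have h1 : ∀ χ : Irr G, (Ad p D Φ ε b χ : ℂ) = (ε (centralizer {b⁻¹}) : ℂ) *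
      (starRingEnd ℂ) (dn p (centralizer {b⁻¹}) (Nat.card D) (Φ (centralizer {b⁻¹})).1 b⁻¹ χ.1) := by
    intro χ
    unfold Ad
    push_cast
    rw [h.dn_coe hb hb1, dn_star (red := red) _ (h.nd _ hbi hbi1) b⁻¹ (fun x hx => (mem_cz _ x).1 hx),
      inv_inv, cz_inv]
  have h2 : ∀ χ : Irr G, (Ad p D Φ ε u χ : ℂ) = (ε (centralizer {u}) : ℂ) *
      dn p (centralizer {u}) (Nat.card D) (Φ (centralizer {u})).1 u χ.1 := by
    intro χ
    unfold Ad
    push_cast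
    rw [h.dn_coe hu hu1]
  have h3 : ((∑ χ : Irr G, Ad p D Φ ε u χ * Ad p D Φ ε b χ : AA) : ℂ) =
      (ε (centralizer {u}) : ℂ) * ε (centralizer {b⁻¹}) *
        ∑ χ : Irr G, dn p (centralizer {u}) (Nat.card D) (Φ (centralizer {u})).1 u χ.1 *
          (starRingEnd ℂ) (dn p (centralizer {b⁻¹}) (Nat.card D) (Φ (centralizer {b⁻¹})).1 b⁻¹ χ.1) := by
    push_cast
    rw [Finset.mul_sum]
    exact Finset.sum_congr rfl fun χ _ => by rw [h1, h2]; ring
  rw [h3]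
  have hg := P179Y.gram p red (centralizer {u}) (centralizer {b⁻¹}) Nat.card_pos.ne'
    (h.nd u hu hu1) (h.nd _ hbi hbi1) u b⁻¹ (hpel u hu) (hpel _ hbi) (mem_cz u) (mem_cz _)
  by_cases hex : ∃ t ∈ stabT D l, t * u * t⁻¹ = b⁻¹
  · rw [if_pos hex]
    obtain ⟨t, ht, htu⟩ := hex
    have h4 : ∀ χ : Irr G, dn p (centralizer {b⁻¹}) (Nat.card D) (Φ (centralizer {b⁻¹})).1 b⁻¹ χ.1 =
        dn p (centralizer {u}) (Nat.card D) (Φ (centralizer {u})).1 u χ.1 := by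
      intro χ
      rw [← htu]
      exact dn_conj hl hu ht (h.nd u hu hu1) (by rw [htu]; exact h.nd _ hbi hbi1) χ
    simp only [h4]
    rw [gram_self p red _ Nat.card_pos.ne' (h.nd u hu hu1) u (hpel u hu) (mem_cz u), ← htu,
      h.conj u hu hu1 t ht]
    have h5 := congrArg (fun n : ℤ => (n : ℂ)) (h.sq hu hu1)
    push_cast at h5
    rw [h5, one_mul]
    push_cast
    rfl
  · rw [if_neg hex]
    rcases hg with hg | ⟨-, g, hgu, hz⟩
    · rw [hg, mul_zero]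
      rfl
    · exfalso
      obtain ⟨n, hn, hn2⟩ := fusionT hl hD hab (w := u) (g := g) hu
        (by rw [hgu]; exact hreg _ hbi hbi1)
        (by
          rw [hgu]
          intro z hzI
          have := hz z hzI
          unfold cj
          rw [inv_inv]
          exact this)
      exact hex ⟨n, hn, hn2.trans hgu⟩

/-- orthogonality with the regular elements -/
theorem Loc.reg (h : Loc p red D l Φ aH bH ε κ₀) (hD : IsPGroup p D) {u : G} (hu : u ∈ D)
    (hu1 : u ≠ 1) {g : G} (hg : ¬ p ∣ orderOf g) :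
    ∑ χ : Irr G, Ad p D Φ ε u χ * chA χ g = 0 := by
  apply Subtype.ext
  push_cast
  obtain ⟨n, hn⟩ := hD ⟨u, hu⟩
  have h1 := dn_reg (p := p) (centralizer {u}) (Nat.card D) (Φ (centralizer {u})).1
    ⟨n, by simpa using congrArg Subtype.val hn⟩ hu1 (mem_cz u) hg
  have h2 : ∀ χ : Irr G, (Ad p D Φ ε u χ : ℂ) * (chA χ g : ℂ) = (ε (centralizer {u}) : ℂ) *
      (dn p (centralizer {u}) (Nat.card D) (Φ (centralizer {u})).1 u χ.1 * χ.1 g) := by
    intro χ
    unfold Ad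
    push_cast
    rw [h.dn_coe hu hu1]
    change _ * χ.1 g = _
    ring
  rw [Finset.sum_congr rfl fun χ _ => h2 χ, ← Finset.mul_sum, h1, mul_zero]

end

end P179I
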