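import Vale.Agent.P179.H905.I12

/-!
# (INT) 13: local integrality
-/

namespace P179I

open Finset P179P P179C P179Y Subgroup P179H524

open P179X (pp SameSec)

open scoped Classical IsMulCommutative

universe v

section

variable {p : ℕ} [hp : Fact p.Prime] {k : Type v} [Field k] [CharP k p] {red : AA →+* k}
  {G : Type} [Group G] [Fintype G] {D : Subgroup G} {l : (G → k) → k}
  {Φ : ∀ H : Subgroup G, Irr H} {aH bH : Subgroup G → ℕ} {ε : Subgroup G → ℤ} {κ₀ : k}

/-- the value of `φ_H` at `j^{p^m}` -/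
noncomputable def cc (p : ℕ) (Φ : ∀ H : Subgroup G, Irr H) (j : G → AA) (m : ℕ) (H : Subgroup G) :
    AA := TT (fun h : H => j h) (p ^ m) (chA (Φ H))

include hp in
theorem exists_NDC [IsAlgClosed k] (hl : BP p D l) (hD : IsPGroup p D)
    (hab : D ≤ centralizer (D : Set G)) :
    ∃ φ, ND red p (lres (centralizer (D : Set G)) l) (Nat.card D) φ := by
  have hlC := hl.restrict (H := centralizer (D : Set G)) hab le_rfl
  have hDp : IsPGroup p (D.subgroupOf (centralizer (D : Set G))) := hD.comap_subtype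
  have habC : D.subgroupOf (centralizer (D : Set G)) ≤
      centralizer ((D.subgroupOf (centralizer (D : Set G)) : Subgroup _) : Set _) := by
    intro x hx
    rw [mem_cent_subgroupOf hab]
    exact hab (by simpa [Subgroup.mem_subgroupOf] using hx)
  obtain ⟨φ, hφ⟩ := thmNT p red (centralizer (D : Set G) : Subgroup G)
    (D.subgroupOf (centralizer (D : Set G))) _ hlC hDp habC (by
      intro x _
      rw [mem_cent_subgroupOf hab]
      exact x.2)
  rw [Nat.card_congr (Subgroup.subgroupOfEquivOfLe hab).toEquiv] at hφ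
  exact ⟨φ, hφ⟩

include hp in
theorem Loc.exists_jj [IsAlgClosed k] (h : Loc p red D l Φ aH bH ε κ₀) (hl : BP p D l)
    (hD : IsPGroup p D) (hab : D ≤ centralizer (D : Set G)) :
    ∃ j : G → AA, (∀ d ∈ D, ∀ g, j (d * g * d⁻¹) = j g) ∧ l (WW D (fun g => red (j g))) ≠ 0 ∧
      (∀ n ∈ normalizer (D : Set G), n ∉ stabT D l → l (cj n (WW D (fun g => red (j g)))) = 0) ∧
      ∀ N : ℕ, ∃ M : ℕ, ∀ m ≥ M, ∀ u ∈ D, u ≠ 1 → ∀ χ : Irr G,
        Psi j (p ^ m) χ u - cc p Φ j m (centralizer {u}) *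
          dnA p (centralizer {u}) (Nat.card D) (Φ (centralizer {u})).1 u χ.1 ∈ QN p red N := by
  obtain ⟨φ₀, hφ₀⟩ := exists_NDC (red := red) hl hD hab
  obtain ⟨E₀, e₀, b₀, hE₀⟩ := exists_ED red p (centralizer (D : Set G)) hφ₀
  have h1 : ∀ u : G, ∃ (E : (centralizer {u} : Subgroup G) → AA) (e : (centralizer {u} : Subgroup G) → k)
      (b : ℕ), u ∈ D → u ≠ 1 → ED red (centralizer {u}) l E e b := by
    intro u
    by_cases hu : u ∈ D ∧ u ≠ 1
    · obtain ⟨E, e, b, hE⟩ := exists_ED red p (centralizer {u}) (h.nd u hu.1 hu.2)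
      exact ⟨E, e, b, fun _ _ => hE⟩
    · exact ⟨0, 0, 0, fun h1 h2 => absurd ⟨h1, h2⟩ hu⟩
  choose E e b hE using h1
  obtain ⟨j, hj1, hj2, hj3, hj4⟩ := exists_j hl hD hab hE₀ E e b
    (univ.filter fun u : G => u ∈ D ∧ u ≠ 1) (fun u hu => (mem_filter.1 hu).2.1)
    (fun u hu => hE u (mem_filter.1 hu).2.1 (mem_filter.1 hu).2.2)
  refine ⟨j, hj1, hj2, hj3, fun N => ?_⟩
  have h2 : ∀ u : G, ∃ M : ℕ, u ∈ D → u ≠ 1 → ∀ m ≥ M, ∀ χ : Irr G,
      Psi j (p ^ m) χ u - cc p Φ j m (centralizer {u}) *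
        dnA p (centralizer {u}) (Nat.card D) (Φ (centralizer {u})).1 u χ.1 ∈ QN p red N := by
    intro u
    by_cases hu : u ∈ D ∧ u ≠ 1
    swap
    · exact ⟨0, fun h1 h2 => absurd ⟨h1, h2⟩ hu⟩
    obtain ⟨huD, hu1⟩ := hu
    obtain ⟨n, hn⟩ := hD ⟨u, huD⟩
    have hun : u ^ p ^ n = 1 := by simpa using congrArg Subtype.val hn
    have hEu := hE u huD hu1
    have hj4u := hj4 u (mem_filter.2 ⟨mem_univ _, huD, hu1⟩)
    obtain ⟨M, hM⟩ := approx p red (centralizer {u}) Nat.card_pos.ne' (h.nd u huD hu1) hun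
      (mem_cz u) j (hj1 u huD) hEu.cfE (b := (b u : AA)) (by rw [map_natCast]; exact hEu.hb) (by
        intro g
        have h3 : red (conv (E u) (fun h : (centralizer {u} : Subgroup G) => j h) g) =
            (b u : k) * red (j g) := by
          rw [← congrFun hj4u g]
          unfold conv
          rw [map_sum, Finset.mul_sum]
          refine Finset.sum_congr rfl fun x _ => ?_
          rw [map_mul, hEu.red_E]
          ring
        rw [map_sub, map_mul, map_natCast, h3, sub_self]) hEu.kill N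
    exact ⟨M, fun _ _ => hM⟩
  choose M hM using h2
  refine ⟨∑ u, M u, fun m hm u hu hu1 χ => hM u hu hu1 m
    ((Finset.single_le_sum (fun _ _ => Nat.zero_le _) (mem_univ u)).trans hm) χ⟩

omit [CharP k p] in
theorem sum_Ad_Psi (h : Loc p red D l Φ aH bH ε κ₀) (hD : IsPGroup p D) (j : G → AA) {u : G}
    (hu : u ∈ D) (hu1 : u ≠ 1) [CharP k p] (i : ℕ) :
    ∑ χ : Irr G, Ad p D Φ ε u χ * Psi j (p ^ (i + (Nat.card G).factorization p)) χ 1 ∈
      QN p red (i + 1) := by
  have h1 : ∑ χ : Irr G, Ad p D Φ ε u χ * Psi j (p ^ (i + (Nat.card G).factorization p)) χ 1 =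
      ∑ w : Fin (p ^ (i + (Nat.card G).factorization p)) → G, (∏ t, j (w t)) *
        ∑ χ : Irr G, Ad p D Φ ε u χ * chA χ (wprod w * 1) := by
    unfold Psi
    simp only [Finset.mul_sum]
    rw [Finset.sum_comm]
    refine Finset.sum_congr rfl fun w _ => Finset.sum_congr rfl fun χ _ => ?_
    rw [one_mul, mul_one]
    ring
  rw [h1]
  refine mem_QN_of_dvd ?_
  refine lemW_core p j (fun g => ∑ χ : Irr G, Ad p D Φ ε u χ * chA χ g) (1 : G) 0 (by simp) (by simp)
    ?_ _ (fun x => not_dvd_orderOf_pow p x) ?_ i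
  · intro g x
    beta_reduce
    exact Finset.sum_congr rfl fun χ _ => by rw [chA_isCF χ g x]
  · intro β _ hβ
    rw [mul_one]
    exact h.reg hD hu hu1 hβ

/-- the unit `C(u)` -/
noncomputable def CU (p : ℕ) (D T : Subgroup G) (Φ : ∀ H : Subgroup G, Irr H) (ε : Subgroup G → ℤ)
    (j : G → AA) (m : ℕ) (u : G) : AA :=
  AvT D T (fun v => (ε (centralizer {v}) : AA) * cc p Φ j m (centralizer {v})) u

omit hp [CharP k p] [Fintype G] in
theorem conj_mem (T : Subgroup G) (hT : T ≤ normalizer (D : Set G)) {t u : G} (ht : t ∈ T)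
    (hu : u ∈ D) : t * u * t⁻¹ ∈ D := (mem_normalizer_iff.1 (hT ht) u).1 hu

omit hp [CharP k p] [Fintype G] in
theorem conj_ne {t u : G} (hu : u ≠ 1) : t * u * t⁻¹ ≠ 1 := by
  intro h1
  apply hu
  have : t⁻¹ * (t * u * t⁻¹) * t = t⁻¹ * 1 * t := by rw [h1]
  simpa [mul_assoc] using this

theorem avT_sub (h : Loc p red D l Φ aH bH ε κ₀) (hl : BP p D l) (j : G → AA) {N m : ℕ}
    (hjm : ∀ u ∈ D, u ≠ 1 → ∀ χ : Irr G,
        Psi j (p ^ m) χ u - cc p Φ j m (centralizer {u}) *
          dnA p (centralizer {u}) (Nat.card D) (Φ (centralizer {u})).1 u χ.1 ∈ QN p red N)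
    {u : G} (hu : u ∈ D) (hu1 : u ≠ 1) (χ : Irr G) :
    AvT D (stabT D l) (Psi j (p ^ m) χ) u - CU p D (stabT D l) Φ ε j m u * Ad p D Φ ε u χ ∈
      QN p red N := by
  unfold CU AvT
  rw [Finset.sum_mul, ← Finset.sum_sub_distrib]
  refine Ideal.sum_mem _ fun c _ => ?_
  by_cases hc : c.out ∈ stabT D l
  · rw [if_pos hc, if_pos hc]
    have e : c.out⁻¹ * u * c.out = c.out⁻¹ * u * c.out⁻¹⁻¹ := by rw [inv_inv]
    rw [e]
    have hci := inv_mem hc
    set t := c.out⁻¹ with ht
    have hv := conj_mem (D := D) _ (stabT_le_norm D l) hci hu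
    have hv1 := conj_ne (t := t) hu1
    have h1 := hjm _ hv hv1 χ
    rw [← h.ad_conj hl hu hu1 hci χ]
    have h2 : (ε (centralizer {t * u * t⁻¹}) : AA) * cc p Φ j m (centralizer {t * u * t⁻¹}) *
        Ad p D Φ ε (t * u * t⁻¹) χ = cc p Φ j m (centralizer {t * u * t⁻¹}) *
          dnA p (centralizer {t * u * t⁻¹}) (Nat.card D) (Φ (centralizer {t * u * t⁻¹})).1
            (t * u * t⁻¹) χ.1 := by
      unfold Ad
      have h3 := congrArg (fun n : ℤ => (n : AA)) (h.sq hv hv1)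
      push_cast at h3
      linear_combination (cc p Φ j m (centralizer {t * u * t⁻¹}) *
          dnA p (centralizer {t * u * t⁻¹}) (Nat.card D) (Φ (centralizer {t * u * t⁻¹})).1
            (t * u * t⁻¹) χ.1) * h3
    rw [h2]
    exact h1
  · rw [if_neg hc, if_neg hc, zero_mul, sub_zero]
    exact zero_mem _

include hp in
theorem red_CU (h : Loc p red D l Φ aH bH ε κ₀) (hl : BP p D l) (hD : IsPGroup p D)
    (hab : D ≤ centralizer (D : Set G)) (hreg : ∀ u ∈ D, u ≠ 1 → RegT D l u) (hp2 : p ≠ 2)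
    (j : G → AA) (hj : ∀ d ∈ D, ∀ g, j (d * g * d⁻¹) = j g)
    (hsep : ∀ n ∈ normalizer (D : Set G), n ∉ stabT D l →
      l (cj n (WW D (fun g => red (j g)))) = 0) (m : ℕ) {u : G} (hu : u ∈ D) (hu1 : u ≠ 1) :
    red (CU p D (stabT D l) Φ ε j m u) = ((centralizer (D : Set G)).relIndex (stabT D l) : k) *
      (κ₀ * l (WW D (fun g => red (j g)))) ^ p ^ m := by
  unfold CU AvT
  rw [map_sum]
  have h1 : ∀ c : G ⧸ centralizer (D : Set G), red (if c.out ∈ stabT D l then
      (ε (centralizer {c.out⁻¹ * u * c.out}) : AA) * cc p Φ j m (centralizer {c.out⁻¹ * u * c.out})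
      else 0) = if c.out ∈ stabT D l then (κ₀ * l (WW D (fun g => red (j g)))) ^ p ^ m else 0 := by
    intro c
    by_cases hc : c.out ∈ stabT D l
    · rw [if_pos hc, if_pos hc]
      have e : c.out⁻¹ * u * c.out = c.out⁻¹ * u * c.out⁻¹⁻¹ := by rw [inv_inv]
      rw [e]
      have hci := inv_mem hc
      set t := c.out⁻¹ with ht
      have hv := conj_mem (D := D) _ (stabT_le_norm D l) hci hu
      have hv1 := conj_ne (t := t) hu1
      have hb : (bH (centralizer {t * u * t⁻¹}) : k) ≠ 0 := by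
        rw [Ne, CharP.cast_eq_zero_iff k p]
        exact h.hb _ hv hv1
      have h2 := value_S hl hD hab j hj hsep (hreg _ hv hv1) (h.nd _ hv hv1) (h.unit _ hv hv1)
      rw [h.eps _ hv hv1] at h2
      have h3 : ∑ x : (centralizer {t * u * t⁻¹} : Subgroup G), red (j x) *
          red (chA (Φ (centralizer {t * u * t⁻¹})) x) =
          (ε (centralizer {t * u * t⁻¹}) : k) * (κ₀ * l (WW D (fun g => red (j g)))) := by
        apply mul_left_cancel₀ hb
        rw [h2]; ring
      rw [map_mul, map_intCast, cc, red_TT, h3, mul_pow, ← mul_assoc]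
      have h4 : (ε (centralizer {t * u * t⁻¹}) : k) * (ε (centralizer {t * u * t⁻¹}) : k) ^ p ^ m = 1 := by
        have hodd : Odd (p ^ m) := (hp.out.odd_of_ne_two hp2).pow
        rcases h.sgn _ hv hv1 with h5 | h5
        · rw [h5]; simp
        · rw [h5]
          push_cast
          rw [hodd.neg_one_pow]
          norm_num
      rw [h4, one_mul]
    · rw [if_neg hc, if_neg hc, map_zero]
  rw [Finset.sum_congr rfl fun c _ => h1 c, ← Finset.sum_filter, Finset.sum_const, nsmul_eq_mul,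
    card_cosets _ _ (cent_le_stabT D l)]

end

end P179I
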