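import Vale.Agent.P179.H905.I13

/-!
# (INT) 14: local integrality, conclusion
-/

namespace P179I

open Finset P179P P179C P179Y Subgroup P179H524

open P179X (pp SameSec)

open scoped Classical IsMulCommutative

universe v

section

variable {p : ℕ} [hp : Fact p.Prime] {k : Type v} [Field k] [CharP k p] {red : AA →+* k}
  {G : Type} [Group G] [Fintype G] {D : Subgroup G} {l : (G → k) → k}
  {Φ : ∀ H : Subgroup G, Irr H} {aH bH : Subgroup G → ℕ} {ε : Subgroup G → ℤ} {κ₀ : k}

omit hp [CharP k p] in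
/-- summation over an orbit -/
theorem orb_sum (hab : D ≤ centralizer (D : Set G)) {u : G} (hu : RegT D l u) (hu1 : u ≠ 1)
    (w : G → AA) (hw : ∀ v, w v⁻¹ = w v) (Q : AA) :
    ∑ b : Additive D, (if b = 0 then 0 else w (b.toMul : G) *
      (if ∃ t ∈ stabT D l, t * u * t⁻¹ = (b.toMul : G)⁻¹ then Q else 0)) =
      Q * AvT D (stabT D l) w u := by
  unfold AvT
  rw [Finset.mul_sum]
  have h1 : ∀ c : G ⧸ centralizer (D : Set G), Q * (if c.out ∈ stabT D l then
      w (c.out⁻¹ * u * c.out) else 0) = if c.out ∈ stabT D l then Q * w (c.out⁻¹ * u * c.out) else 0 := by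
    intro c
    split_ifs
    · rfl
    · exact mul_zero _
  have h2 : ∀ b : Additive D, (if b = 0 then 0 else w (b.toMul : G) *
      (if ∃ t ∈ stabT D l, t * u * t⁻¹ = (b.toMul : G)⁻¹ then Q else 0)) =
      if (b ≠ 0 ∧ ∃ t ∈ stabT D l, t * u * t⁻¹ = (b.toMul : G)⁻¹) then w (b.toMul : G) * Q else 0 := by
    intro b
    by_cases hb : b = 0
    · rw [if_pos hb, if_neg (fun h => h.1 hb)]
    · rw [if_neg hb]
      by_cases ht : ∃ t ∈ stabT D l, t * u * t⁻¹ = (b.toMul : G)⁻¹
      · rw [if_pos ht, if_pos ⟨hb, ht⟩]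
      · rw [if_neg ht, if_neg (fun h => ht h.2), mul_zero]
  rw [Finset.sum_congr rfl fun c _ => h1 c, Finset.sum_congr rfl fun b _ => h2 b,
    ← Finset.sum_filter, ← Finset.sum_filter]
  have hTN := stabT_le_norm D l
  have hmem : ∀ c : G, c ∈ stabT D l → c⁻¹ * u * c ∈ D := by
    intro c hc
    have := conj_mem (D := D) _ hTN (inv_mem hc) hu.1
    rwa [inv_inv] at this
  symm
  refine Finset.sum_bij (fun c hc => Additive.ofMul (⟨(c.out⁻¹ * u * c.out)⁻¹,
    inv_mem (hmem _ (mem_filter.1 hc).2)⟩ : D)) ?_ ?_ ?_ ?_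
  · intro c hc
    rw [mem_filter]
    refine ⟨mem_univ _, ?_, c.out⁻¹, inv_mem (mem_filter.1 hc).2, ?_⟩
    · intro h0
      have h3 : (c.out⁻¹ * u * c.out)⁻¹ = 1 := congrArg (fun x : Additive D => (x.toMul : G)) h0
      rw [inv_eq_one] at h3
      have h4 := conj_ne (t := c.out⁻¹) hu1
      rw [inv_inv] at h4
      exact h4 h3
    · change c.out⁻¹ * u * c.out⁻¹⁻¹ = ((c.out⁻¹ * u * c.out)⁻¹)⁻¹
      rw [inv_inv, inv_inv]
  · intro c hc c' hc' h
    have h3 : (c.out⁻¹ * u * c.out)⁻¹ = (c'.out⁻¹ * u * c'.out)⁻¹ :=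
      congrArg (fun x : Additive D => (x.toMul : G)) h
    rw [inv_inj] at h3
    have h4 : (c'.out * c.out⁻¹) * u * (c'.out * c.out⁻¹)⁻¹ = u := by
      calc (c'.out * c.out⁻¹) * u * (c'.out * c.out⁻¹)⁻¹ =
          c'.out * (c.out⁻¹ * u * c.out) * c'.out⁻¹ := by group
        _ = c'.out * (c'.out⁻¹ * u * c'.out) * c'.out⁻¹ := by rw [h3]
        _ = u := by group
    have hcT := (mem_filter.1 hc).2
    have hcT' := (mem_filter.1 hc').2
    have h5 := hu.2 _ (mul_mem hcT' (inv_mem hcT)) h4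
    have h6 : c.out⁻¹ * c'.out ∈ centralizer (D : Set G) := by
      have h7 := (conj_mem_cent (inv_mem (hTN hcT)) (c'.out * c.out⁻¹)).2 h5
      have e : c.out⁻¹ * (c'.out * c.out⁻¹) * c.out⁻¹⁻¹ = c.out⁻¹ * c'.out := by group
      rwa [e] at h7
    rw [← QuotientGroup.out_eq' c, ← QuotientGroup.out_eq' c', QuotientGroup.eq]
    exact h6
  · intro b hb
    obtain ⟨-, -, t, ht, htu⟩ := mem_filter.1 hb
    obtain ⟨h, hh⟩ := QuotientGroup.mk_out_eq_mul (centralizer (D : Set G)) t⁻¹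
    have hT : ((t⁻¹ : G) : G ⧸ centralizer (D : Set G)).out ∈ stabT D l := by
      rw [hh]
      exact mul_mem (inv_mem ht) (cent_le_stabT D l h.2)
    refine ⟨((t⁻¹ : G) : G ⧸ centralizer (D : Set G)), mem_filter.2 ⟨mem_univ _, hT⟩, ?_⟩
    have h3 : ((t⁻¹ : G) : G ⧸ centralizer (D : Set G)).out⁻¹ * u * ((t⁻¹ : G) : G ⧸ centralizer (D : Set G)).out =
        (b.toMul : G)⁻¹ := by
      rw [hh]
      have h4 : (b.toMul : G)⁻¹ * (h : G) = h * (b.toMul : G)⁻¹ :=
        mem_centralizer_iff.1 h.2 _ (inv_mem b.toMul.2)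
      calc (t⁻¹ * (h : G))⁻¹ * u * (t⁻¹ * h) = (h : G)⁻¹ * (t * u * t⁻¹) * h := by group
        _ = (h : G)⁻¹ * ((b.toMul : G)⁻¹ * h) := by rw [htu, mul_assoc]
        _ = (b.toMul : G)⁻¹ := by rw [h4]; group
    apply Additive.toMul.injective
    apply Subtype.ext
    change (((t⁻¹ : G) : G ⧸ centralizer (D : Set G)).out⁻¹ * u *
      ((t⁻¹ : G) : G ⧸ centralizer (D : Set G)).out)⁻¹ = (b.toMul : G)
    rw [h3, inv_inv]
  · intro c hc
    change Q * w (c.out⁻¹ * u * c.out) = w (c.out⁻¹ * u * c.out)⁻¹ * Q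
    rw [hw, mul_comm]

omit [CharP k p] in
theorem mem_QN_of_mul {N a : ℕ} {x : AA} (h : (p : AA) ^ a * x ∈ QN p red (N + a)) :
    x ∈ QN p red N := by
  obtain ⟨v, hv, y, hy⟩ := h
  refine ⟨v, hv, y, ?_⟩
  have hp0 : ((p : AA) ^ a) ≠ 0 := by
    apply pow_ne_zero
    intro h0
    have := congrArg (fun x : AA => (x : ℂ)) h0
    simp [hp.out.ne_zero] at this
  apply mul_left_cancel₀ hp0
  calc (p : AA) ^ a * (v * x) = v * ((p : AA) ^ a * x) := by ring
    _ = _ := by rw [hy, pow_add]; ring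

include hp in
/-- **(INT), local form** -/
theorem Loc.int [IsAlgClosed k] [IsMulCommutative D] (h : Loc p red D l Φ aH bH ε κ₀)
    (hl : BP p D l) (hD : IsPGroup p D) (hab : D ≤ centralizer (D : Set G))
    (hreg : ∀ u ∈ D, u ≠ 1 → RegT D l u) (hp2 : p ≠ 2)
    (he : ((centralizer (D : Set G)).relIndex (stabT D l) : k) ≠ 0) {a : ℕ}
    (ha : Nat.card D = p ^ a) (ψ : AddChar (Additive D) ℂ) (χ : Irr G) :
    ∑ b : Additive D, (if b = 0 then 0 else (lamA ψ b - 1) * Ad p D Φ ε (b.toMul : G) χ) ∈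
      QN p red a := by
  obtain ⟨j, hj1, hj2, hj3, hj4⟩ := h.exists_jj hl hD hab
  obtain ⟨M, hM⟩ := hj4 (a + a)
  set s := (Nat.card G).factorization p with hs
  set i := M + a + a with hi
  set m := i + s with hm
  have hjm := hM m (by omega)
  have hcardA : Fintype.card (Additive D) = p ^ a := by
    rw [← ha, Nat.card_eq_fintype_card, Fintype.card_congr (Additive.toMul (α := D))]
  -- the coefficients
  have hpair : ∀ χ : Irr G, ∃ c : AA, (p : AA) ^ a * c =
      ∑ b : Additive D, Psi j (p ^ m) χ (b.toMul : G) := by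
    intro χ
    obtain ⟨c, hc⟩ := (RI_Psi j hj1 (p ^ m) χ).pair 0
    refine ⟨c, ?_⟩
    rw [hcardA] at hc
    push_cast at hc
    rw [hc]
    exact Finset.sum_congr rfl fun b _ => by rw [lamA_zero, mul_one]
  choose mχ hmχ using hpair
  have hb1 : ∀ b : Additive D, b ≠ 0 → (b.toMul : G) ≠ 1 := by
    intro b hb h1
    apply hb
    apply Additive.toMul.injective
    exact Subtype.ext h1
  have e0 : ∑ b : Additive D, (if b = 0 then 0 else (lamA ψ b - 1) * Ad p D Φ ε (b.toMul : G) χ) =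
      ∑ b : Additive D, (@ite AA (b = 0) (Classical.propDecidable (b = 0)) 0
        ((lamA ψ b - 1) * Ad p D Φ ε (b.toMul : G) χ)) := by
    refine Finset.sum_congr rfl fun b _ => ?_
    congr
  rw [e0]
  refine int_abs (p := p) (red := red) hp2 (N := a) hcardA le_rfl
    (fun (χ : Irr G) (b : Additive D) => AvT D (stabT D l) (Psi j (p ^ m) χ) (b.toMul : G))
    (fun χ b => Ad p D Φ ε (b.toMul : G) χ)
    (fun b => CU p D (stabT D l) Φ ε j m (b.toMul : G)) mχ
    (fun χ => RI_AvT (stabT_le_norm D l) (RI_Psi j hj1 (p ^ m) χ)) ?_ ?_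
    (((centralizer (D : Set G)).relIndex (stabT D l) : k) *
      (κ₀ * l (WW D (fun g => red (j g)))) ^ p ^ m) ?_ ?_ ψ χ
  · intro χ b hb
    exact QN_mono (by omega) (avT_sub h hl j hjm b.toMul.2 (hb1 b hb) χ)
  · intro b₀ hb₀
    set u : G := (b₀.toMul : G) with hu
    have huD : u ∈ D := b₀.toMul.2
    have hu1 : u ≠ 1 := hb1 b₀ hb₀
    set Cu := CU p D (stabT D l) Φ ε j m u with hCu
    set F : Irr G → AA := fun χ => AvT D (stabT D l) (Psi j (p ^ m) χ) u with hF
    have hFu : ∀ χ, F χ - Cu * Ad p D Φ ε u χ ∈ QN p red (a + a) := fun χ =>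
      avT_sub h hl j hjm huD hu1 χ
    set w : G → AA := fun v => (ε (centralizer {v}) : AA) * cc p Φ j m (centralizer {v}) with hw
    have hwinv : ∀ v, w v⁻¹ = w v := by
      intro v
      simp only [hw, cz_inv]
    have horb := orb_sum hab (hreg u huD hu1) hu1 w hwinv (Nat.card D : AA)
    refine mem_QN_of_mul (a := a) ?_
    -- the difference
    have key : (p : AA) ^ a * ((∑ χ, F χ * mχ χ) - Cu ^ 2) =
        ∑ b : Additive D, ((∑ χ, F χ * Psi j (p ^ m) χ (b.toMul : G)) -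
          Cu * (if b = 0 then 0 else w (b.toMul : G) *
            (if ∃ t ∈ stabT D l, t * u * t⁻¹ = (b.toMul : G)⁻¹ then (Nat.card D : AA) else 0))) := by
      rw [Finset.sum_sub_distrib, ← Finset.mul_sum, horb, ha]
      have h1 : AvT D (stabT D l) w u = Cu := rfl
      rw [h1, mul_sub, Finset.mul_sum, Finset.sum_comm]
      congr 1
      · refine Finset.sum_congr rfl fun χ _ => ?_
        rw [← Finset.mul_sum, ← hmχ]
        ring
      · push_cast; ring
    rw [key]
    refine Ideal.sum_mem _ fun b _ => ?_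
    by_cases hb : b = 0
    · rw [if_pos hb, mul_zero, sub_zero, hb]
      have h1 : ∑ χ, F χ * Psi j (p ^ m) χ ((0 : Additive D).toMul : G) =
          ∑ χ, (F χ - Cu * Ad p D Φ ε u χ) * Psi j (p ^ m) χ 1 +
            Cu * ∑ χ, Ad p D Φ ε u χ * Psi j (p ^ m) χ 1 := by
        rw [Finset.mul_sum, ← Finset.sum_add_distrib]
        refine Finset.sum_congr rfl fun χ _ => ?_
        have : (((0 : Additive D).toMul : D) : G) = 1 := rfl
        rw [this]
        ring
      rw [h1]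
      refine Ideal.add_mem _ (Ideal.sum_mem _ fun χ _ => Ideal.mul_mem_right _ _ (hFu χ)) ?_
      exact Ideal.mul_mem_left _ _ (QN_mono (by omega) (sum_Ad_Psi h hD j huD hu1 i))
    · rw [if_neg hb]
      have hbD : (b.toMul : G) ∈ D := b.toMul.2
      have hbb := hb1 b hb
      have hgram := h.gram hl hD hab hreg huD hu1 hbD hbb
      rw [← hgram]
      have h1 : (∑ χ, F χ * Psi j (p ^ m) χ (b.toMul : G)) - Cu * (w (b.toMul : G) *
          ∑ χ, Ad p D Φ ε u χ * Ad p D Φ ε (b.toMul : G) χ) =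
          ∑ χ, ((F χ - Cu * Ad p D Φ ε u χ) * Psi j (p ^ m) χ (b.toMul : G) +
            Cu * Ad p D Φ ε u χ * (Psi j (p ^ m) χ (b.toMul : G) -
              w (b.toMul : G) * Ad p D Φ ε (b.toMul : G) χ)) := by
        rw [Finset.mul_sum, Finset.mul_sum, ← Finset.sum_sub_distrib]
        exact Finset.sum_congr rfl fun χ _ => by ring
      rw [h1]
      refine Ideal.sum_mem _ fun χ _ => Ideal.add_mem _ (Ideal.mul_mem_right _ _ (hFu χ))
        (Ideal.mul_mem_left _ _ ?_)
      have h2 := hjm _ hbD hbb χ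
      have h3 : w (b.toMul : G) * Ad p D Φ ε (b.toMul : G) χ = cc p Φ j m (centralizer {(b.toMul : G)}) *
          dnA p (centralizer {(b.toMul : G)}) (Nat.card D) (Φ (centralizer {(b.toMul : G)})).1
            (b.toMul : G) χ.1 := by
        simp only [hw]
        unfold Ad
        have h4 := congrArg (fun n : ℤ => (n : AA)) (h.sq hbD hbb)
        push_cast at h4
        linear_combination (cc p Φ j m (centralizer {(b.toMul : G)}) *
          dnA p (centralizer {(b.toMul : G)}) (Nat.card D) (Φ (centralizer {(b.toMul : G)})).1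
            (b.toMul : G) χ.1) * h4
      rw [h3]
      exact h2
  · exact mul_ne_zero he (pow_ne_zero _ (mul_ne_zero h.ne hj2))
  · intro b hb
    exact red_CU h hl hD hab hreg hp2 j hj1 hj3 m b.toMul.2 (hb1 b hb)

end

end P179I
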