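import Vale.Agent.P179.H905.I14
import Vale.Agent.P179.H905.Fus
import Vale.Agent.P179.H234.AG

/-!
# (INT) 15: integrality
-/

namespace P179I

open Finset P179P P179C P179Y Subgroup P179H524

open P179X (pp SameSec)

open scoped Classical IsMulCommutative

universe v

section

variable {p : ℕ} [hp : Fact p.Prime] {k : Type v} [Field k] [CharP k p] {red : AA →+* k}
  {G : Type} [Group G] [Fintype G] {D : Subgroup G} {l : (G → k) → k}
  {Φ : ∀ H : Subgroup G, Irr H} {aH bH : Subgroup G → ℕ} {ε : Subgroup G → ℤ} {κ₀ : k}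

omit [Fintype G] in
theorem cz_pow {u : G} {m : ℕ} (h : (orderOf u).Coprime m) :
    (centralizer {u ^ m} : Subgroup G) = centralizer {u} := by
  obtain ⟨e, he⟩ := exists_pow_eq_self_of_coprime h.symm
  ext x
  rw [mem_cz, mem_cz]
  constructor
  · intro hx
    have h1 : Commute x (u ^ m) := hx
    have h2 := h1.pow_right e
    rwa [he] at h2
  · intro hx
    exact (show Commute x u from hx).pow_right m

include hp in
theorem Loc.int_rat [IsMulCommutative D] (h : Loc p red D l Φ aH bH ε κ₀)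
    (hD : IsPGroup p D) (hp2 : p ≠ 2) (ψ : AddChar (Additive D) ℂ) (χ : Irr G) :
    ∃ c : ℤ, ∑ b : Additive D, (if b = 0 then 0 else (lamA ψ b - 1) *
      Ad p D Φ ε (b.toMul : G) χ) = (c : AA) := by
  obtain ⟨m, hm, -, hgen⟩ := P179P.exists_exponent (p := p) hp2 (Nat.card G) Nat.card_pos.ne'
  set N := ordProj[p] (Nat.card G) with hN
  have hN0 : N ≠ 0 := pow_ne_zero _ hp.out.ne_zero
  have hNpos : 0 < N := Nat.pos_of_ne_zero hN0
  have hG0 : Nat.card G ≠ 0 := Nat.card_pos.ne'
  have huN : ∀ u ∈ D, u ^ N = 1 := by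
    intro u hu
    obtain ⟨a, ha⟩ := hD ⟨u, hu⟩
    have ha' : u ^ p ^ a = 1 := by simpa using congrArg Subtype.val ha
    obtain ⟨i, -, hi⟩ := (Nat.dvd_prime_pow hp.out).1 (orderOf_dvd_of_pow_eq_one ha')
    rw [← orderOf_dvd_iff_pow_eq_one, hi]
    have h1 : p ^ i ∣ Nat.card G := by rw [← hi]; exact orderOf_dvd_natCard u
    exact pow_dvd_pow p ((hp.out.pow_dvd_iff_le_factorization hG0).1 h1)
  set ζ : ℂ := Complex.exp (2 * Real.pi * Complex.I / N) with hζdef
  have hζ : IsPrimitiveRoot ζ N := Complex.isPrimitiveRoot_exp N hN0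
  have hNe : NeZero N := ⟨hN0⟩
  have hb1 : ∀ b : Additive D, b ≠ 0 → (b.toMul : G) ≠ 1 := by
    intro b hb h1
    apply hb
    apply Additive.toMul.injective
    exact Subtype.ext h1
  -- the polynomials
  have hP : ∀ b : Additive D, ∃ P : Polynomial ℤ, b ≠ 0 → ∀ j : ℕ,
      dn p (centralizer {(b.toMul : G)}) (Nat.card D) (Φ (centralizer {(b.toMul : G)})).1
        ((b.toMul : G) ^ j) χ.1 = Polynomial.aeval (ζ ^ j) P := by
    intro b
    by_cases hb : b = 0
    · exact ⟨0, fun h => absurd hb h⟩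
    · obtain ⟨P, hP⟩ := dn_poly p red _ Nat.card_pos.ne' (h.nd _ b.toMul.2 (hb1 b hb))
        (b.toMul : G) (huN _ b.toMul.2) hN0 (mem_cz _) χ hζ
      exact ⟨P, fun _ => hP⟩
  choose P hP using hP
  have hi : ∀ b : Additive D, ∃ i : ℕ, ζ ^ i = ψ b := by
    intro b
    have h1 : ψ b ^ N = 1 := by
      rw [← AddChar.map_nsmul_eq_pow]
      have h2 : N • b = 0 := by
        apply Additive.toMul.injective
        apply Subtype.ext
        change (b.toMul : G) ^ N = 1
        exact huN _ b.toMul.2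
      rw [h2, AddChar.map_zero_eq_one]
    obtain ⟨i, -, hi⟩ := hζ.eq_pow_of_pow_eq_one h1
    exact ⟨i, hi⟩
  choose i hi using hi
  set R : Polynomial ℤ := ∑ b : Additive D, if b = 0 then 0 else
    (Polynomial.X ^ i b - 1) * (Polynomial.C (ε (centralizer {(b.toMul : G)})) * P b) with hR
  have hRj : ∀ j : ℕ, Polynomial.aeval (ζ ^ j) R = ∑ b : Additive D, if b = 0 then 0 else
      (ψ b ^ j - 1) * ((ε (centralizer {(b.toMul : G)}) : ℂ) *
        dn p (centralizer {(b.toMul : G)}) (Nat.card D) (Φ (centralizer {(b.toMul : G)})).1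
          ((b.toMul : G) ^ j) χ.1) := by
    intro j
    rw [hR, map_sum]
    refine Finset.sum_congr rfl fun b _ => ?_
    by_cases hb : b = 0
    · rw [if_pos hb, if_pos hb, map_zero]
    · rw [if_neg hb, if_neg hb, hP b hb j, ← hi b]
      simp only [map_mul, map_sub, map_pow, Polynomial.aeval_X, map_one, Polynomial.aeval_C]
      rw [← pow_mul, ← pow_mul, mul_comm j]
      rfl
  -- the values
  set t : Additive D → ℂ := fun b => if b = 0 then 0 else
      (ψ b - 1) * ((ε (centralizer {(b.toMul : G)}) : ℂ) *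
        dn p (centralizer {(b.toMul : G)}) (Nat.card D) (Φ (centralizer {(b.toMul : G)})).1
          (b.toMul : G) χ.1) with ht
  have h1 : Polynomial.aeval ζ R = ∑ b, t b := by
    have := hRj 1
    rw [pow_one] at this
    rw [this]
    refine Finset.sum_congr rfl fun b _ => ?_
    simp only [ht, pow_one]
  have hcop : (Nat.card D).Coprime m :=
    (Nat.Coprime.coprime_dvd_right (Subgroup.card_subgroup_dvd_card D) hm).symm
  have hmb : ∀ b : Additive D, m • b = 0 ↔ b = 0 := by
    intro b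
    constructor
    · intro h2
      have h3 : (b.toMul) ^ m = 1 := congrArg (fun x : Additive D => x.toMul) h2
      have h4 : (b.toMul) = 1 := by
        have h5 : orderOf b.toMul ∣ Nat.gcd (Nat.card D) m :=
          Nat.dvd_gcd (orderOf_dvd_natCard _) (orderOf_dvd_of_pow_eq_one h3)
        rw [hcop] at h5
        exact orderOf_eq_one_iff.1 (Nat.dvd_one.1 h5)
      exact Additive.toMul.injective h4
    · rintro rfl; simp
  have h2 : Polynomial.aeval (ζ ^ m) R = ∑ b, t b := by
    rw [hRj m]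
    have hcardA : (Nat.card (Additive D)).Coprime m := by
      rw [Nat.card_congr (Additive.toMul (α := D))]; exact hcop
    refine Fintype.sum_equiv (nsmulCoprime hcardA) _ _ fun b => ?_
    change _ = t (m • b)
    simp only [ht]
    by_cases hb : b = 0
    · rw [if_pos hb, if_pos ((hmb b).2 hb)]
    · rw [if_neg hb, if_neg (fun h => hb ((hmb b).1 h)), AddChar.map_nsmul_eq_pow]
      have h3 : (((m • b : Additive D).toMul : D) : G) = (b.toMul : G) ^ m := rfl
      have h4 : (centralizer {(b.toMul : G) ^ m} : Subgroup G) = centralizer {(b.toMul : G)} :=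
        cz_pow ((Nat.Coprime.coprime_dvd_left (orderOf_dvd_natCard (b.toMul : G))
          (Nat.Coprime.symm hm)))
      rw [h3, h4]
  obtain ⟨c, hc⟩ := P179H234.exists_int_of_gen hNpos hζ R
    (Nat.Coprime.coprime_dvd_right (Nat.ordProj_dvd _ _) hm) (fun j hj => by
    by_cases hf : (Nat.card G).factorization p = 0
    · refine ⟨0, ?_⟩
      have : N = 1 := by rw [hN, hf, pow_zero]
      rw [this]
      exact Nat.modEq_one
    · apply hgen
      intro hpj
      have h1 : p ∣ Nat.gcd j N := Nat.dvd_gcd hpj (dvd_pow_self p hf)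
      rw [hj] at h1
      exact hp.out.one_lt.ne' (Nat.dvd_one.1 h1)) (by rw [h1, h2])
  refine ⟨c, Subtype.ext ?_⟩
  push_cast
  rw [← hc, h1]
  refine Finset.sum_congr rfl fun b _ => ?_
  simp only [ht]
  by_cases hb : b = 0
  · rw [if_pos hb, if_pos hb]; rfl
  · rw [if_neg hb, if_neg hb]
    unfold Ad
    push_cast
    rw [h.dn_coe b.toMul.2 (hb1 b hb)]
    rfl

include hp in
/-- **(INT)** -/
theorem Loc.INT [IsAlgClosed k] [IsMulCommutative D] (h : Loc p red D l Φ aH bH ε κ₀)
    (hl : BP p D l) (hD : IsPGroup p D) (hab : D ≤ centralizer (D : Set G))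
    (hreg : ∀ u ∈ D, u ≠ 1 → RegT D l u) (hp2 : p ≠ 2)
    (he : ((centralizer (D : Set G)).relIndex (stabT D l) : k) ≠ 0)
    (ψ : AddChar (Additive D) ℂ) (χ : Irr G) :
    ∃ c : ℤ, ∑ b : Additive D, (if b = 0 then 0 else (lamA ψ b - 1) *
      Ad p D Φ ε (b.toMul : G) χ) = (Nat.card D : AA) * c := by
  obtain ⟨a, ha⟩ := (IsPGroup.iff_card (p := p)).1 hD
  have h1 := h.int hl hD hab hreg hp2 he ha ψ χ
  obtain ⟨c, hc⟩ := h.int_rat hD hp2 ψ χ
  rw [hc] at h1
  obtain ⟨d, rfl⟩ := int_of_mem h1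
  refine ⟨d, ?_⟩
  rw [hc, ha]
  push_cast
  ring

end

end P179I
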