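import Vale.Agent.P179.H905.I1

/-!
# (COH) the combinatorial lemma
-/

namespace P179I

open Finset

open scoped Classical

theorem nonconst_bound {ι : Type*} [Fintype ι] (c : ι → ℤ) (h : ∃ i j, c i ≠ c j) :
    2 * ((Fintype.card ι : ℤ) - 1) ≤ ∑ i, ∑ j, (c i - c j) ^ 2 := by
  obtain ⟨i₀, i₁, hne⟩ := h
  set f : ι → ℤ := fun i => if c i = c i₀ then 1 else 0 with hf
  have h1 : ∀ i j, f i * (1 - f j) + (1 - f i) * f j ≤ (c i - c j) ^ 2 := by
    intro i j
    by_cases hi : c i = c i₀
    · by_cases hj : c j = c i₀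
      · simp only [hf, if_pos hi, if_pos hj]
        positivity
      · simp only [hf, if_pos hi, if_neg hj]
        have h2 : c i - c j ≠ 0 := by
          rw [hi]; exact fun h => hj (sub_eq_zero.1 h).symm
        have := sq_nonneg (c i - c j)
        have h3 : (c i - c j) ^ 2 ≠ 0 := pow_ne_zero _ h2
        omega
    · by_cases hj : c j = c i₀
      · simp only [hf, if_neg hi, if_pos hj]
        have h2 : c i - c j ≠ 0 := by
          rw [hj]; exact fun h => hi (sub_eq_zero.1 h)
        have := sq_nonneg (c i - c j)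
        have h3 : (c i - c j) ^ 2 ≠ 0 := pow_ne_zero _ h2
        omega
      · simp only [hf, if_neg hi, if_neg hj]
        have := sq_nonneg (c i - c j)
        simpa using this
  have h2 : ∑ i, ∑ j, (f i * (1 - f j) + (1 - f i) * f j) =
      2 * ((∑ i, f i) * ((Fintype.card ι : ℤ) - ∑ i, f i)) := by
    have e1 : ∑ i, ∑ j, f i * (1 - f j) = (∑ i, f i) * ((Fintype.card ι : ℤ) - ∑ i, f i) := by
      rw [← Finset.sum_mul_sum]
      congr 1
      rw [Finset.sum_sub_distrib]
      simp
    have e2 : ∑ i, ∑ j, (1 - f i) * f j = (∑ i, f i) * ((Fintype.card ι : ℤ) - ∑ i, f i) := by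
      rw [← Finset.sum_mul_sum, mul_comm]
      congr 1
      rw [Finset.sum_sub_distrib]
      simp
    simp only [Finset.sum_add_distrib]
    rw [e1, e2]; ring
  have h3 : ∑ i, ∑ j, (f i * (1 - f j) + (1 - f i) * f j) ≤ ∑ i, ∑ j, (c i - c j) ^ 2 :=
    Finset.sum_le_sum fun i _ => Finset.sum_le_sum fun j _ => h1 i j
  have h4 : 1 ≤ ∑ i, f i := by
    have : f i₀ ≤ ∑ i, f i := Finset.single_le_sum (fun i _ => by
      simp only [hf]; split_ifs <;> norm_num) (mem_univ i₀)
    have h5 : f i₀ = 1 := by simp only [hf, if_true]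
    rwa [h5] at this
  have h5 : 1 ≤ (Fintype.card ι : ℤ) - ∑ i, f i := by
    have e1 : (Fintype.card ι : ℤ) - ∑ i, f i = ∑ i, (1 - f i) := by
      rw [Finset.sum_sub_distrib]; simp
    rw [e1]
    have : (1 - f i₁) ≤ ∑ i, (1 - f i) := Finset.single_le_sum (f := fun i => 1 - f i) (fun i _ => by
      simp only [hf]; split_ifs <;> norm_num) (mem_univ i₁)
    have h6 : f i₁ = 0 := by
      simp only [hf]
      rw [if_neg (Ne.symm hne)]
    rw [h6] at this
    linarith
  rw [h2] at h3
  nlinarith

/-- the combinatorial lemma -/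
theorem comb {ι X : Type*} [Fintype ι] [Fintype X] (v : ι → X → ℤ) (e : ℕ)
    (hG : ∀ i j, ∑ x, v i x * v j x = e + if i = j then 1 else 0) (hnz : ∀ x, ∃ i, v i x ≠ 0)
    (hι : Nonempty ι) : Fintype.card X ≤ Fintype.card ι + e := by
  set t : ℤ := (Fintype.card ι : ℤ) with ht
  have ht1 : 1 ≤ t := by
    have := Fintype.card_pos (α := ι)
    rw [ht]; exact_mod_cast this
  set X0 := univ.filter fun x : X => ∀ i j, v i x = v j x with hX0
  set X1 := univ.filter fun x : X => ¬ ∀ i j, v i x = v j x with hX1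
  have hcard : Fintype.card X = X0.card + X1.card := by
    rw [← Finset.card_univ, ← Finset.card_filter_add_card_filter_not (s := univ)
      (fun x : X => ∀ i j, v i x = v j x)]
  -- the constant columns
  have h0 : (X0.card : ℤ) * t ^ 2 ≤ t ^ 2 * e + t := by
    have e1 : ∑ x, (∑ i, v i x) ^ 2 = t ^ 2 * e + t := by
      have e2 : ∀ x, (∑ i, v i x) ^ 2 = ∑ i, ∑ j, v i x * v j x := by
        intro x
        rw [sq, Finset.sum_mul_sum]
      rw [Finset.sum_congr rfl fun x _ => e2 x, Finset.sum_comm]
      have e3 : ∀ i, ∑ x, ∑ j, v i x * v j x = t * e + 1 := by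
        intro i
        rw [Finset.sum_comm]
        simp only [hG, Finset.sum_add_distrib, Finset.sum_const, Finset.card_univ, nsmul_eq_mul,
          Finset.sum_ite_eq, mem_univ, if_true, ht]
      rw [Finset.sum_congr rfl fun i _ => e3 i, Finset.sum_const, Finset.card_univ, nsmul_eq_mul, ← ht]
      ring
    rw [← e1]
    calc (X0.card : ℤ) * t ^ 2 = ∑ x ∈ X0, t ^ 2 := by rw [Finset.sum_const, nsmul_eq_mul]
      _ ≤ ∑ x ∈ X0, (∑ i, v i x) ^ 2 := by
        refine Finset.sum_le_sum fun x hx => ?_
        obtain ⟨i, hi⟩ := hnz x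
        have hx' := (mem_filter.1 hx).2
        have e2 : ∑ j, v j x = t * v i x := by
          rw [Finset.sum_congr rfl fun j _ => hx' j i, Finset.sum_const, Finset.card_univ,
            nsmul_eq_mul, ← ht]
        rw [e2, mul_pow]
        have e3 : 1 ≤ (v i x) ^ 2 := by
          have := sq_nonneg (v i x)
          have h3 : (v i x) ^ 2 ≠ 0 := pow_ne_zero _ hi
          omega
        nlinarith [sq_nonneg t]
      _ ≤ _ := Finset.sum_le_sum_of_subset_of_nonneg (Finset.subset_univ _) fun _ _ _ => sq_nonneg _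
  -- the other columns
  have h1 : (X1.card : ℤ) * (2 * (t - 1)) ≤ 2 * (t * (t - 1)) := by
    have e1 : ∑ x, ∑ i, ∑ j, (v i x - v j x) ^ 2 = 2 * (t * (t - 1)) := by
      rw [Finset.sum_comm]
      have e2 : ∀ i, ∑ x, ∑ j, (v i x - v j x) ^ 2 = 2 * (t - 1) := by
        intro i
        rw [Finset.sum_comm]
        have e3 : ∀ j, ∑ x, (v i x - v j x) ^ 2 = 2 - if i = j then 2 else 0 := by
          intro j
          have e4 : ∀ x, (v i x - v j x) ^ 2 = v i x * v i x + v j x * v j x - 2 * (v i x * v j x) := by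
            intro x; ring
          rw [Finset.sum_congr rfl fun x _ => e4 x, Finset.sum_sub_distrib, Finset.sum_add_distrib,
            ← Finset.mul_sum, hG, hG, hG, if_pos rfl, if_pos rfl]
          split_ifs <;> ring
        rw [Finset.sum_congr rfl fun j _ => e3 j, Finset.sum_sub_distrib]
        simp only [Finset.sum_const, Finset.card_univ, nsmul_eq_mul, Finset.sum_ite_eq, mem_univ,
          if_true, ← ht]
        ring
      rw [Finset.sum_congr rfl fun i _ => e2 i, Finset.sum_const, Finset.card_univ, nsmul_eq_mul, ← ht]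
      ring
    rw [← e1]
    calc (X1.card : ℤ) * (2 * (t - 1)) = ∑ x ∈ X1, 2 * (t - 1) := by
          rw [Finset.sum_const, nsmul_eq_mul]
      _ ≤ ∑ x ∈ X1, ∑ i, ∑ j, (v i x - v j x) ^ 2 := by
        refine Finset.sum_le_sum fun x hx => ?_
        have hx' := (mem_filter.1 hx).2
        push Not at hx'
        exact nonconst_bound (fun i => v i x) hx'
      _ ≤ _ := Finset.sum_le_sum_of_subset_of_nonneg (Finset.subset_univ _) fun _ _ _ =>
        Finset.sum_nonneg fun _ _ => Finset.sum_nonneg fun _ _ => sq_nonneg _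
  -- conclusion
  have h2 : (X0.card : ℤ) + X1.card ≤ t + e := by
    rcases eq_or_lt_of_le ht1 with h | h
    · -- `t = 1`
      have hX1e : X1.card = 0 := by
        rw [Finset.card_eq_zero, hX1, Finset.filter_eq_empty_iff]
        intro x _ hx
        apply hx
        intro i j
        have : Subsingleton ι := by
          apply Fintype.card_le_one_iff_subsingleton.1
          have : (Fintype.card ι : ℤ) = 1 := by rw [← ht, ← h]
          omega
        rw [Subsingleton.elim i j]
      rw [hX1e]
      rw [← h] at h0 ⊢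
      push_cast
      linarith
    · have hX1t : (X1.card : ℤ) ≤ t := by
        have h3 : 0 < 2 * (t - 1) := by linarith
        have h4 : (X1.card : ℤ) * (2 * (t - 1)) ≤ t * (2 * (t - 1)) := by linarith
        exact le_of_mul_le_mul_right h4 h3
      have hX0e : (X0.card : ℤ) ≤ e := by
        by_contra hcon
        push Not at hcon
        have h3 : ((e : ℤ) + 1) * t ^ 2 ≤ X0.card * t ^ 2 :=
          mul_le_mul_of_nonneg_right (by linarith) (sq_nonneg t)
        nlinarith
      linarith
  rw [hcard]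
  have h3 : (X0.card : ℤ) + X1.card ≤ (Fintype.card ι : ℤ) + e := h2
  exact_mod_cast h3

end P179I
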