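import Vale.Agent.P179.H905.I16
import Vale.Agent.P179.H905.I17

/-!
# (COH) the action of the inertial group on `D` and on its characters
-/

namespace P179I

open Finset P179P P179C P179Y Subgroup P179H524

open scoped Classical IsMulCommutative

universe v

/-- counting orbits -/
theorem card_orbits {T Y : Type*} [Group T] [Finite T] [Finite Y] [MulAction T Y] (C : Subgroup T)
    (h : ∀ y : Y, MulAction.stabilizer T y = C) :
    Nat.card (MulAction.orbitRel.Quotient T Y) * C.index = Nat.card Y := by
  have := Fintype.ofFinite Y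
  have := Fintype.ofFinite T
  have := Fintype.ofFinite (MulAction.orbitRel.Quotient T Y)
  rw [Nat.card_congr (MulAction.selfEquivSigmaOrbits T Y), Nat.card_sigma]
  have h1 : ∀ ω : MulAction.orbitRel.Quotient T Y, Nat.card (MulAction.orbit T ω.out) = C.index := by
    intro ω
    have h2 := MulAction.index_stabilizer T ω.out
    rw [h] at h2
    rw [h2]
    rfl
  rw [Finset.sum_congr rfl fun ω _ => h1 ω, Finset.sum_const, Finset.card_univ,
    Nat.card_eq_fintype_card, smul_eq_mul]

section

variable {p : ℕ} [hp : Fact p.Prime] {k : Type v} [Field k] [CharP k p] {red : AA →+* k}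
  {G : Type} [Group G] [Fintype G] {D : Subgroup G} {l : (G → k) → k}

/-- conjugation on `D` -/
def cjD (t : stabT D l) : D →* D where
  toFun d := ⟨(t : G) * d * (t : G)⁻¹, (mem_normalizer_iff.1 (stabT_le_norm D l t.2) d).1 d.2⟩
  map_one' := Subtype.ext (by simp)
  map_mul' a b := Subtype.ext (by simp [mul_assoc])

omit [Fintype G] in
theorem cjD_coe (t : stabT D l) (d : D) : ((cjD t d : D) : G) = t * d * (t : G)⁻¹ := rfl

variable [IsMulCommutative D]

/-- the nontrivial characters of `D` -/
abbrev NC (D : Subgroup G) [IsMulCommutative D] : Type := {ψ : AddChar (Additive D) ℂ // ψ ≠ 0}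

/-- the non-trivial elements of `D` -/
abbrev NE (D : Subgroup G) : Type := {u : D // u ≠ 1}

/-- the action on characters -/
noncomputable def actC (t : stabT D l) (ψ : AddChar (Additive D) ℂ) : AddChar (Additive D) ℂ :=
  ψ.compAddMonoidHom (MonoidHom.toAdditive (cjD t⁻¹))

omit [Fintype G] in
theorem actC_apply (t : stabT D l) (ψ : AddChar (Additive D) ℂ) (b : Additive D) :
    actC t ψ b = ψ (Additive.ofMul (cjD t⁻¹ b.toMul)) := rfl

omit [Fintype G] in
theorem cjD_mul (s t : stabT D l) (d : D) : cjD (s * t) d = cjD s (cjD t d) := by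
  apply Subtype.ext
  rw [cjD_coe, cjD_coe, cjD_coe]
  push_cast
  group

omit [Fintype G] in
theorem cjD_one (d : D) : cjD (1 : stabT D l) d = d := by
  apply Subtype.ext
  rw [cjD_coe]
  simp

omit [Fintype G] in
theorem actC_mul (s t : stabT D l) (ψ : AddChar (Additive D) ℂ) :
    actC (s * t) ψ = actC s (actC t ψ) := by
  apply AddChar.ext
  intro b
  rw [actC_apply, actC_apply, actC_apply, mul_inv_rev]
  congr 2
  exact cjD_mul _ _ _

omit [Fintype G] in
theorem actC_one (ψ : AddChar (Additive D) ℂ) : actC (1 : stabT D l) ψ = ψ := by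
  apply AddChar.ext
  intro b
  rw [actC_apply, inv_one, cjD_one]
  rfl

omit [Fintype G] in
theorem actC_zero (t : stabT D l) : actC t (0 : AddChar (Additive D) ℂ) = 0 := by
  apply AddChar.ext
  intro b
  rw [actC_apply, AddChar.zero_apply, AddChar.zero_apply]

omit [Fintype G] in
theorem actC_ne (t : stabT D l) {ψ : AddChar (Additive D) ℂ} (h : ψ ≠ 0) : actC t ψ ≠ 0 := by
  intro h0
  apply h
  rw [← actC_one (l := l) ψ, ← inv_mul_cancel t, actC_mul, h0, actC_zero]

noncomputable instance actNC : MulAction (stabT D l) (NC D) where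
  smul t ψ := ⟨actC t ψ.1, actC_ne t ψ.2⟩
  one_smul ψ := Subtype.ext (actC_one ψ.1)
  mul_smul s t ψ := Subtype.ext (actC_mul s t ψ.1)

omit [Fintype G] in
theorem smul_NC (t : stabT D l) (ψ : NC D) : ((t • ψ : NC D) : AddChar (Additive D) ℂ) = actC t ψ.1 :=
  rfl

noncomputable instance actNE : MulAction (stabT D l) (NE D) where
  smul t u := ⟨cjD t u.1, fun h => u.2 (by
    have h1 : cjD t⁻¹ (cjD t u.1) = u.1 := by
      rw [← cjD_mul, inv_mul_cancel, cjD_one]
    rw [h, map_one] at h1
    exact h1.symm)⟩
  one_smul u := Subtype.ext (cjD_one u.1)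
  mul_smul s t u := Subtype.ext (cjD_mul s t u.1)

omit [Fintype G] in
theorem smul_NE (t : stabT D l) (u : NE D) : (((t • u : NE D) : D) : G) = t * (u.1 : G) * (t : G)⁻¹ :=
  rfl

omit [Fintype G] in
/-- the action on `D ∖ 1` is free modulo `C_G(D)` -/
theorem stab_NE (hreg : ∀ u ∈ D, u ≠ 1 → RegT D l u) (u : NE D) :
    MulAction.stabilizer (stabT D l) u = (centralizer (D : Set G)).subgroupOf (stabT D l) := by
  ext t
  rw [MulAction.mem_stabilizer_iff, Subgroup.mem_subgroupOf]
  have hu1 : ((u.1 : D) : G) ≠ 1 := fun h => u.2 (Subtype.ext h)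
  constructor
  · intro h
    have h1 : (t : G) * (u.1 : G) * (t : G)⁻¹ = (u.1 : G) := by
      rw [← smul_NE, h]
    exact (hreg _ u.1.2 hu1).2 _ t.2 h1
  · intro h
    apply Subtype.ext
    apply Subtype.ext
    rw [smul_NE]
    have := mem_centralizer_iff.1 h _ u.1.2
    rw [← this]; group

/-- the action on the nontrivial characters is free modulo `C_G(D)` -/
theorem stab_NC (hreg : ∀ u ∈ D, u ≠ 1 → RegT D l u) (ψ : NC D) :
    MulAction.stabilizer (stabT D l) ψ = (centralizer (D : Set G)).subgroupOf (stabT D l) := by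
  ext t
  rw [MulAction.mem_stabilizer_iff, Subgroup.mem_subgroupOf]
  constructor
  · intro h
    by_contra ht
    apply ψ.2
    have h1 : ∀ b : Additive D, ψ.1 (Additive.ofMul (cjD t⁻¹ b.toMul)) = ψ.1 b := by
      intro b
      rw [← actC_apply, ← smul_NC, h]
    -- the endomorphism `b ↦ b⁻¹ b^t`
    let f : D →* D :=
      { toFun := fun b => b⁻¹ * cjD t⁻¹ b
        map_one' := by simp
        map_mul' := fun a b => by
          rw [map_mul, mul_inv_rev, mul_comm b⁻¹ a⁻¹]
          rw [mul_assoc, mul_assoc]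
          congr 1
          rw [← mul_assoc, ← mul_assoc, mul_comm b⁻¹ _] }
    have hinj : Function.Injective f := by
      rw [injective_iff_map_eq_one]
      intro b hb
      by_contra hb1
      apply ht
      have h2 : cjD t⁻¹ b = b := by
        have h3 : b⁻¹ * cjD t⁻¹ b = 1 := hb
        exact (inv_mul_eq_one.1 h3).symm
      have h4 : (t : G)⁻¹ * b * (t : G)⁻¹⁻¹ = b := by
        have := congrArg (fun x : D => (x : G)) h2
        simpa [cjD_coe] using this
      have h5 := (hreg b b.2 (fun h => hb1 (Subtype.ext h))).2 _ (inv_mem t.2) h4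
      simpa using inv_mem h5
    have hsurj : Function.Surjective f := Finite.surjective_of_injective hinj
    apply AddChar.ext
    intro d
    obtain ⟨b, hb⟩ := hsurj d.toMul
    have h2 : d = -Additive.ofMul b + Additive.ofMul (cjD t⁻¹ b) := by
      apply Additive.toMul.injective
      exact hb.symm
    have h3 : ψ.1 (Additive.ofMul (cjD t⁻¹ b)) = ψ.1 (Additive.ofMul b) := h1 (Additive.ofMul b)
    rw [AddChar.zero_apply, h2, AddChar.map_add_eq_mul, h3,
      ← AddChar.map_add_eq_mul, neg_add_cancel, AddChar.map_zero_eq_one]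
  · intro h
    apply Subtype.ext
    rw [smul_NC]
    apply AddChar.ext
    intro b
    rw [actC_apply]
    congr 1
    apply Additive.toMul.injective
    apply Subtype.ext
    change ((cjD t⁻¹ b.toMul : D) : G) = (b.toMul : G)
    rw [cjD_coe]
    have h2 := mem_centralizer_iff.1 (inv_mem h) _ b.toMul.2
    push_cast
    rw [← h2]; group

theorem card_NE_orbits (hreg : ∀ u ∈ D, u ≠ 1 → RegT D l u) :
    Nat.card (MulAction.orbitRel.Quotient (stabT D l) (NE D)) *
      (centralizer (D : Set G)).relIndex (stabT D l) = Nat.card D - 1 := by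
  have h1 := card_orbits ((centralizer (D : Set G)).subgroupOf (stabT D l)) (stab_NE (l := l) hreg)
  have h2 : Nat.card (NE D) = Nat.card D - 1 := by
    rw [Nat.card_eq_fintype_card, Nat.card_eq_fintype_card, Fintype.card_subtype_compl,
      Fintype.card_subtype_eq]
  rw [← h2, ← h1]
  rfl

theorem card_NC_orbits (hreg : ∀ u ∈ D, u ≠ 1 → RegT D l u) :
    Nat.card (MulAction.orbitRel.Quotient (stabT D l) (NC D)) *
      (centralizer (D : Set G)).relIndex (stabT D l) = Nat.card D - 1 := by
  have h1 := card_orbits ((centralizer (D : Set G)).subgroupOf (stabT D l)) (stab_NC (l := l) hreg)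
  have h2 : Nat.card (NC D) = Nat.card D - 1 := by
    rw [Nat.card_eq_fintype_card, Fintype.card_subtype_compl, Fintype.card_subtype_eq,
      AddChar.card_eq, Nat.card_eq_fintype_card, Fintype.card_congr (Additive.toMul (α := D))]
  rw [← h2, ← h1]
  rfl

end

end P179I
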