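import Vale.Agent.P179.H905.I18

/-!
# (COH) the Gram matrix of the integral vectors
-/

namespace P179I

open Finset P179P P179C P179Y Subgroup P179H524

open scoped Classical IsMulCommutative

universe v

set_option linter.unusedSectionVars false

section

variable {p : ℕ} [hp : Fact p.Prime] {k : Type v} [Field k] [CharP k p] {red : AA →+* k}
  {G : Type} [Group G] [Fintype G] {D : Subgroup G} {l : (G → k) → k}
  {Φ : ∀ H : Subgroup G, Irr H} {aH bH : Subgroup G → ℕ} {ε : Subgroup G → ℤ} {κ₀ : k}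

omit hp [CharP k p] in
/-- summation over an orbit -/
theorem orb_sum' {u : G} (hu : RegT D l u) (hu1 : u ≠ 1)
    (w : G → AA) (Q : AA) :
    ∑ b : Additive D, (if b = 0 then 0 else w (b.toMul : G) *
      (if ∃ t ∈ stabT D l, t * u * t⁻¹ = (b.toMul : G)⁻¹ then Q else 0)) =
      Q * AvT D (stabT D l) (fun v => w v⁻¹) u := by
  unfold AvT
  rw [Finset.mul_sum]
  have h1 : ∀ c : G ⧸ centralizer (D : Set G), Q * (if c.out ∈ stabT D l then
      w (c.out⁻¹ * u * c.out)⁻¹ else 0) = if c.out ∈ stabT D l then Q * w (c.out⁻¹ * u * c.out)⁻¹ else 0 := by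
    intro c
    split_ifs
    · rfl
    · exact mul_zero _
  have h2 : ∀ b : Additive D, (if b = 0 then 0 else w (b.toMul : G) *
      (if ∃ t ∈ stabT D l, t * u * t⁻¹ = (b.toMul : G)⁻¹ then Q else 0)) =
      if (b ≠ 0 ∧ ∃ t ∈ stabT D l, t * u * t⁻¹ = (b.toMul : G)⁻¹) then w (b.toMul : G) * Q else 0 := by
    intro b
    by_cases hb : b = 0
    · rw [if_pos hb, if_neg (fun h => h.1 hb)]
    · rw [if_neg hb]
      by_cases ht : ∃ t ∈ stabT D l, t * u * t⁻¹ = (b.toMul : G)⁻¹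
      · rw [if_pos ht, if_pos ⟨hb, ht⟩]
      · rw [if_neg ht, if_neg (fun h => ht h.2), mul_zero]
  rw [Finset.sum_congr rfl fun c _ => h1 c, Finset.sum_congr rfl fun b _ => h2 b,
    ← Finset.sum_filter, ← Finset.sum_filter]
  have hTN := stabT_le_norm D l
  have hmem : ∀ c : G, c ∈ stabT D l → c⁻¹ * u * c ∈ D := by
    intro c hc
    have := conj_mem (D := D) _ hTN (inv_mem hc) hu.1
    rwa [inv_inv] at this
  symm
  refine Finset.sum_bij (fun c hc => Additive.ofMul (⟨(c.out⁻¹ * u * c.out)⁻¹,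
    inv_mem (hmem _ (mem_filter.1 hc).2)⟩ : D)) ?_ ?_ ?_ ?_
  · intro c hc
    rw [mem_filter]
    refine ⟨mem_univ _, ?_, c.out⁻¹, inv_mem (mem_filter.1 hc).2, ?_⟩
    · intro h0
      have h3 : (c.out⁻¹ * u * c.out)⁻¹ = 1 := congrArg (fun x : Additive D => (x.toMul : G)) h0
      rw [inv_eq_one] at h3
      have h4 := conj_ne (t := c.out⁻¹) hu1
      rw [inv_inv] at h4
      exact h4 h3
    · change c.out⁻¹ * u * c.out⁻¹⁻¹ = ((c.out⁻¹ * u * c.out)⁻¹)⁻¹
      rw [inv_inv, inv_inv]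
  · intro c hc c' hc' h
    have h3 : (c.out⁻¹ * u * c.out)⁻¹ = (c'.out⁻¹ * u * c'.out)⁻¹ :=
      congrArg (fun x : Additive D => (x.toMul : G)) h
    rw [inv_inj] at h3
    have h4 : (c'.out * c.out⁻¹) * u * (c'.out * c.out⁻¹)⁻¹ = u := by
      calc (c'.out * c.out⁻¹) * u * (c'.out * c.out⁻¹)⁻¹ =
          c'.out * (c.out⁻¹ * u * c.out) * c'.out⁻¹ := by group
        _ = c'.out * (c'.out⁻¹ * u * c'.out) * c'.out⁻¹ := by rw [h3]
        _ = u := by group
    have hcT := (mem_filter.1 hc).2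
    have hcT' := (mem_filter.1 hc').2
    have h5 := hu.2 _ (mul_mem hcT' (inv_mem hcT)) h4
    have h6 : c.out⁻¹ * c'.out ∈ centralizer (D : Set G) := by
      have h7 := (conj_mem_cent (inv_mem (hTN hcT)) (c'.out * c.out⁻¹)).2 h5
      have e : c.out⁻¹ * (c'.out * c.out⁻¹) * c.out⁻¹⁻¹ = c.out⁻¹ * c'.out := by group
      rwa [e] at h7
    rw [← QuotientGroup.out_eq' c, ← QuotientGroup.out_eq' c', QuotientGroup.eq]
    exact h6
  · intro b hb
    obtain ⟨-, -, t, ht, htu⟩ := mem_filter.1 hb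
    obtain ⟨h, hh⟩ := QuotientGroup.mk_out_eq_mul (centralizer (D : Set G)) t⁻¹
    have hT : ((t⁻¹ : G) : G ⧸ centralizer (D : Set G)).out ∈ stabT D l := by
      rw [hh]
      exact mul_mem (inv_mem ht) (cent_le_stabT D l h.2)
    refine ⟨((t⁻¹ : G) : G ⧸ centralizer (D : Set G)), mem_filter.2 ⟨mem_univ _, hT⟩, ?_⟩
    have h3 : ((t⁻¹ : G) : G ⧸ centralizer (D : Set G)).out⁻¹ * u * ((t⁻¹ : G) : G ⧸ centralizer (D : Set G)).out =
        (b.toMul : G)⁻¹ := by
      rw [hh]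
      have h4 : (b.toMul : G)⁻¹ * (h : G) = h * (b.toMul : G)⁻¹ :=
        mem_centralizer_iff.1 h.2 _ (inv_mem b.toMul.2)
      calc (t⁻¹ * (h : G))⁻¹ * u * (t⁻¹ * h) = (h : G)⁻¹ * (t * u * t⁻¹) * h := by group
        _ = (h : G)⁻¹ * ((b.toMul : G)⁻¹ * h) := by rw [htu, mul_assoc]
        _ = (b.toMul : G)⁻¹ := by rw [h4]; group
    apply Additive.toMul.injective
    apply Subtype.ext
    change (((t⁻¹ : G) : G ⧸ centralizer (D : Set G)).out⁻¹ * u *
      ((t⁻¹ : G) : G ⧸ centralizer (D : Set G)).out)⁻¹ = (b.toMul : G)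
    rw [h3, inv_inv]
  · intro c hc
    change Q * w (c.out⁻¹ * u * c.out)⁻¹ = w (c.out⁻¹ * u * c.out)⁻¹ * Q
    rw [mul_comm]

theorem sum_lamA [IsMulCommutative D] (ψ : AddChar (Additive D) ℂ) :
    ∑ b, lamA ψ b = if ψ = 0 then (Nat.card D : AA) else 0 := by
  apply Subtype.ext
  push_cast
  simp only [lamA_coe]
  rw [AddChar.sum_eq_ite]
  by_cases h : ψ = 0
  · rw [if_pos h, if_pos h]
    push_cast
    rw [Nat.card_eq_fintype_card, Fintype.card_congr (Additive.toMul (α := D))]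
  · rw [if_neg h, if_neg h]
    rfl

/-- the inner sum -/
theorem sum_prod [IsMulCommutative D] {ψ φ : AddChar (Additive D) ℂ} (hψ : ψ ≠ 0) (hφ : φ ≠ 0) :
    ∑ b, (lamA ψ b - 1) * (lamA (-φ) b - 1) =
      (Nat.card D : AA) * (1 + if ψ = φ then 1 else 0) := by
  have h1 : ∀ b, (lamA ψ b - 1) * (lamA (-φ) b - 1) =
      lamA (ψ + -φ) b - lamA ψ b - lamA (-φ) b + 1 := by
    intro b
    rw [lamA_add]; ring
  rw [Finset.sum_congr rfl fun b _ => h1 b, Finset.sum_add_distrib, Finset.sum_sub_distrib,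
    Finset.sum_sub_distrib, sum_lamA, sum_lamA, sum_lamA, if_neg hψ, if_neg (neg_ne_zero.2 hφ),
    Finset.sum_const, Finset.card_univ, nsmul_one]
  have h2 : Fintype.card (Additive D) = Nat.card D := by
    rw [Nat.card_eq_fintype_card, Fintype.card_congr (Additive.toMul (α := D))]
  rw [h2]
  by_cases h : ψ = φ
  · rw [if_pos h, if_pos (by rw [h, add_neg_cancel])]
    ring
  · rw [if_neg h, if_neg (fun h' => h (add_neg_eq_zero.1 h'))]
    ring

/-- the function attached to a character -/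
noncomputable def wC [IsMulCommutative D] (φ : AddChar (Additive D) ℂ) (v : G) : AA :=
  if h : v ∈ D then lamA φ (Additive.ofMul ⟨v, h⟩) - 1 else 0

theorem wC_coe [IsMulCommutative D] (φ : AddChar (Additive D) ℂ) (b : Additive D) :
    wC φ (b.toMul : G) = lamA φ b - 1 := by
  unfold wC
  rw [dif_pos b.toMul.2]
  rfl

theorem wC_conj [IsMulCommutative D] (φ : AddChar (Additive D) ℂ) (t : stabT D l) (b : Additive D) :
    wC φ ((t : G)⁻¹ * (b.toMul : G) * t)⁻¹ = lamA (-actC t φ) b - 1 := by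
  have h1 : ((t : G)⁻¹ * (b.toMul : G) * t)⁻¹ =
      ((-(Additive.ofMul (cjD t⁻¹ b.toMul)) : Additive D).toMul : G) := by
    change _ = ((cjD t⁻¹ b.toMul)⁻¹ : D).1
    rw [Subgroup.coe_inv, cjD_coe]
    push_cast
    rw [inv_inv]
  rw [h1, wC_coe]
  congr 1
  apply Subtype.ext
  rw [lamA_coe, lamA_coe, AddChar.neg_apply, actC_apply]
  congr 1
  apply Additive.toMul.injective
  change (cjD t⁻¹ b.toMul)⁻¹ = cjD t⁻¹ (b.toMul)⁻¹
  rw [map_inv]

theorem fourier_gram [IsMulCommutative D] (h : Loc p red D l Φ aH bH ε κ₀)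
    (hl : BP p D l) (hD : IsPGroup p D) (hab : D ≤ centralizer (D : Set G))
    (hreg : ∀ u ∈ D, u ≠ 1 → RegT D l u) {ψ φ : AddChar (Additive D) ℂ} (hψ : ψ ≠ 0) (hφ : φ ≠ 0) :
    ∑ χ : Irr G, (∑ b : Additive D, (if b = 0 then 0 else (lamA ψ b - 1) *
      Ad p D Φ ε (b.toMul : G) χ)) * (∑ b : Additive D, (if b = 0 then 0 else (lamA φ b - 1) *
      Ad p D Φ ε (b.toMul : G) χ)) =
      (Nat.card D : AA) * Nat.card D * ∑ c : G ⧸ centralizer (D : Set G),
        (if hc : c.out ∈ stabT D l then (1 + if ψ = actC ⟨c.out, hc⟩ φ then 1 else 0) else 0) := by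
  have hb1 : ∀ b : Additive D, b ≠ 0 → (b.toMul : G) ≠ 1 := by
    intro b hb h1
    apply hb
    apply Additive.toMul.injective
    exact Subtype.ext h1
  have e1 : ∀ χ : Irr G, (∑ b : Additive D, (if b = 0 then 0 else (lamA ψ b - 1) *
      Ad p D Φ ε (b.toMul : G) χ)) * (∑ b : Additive D, (if b = 0 then 0 else (lamA φ b - 1) *
      Ad p D Φ ε (b.toMul : G) χ)) = ∑ b : Additive D, ∑ b' : Additive D,
        (if b = 0 then 0 else (lamA ψ b - 1) * Ad p D Φ ε (b.toMul : G) χ) *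
        (if b' = 0 then 0 else (lamA φ b' - 1) * Ad p D Φ ε (b'.toMul : G) χ) := by
    intro χ
    rw [Finset.sum_mul_sum]
  rw [Finset.sum_congr rfl fun χ _ => e1 χ, Finset.sum_comm]
  have e2 : ∀ b : Additive D, (∑ χ : Irr G, ∑ b' : Additive D,
        (if b = 0 then 0 else (lamA ψ b - 1) * Ad p D Φ ε (b.toMul : G) χ) *
        (if b' = 0 then 0 else (lamA φ b' - 1) * Ad p D Φ ε (b'.toMul : G) χ)) =
      (Nat.card D : AA) * ∑ c : G ⧸ centralizer (D : Set G),
        (if hc : c.out ∈ stabT D l then (lamA ψ b - 1) * (lamA (-actC ⟨c.out, hc⟩ φ) b - 1) else 0) := by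
    intro b
    by_cases hb : b = 0
    · have h0 : lamA ψ b - 1 = 0 := by
        rw [hb]
        apply Subtype.ext
        push_cast
        rw [lamA_coe, AddChar.map_zero_eq_one, sub_self]
      simp only [if_pos hb, zero_mul, Finset.sum_const_zero, h0]
      symm
      convert mul_zero _
      exact Finset.sum_eq_zero fun c _ => by split_ifs <;> rfl
    · rw [Finset.sum_comm]
      have hu := hreg _ b.toMul.2 (hb1 b hb)
      have e3 : ∀ b' : Additive D, (∑ χ : Irr G,
          (if b = 0 then 0 else (lamA ψ b - 1) * Ad p D Φ ε (b.toMul : G) χ) *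
          (if b' = 0 then 0 else (lamA φ b' - 1) * Ad p D Φ ε (b'.toMul : G) χ)) =
          (lamA ψ b - 1) * (if b' = 0 then 0 else wC φ (b'.toMul : G) *
            (if ∃ t ∈ stabT D l, t * (b.toMul : G) * t⁻¹ = (b'.toMul : G)⁻¹ then (Nat.card D : AA)
              else 0)) := by
        intro b'
        by_cases hb' : b' = 0
        · simp only [if_pos hb', mul_zero, Finset.sum_const_zero]
        · simp only [if_neg hb', if_neg hb]
          rw [← h.gram hl hD hab hreg b.toMul.2 (hb1 b hb) b'.toMul.2 (hb1 b' hb'), wC_coe,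
            Finset.mul_sum, Finset.mul_sum]
          exact Finset.sum_congr rfl fun χ _ => by ring
      rw [Finset.sum_congr rfl fun b' _ => e3 b', ← Finset.mul_sum,
        orb_sum' hu (hb1 b hb) (wC φ) (Nat.card D : AA)]
      unfold AvT
      rw [← mul_assoc, mul_comm (lamA ψ b - 1), mul_assoc, Finset.mul_sum]
      congr 1
      refine Finset.sum_congr rfl fun c _ => ?_
      by_cases hc : c.out ∈ stabT D l
      · rw [if_pos hc, dif_pos hc]
        exact congrArg _ (wC_conj φ ⟨c.out, hc⟩ b)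
      · rw [if_neg hc, dif_neg hc, mul_zero]
  rw [Finset.sum_congr rfl fun b _ => e2 b, ← Finset.mul_sum, Finset.sum_comm, mul_assoc]
  congr 1
  rw [Finset.mul_sum]
  refine Finset.sum_congr rfl fun c _ => ?_
  by_cases hc : c.out ∈ stabT D l
  · simp only [dif_pos hc]
    rw [sum_prod hψ (actC_ne _ hφ)]
  · simp only [dif_neg hc, Finset.sum_const_zero, mul_zero]

end

end P179I
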