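import Vale.Agent.P179.H905.I1
import Vale.Agent.P179.H143.Dn
import Vale.Agent.P179.H526.KY

/-!
# (INT) 2: the functions `v ↦ ∑ y(g) χ(v g)` on an abelian subgroup
-/

namespace P179I

open Finset P179P P179C P179Y Subgroup

open scoped Classical IsMulCommutative

section Orbit

/-- divisibility of the sum of an invariant function -/
theorem orbit_dvd {D X R : Type*} [Group D] [Finite D] [Fintype X] [CommRing R]
    (σ : D →* Equiv.Perm X) (Φ : X → R) (hΦ : ∀ d x, Φ (σ d x) = Φ x)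
    (h : ∀ x, (Nat.card {d : D // σ d x = x} : R) ∣ Φ x) : (Nat.card D : R) ∣ ∑ x, Φ x := by
  have := Fintype.ofFinite D
  let _inst : MulAction D X := MulAction.compHom X σ
  have hsm : ∀ (d : D) (x : X), d • x = σ d x := fun _ _ => rfl
  have := Fintype.ofFinite (MulAction.orbitRel.Quotient D X)
  have h1 : ∑ x, Φ x = ∑ ω : MulAction.orbitRel.Quotient D X,
      (Fintype.card (MulAction.orbit D ω.out) : R) * Φ ω.out := by
    rw [← (MulAction.selfEquivSigmaOrbits D X).symm.sum_comp, Fintype.sum_sigma]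
    refine Finset.sum_congr rfl fun ω _ => ?_
    have h2 : ∀ x : MulAction.orbit D ω.out,
        Φ ((MulAction.selfEquivSigmaOrbits D X).symm ⟨ω, x⟩) = Φ ω.out := by
      rintro ⟨_, g, rfl⟩
      exact hΦ g _
    rw [Finset.sum_congr rfl fun x _ => h2 x, Finset.sum_const, nsmul_eq_mul, Finset.card_univ]
  rw [h1]
  refine Finset.dvd_sum fun ω _ => ?_
  have h3 := MulAction.card_orbit_mul_card_stabilizer_eq_card_group D ω.out
  have h4 : Nat.card {d : D // σ d ω.out = ω.out} = Fintype.card (MulAction.stabilizer D ω.out) := by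
    rw [← Nat.card_eq_fintype_card]
    rfl
  obtain ⟨c, hc⟩ := h ω.out
  rw [hc, h4, ← mul_assoc, ← Nat.cast_mul, h3, Nat.card_eq_fintype_card]
  exact dvd_mul_right _ _

end Orbit

section Central

variable {G : Type*} [Group G] [Fintype G]

omit [Fintype G] in
theorem cent_mul [Finite G] (ξ : Irr G) (u t : G) (hu : ∀ x, x * u = u * x) :
    ξ.1 (u * t) * ξ.1 1 = ξ.1 u * ξ.1 t := by
  obtain ⟨c, -, hc⟩ := central_scalar ξ u hu (N := orderOf u) (pow_orderOf_eq_one u)
  have h1 := hc 1 t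
  have h2 := hc 1 1
  rw [pow_one, pow_one] at h1 h2
  rw [mul_one] at h2
  rw [h1, h2]
  ring

theorem central_dvd (χ : Irr G) (S : Subgroup G) (hS : ∀ a ∈ S, ∀ b ∈ S, a * b = b * a) (h : G)
    (hh : ∀ s ∈ S, s * h = h * s) (μ : S →* AA) :
    (Nat.card S : AA) ∣ ∑ s : S, chA χ (s * h) * μ s := by
  set H : Subgroup G := centralizer (S : Set G) with hH
  have hSH : ∀ s ∈ S, s ∈ H := fun s hs => mem_centralizer_iff.2 fun a ha => hS a ha s hs
  have hhH : h ∈ H := mem_centralizer_iff.2 fun a ha => hh a ha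
  have hcent : ∀ (s : S) (x : H), x * (⟨s, hSH s s.2⟩ : H) = (⟨s, hSH s s.2⟩ : H) * x := by
    intro s x
    apply Subtype.ext
    exact (mem_centralizer_iff.1 x.2 s s.2).symm
  obtain ⟨n, hn⟩ := restr_decomp χ H
  let c : Irr H → (S →* ℂ) := fun ξ =>
    { toFun := fun s => ξ.1 (⟨s, hSH s s.2⟩ : H) / ξ.1 1
      map_one' := div_self ξ.one_ne_zero
      map_mul' := fun s t => by
        have h1 := cent_mul ξ (⟨s, hSH s s.2⟩ : H) (⟨t, hSH t t.2⟩ : H) (hcent s)
        have h0 := ξ.one_ne_zero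
        have h2 : (⟨((s * t : S) : G), hSH _ (s * t).2⟩ : H) =
          (⟨s, hSH s s.2⟩ : H) * (⟨t, hSH t t.2⟩ : H) := rfl
        rw [h2, div_mul_div_comm, ← h1]
        field_simp }
  let μC : S →* ℂ := (algebraMap AA ℂ).toMonoidHom.comp μ
  refine ⟨∑ ξ : Irr H, (n ξ : AA) * chA ξ ⟨h, hhH⟩ * (if c ξ * μC = 1 then 1 else 0), ?_⟩
  apply Subtype.ext
  push_cast
  have h1 : ∀ s : S, (chA χ (s * h) : ℂ) * (μ s : ℂ) =
      ∑ ξ : Irr H, (n ξ : ℂ) * ξ.1 ⟨h, hhH⟩ * (c ξ * μC) s := by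
    intro s
    have h2 : (chA χ (s * h) : ℂ) = χ.1 (((⟨s, hSH s s.2⟩ : H) * ⟨h, hhH⟩ : H) : G) := rfl
    rw [h2, hn, Finset.sum_mul]
    refine Finset.sum_congr rfl fun ξ _ => ?_
    have h3 := cent_mul ξ (⟨s, hSH s s.2⟩ : H) (⟨h, hhH⟩ : H) (hcent s)
    have h0 := ξ.one_ne_zero
    have h4 : ξ.1 ((⟨s, hSH s s.2⟩ : H) * ⟨h, hhH⟩) = c ξ s * ξ.1 ⟨h, hhH⟩ := by
      change _ = ξ.1 _ / ξ.1 1 * _
      rw [div_mul_eq_mul_div, eq_div_iff h0, h3]
    rw [h4, MonoidHom.mul_apply]
    change _ = _ * (c ξ s * (μ s : ℂ))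
    ring
  rw [Finset.sum_congr rfl fun s _ => h1 s, Finset.sum_comm, Finset.mul_sum]
  refine Finset.sum_congr rfl fun ξ _ => ?_
  rw [← Finset.mul_sum, sum_hom_units]
  have h5 : (chA ξ ⟨h, hhH⟩ : ℂ) = ξ.1 ⟨h, hhH⟩ := rfl
  rw [h5, Nat.card_eq_fintype_card]
  split_ifs
  · push_cast; ring
  · simp

end Central

section Main

variable {G : Type*} [Group G] [Fintype G]

/-- sums over a group, by cosets of a subgroup -/
theorem sum_cosets {D R : Type*} [Group D] [Fintype D] [AddCommMonoid R] (S : Subgroup D)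
    (F : D → R) : ∑ a, F a = ∑ c : D ⧸ S, ∑ s : S, F (c.out * s) := by
  rw [← Finset.sum_fiberwise univ (fun a : D => (a : D ⧸ S))]
  refine Finset.sum_congr rfl fun c _ => ?_
  refine Finset.sum_bij' (i := fun a ha => (⟨c.out⁻¹ * a, ?_⟩ : S)) (j := fun s _ => c.out * s)
    ?_ ?_ ?_ ?_ ?_
  · rw [← QuotientGroup.eq, QuotientGroup.out_eq']
    exact (mem_filter.1 ha).2.symm
  · intro a _; exact mem_univ _
  · intro s _
    rw [mem_filter]
    refine ⟨mem_univ _, ?_⟩
    have h1 : ((c.out * (s : D) : D) : D ⧸ S) = ((c.out : D) : D ⧸ S) := by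
      rw [QuotientGroup.eq]
      have : (c.out * (s : D))⁻¹ * c.out = (s : D)⁻¹ := by group
      rw [this]
      exact inv_mem s.2
    rw [h1, QuotientGroup.out_eq']
  · intro a _
    simp
  · intro s _
    apply Subtype.ext
    simp
  · intro a _
    simp

/-- **(FI)** -/
theorem RI_sum {D : Subgroup G} [IsMulCommutative D] (χ : Irr G) (y : G → AA)
    (hy : ∀ d ∈ D, ∀ g, y (d * g * d⁻¹) = y g) :
    RI (fun a : Additive D => ∑ g, y g * chA χ ((a.toMul : G) * g)) := by
  have hcomm : ∀ a ∈ D, ∀ b ∈ D, a * b = b * a := fun a ha b hb =>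
    congrArg Subtype.val (mul_comm (⟨a, ha⟩ : D) ⟨b, hb⟩)
  refine RI.of_coeff fun ψ => ?_
  have h1 : ∑ a : Additive D, (∑ g, y g * chA χ ((a.toMul : G) * g)) * lamA ψ (-a) =
      ∑ g, y g * ∑ a : Additive D, chA χ ((a.toMul : G) * g) * lamA ψ (-a) := by
    simp only [Finset.sum_mul, Finset.mul_sum]
    rw [Finset.sum_comm]
    exact Finset.sum_congr rfl fun g _ => Finset.sum_congr rfl fun a _ => by ring
  rw [h1]
  have hcard : (Fintype.card (Additive D) : AA) = Nat.card D := by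
    rw [Nat.card_eq_fintype_card, Fintype.card_congr (Additive.toMul (α := D))]
  rw [hcard]
  suffices h : (Nat.card D : AA) ∣ ∑ g, y g * ∑ a : Additive D, chA χ ((a.toMul : G) * g) * lamA ψ (-a) by
    obtain ⟨c, hc⟩ := h
    exact ⟨c, hc.symm⟩
  refine orbit_dvd (conjPerm D) _ ?_ ?_
  · intro d g
    rw [conjPerm_apply, hy d d.2]
    congr 1
    refine Finset.sum_congr rfl fun a _ => ?_
    congr 1
    have h2 := chA_isCF χ (d : G)⁻¹ ((a.toMul : G) * ((d : G) * g * (d : G)⁻¹))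
    rw [← h2]
    congr 1
    have h3 := hcomm d d.2 a.toMul a.toMul.2
    calc (d : G)⁻¹ * ((a.toMul : G) * ((d : G) * g * (d : G)⁻¹)) * (d : G)⁻¹⁻¹ =
        (d : G)⁻¹ * ((a.toMul : G) * (d : G)) * g := by group
      _ = (a.toMul : G) * g := by rw [← h3]; group
  · intro g
    refine Dvd.dvd.mul_left ?_ _
    set S' : Subgroup D := (centralizer ({g} : Set G)).subgroupOf D with hS'
    have hS'mem : ∀ d : D, d ∈ S' ↔ (d : G) * g = g * d := by
      intro d
      rw [hS', Subgroup.mem_subgroupOf, mem_centralizer_singleton_iff]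
    have hcard2 : Nat.card {d : D // conjPerm D d g = g} = Nat.card S' := by
      refine Nat.card_congr (Equiv.subtypeEquivRight fun d => ?_)
      rw [conjPerm_apply, hS'mem, mul_inv_eq_iff_eq_mul]
    rw [hcard2]
    have h2 : ∑ a : Additive D, chA χ ((a.toMul : G) * g) * lamA ψ (-a) =
        ∑ a : D, chA χ ((a : G) * g) * lamA ψ (Additive.ofMul a⁻¹) := by
      refine Fintype.sum_equiv Additive.toMul _ _ fun a => rfl
    rw [h2, sum_cosets S']
    refine Finset.dvd_sum fun c _ => ?_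
    -- the subgroup of `G`
    set S : Subgroup G := S'.map D.subtype with hS
    have hSmem : ∀ s : S, ∃ h : (s : G) ∈ D, (⟨s, h⟩ : D) ∈ S' := by
      rintro ⟨s, d, hd, rfl⟩
      exact ⟨d.2, hd⟩
    let e : S' ≃* S := S'.equivMapOfInjective D.subtype D.subtype_injective
    let μ : S →* AA :=
      { toFun := fun s => lamA ψ (Additive.ofMul ((e.symm s : S') : D)⁻¹)
        map_one' := by
          rw [map_one]
          simp only [OneMemClass.coe_one, inv_one, ofMul_one]
          exact Subtype.ext (AddChar.map_zero_eq_one ψ)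
        map_mul' := fun s t => by
          rw [map_mul, ← lamA_map_add, ← ofMul_mul]
          congr 2
          push_cast
          rw [mul_inv] }
    have h3 := central_dvd χ S (by
      intro a ha b hb
      obtain ⟨ha', -⟩ := hSmem ⟨a, ha⟩
      obtain ⟨hb', -⟩ := hSmem ⟨b, hb⟩
      exact hcomm a ha' b hb') ((c.out : D) * g) (by
      intro s hs
      obtain ⟨h4, h5⟩ := hSmem ⟨s, hs⟩
      have h6 : s * g = g * s := (hS'mem _).1 h5
      have h7 : s * (c.out : D) = (c.out : D) * s := hcomm s h4 _ (c.out : D).2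
      rw [← mul_assoc, h7, mul_assoc, h6, mul_assoc]) μ
    have h4 : Nat.card S = Nat.card S' := (Nat.card_congr e.toEquiv).symm
    rw [h4] at h3
    have h5 : ∑ s : S', chA χ (((c.out * (s : D) : D) : G) * g) * lamA ψ (Additive.ofMul (c.out * (s : D))⁻¹) =
        lamA ψ (Additive.ofMul (c.out)⁻¹) * ∑ s : S, chA χ ((s : G) * ((c.out : D) * g)) * μ s := by
      rw [Finset.mul_sum]
      refine Fintype.sum_equiv e.toEquiv _ _ fun s => ?_
      have h6 : ((e.toEquiv s : S) : G) = ((s : D) : G) := rfl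
      have h7 : μ (e.toEquiv s) = lamA ψ (Additive.ofMul ((s : D))⁻¹) := by
        change lamA ψ (Additive.ofMul ((e.symm (e s) : S') : D)⁻¹) = _
        rw [e.symm_apply_apply]
      rw [h6, h7]
      have h8 : (((c.out * (s : D) : D) : G) * g) = ((s : D) : G) * ((c.out : D) * g) := by
        push_cast
        rw [hcomm _ (c.out : D).2 _ (s : D).2, mul_assoc]
      have h9 : lamA ψ (Additive.ofMul (c.out * (s : D))⁻¹) =
          lamA ψ (Additive.ofMul (c.out)⁻¹) * lamA ψ (Additive.ofMul ((s : D))⁻¹) := by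
        rw [← lamA_map_add, ← ofMul_mul, mul_inv]
      rw [h8, h9]
      ring
    rw [h5]
    exact h3.mul_left _

end Main

end P179I
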