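import Vale.Agent.P179.H905.I20
import Vale.Agent.P179.H143.T6C
import Vale.Agent.P179.H524.P7

/-!
# (COH) the number of simple modules of a block with free inertial action
-/

namespace P179I

open Finset P179P P179C P179Y Subgroup P179H524

open P179X (pp SameSec IrrB)

open scoped Classical IsMulCommutative

universe v

set_option linter.unusedSectionVars false

section

variable {p : ℕ} [hp : Fact p.Prime] {k : Type v} [Field k] [CharP k p] {red : AA →+* k}
  {G : Type} [Group G] [Fintype G] {D : Subgroup G} {l : (G → k) → k}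
  {Φ : ∀ H : Subgroup G, Irr H} {aH bH : Subgroup G → ℕ} {ε : Subgroup G → ℤ} {κ₀ : k}
  [IsMulCommutative D]

theorem Loc.Ad_star (h : Loc p red D l Φ aH bH ε κ₀) {u : G} (hu : u ∈ D) (hu1 : u ≠ 1)
    (χ : Irr G) : (starRingEnd ℂ) (Ad p D Φ ε u χ : ℂ) = (Ad p D Φ ε u⁻¹ χ : ℂ) := by
  have hui : u⁻¹ ∈ D := inv_mem hu
  have hui1 : u⁻¹ ≠ 1 := by simpa using hu1
  unfold Ad
  push_cast
  rw [h.dn_coe hui hui1, h.dn_coe hu hu1, map_mul, dn_star (red := red) _ (h.nd u hu hu1) u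
    (fun x hx => (mem_cz _ x).1 hx), cz_inv]
  simp

/-- Bessel's inequality -/
theorem Loc.bessel (h : Loc p red D l Φ aH bH ε κ₀)
    (hl : BP p D l) (hD : IsPGroup p D) (hab : D ≤ centralizer (D : Set G))
    (hreg : ∀ u ∈ D, u ≠ 1 → RegT D l u) (η : Irr G) :
    (∑ i : MulAction.orbitRel.Quotient (stabT D l) (NE D),
      ‖(Ad p D Φ ε ((i.out.1 : D) : G) η : ℂ)‖ ^ 2) / (Nat.card D : ℝ) +
      (∑ x ∈ univ.filter (fun g : G => ¬ p ∣ orderOf g), ‖η.1 x‖ ^ 2) / Fintype.card G ≤ 1 := by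
  have hne : ∀ i : MulAction.orbitRel.Quotient (stabT D l) (NE D), ((i.out.1 : D) : G) ≠ 1 :=
    fun i h1 => i.out.2 (Subtype.ext h1)
  refine bessel_gfun (fun (i : MulAction.orbitRel.Quotient (stabT D l) (NE D)) (χ : Irr G) =>
    (Ad p D Φ ε ((i.out.1 : D) : G) χ : ℂ)) (by exact_mod_cast Nat.card_pos) ?_ _ ?_ η
  · intro i j
    have h1 : ∀ χ : Irr G, (starRingEnd ℂ) (Ad p D Φ ε ((i.out.1 : D) : G) χ : ℂ) *
        (Ad p D Φ ε ((j.out.1 : D) : G) χ : ℂ) =
        (Ad p D Φ ε ((i.out.1 : D) : G)⁻¹ χ : ℂ) * (Ad p D Φ ε ((j.out.1 : D) : G) χ : ℂ) := by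
      intro χ
      rw [h.Ad_star i.out.1.2 (hne i)]
    rw [Finset.sum_congr rfl fun χ _ => h1 χ]
    have h2 := congrArg (fun x : AA => (x : ℂ)) (h.gram hl hD hab hreg (inv_mem i.out.1.2)
      (by simpa using hne i) j.out.1.2 (hne j))
    push_cast at h2
    rw [h2]
    have h3 : (∃ t ∈ stabT D l, t * ((i.out.1 : D) : G)⁻¹ * t⁻¹ = ((j.out.1 : D) : G)⁻¹) ↔ i = j := by
      constructor
      · rintro ⟨t, ht, h4⟩
        have h5 : t * ((i.out.1 : D) : G) * t⁻¹ = ((j.out.1 : D) : G) := by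
          have := congrArg (fun x => x⁻¹) h4
          simpa [mul_assoc] using this
        have h6 : (⟨t, ht⟩ : stabT D l) • i.out = j.out := by
          apply Subtype.ext
          apply Subtype.ext
          rw [smul_NE]
          exact h5
        rw [← Quotient.out_eq i, ← Quotient.out_eq j]
        symm
        apply Quotient.sound
        exact ⟨⟨t, ht⟩, h6⟩
      · rintro rfl
        exact ⟨1, one_mem _, by simp⟩
    by_cases hij : i = j
    · rw [if_pos (h3.2 hij), if_pos hij]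
      push_cast
      rfl
    · rw [if_neg (fun h4 => hij (h3.1 h4)), if_neg hij]
      rfl
  · intro i x hx
    have h1 := congrArg (fun x : AA => (x : ℂ)) (h.reg hD (inv_mem i.out.1.2)
      (by simpa using hne i) (mem_filter.1 hx).2)
    push_cast at h1
    unfold gfun
    refine Eq.trans (Finset.sum_congr rfl fun χ _ => ?_) h1
    rw [h.Ad_star i.out.1.2 (hne i)]
    rfl

/-- `l(B) + |(D ∖ 1) / E| ≤ k(B)` -/
theorem Loc.numSimple_add_le [IsAlgClosed k] (h : Loc p red D l Φ aH bH ε κ₀)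
    (hl : BP p D l) (hD : IsPGroup p D) (hab : D ≤ centralizer (D : Set G))
    (hreg : ∀ u ∈ D, u ≠ 1 → RegT D l u) {B : MonoidAlgebra k G} (hB : IsBlock B)
    (hlB : ∀ χ : Irr G, InL red l χ.1 ↔ CharInBlock red χ.1 B) :
    numSimpleIn B + Nat.card (MulAction.orbitRel.Quotient (stabT D l) (NE D)) ≤
      Nat.card {χ : Irr G // InL red l χ.1} := by
  obtain ⟨r, hr, hr2⟩ := P179P.N3 p red hB (fun x y h => sec_orth p red B x y h)
  set L := univ.filter fun χ : Irr G => InL red l χ.1 with hL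
  have hcard : Nat.card {χ : Irr G // InL red l χ.1} = L.card := by
    rw [Nat.card_eq_fintype_card, Fintype.card_subtype]
  rw [hcard]
  have h1 : (r : ℂ) * Nat.card G = ∑ ψ ∈ L,
      ∑ g ∈ univ.filter (fun g : G => ¬ p ∣ orderOf g), ψ.1 g * ψ.1 g⁻¹ := by
    rw [hr2, Finset.sum_comm, sum_IrrB red B (fun χ => ∑ g ∈ univ.filter
      (fun g : G => ¬ p ∣ orderOf g), χ g * χ g⁻¹), hL, Finset.sum_filter]
    exact Finset.sum_congr rfl fun ψ _ => if_congr (hlB ψ).symm rfl rfl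
  have h2 : ∀ ψ : Irr G, ∑ g ∈ univ.filter (fun g : G => ¬ p ∣ orderOf g), ψ.1 g * ψ.1 g⁻¹ =
      ((∑ g ∈ univ.filter (fun g : G => ¬ p ∣ orderOf g), ‖ψ.1 g‖ ^ 2 : ℝ) : ℂ) := by
    intro ψ
    push_cast
    refine Finset.sum_congr rfl fun g _ => ?_
    rw [Irr.inv_eq_conj, Complex.mul_conj, Complex.normSq_eq_norm_sq]
    push_cast
    rfl
  rw [Finset.sum_congr rfl fun ψ _ => h2 ψ] at h1
  have h6 : (r : ℝ) * Nat.card G = ∑ ψ ∈ L,
      ∑ g ∈ univ.filter (fun g : G => ¬ p ∣ orderOf g), ‖ψ.1 g‖ ^ 2 := by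
    exact_mod_cast h1
  have hG : (0 : ℝ) < Nat.card G := by exact_mod_cast Nat.card_pos
  have hq : (0 : ℝ) < Nat.card D := by exact_mod_cast Nat.card_pos
  -- the other sum
  have h7 : ∑ ψ ∈ L, (∑ i : MulAction.orbitRel.Quotient (stabT D l) (NE D),
      ‖(Ad p D Φ ε ((i.out.1 : D) : G) ψ : ℂ)‖ ^ 2) =
      (Nat.card D : ℝ) * Nat.card (MulAction.orbitRel.Quotient (stabT D l) (NE D)) := by
    have hne : ∀ i : MulAction.orbitRel.Quotient (stabT D l) (NE D), ((i.out.1 : D) : G) ≠ 1 :=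
      fun i h1 => i.out.2 (Subtype.ext h1)
    rw [Finset.sum_comm]
    have h8 : ∀ i : MulAction.orbitRel.Quotient (stabT D l) (NE D), ∑ ψ ∈ L,
        ‖(Ad p D Φ ε ((i.out.1 : D) : G) ψ : ℂ)‖ ^ 2 = Nat.card D := by
      intro i
      have h9 : ∑ ψ ∈ L, ‖(Ad p D Φ ε ((i.out.1 : D) : G) ψ : ℂ)‖ ^ 2 =
          ∑ ψ : Irr G, ‖(Ad p D Φ ε ((i.out.1 : D) : G) ψ : ℂ)‖ ^ 2 := by
        rw [hL, Finset.sum_filter]
        refine Finset.sum_congr rfl fun ψ _ => ?_
        by_cases hψ : InL red l ψ.1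
        · rw [if_pos hψ]
        · rw [if_neg hψ, h.Ad_eq_zero hl hD i.out.1.2 (hne i) ψ hψ]
          simp
      rw [h9]
      have h2 := congrArg (fun x : AA => (x : ℂ)) (h.gram hl hD hab hreg i.out.1.2 (hne i)
        (inv_mem i.out.1.2) (by simpa using hne i))
      rw [if_pos ⟨1, one_mem _, by simp⟩] at h2
      push_cast at h2
      have h10 : ((∑ ψ : Irr G, ‖(Ad p D Φ ε ((i.out.1 : D) : G) ψ : ℂ)‖ ^ 2 : ℝ) : ℂ) =
          (Nat.card D : ℂ) := by
        rw [← h2]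
        push_cast
        refine Finset.sum_congr rfl fun ψ _ => ?_
        rw [← h.Ad_star i.out.1.2 (hne i), Complex.mul_conj, Complex.normSq_eq_norm_sq]
        push_cast
        rfl
      exact_mod_cast h10
    rw [Finset.sum_congr rfl fun i _ => h8 i, Finset.sum_const, nsmul_eq_mul, Finset.card_univ,
      Nat.card_eq_fintype_card (α := MulAction.orbitRel.Quotient (stabT D l) (NE D)), mul_comm]
  have h8 : ∑ ψ ∈ L, ((∑ i : MulAction.orbitRel.Quotient (stabT D l) (NE D),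
      ‖(Ad p D Φ ε ((i.out.1 : D) : G) ψ : ℂ)‖ ^ 2) / (Nat.card D : ℝ) +
      (∑ x ∈ univ.filter (fun g : G => ¬ p ∣ orderOf g), ‖ψ.1 x‖ ^ 2) / Fintype.card G) ≤
      ∑ ψ ∈ L, (1 : ℝ) := Finset.sum_le_sum fun ψ _ => h.bessel hl hD hab hreg ψ
  rw [Finset.sum_add_distrib, ← Finset.sum_div, ← Finset.sum_div, h7, ← h6, Finset.sum_const,
    nsmul_one, ← Nat.card_eq_fintype_card, mul_div_cancel_right₀ _ hG.ne',
    mul_div_cancel_left₀ _ hq.ne'] at h8
  have h9 : (r + Nat.card (MulAction.orbitRel.Quotient (stabT D l) (NE D)) : ℕ) ≤ L.card := by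
    have : ((r + Nat.card (MulAction.orbitRel.Quotient (stabT D l) (NE D)) : ℕ) : ℝ) ≤ L.card := by
      push_cast
      linarith
    exact_mod_cast this
  omega

end

end P179I
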