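import Vale.Agent.P179.H905.I21
import Vale.Agent.P179.H143.TranspT

/-!
# (COH) `l(B) ≤ e` for free inertial actions, `p` odd
-/

namespace P179I

open Finset P179P P179C P179Y Subgroup P179H524

open P179X (pp SameSec IrrB)

open scoped Classical IsMulCommutative

universe v

set_option linter.unusedSectionVars false

section

variable {p : ℕ} [hp : Fact p.Prime] {k : Type v} [Field k] [CharP k p] {red : AA →+* k}
  {G : Type} [Group G] [Fintype G] {D : Subgroup G} {l : (G → k) → k}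

/-- one simple module, if the characters of the block agree on the `p`-regular elements -/
theorem numSimple_le_one [IsAlgClosed k] {q : ℕ} {φ : G → ℂ} (hφ : ND red p l q φ)
    {B : MonoidAlgebra k G} (hB : IsBlock B)
    (hlB : ∀ χ : Irr G, InL red l χ.1 ↔ CharInBlock red χ.1 B) : numSimpleIn B ≤ 1 := by
  obtain ⟨r, hr, hr2⟩ := P179P.N3 p red hB (fun x y h => sec_orth p red B x y h)
  set L := univ.filter fun χ : Irr G => InL red l χ.1 with hL
  have hcard : L.card = q := by
    rw [← hφ.card, Nat.card_eq_fintype_card, Fintype.card_subtype]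
  have h1 : (r : ℂ) * Nat.card G = ∑ ψ ∈ L,
      ∑ g ∈ univ.filter (fun g : G => ¬ p ∣ orderOf g), ψ.1 g * ψ.1 g⁻¹ := by
    rw [hr2, Finset.sum_comm, sum_IrrB red B (fun χ => ∑ g ∈ univ.filter
      (fun g : G => ¬ p ∣ orderOf g), χ g * χ g⁻¹), hL, Finset.sum_filter]
    exact Finset.sum_congr rfl fun ψ _ => if_congr (hlB ψ).symm rfl rfl
  have h2 : ∀ ψ ∈ L, ∑ g ∈ univ.filter (fun g : G => ¬ p ∣ orderOf g), ψ.1 g * ψ.1 g⁻¹ =
      rsum p (fun s => φ s * φ s⁻¹) := by
    intro ψ hψ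
    rw [rsum_eq]
    refine Finset.sum_congr rfl fun g hg => ?_
    have hg' := (mem_filter.1 hg).2
    rw [hφ.eq ψ (mem_filter.1 hψ).2 g hg', hφ.eq ψ (mem_filter.1 hψ).2 g⁻¹ (by rwa [orderOf_inv])]
  rw [Finset.sum_congr rfl h2, Finset.sum_const, hcard, nsmul_eq_mul, hφ.nrm] at h1
  have hG : (Nat.card G : ℂ) ≠ 0 := by exact_mod_cast Nat.card_pos.ne'
  have h3 : (r : ℂ) = 1 := by
    apply mul_right_cancel₀ hG
    rw [h1, one_mul]
  have h4 : r = 1 := by exact_mod_cast h3
  omega

include hp in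
/-- **`l(B) ≤ e`** -/
theorem numSimple_le_e [IsAlgClosed k] (hl : BP p D l) (hD : IsPGroup p D)
    (hab : D ≤ centralizer (D : Set G)) (hreg : ∀ u ∈ D, u ≠ 1 → RegT D l u) (hp2 : p ≠ 2)
    (he : ((centralizer (D : Set G)).relIndex (stabT D l) : k) ≠ 0)
    {B : MonoidAlgebra k G} (hB : IsBlock B)
    (hlB : ∀ χ : Irr G, InL red l χ.1 ↔ CharInBlock red χ.1 B) :
    numSimpleIn B ≤ (centralizer (D : Set G)).relIndex (stabT D l) := by
  set e := (centralizer (D : Set G)).relIndex (stabT D l) with hedef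
  have hepos : 0 < e := Nat.pos_of_ne_zero (by
    intro h0
    apply he
    rw [h0, Nat.cast_zero])
  by_cases hD1 : ∃ u ∈ D, u ≠ 1
  swap
  · push Not at hD1
    have hT : stabT D l ≤ centralizer (D : Set G) := by
      intro t _
      rw [mem_centralizer_iff]
      intro d hd
      rw [hD1 d hd, one_mul, mul_one]
    obtain ⟨φ, hφ⟩ := thmNT p red G D l hl hD hab hT
    exact (numSimple_le_one hφ hB hlB).trans hepos
  have hcomm : IsMulCommutative D := ⟨⟨fun a b => Subtype.ext
    (mem_centralizer_iff.1 (hab b.2) _ a.2)⟩⟩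
  obtain ⟨Φ, aH, bH, ε, κ₀, h⟩ := exists_Loc (red := red) hl hD hab hreg
  have h1 := h.numSimple_add_le hl hD hab hreg hB hlB
  -- the integral vectors
  have h2 : ∀ (ψ : AddChar (Additive D) ℂ) (χ : Irr G), ∃ c : ℤ,
      ∑ b : Additive D, (if b = 0 then 0 else (lamA ψ b - 1) *
      Ad p D Φ ε (b.toMul : G) χ) = (Nat.card D : AA) * c := fun ψ χ =>
    h.INT hl hD hab hreg hp2 he ψ χ
  choose V hV using h2
  have hV0 : ∀ ψ χ, ¬ InL red l χ.1 → V ψ χ = 0 := by
    intro ψ χ hχ
    have h3 := hV ψ χ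
    have h4 : ∑ b : Additive D, (if b = 0 then 0 else (lamA ψ b - 1) *
      Ad p D Φ ε (b.toMul : G) χ) = 0 := by
      refine Finset.sum_eq_zero fun b _ => ?_
      by_cases hb : b = 0
      · rw [if_pos hb]
      · rw [if_neg hb, h.Ad_eq_zero hl hD b.toMul.2 (fun h1 => hb (by
          apply Additive.toMul.injective
          exact Subtype.ext h1)) χ hχ, mul_zero]
    rw [h4] at h3
    have h5 := congrArg (fun x : AA => (x : ℂ)) h3
    push_cast at h5
    have h6 : (Nat.card D : ℂ) ≠ 0 := by exact_mod_cast Nat.card_pos.ne'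
    rcases mul_eq_zero.1 h5.symm with h7 | h7
    · exact absurd h7 h6
    · exact_mod_cast h7
  -- the combinatorial lemma
  obtain ⟨u₀, hu₀, hu₀1⟩ := hD1
  let X := {χ : Irr G // InL red l χ.1}
  have : Fintype X := Fintype.ofFinite X
  have hG : ∀ i j : MulAction.orbitRel.Quotient (stabT D l) (NC D),
      ∑ x : X, V i.out.1 x.1 * V j.out.1 x.1 = (e : ℤ) + if i = j then 1 else 0 := by
    intro i j
    rw [← h.gram_V hl hD hab hreg V hV i j]
    symm
    have h3 : ∑ χ : Irr G, V i.out.1 χ * V j.out.1 χ =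
        ∑ χ ∈ univ.filter (fun χ : Irr G => InL red l χ.1), V i.out.1 χ * V j.out.1 χ := by
      rw [Finset.sum_filter]
      refine Finset.sum_congr rfl fun χ _ => ?_
      by_cases hχ : InL red l χ.1
      · rw [if_pos hχ]
      · rw [if_neg hχ, hV0 _ χ hχ, zero_mul]
    rw [h3]
    exact Finset.sum_subtype _ (fun χ => by simp) _
  have hnz : ∀ x : X, ∃ i : MulAction.orbitRel.Quotient (stabT D l) (NC D), V i.out.1 x.1 ≠ 0 := by
    intro x
    obtain ⟨ψ, hψ, hne⟩ := h.V_ne_zero hl hD hab hreg he V hV ⟨u₀, hu₀, hu₀1⟩ x.1 x.2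
    refine ⟨(Quotient.mk _ (⟨ψ, hψ⟩ : NC D) : MulAction.orbitRel.Quotient (stabT D l) (NC D)), ?_⟩
    obtain ⟨t, ht⟩ := Quotient.exact (Quotient.out_eq
      (Quotient.mk _ (⟨ψ, hψ⟩ : NC D) : MulAction.orbitRel.Quotient (stabT D l) (NC D)))
    have h3 : actC t ψ = (Quotient.mk _ (⟨ψ, hψ⟩ : NC D) :
        MulAction.orbitRel.Quotient (stabT D l) (NC D)).out.1 :=
      congrArg Subtype.val ht
    rw [← h3, h.V_actC hl V hV]
    exact hne
  have hι : Nonempty (MulAction.orbitRel.Quotient (stabT D l) (NC D)) := by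
    by_contra hcon
    rw [not_nonempty_iff] at hcon
    have h3 := card_NC_orbits (l := l) hreg
    rw [Nat.card_of_isEmpty, zero_mul] at h3
    have h4 : 1 < Nat.card D := by
      rw [Nat.card_eq_fintype_card, Fintype.one_lt_card_iff]
      exact ⟨⟨u₀, hu₀⟩, 1, fun h => hu₀1 (congrArg Subtype.val h)⟩
    omega
  have h3 := comb (fun (i : MulAction.orbitRel.Quotient (stabT D l) (NC D)) (x : X) => V i.out.1 x.1)
    e (fun i j => by rw [hG i j]; congr) hnz hι
  rw [← Nat.card_eq_fintype_card, ← Nat.card_eq_fintype_card] at h3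
  have h4 : Nat.card (MulAction.orbitRel.Quotient (stabT D l) (NC D)) =
      Nat.card (MulAction.orbitRel.Quotient (stabT D l) (NE D)) := by
    apply Nat.eq_of_mul_eq_mul_right hepos
    rw [hedef, card_NC_orbits hreg, card_NE_orbits hreg]
  rw [h4] at h3
  have h5 := h1.trans h3
  omega

end

end P179I

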