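import Vale.Agent.P179.H905.I22
import Vale.Agent.P179.H526.FinalT
import Vale.Agent.P179.H166.Y4

/-!
# The equality theorem for blocks with abelian defect group and free inertial action
-/

namespace P179I

open P179H524 P179C P179A Finset P179P Subgroup P179Y

open P179X (pp SameSec IrrB Srat autOrd)

open P179B (inertialGroup inertialIndex regularElements)

open scoped Classical

section

variable {p : ℕ} [hp : Fact p.Prime] {k : Type*} [Field k] [IsAlgClosed k] [CharP k p]
  (red : integralClosure ℤ ℂ →+* k) {G : Type} [Group G] [Fintype G]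

/-- both numbers are at most `e` -/
theorem bounds_free {B : MonoidAlgebra k G} (hB : IsBlock B) {D : Subgroup G}
    (hD : IsDefectGroup B D) (hab : ∀ a ∈ D, ∀ b ∈ D, a * b = b * a)
    {b : MonoidAlgebra k (centralizer (D : Set G))} (hb : IsBlock b) (hbB : InducesTo b B)
    (hp2 : p ≠ 2) (hfree : ∀ u ∈ D, u ≠ 1 → u ∈ regularElements D b) :
    numSimpleIn B ≤ inertialIndex D b ∧ numWeightsIn p red B ≤ inertialIndex D b := by
  obtain ⟨hDp, -⟩ := exists_BP_of_block (p := p) B hB D hD
  obtain ⟨l, hl, hlz, hlb⟩ := exists_BP_of_subblock (p := p) hB hD hab hb hbB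
  have hT := stabT_eq_inertialGroup hb hlb
  have hlB : ∀ χ : Irr G, InL red l χ.1 ↔ CharInBlock red χ.1 B := inL_iff red hB hlz
  have hab' : D ≤ centralizer (D : Set G) := by
    intro x hx
    rw [mem_centralizer_iff]
    intro y hy
    exact hab y hy x hx
  have he : inertialIndex D b = (centralizer (D : Set G)).relIndex (stabT D l) := by
    rw [hT]
    rfl
  have hreg : ∀ u ∈ D, u ≠ 1 → RegT D l u := by
    intro u hu hu1
    have h1 := hfree u hu hu1
    unfold regularElements at h1
    unfold RegT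
    rw [hT]
    exact h1
  have hdiv := hT_of_block hB hD hDp hab hl hlz
  rw [he]
  refine ⟨numSimple_le_e (red := red) hl hDp hab' hreg hp2 ?_ hB hlB, K6plus red hl hDp hab' hdiv hlz⟩
  rw [Ne, CharP.cast_eq_zero_iff k p]
  exact hdiv

/-- **Theorem F** -/
theorem equality_free {B : MonoidAlgebra k G} (hB : IsBlock B) {D : Subgroup G}
    (hD : IsDefectGroup B D) (hab : ∀ a ∈ D, ∀ b ∈ D, a * b = b * a)
    {b : MonoidAlgebra k (centralizer (D : Set G))} (hb : IsBlock b) (hbB : InducesTo b B)
    (hp2 : p ≠ 2) (hfree : ∀ u ∈ D, u ≠ 1 → u ∈ regularElements D b)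
    (he : inertialIndex D b < p) :
    numSimpleIn B = numWeightsIn p red B := by
  obtain ⟨h1, h2⟩ := bounds_free red hB hD hab hb hbB hp2 hfree
  exact (P179C.theoremC p red B hB D hD hab).eq_of_lt_of_lt (h1.trans_lt he) (h2.trans_lt he)

end

section

variable {k : Type*} [Field k] [IsAlgClosed k] [CharP k 3]
  (red : integralClosure ℤ ℂ →+* k) {G : Type} [Group G] [Fintype G]

/-- **Theorem F**, `p = 3` -/
theorem equality_free3 {B : MonoidAlgebra k G} (hB : IsBlock B) {D : Subgroup G}
    (hD : IsDefectGroup B D) (hab : ∀ a ∈ D, ∀ b ∈ D, a * b = b * a)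
    {b : MonoidAlgebra k (centralizer (D : Set G))} (hb : IsBlock b) (hbB : InducesTo b B)
    (hfree : ∀ u ∈ D, u ≠ 1 → u ∈ regularElements D b)
    (he : inertialIndex D b < 9) :
    haveI : Fact (Nat.Prime 3) := ⟨Nat.prime_three⟩
    numSimpleIn B = numWeightsIn 3 red B := by
  have : Fact (Nat.Prime 3) := ⟨Nat.prime_three⟩
  obtain ⟨h1, h2⟩ := bounds_free (p := 3) red hB hD hab hb hbB (by norm_num) hfree
  exact (P179C.theoremC9 red B hB D hD hab).eq_of_lt_of_lt (h1.trans_lt he) (h2.trans_lt he)

end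

end P179I

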