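import Vale.Agent.P179.H905.I6
import Vale.Agent.P179.H143.TranspT

/-!
# (INT) 4: relative traces from `D`
-/

namespace P179I

open Finset P179P P179C P179Y Subgroup P179H524

open scoped Classical

section Tr

variable {R : Type*} {G : Type*} [Group G] {D H C : Subgroup G}

theorem apply_out' {x : G → R} (hx : ∀ d ∈ D, ∀ g, x (d * g * d⁻¹) = x g) (c g : G) :
    x ((c : G ⧸ D).out⁻¹ * g * (c : G ⧸ D).out) = x (c⁻¹ * g * c) := by
  obtain ⟨h, hh⟩ := QuotientGroup.mk_out_eq_mul D c
  rw [hh, ← hx h h.2 ((c * h)⁻¹ * g * (c * h))]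
  congr 1
  group

theorem out_mem_iff (hDH : D ≤ H) (c : G) : (c : G ⧸ D).out ∈ H ↔ c ∈ H := by
  obtain ⟨h, hh⟩ := QuotientGroup.mk_out_eq_mul D c
  rw [hh]
  exact ⟨fun h1 => by simpa using mul_mem h1 (inv_mem (hDH h.2)),
    fun h1 => mul_mem h1 (hDH h.2)⟩

theorem F_out {F : G → R} (hF : ∀ d ∈ D, ∀ g, F (g * d) = F g) (c : G) :
    F (c : G ⧸ D).out = F c := by
  obtain ⟨h, hh⟩ := QuotientGroup.mk_out_eq_mul D c
  rw [hh, hF h h.2]

variable [AddCommMonoid R] [Fintype G]

/-- the relative trace from `D` to `H` -/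
noncomputable def TrS (D H : Subgroup G) (x : G → R) : G → R :=
  fun g => ∑ c : G ⧸ D, if c.out ∈ H then x (c.out⁻¹ * g * c.out) else 0

theorem sum_fiber (hDC : D ≤ C) {F : G → R} (hF : ∀ d ∈ D, ∀ g, F (g * d) = F g) :
    ∑ c : G ⧸ D, F c.out = ∑ n : G ⧸ C, ∑ c : G ⧸ D, if c.out ∈ C then F (n.out * c.out) else 0 := by
  rw [← Finset.sum_fiberwise univ (fun c : G ⧸ D => (c.out : G ⧸ C))]
  refine Finset.sum_congr rfl fun n _ => ?_
  rw [← Finset.sum_filter]
  refine Finset.sum_bij' (i := fun (c : G ⧸ D) _ => ((n.out⁻¹ * c.out : G) : G ⧸ D))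
    (j := fun c _ => ((n.out * c.out : G) : G ⧸ D)) ?_ ?_ ?_ ?_ ?_
  · intro c hc
    rw [mem_filter] at hc ⊢
    refine ⟨mem_univ _, (out_mem_iff hDC _).2 ?_⟩
    rw [← QuotientGroup.eq, QuotientGroup.out_eq']
    exact hc.2.symm
  · intro c hc
    rw [mem_filter] at hc ⊢
    refine ⟨mem_univ _, ?_⟩
    obtain ⟨h, hh⟩ := QuotientGroup.mk_out_eq_mul D (n.out * c.out)
    rw [hh]
    conv_rhs => rw [← QuotientGroup.out_eq' n]
    rw [QuotientGroup.eq]
    have : (n.out * c.out * (h : G))⁻¹ * n.out = (c.out * (h : G))⁻¹ := by group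
    rw [this]
    exact inv_mem (mul_mem hc.2 (hDC h.2))
  · intro c _
    obtain ⟨h, hh⟩ := QuotientGroup.mk_out_eq_mul D (n.out⁻¹ * c.out)
    rw [hh]
    conv_rhs => rw [← QuotientGroup.out_eq' c]
    rw [QuotientGroup.eq]
    have : (n.out * (n.out⁻¹ * c.out * (h : G)))⁻¹ * c.out = (h : G)⁻¹ := by group
    rw [this]
    exact inv_mem h.2
  · intro c _
    obtain ⟨h, hh⟩ := QuotientGroup.mk_out_eq_mul D (n.out * c.out)
    rw [hh]
    conv_rhs => rw [← QuotientGroup.out_eq' c]
    rw [QuotientGroup.eq]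
    have : (n.out⁻¹ * (n.out * c.out * (h : G)))⁻¹ * c.out = (h : G)⁻¹ := by group
    rw [this]
    exact inv_mem h.2
  · intro c _
    obtain ⟨h, hh⟩ := QuotientGroup.mk_out_eq_mul D (n.out⁻¹ * c.out)
    rw [hh]
    have : n.out * (n.out⁻¹ * c.out * (h : G)) = c.out * h := by group
    rw [this, hF h h.2]

theorem TrS_inv (hDH : D ≤ H) {x : G → R} (hx : ∀ d ∈ D, ∀ g, x (d * g * d⁻¹) = x g)
    {t : G} (ht : t ∈ H) (g : G) : TrS D H x (t * g * t⁻¹) = TrS D H x g := by
  unfold TrS
  rw [← Equiv.sum_comp (MulAction.toPerm (t : G) : Equiv.Perm (G ⧸ D))]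
  refine Finset.sum_congr rfl fun c _ => ?_
  induction c using QuotientGroup.induction_on with
  | H c =>
  have h1 : (MulAction.toPerm (t : G) : Equiv.Perm (G ⧸ D)) (c : G ⧸ D) = ((t * c : G) : G ⧸ D) :=
    rfl
  rw [h1, apply_out' hx, apply_out' hx]
  have h2 : (t * c)⁻¹ * (t * g * t⁻¹) * (t * c) = c⁻¹ * g * c := by group
  have h3 : (((t * c : G) : G ⧸ D).out ∈ H) ↔ ((c : G ⧸ D).out ∈ H) := by
    rw [out_mem_iff hDH, out_mem_iff hDH]
    exact ⟨fun h => by simpa using mul_mem (inv_mem ht) h, fun h => mul_mem ht h⟩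
  rw [h2]
  by_cases h : (c : G ⧸ D).out ∈ H
  · rw [if_pos h, if_pos (h3.2 h)]
  · rw [if_neg h, if_neg (fun h' => h (h3.1 h'))]

theorem sum_TrS {R : Type*} [CommRing R] (hDH : D ≤ H) {x : G → R}
    (F : H → R) (hF : IsCF F) :
    ∑ h : H, TrS D H x h * F h = (D.relIndex H : R) * ∑ h : H, x h * F h := by
  have h1 : ∀ h : H, TrS D H x h * F h =
      ∑ c : G ⧸ D, if c.out ∈ H then x (c.out⁻¹ * h * c.out) * F h else 0 := by
    intro h
    unfold TrS
    rw [Finset.sum_mul]
    refine Finset.sum_congr rfl fun c _ => ?_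
    split_ifs
    · rfl
    · rw [zero_mul]
  rw [Finset.sum_congr rfl fun h _ => h1 h, Finset.sum_comm]
  have h2 : ∀ c : G ⧸ D, ∑ h : H, (if c.out ∈ H then x (c.out⁻¹ * h * c.out) * F h else 0) =
      if c.out ∈ H then ∑ h : H, x h * F h else 0 := by
    intro c
    by_cases hc : c.out ∈ H
    · simp only [if_pos hc]
      rw [← Equiv.sum_comp (MulAut.conj (⟨c.out, hc⟩ : H)).toEquiv]
      refine Finset.sum_congr rfl fun h _ => ?_
      have h3 : (MulAut.conj (⟨c.out, hc⟩ : H)).toEquiv h = ⟨c.out, hc⟩ * h * ⟨c.out, hc⟩⁻¹ := rfl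
      rw [h3, hF]
      congr 2
      push_cast
      group
    · simp only [if_neg hc, Finset.sum_const_zero]
  rw [Finset.sum_congr rfl fun c _ => h2 c, ← Finset.sum_filter, Finset.sum_const, nsmul_eq_mul,
    card_cosets D H hDH]

end Tr

section Field

variable {p : ℕ} [hp : Fact p.Prime] {k : Type*} [Field k] [CharP k p] {G : Type*} [Group G]
  [Fintype G] {D H : Subgroup G} {l : (G → k) → k}

include hp in
theorem TrS_cent (hD : IsPGroup p D) (hDH : D ≤ H) (hab : D ≤ centralizer (D : Set G)) {x : G → k}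
    (hx : ∀ d ∈ D, ∀ g, x (d * g * d⁻¹) = x g) {g : G} (hg : g ∈ centralizer (D : Set G)) :
    TrS D H x g = ∑ c : G ⧸ D, if c.out ∈ H ∧ c.out ∈ normalizer (D : Set G) then
      x (c.out⁻¹ * g * c.out) else 0 := by
  rw [← sub_eq_zero]
  unfold TrS
  rw [← Finset.sum_sub_distrib]
  have h := exists_fixed_coset p D hx (x := g)
    (fun c => c ∈ H ∧ c ∉ normalizer (D : Set G)) D hD ?_ ?_ ?_ ?_
  · refine Eq.trans (Finset.sum_congr rfl fun c _ => ?_) h
    by_cases h1 : c.out ∈ H
    · by_cases h2 : c.out ∈ normalizer (D : Set G)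
      · rw [if_pos h1, if_pos ⟨h1, h2⟩, if_neg (fun h => h.2 h2), sub_self]
      · rw [if_pos h1, if_neg (fun h => h2 h.2), if_pos ⟨h1, h2⟩, sub_zero]
    · rw [if_neg h1, if_neg (fun h => h1 h.1), if_neg (fun h => h1 h.1), sub_self]
  · intro d hd
    rw [mem_centralizer_singleton_iff]
    exact (mem_centralizer_iff.1 hg d hd)
  · intro q hq c
    have hqN := cent_le_norm D (hab hq)
    refine and_congr ⟨fun h => mul_mem (hDH hq) h, fun h => by simpa using mul_mem (inv_mem (hDH hq)) h⟩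
      (not_congr ⟨fun h => mul_mem hqN h, fun h => by simpa using mul_mem (inv_mem hqN) h⟩)
  · intro q hq c
    have hqN := cent_le_norm D (hab hq)
    refine and_congr ⟨fun h => mul_mem h (hDH hq), fun h => by simpa using mul_mem h (inv_mem (hDH hq))⟩
      (not_congr ⟨fun h => mul_mem h hqN, fun h => by simpa using mul_mem h (inv_mem hqN)⟩)
  · rintro c ⟨-, hc⟩ hcD
    exact absurd (mem_norm_of_conj_le hcD) hc

omit [CharP k p] hp [Fintype G] in
theorem mem_cent_conj {c : G} (hc : c ∈ centralizer (D : Set G)) (g : G) :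
    c⁻¹ * g * c ∈ centralizer (D : Set G) ↔ g ∈ centralizer (D : Set G) := by
  constructor
  · intro h
    have := mul_mem (mul_mem hc h) (inv_mem hc)
    have e : c * (c⁻¹ * g * c) * c⁻¹ = g := by group
    rwa [e] at this
  · intro h
    exact mul_mem (mul_mem (inv_mem hc) h) hc

/-- the trace to `C_G(D)`, cut to `C_G(D)` -/
noncomputable def WW (D : Subgroup G) (x : G → k) : G → k :=
  cutC D (TrS D (centralizer (D : Set G)) x)

omit [CharP k p] hp in
theorem WW_inv (hab : D ≤ centralizer (D : Set G)) {x : G → k}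
    (hx : ∀ d ∈ D, ∀ g, x (d * g * d⁻¹) = x g) : InvOn (centralizer (D : Set G)) (WW D x) :=
  invOn_cutC D fun _ hc g => TrS_inv hab hx hc g

include hp in
theorem WW_conv (hD : IsPGroup p D) (hab : D ≤ centralizer (D : Set G)) {x y : G → k}
    (hx : ∀ d ∈ D, ∀ g, x (d * g * d⁻¹) = x g)
    (hy : ∀ c ∈ centralizer (D : Set G), ∀ g, y (c * g * c⁻¹) = y g) :
    WW D (conv y x) = conv (cutC D y) (WW D x) := by
  have hyi := invOn_cutC D hy
  have hxi := WW_inv hab hx
  funext g
  by_cases hg : g ∈ centralizer (D : Set G)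
  swap
  · rw [(hyi.conv _ hxi).2 g hg]
    unfold WW cutC
    rw [if_neg hg]
  have h1 : WW D (conv y x) g = TrS D (centralizer (D : Set G)) (conv y x) g := by
    unfold WW cutC
    rw [if_pos hg]
  rw [h1]
  unfold TrS
  have h2 : ∀ c : G ⧸ D, (if c.out ∈ centralizer (D : Set G) then conv y x (c.out⁻¹ * g * c.out)
      else 0) = ∑ h : G, cutC D y h * (if c.out ∈ centralizer (D : Set G) then
        cutC D x (c.out⁻¹ * (h⁻¹ * g) * c.out) else 0) := by
    intro c
    by_cases hc : c.out ∈ centralizer (D : Set G)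
    · simp only [if_pos hc]
      rw [conv_cut p D hD (fun d hd => hy d (hab hd)) hx ((mem_cent_conj hc g).2 hg)]
      unfold conv
      rw [← Equiv.sum_comp (MulAut.conj c.out⁻¹).toEquiv]
      refine Finset.sum_congr rfl fun h _ => ?_
      have h3 : (MulAut.conj c.out⁻¹).toEquiv h = c.out⁻¹ * h * c.out⁻¹⁻¹ := rfl
      rw [h3, hyi.1 _ (inv_mem hc)]
      congr 2
      group
    · simp only [if_neg hc, mul_zero, Finset.sum_const_zero]
  rw [Finset.sum_congr rfl fun c _ => h2 c, Finset.sum_comm]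
  unfold conv
  refine Finset.sum_congr rfl fun h _ => ?_
  rw [← Finset.mul_sum]
  congr 1
  unfold WW cutC TrS
  by_cases hh : h⁻¹ * g ∈ centralizer (D : Set G)
  · rw [if_pos hh]
    refine Finset.sum_congr rfl fun c _ => ?_
    by_cases hc : c.out ∈ centralizer (D : Set G)
    · rw [if_pos hc, if_pos hc, if_pos ((mem_cent_conj hc _).2 hh)]
    · rw [if_neg hc, if_neg hc]
  · rw [if_neg hh]
    refine Finset.sum_eq_zero fun c _ => ?_
    by_cases hc : c.out ∈ centralizer (D : Set G)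
    · rw [if_pos hc, if_neg (fun h' => hh ((mem_cent_conj hc _).1 h'))]
    · rw [if_neg hc]

include hp in
/-- the trace to `C_G(u)` -/
theorem l_TrS (hl : BP p D l) (hD : IsPGroup p D) (hab : D ≤ centralizer (D : Set G)) {x : G → k}
    (hx : ∀ d ∈ D, ∀ g, x (d * g * d⁻¹) = x g)
    (hsep : ∀ n ∈ normalizer (D : Set G), n ∉ stabT D l → l (cj n (WW D x)) = 0)
    {u : G} (hu : RegT D l u) :
    l (TrS D (centralizer {u}) x) = l (WW D x) := by
  set H : Subgroup G := centralizer {u} with hH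
  set C : Subgroup G := centralizer (D : Set G) with hC
  have hDH : D ≤ H := le_cent_of_mem hu.1 hab
  have hCH : C ≤ H := cent_le_of_mem hu.1
  have hW := WW_inv hab hx
  have h1 : ∀ g ∈ C, TrS D H x g = (∑ n : G ⧸ C, if n.out ∈ H ∧ n.out ∈ normalizer (D : Set G) then
      cj n.out (WW D x) else 0) g := by
    intro g hg
    rw [TrS_cent hD hDH hab hx hg]
    rw [sum_fiber (D := D) (C := C) hab (F := fun c => if c ∈ H ∧ c ∈ normalizer (D : Set G) then
      x (c⁻¹ * g * c) else 0)]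
    · rw [Finset.sum_apply]
      refine Finset.sum_congr rfl fun n _ => ?_
      by_cases hn : n.out ∈ H ∧ n.out ∈ normalizer (D : Set G)
      · rw [if_pos hn]
        have h2 : n.out⁻¹ * g * n.out ∈ C := by
          have := (conj_mem_cent (inv_mem hn.2) g).2 hg
          simpa using this
        unfold cj WW cutC TrS
        rw [if_pos h2]
        refine Finset.sum_congr rfl fun c _ => ?_
        by_cases hc : c.out ∈ C
        · rw [if_pos hc, if_pos hc, if_pos ⟨mul_mem hn.1 (hCH hc), mul_mem hn.2 (cent_le_norm D hc)⟩]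
          congr 1
          group
        · rw [if_neg hc, if_neg hc]
      · rw [if_neg hn]
        refine Finset.sum_eq_zero fun c _ => ?_
        by_cases hc : c.out ∈ C
        · rw [if_pos hc, if_neg]
          rintro ⟨h3, h4⟩
          apply hn
          exact ⟨by simpa using mul_mem h3 (inv_mem (hCH hc)),
            by simpa using mul_mem h4 (inv_mem (cent_le_norm D hc))⟩
        · rw [if_neg hc]
    · intro d hd c
      have hdN := cent_le_norm D (hab hd)
      have h3 : (c * d ∈ H ∧ c * d ∈ normalizer (D : Set G)) ↔ (c ∈ H ∧ c ∈ normalizer (D : Set G)) := by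
        refine and_congr ⟨fun h => by simpa using mul_mem h (inv_mem (hDH hd)), fun h => mul_mem h (hDH hd)⟩
          ⟨fun h => by simpa using mul_mem h (inv_mem hdN), fun h => mul_mem h hdN⟩
      have h4 : x ((c * d)⁻¹ * g * (c * d)) = x (c⁻¹ * g * c) := by
        rw [← hx d hd]
        congr 1
        group
      simp only [h3, h4]
  rw [hl.congr h1, hl.sum]
  have h2 : ∀ n : G ⧸ C, l (if n.out ∈ H ∧ n.out ∈ normalizer (D : Set G) then
      cj n.out (WW D x) else 0) = if n.out ∈ C then l (WW D x) else 0 := by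
    intro n
    by_cases hn : n.out ∈ H ∧ n.out ∈ normalizer (D : Set G)
    · rw [if_pos hn]
      by_cases hT : n.out ∈ stabT D l
      · have h3 : n.out ∈ C := by
          refine hu.2 _ hT ?_
          have := mem_centralizer_singleton_iff.1 hn.1
          rw [this]; group
        rw [if_pos h3, cj_eq_of_inv fun y => hW.1 _ h3 y]
      · rw [hsep _ hn.2 hT, if_neg (fun h => hT (cent_le_stabT D l h))]
    · rw [if_neg hn, hl.zero, if_neg]
      intro h
      exact hn ⟨hCH h, cent_le_norm D h⟩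
  rw [Finset.sum_congr rfl fun n _ => h2 n, ← Finset.sum_filter, Finset.sum_const,
    card_cosets C C le_rfl, Subgroup.relIndex_self, one_smul]

end Field

end P179I
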