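import Vale.Agent.P179.H905.I2
import Vale.Agent.P179.H905.I3

/-!
# (INT) 5: long words
-/

namespace P179I

open Finset P179P P179C P179Y Subgroup P179H524

open scoped Classical

section TT

variable {K R : Type*} [Group K] [Fintype K] [CommRing R]

/-- the value at `F` of the `n`-th power of `z` -/
noncomputable def TT (z : K → R) (n : ℕ) (F : K → R) : R :=
  ∑ w : Fin n → K, (∏ i, z (w i)) * F (wprod w)

theorem TT_eq_cv (z : K → R) (n : ℕ) (F : K → R) : TT z n F = (cv z)^[n] F 1 := by
  rw [cv_iterate, TT]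
  simp only [mul_one]

theorem cv_conv_kill {z E F : K → R} (hF : cv E F = 0) {b : R} (y : K) :
    cv (fun g => b * z g - conv E z g) F y = b * cv z F y := by
  unfold cv
  have h1 : ∑ g, conv E z g * F (g * y) = 0 := by
    unfold conv
    simp only [Finset.sum_mul]
    rw [Finset.sum_comm]
    have h2 : ∀ h : K, ∑ g, E h * z (h⁻¹ * g) * F (g * y) = ∑ g, z g * (E h * F (h * (g * y))) := by
      intro h
      rw [← Equiv.sum_comp (Equiv.mulLeft h)]
      refine Finset.sum_congr rfl fun g _ => ?_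
      rw [Equiv.coe_mulLeft, inv_mul_cancel_left, mul_assoc h g y]
      ring
    rw [Finset.sum_congr rfl fun h _ => h2 h, Finset.sum_comm]
    refine Finset.sum_eq_zero fun g _ => ?_
    rw [← Finset.mul_sum]
    have h3 : ∑ h, E h * F (h * (g * y)) = 0 := congrFun hF (g * y)
    rw [h3, mul_zero]
  simp only [sub_mul, Finset.sum_sub_distrib]
  rw [h1, sub_zero, Finset.mul_sum]
  exact Finset.sum_congr rfl fun g _ => by ring

theorem cv_cv_kill {z E F : K → R} (hE : IsCF E) (hF : cv E F = 0) : cv E (cv z F) = 0 := by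
  ext y
  unfold cv
  simp only [Finset.mul_sum]
  rw [Finset.sum_comm]
  refine Finset.sum_eq_zero fun g _ => ?_
  have h3 : ∑ h, E h * F (h * (g * y)) = 0 := congrFun hF (g * y)
  rw [← Equiv.sum_comp (MulAut.conj g).toEquiv] at h3
  have h4 : ∑ h, E h * (z g * F (g * (h * y))) = z g * ∑ h, E ((MulAut.conj g).toEquiv h) *
      F ((MulAut.conj g).toEquiv h * (g * y)) := by
    rw [Finset.mul_sum]
    refine Finset.sum_congr rfl fun h _ => ?_
    have h5 : (MulAut.conj g).toEquiv h = g * h * g⁻¹ := rfl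
    have h6 : g * h * g⁻¹ * (g * y) = g * (h * y) := by group
    rw [h5, hE, h6]
    ring
  rw [h4, h3, mul_zero]

theorem TT_kill {z E F : K → R} (hE : IsCF E) (hF : cv E F = 0) (b : R) (n : ℕ) :
    TT (fun g => b * z g - conv E z g) n F = b ^ n * TT z n F := by
  rw [TT_eq_cv, TT_eq_cv]
  have h : cv E ((cv z)^[n] F) = 0 ∧
      (cv (fun g => b * z g - conv E z g))^[n] F = fun y => b ^ n * (cv z)^[n] F y := by
    induction n with
    | zero => exact ⟨hF, by ext y; simp⟩
    | succ n ih =>
      obtain ⟨ih1, ih2⟩ := ih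
      refine ⟨?_, ?_⟩
      · rw [Function.iterate_succ', Function.comp_apply]
        exact cv_cv_kill hE ih1
      · ext y
        rw [Function.iterate_succ', Function.comp_apply, ih2, cv_smul]
        beta_reduce
        rw [cv_conv_kill ih1, Function.iterate_succ', Function.comp_apply, pow_succ]
        ring
  rw [h.2]

end TT

section Red

variable {k : Type*} [Field k] (p : ℕ) [hp : Fact p.Prime] [CharP k p] (red : AA →+* k)

omit [CharP k p] hp in
theorem red_TT_map {K : Type*} [Group K] [Fintype K] (z F : K → AA) (n : ℕ) :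
    red (TT z n F) = TT (fun g => red (z g)) n (fun g => red (F g)) := by
  unfold TT
  rw [map_sum]
  exact Finset.sum_congr rfl fun w _ => by rw [map_mul, map_prod]

theorem red_chA_pow_p {K : Type*} [Group K] [Finite K] (χ : Irr K) (g : K) :
    red (chA χ (g ^ p)) = red (chA χ g) ^ p := by
  have := Fintype.ofFinite K
  obtain ⟨n, hn⟩ := restr_decomp χ (zpowers g)
  set g' : zpowers g := ⟨g, mem_zpowers g⟩ with hg'
  have hcomm : ∀ x : zpowers g, x * g' = g' * x := by
    rintro ⟨_, i, rfl⟩
    apply Subtype.ext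
    change g ^ i * g = g * g ^ i
    exact (Commute.self_zpow g i).symm.eq
  have h1 : ∀ ψ : Irr (zpowers g), ∃ (c : AA) (d : ℕ), ∀ j : ℕ, chA ψ (g' ^ j) = c ^ j * d := by
    intro ψ
    obtain ⟨c, hcN, hc⟩ := central_scalar ψ g' hcomm (N := orderOf g') (pow_orderOf_eq_one g')
    have hcI : c ∈ integralClosure ℤ ℂ := by
      change IsIntegral ℤ c
      refine IsIntegral.of_pow (n := orderOf g') (orderOf_pos g') ?_
      rw [hcN]; exact isIntegral_one
    obtain ⟨d, -, hd⟩ := ψ.exists_deg
    refine ⟨⟨c, hcI⟩, d, fun j => Subtype.ext ?_⟩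
    have h2 := hc j 1
    rw [mul_one, hd] at h2
    exact h2
  choose c d hcd using h1
  have h2 : ∀ j : ℕ, chA χ (g ^ j) = ∑ ψ, (n ψ : AA) * (c ψ ^ j * d ψ) := by
    intro j
    apply Subtype.ext
    push_cast
    have h3 : (chA χ (g ^ j) : ℂ) = χ.1 ((g' ^ j : zpowers g) : K) := rfl
    rw [h3, hn]
    refine Finset.sum_congr rfl fun ψ _ => ?_
    have h4 := congrArg (fun x : AA => (x : ℂ)) (hcd ψ j)
    push_cast at h4
    rw [← h4]
    rfl
  have h3 := h2 1
  simp only [pow_one] at h3
  rw [h2 p, h3, map_sum, map_sum, sum_pow_char]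
  refine Finset.sum_congr rfl fun ψ _ => ?_
  simp only [map_mul, map_pow, map_natCast, mul_pow]
  have h5 : ∀ m : ℕ, (m : k) ^ p = m := by
    intro m
    have := map_natCast (frobenius k p) m
    rwa [frobenius_def] at this
  rw [h5, h5]

theorem red_chA_pow {K : Type*} [Group K] [Finite K] (χ : Irr K) (g : K) (m : ℕ) :
    red (chA χ (g ^ p ^ m)) = red (chA χ g) ^ p ^ m := by
  induction m with
  | zero => simp
  | succ m ih => rw [pow_succ, pow_mul, red_chA_pow_p, ih, pow_mul]

/-- the value modulo `p` -/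
theorem red_TT {K : Type*} [Group K] [Fintype K] (χ : Irr K) (z : K → AA) (m : ℕ) :
    red (TT z (p ^ m) (chA χ)) = (∑ g, red (z g) * red (chA χ g)) ^ p ^ m := by
  rw [red_TT_map, TT, sum_words_cf p m (fun g => red (z g)) (fun g => red (chA χ g))
    (fun g x => congrArg red (chA_isCF χ g x)), sum_pow_char_pow]
  refine Finset.sum_congr rfl fun g _ => ?_
  rw [red_chA_pow, mul_pow]

/-- characters which agree on the `p`-regular elements -/
theorem TT_congr {K : Type*} [Group K] [Fintype K] (φ ψ : Irr K)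
    (h : ∀ s, ¬ p ∣ orderOf s → ψ.1 s = φ.1 s) (z : K → AA) (c : ℕ)
    (hc : ∀ x : K, ¬ p ∣ orderOf (x ^ p ^ c)) (i : ℕ) :
    TT z (p ^ (i + c)) (chA ψ) - TT z (p ^ (i + c)) (chA φ) ∈ QN p red (i + 1) := by
  have h1 := lemW_core p z (fun g => chA ψ g - chA φ g) (1 : K) 0 (by simp) (by simp)
    (fun g x => by beta_reduce; rw [chA_isCF ψ g x, chA_isCF φ g x]) c hc (by
      intro β _ hβ
      rw [mul_one, sub_eq_zero]
      exact Subtype.ext (h β hβ)) i
  refine mem_QN_of_dvd ?_
  have h2 : TT z (p ^ (i + c)) (chA ψ) - TT z (p ^ (i + c)) (chA φ) =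
      ∑ w : Fin (p ^ (i + c)) → K, (∏ j, z (w j)) * (chA ψ (wprod w * 1) - chA φ (wprod w * 1)) := by
    unfold TT
    rw [← Finset.sum_sub_distrib]
    exact Finset.sum_congr rfl fun w _ => by rw [mul_one]; ring
  rw [h2]
  exact h1

/-- characters killed by `E` -/
theorem exists_TT_mem {K : Type*} [Group K] [Fintype K] {z E : K → AA} (hE : IsCF E) {b : AA}
    (hb : red b ≠ 0) (hz : ∀ g, red (b * z g - conv E z g) = 0) (N : ℕ) :
    ∃ M : ℕ, ∀ n ≥ M, ∀ F : K → AA, cv E F = 0 → TT z n F ∈ QN p red N := by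
  obtain ⟨M, hM⟩ := exists_prod_mem (p := p) (red := red) (fun g => b * z g - conv E z g) hz N
  refine ⟨M, fun n hn F hF => ?_⟩
  refine mem_of_unit_mul (v := b ^ n) (by rw [map_pow]; exact pow_ne_zero _ hb) ?_
  rw [← TT_kill hE hF b n, TT]
  refine Ideal.sum_mem _ fun w _ => ?_
  exact Ideal.mul_mem_right _ _ (hM n hn w)

end Red

section Cut

variable {k : Type*} [Field k] (p : ℕ) [hp : Fact p.Prime] [CharP k p] (red : AA →+* k)
  {G : Type*} [Group G] [Fintype G]

theorem sum_words_sub {R : Type*} [CommRing R] (H : Subgroup G) (n : ℕ) (X : (Fin n → G) → R)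
    (hX : ∀ w, (∃ i, w i ∉ H) → X w = 0) :
    ∑ w : Fin n → G, X w = ∑ w : Fin n → H, X (fun i => (w i : G)) := by
  symm
  refine Finset.sum_of_injOn (fun w i => (w i : G)) ?_ ?_ ?_ ?_
  · intro w _ w' _ h
    funext i
    exact Subtype.ext (congrFun h i)
  · intro w _; simp
  · intro w _ hw
    apply hX
    by_contra hcon
    push Not at hcon
    apply hw
    exact ⟨fun i => ⟨w i, hcon i⟩, by simp, rfl⟩
  · intro w _; rfl

omit [Fintype G] in
theorem wprod_coe (H : Subgroup G) {n : ℕ} (w : Fin n → H) :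
    wprod (fun i => (w i : G)) = ((wprod w : H) : G) := by
  unfold wprod
  rw [Subgroup.val_list_prod, List.map_ofFn]
  rfl

/-- only the words in the centraliser of `u` matter -/
theorem cut_mem (u : G) {a : ℕ} (hu : u ^ p ^ a = 1) (j F : G → AA)
    (hj : ∀ x, j (u * x * u⁻¹) = j x) (hF : IsCF F) (H : Subgroup G)
    (hH : ∀ x, x ∈ H ↔ x * u = u * x) (m : ℕ) :
    ∑ w : Fin (p ^ m) → G, (∏ i, j (w i)) * F (wprod w * u) -
      TT (fun h : H => j h) (p ^ m) (fun h : H => F (h * u)) ∈ QN p red (m + 1) := by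
  set j' : G → AA := fun g => if g ∈ H then j g else 0 with hj'
  have h1 : TT (fun h : H => j h) (p ^ m) (fun h : H => F (h * u)) =
      ∑ w : Fin (p ^ m) → G, (∏ i, j' (w i)) * F (wprod w * u) := by
    rw [sum_words_sub H _ (fun w => (∏ i, j' (w i)) * F (wprod w * u))]
    · unfold TT
      refine Finset.sum_congr rfl fun w _ => ?_
      rw [wprod_coe]
      congr 1
      refine Finset.prod_congr rfl fun i _ => ?_
      simp only [hj']
      rw [if_pos (w i).2]
    · rintro w ⟨i, hi⟩
      rw [Finset.prod_eq_zero (mem_univ i), zero_mul]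
      simp only [hj']
      rw [if_neg hi]
  rw [h1, ← Finset.sum_sub_distrib]
  refine mem_QN_of_dvd ?_
  obtain ⟨n, hn⟩ : ∃ n, p ^ m = n + 1 := ⟨p ^ m - 1, by have := pow_pos hp.out.pos m; omega⟩
  have hmem : ∀ x, u * x * u⁻¹ ∈ H ↔ x ∈ H := by
    intro x
    rw [hH, hH]
    constructor
    · intro h
      have h2 : u * (x * u) * u⁻¹ = u * (u * x) * u⁻¹ := by
        calc u * (x * u) * u⁻¹ = u * x := by group
          _ = u * x * u⁻¹ * u := by group
          _ = u * (u * x * u⁻¹) := by rw [h]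
          _ = u * (u * x) * u⁻¹ := by group
      exact mul_left_cancel (mul_right_cancel h2)
    · intro h
      have h2 : u * x * u⁻¹ = x := by rw [← h]; group
      rw [h2, h]
  have hj'inv : ∀ x, j' (u * x * u⁻¹) = j' x := by
    intro x
    simp only [hj', hmem, hj]
  have key := perm_sum_dvd (R := AA) p (trot n u) (m + a) (by
      rw [pow_add, hn]
      exact trot_pow_eq_one u _ hu)
    (fun w => (∏ i, j (w i)) * F (wprod w * u) - (∏ i, j' (w i)) * F (wprod w * u)) (by
      intro w
      beta_reduce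
      rw [prod_trot u j hj, prod_trot u j' hj'inv, wprod_trot]
      have := hF (w 0)⁻¹ (wprod w * u)
      rw [inv_inv] at this
      rw [this]) m (by
      intro w hw
      obtain ⟨h3, -⟩ := trot_fixed (a := p ^ m) (b := 1) (by rw [mul_one, hn]) u w hw
      have h4 : ∀ i, j' (w i) = j (w i) := by
        intro i
        simp only [hj']
        rw [if_pos]
        rw [hH]
        have := h3 (i : ℕ)
        rw [P179C.ext_coe] at this
        exact this.symm
      simp only [h4, sub_self])
  rw [hn]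
  exact key

end Cut

end P179I
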