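import Vale.Agent.P179.H905.I5
import Vale.Agent.P179.H143.Cong

/-!
# (INT) 6: long words approximate the generalised decomposition numbers
-/

namespace P179I

open Finset P179P P179C P179Y Subgroup P179H524

open scoped Classical

section

variable {k : Type*} [Field k] (p : ℕ) [hp : Fact p.Prime] [CharP k p] (red : AA →+* k)
  {G : Type*} [Group G] [Fintype G]

theorem dn_eq_sum (H : Subgroup G) {l : (H → k) → k} {q : ℕ} (hq : q ≠ 0) {φ : H → ℂ}
    (hφ : ND red p l q φ) {u : G} (huH : u ∈ H) (χ : Irr G) (n : Irr H → ℕ)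
    (hn : ∀ h : H, χ.1 h = ∑ ψ : Irr H, (n ψ : ℂ) * ψ.1 h) (c : Irr H → ℂ)
    (hc : ∀ (ψ : Irr H) (t : H), ψ.1 ((⟨u, huH⟩ : H) * t) = c ψ * ψ.1 t) :
    dn p H q φ u χ.1 = ∑ ψ : Irr H, if InL red l ψ.1 then (n ψ : ℂ) * c ψ else 0 := by
  have hH0 : (Nat.card H : ℂ) ≠ 0 := by exact_mod_cast Nat.card_pos.ne'
  have hq0 : (q : ℂ) ≠ 0 := by exact_mod_cast hq
  have hpair : ∀ ψ : Irr H, (q : ℂ) / Nat.card H * rsum p (fun t : H => ψ.1 t * φ t⁻¹) =
      if InL red l ψ.1 then 1 else 0 := by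
    intro ψ
    by_cases hψ : InL red l ψ.1
    · rw [if_pos hψ]
      have h1 : rsum p (fun t : H => ψ.1 t * φ t⁻¹) = rsum p (fun t : H => φ t * φ t⁻¹) := by
        rw [rsum_eq, rsum_eq]
        refine Finset.sum_congr rfl fun t ht => ?_
        rw [hφ.eq ψ hψ t (mem_filter.1 ht).2]
      rw [h1, div_mul_eq_mul_div, hφ.nrm, div_self hH0]
    · rw [if_neg hψ, rsum_orth_of_inL p red ψ ⟨φ, hφ.irr⟩ hφ.mem hψ, mul_zero]
  have h1 : dn p H q φ u χ.1 = ∑ ψ : Irr H, (n ψ : ℂ) * c ψ *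
      ((q : ℂ) / Nat.card H * rsum p (fun t : H => ψ.1 t * φ t⁻¹)) := by
    rw [dn]
    have h2 : rsum p (fun t : H => χ.1 (u * t) * φ t⁻¹) =
        ∑ ψ : Irr H, (n ψ : ℂ) * c ψ * rsum p (fun t : H => ψ.1 t * φ t⁻¹) := by
      simp only [rsum_eq, Finset.mul_sum]
      rw [Finset.sum_comm]
      refine Finset.sum_congr rfl fun t _ => ?_
      have h3 : (u * (t : G)) = (((⟨u, huH⟩ : H) * t : H) : G) := rfl
      rw [h3, hn, Finset.sum_mul]
      refine Finset.sum_congr rfl fun ψ _ => ?_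
      rw [hc]; ring
    rw [h2, Finset.mul_sum]
    exact Finset.sum_congr rfl fun ψ _ => by ring
  rw [h1]
  refine Finset.sum_congr rfl fun ψ _ => ?_
  rw [hpair]
  split_ifs
  · ring
  · ring

omit hp [CharP k p] in
theorem exists_scalars (H : Subgroup G) {u : G} (huH : u ∈ H)
    (hH : ∀ x, x ∈ H → x * u = u * x) :
    ∃ c : Irr H → AA, ∀ (ψ : Irr H) (t : H), ψ.1 ((⟨u, huH⟩ : H) * t) = (c ψ : ℂ) * ψ.1 t := by
  have h1 : ∀ ψ : Irr H, ∃ c : AA, ∀ t : H, ψ.1 ((⟨u, huH⟩ : H) * t) = (c : ℂ) * ψ.1 t := by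
    intro ψ
    obtain ⟨c, hcN, hc⟩ := central_scalar ψ (⟨u, huH⟩ : H)
      (fun x => Subtype.ext (hH x x.2)) (N := orderOf (⟨u, huH⟩ : H)) (pow_orderOf_eq_one _)
    have hcI : c ∈ integralClosure ℤ ℂ := by
      change IsIntegral ℤ c
      refine IsIntegral.of_pow (n := orderOf (⟨u, huH⟩ : H)) (orderOf_pos _) ?_
      rw [hcN]; exact isIntegral_one
    refine ⟨⟨c, hcI⟩, fun t => ?_⟩
    have := hc 1 t
    rwa [pow_one, pow_one] at this
  choose c hc using h1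
  exact ⟨c, hc⟩

/-- the generalised decomposition numbers as algebraic integers -/
noncomputable def dnA (H : Subgroup G) (q : ℕ) (φ : H → ℂ) (u : G) (χ : G → ℂ) : AA :=
  if h : dn p H q φ u χ ∈ integralClosure ℤ ℂ then ⟨_, h⟩ else 0

theorem dnA_coe (H : Subgroup G) {l : (H → k) → k} {q : ℕ} (hq : q ≠ 0) {φ : H → ℂ}
    (hφ : ND red p l q φ) {u : G} (hH : ∀ x, x ∈ H ↔ x * u = u * x) (χ : Irr G) :
    (dnA p H q φ u χ.1 : ℂ) = dn p H q φ u χ.1 := by
  have huH : u ∈ H := (hH u).2 rfl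
  obtain ⟨n, hn⟩ := restr_decomp χ H
  obtain ⟨c, hc⟩ := exists_scalars H huH fun x hx => (hH x).1 hx
  have h1 := dn_eq_sum p red H hq hφ huH χ n hn (fun ψ => (c ψ : ℂ)) hc
  have h2 : dn p H q φ u χ.1 ∈ integralClosure ℤ ℂ := by
    rw [h1]
    have h3 : (∑ ψ : Irr H, if InL red l ψ.1 then (n ψ : ℂ) * (c ψ : ℂ) else 0) =
        ((∑ ψ : Irr H, if InL red l ψ.1 then (n ψ : AA) * c ψ else 0 : AA) : ℂ) := by
      push_cast
      refine Finset.sum_congr rfl fun ψ _ => ?_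
      split_ifs
      · push_cast; rfl
      · rfl
    rw [h3]
    exact Subtype.property _
  rw [dnA, dif_pos h2]

omit hp [CharP k p] red in
theorem TT_sum {K R ι : Type*} [Group K] [Fintype K] [CommRing R] (s : Finset ι) (z : K → R) (n : ℕ)
    (a : ι → R) (F : ι → K → R) :
    TT z n (fun h => ∑ i ∈ s, a i * F i h) = ∑ i ∈ s, a i * TT z n (F i) := by
  unfold TT
  simp only [Finset.mul_sum]
  rw [Finset.sum_comm]
  exact Finset.sum_congr rfl fun i _ => Finset.sum_congr rfl fun w _ => by ring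

/-- **(APP)** -/
theorem approx (H : Subgroup G) {l : (H → k) → k} {q : ℕ} (hq : q ≠ 0) {φ : H → ℂ}
    (hφ : ND red p l q φ) {u : G} {a : ℕ} (hu : u ^ p ^ a = 1) (hH : ∀ x, x ∈ H ↔ x * u = u * x)
    (j : G → AA) (hj : ∀ x, j (u * x * u⁻¹) = j x)
    {E : H → AA} (hE : IsCF E) {b : AA} (hb : red b ≠ 0)
    (hz : ∀ g : H, red (b * j g - conv E (fun h : H => j h) g) = 0)
    (hkill : ∀ ψ : Irr H, ¬ InL red l ψ.1 → cv E (chA ψ) = 0) (N : ℕ) :
    ∃ M : ℕ, ∀ m ≥ M, ∀ χ : Irr G,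
      ∑ w : Fin (p ^ m) → G, (∏ i, j (w i)) * chA χ (u * wprod w) -
        TT (fun h : H => j h) (p ^ m) (chA ⟨φ, hφ.irr⟩) * dnA p H q φ u χ.1 ∈ QN p red N := by
  have huH : u ∈ H := (hH u).2 rfl
  obtain ⟨M₀, hM₀⟩ := exists_TT_mem p red (z := fun h : H => j h) hE hb hz N
  obtain ⟨c, hc⟩ := exists_scalars H huH fun x hx => (hH x).1 hx
  set s : ℕ := (Nat.card H).factorization p with hs
  refine ⟨M₀ + N + s, fun m hm χ => ?_⟩
  obtain ⟨n, hn⟩ := restr_decomp χ H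
  -- cut
  have h1 := cut_mem p red u hu j (chA χ) hj (chA_isCF χ) H hH m
  have h1' := QN_mono (show N ≤ m + 1 by omega) h1
  have h2 : ∑ w : Fin (p ^ m) → G, (∏ i, j (w i)) * chA χ (wprod w * u) =
      ∑ w : Fin (p ^ m) → G, (∏ i, j (w i)) * chA χ (u * wprod w) := by
    refine Finset.sum_congr rfl fun w _ => ?_
    congr 1
    exact Subtype.ext (χ.mul_comm _ _)
  rw [h2] at h1'
  -- decomposition
  have h3 : (fun h : H => chA χ ((h : G) * u)) = fun h : H => ∑ ψ : Irr H, ((n ψ : AA) * c ψ) * chA ψ h := by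
    funext h
    apply Subtype.ext
    push_cast
    have h4 : (chA χ ((h : G) * u) : ℂ) = χ.1 (((⟨u, huH⟩ : H) * h : H) : G) := by
      change χ.1 ((h : G) * u) = χ.1 (u * (h : G))
      rw [(hH h).1 h.2]
    rw [h4, hn]
    refine Finset.sum_congr rfl fun ψ _ => ?_
    rw [hc]
    change _ = _ * (ψ.1 h)
    ring
  rw [h3, TT_sum] at h1'
  -- the numbers
  have h5 : dnA p H q φ u χ.1 = ∑ ψ : Irr H, if InL red l ψ.1 then (n ψ : AA) * c ψ else 0 := by
    apply Subtype.ext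
    rw [dnA_coe p red H hq hφ hH χ, dn_eq_sum p red H hq hφ huH χ n hn (fun ψ => (c ψ : ℂ)) hc]
    push_cast
    refine Finset.sum_congr rfl fun ψ _ => ?_
    split_ifs
    · push_cast; rfl
    · rfl
  have h6 : ∑ ψ : Irr H, ((n ψ : AA) * c ψ) * TT (fun h : H => j h) (p ^ m) (chA ψ) -
      TT (fun h : H => j h) (p ^ m) (chA ⟨φ, hφ.irr⟩) * dnA p H q φ u χ.1 ∈ QN p red N := by
    rw [h5, Finset.mul_sum, ← Finset.sum_sub_distrib]
    refine Ideal.sum_mem _ fun ψ _ => ?_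
    by_cases hψ : InL red l ψ.1
    · rw [if_pos hψ]
      have h7 : (n ψ : AA) * c ψ * TT (fun h : H => j h) (p ^ m) (chA ψ) -
          TT (fun h : H => j h) (p ^ m) (chA ⟨φ, hφ.irr⟩) * ((n ψ : AA) * c ψ) =
          (n ψ : AA) * c ψ * (TT (fun h : H => j h) (p ^ m) (chA ψ) -
            TT (fun h : H => j h) (p ^ m) (chA ⟨φ, hφ.irr⟩)) := by ring
      rw [h7]
      refine Ideal.mul_mem_left _ _ ?_
      have h8 := TT_congr p red ⟨φ, hφ.irr⟩ ψ (fun t ht => hφ.eq ψ hψ t ht) (fun h : H => j h) s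
        (fun x => not_dvd_orderOf_pow p x) (m - s)
      rw [Nat.sub_add_cancel (by omega)] at h8
      exact QN_mono (by omega) h8
    · rw [if_neg hψ, mul_zero, sub_zero]
      refine Ideal.mul_mem_left _ _ ?_
      exact hM₀ (p ^ m) (by
        have := Nat.lt_pow_self (n := m) hp.out.one_lt
        omega) _ (hkill ψ hψ)
  have h9 := Ideal.add_mem _ h1' h6
  rwa [sub_add_sub_cancel] at h9

end

end P179I
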