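import Vale.Agent.P179.H905.I4
import Vale.Agent.P179.H526.KDef

/-!
# (INT) 7: the integral function `j`
-/

namespace P179I

open Finset P179P P179C P179Y Subgroup P179H524

open scoped Classical

universe v

section Alg

variable {k : Type v} [Field k] {K : Type} [Group K] [Fintype K]

theorem conv_assoc' (a b c : K → k) : conv (conv a b) c = conv a (conv b c) := by
  funext g
  have h : mkF (conv (conv a b) c) = mkF (conv a (conv b c)) := by
    simp only [mkF_conv, mul_assoc]
  rw [← coeff_mkF (conv (conv a b) c) g, h, coeff_mkF]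

theorem conv_comm' {e : K → k} (he : IsCF e) (b : K → k) : conv e b = conv b e := by
  funext g
  have h : mkF (conv e b) = mkF (conv b e) := by
    rw [mkF_conv, mkF_conv]
    exact (Subalgebra.mem_center_iff.1 (mkF_mem he) _).symm
  rw [← coeff_mkF (conv e b) g, h, coeff_mkF]

theorem conv_smul_right (r : k) (a b : K → k) : conv a (r • b) = r • conv a b := by
  funext g
  unfold conv
  rw [Pi.smul_apply, Finset.smul_sum]
  exact Finset.sum_congr rfl fun h _ => by
    rw [Pi.smul_apply, smul_eq_mul, smul_eq_mul]; ring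

end Alg

section X0

variable {p : ℕ} [hp : Fact p.Prime] {k : Type v} [Field k] [CharP k p] {G : Type} [Group G]
  [Fintype G] {D : Subgroup G} {l : (G → k) → k}

omit [CharP k p] in
theorem not_dvd_relIndex (hD : IsPGroup p D) {M : Subgroup G} (hDM : D ≤ M)
    (h : ∀ P : Subgroup G, IsPGroup p P → P ≤ M → P ≤ D) : ¬ p ∣ D.relIndex M := by
  intro hdvd
  obtain ⟨n, hn⟩ := (IsPGroup.iff_card (p := p)).1 hD
  have h1 : Nat.card M = Nat.card D * D.relIndex M := by
    have h5 := relIndex_mul_relIndex (⊥ : Subgroup G) D M bot_le hDM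
    rw [relIndex_bot_left, relIndex_bot_left] at h5
    exact h5.symm
  have h2 : p ^ (n + 1) ∣ Nat.card M := by
    rw [h1, hn, pow_succ]
    exact mul_dvd_mul_left _ hdvd
  obtain ⟨P, hP⟩ := Sylow.exists_subgroup_card_pow_prime p h2
  have hP2 : IsPGroup p (P.map M.subtype) := by
    apply IsPGroup.of_card (n := n + 1)
    rw [Subgroup.card_map_of_injective M.subtype_injective, hP]
  have h3 := h _ hP2 (by
    rintro _ ⟨y, -, rfl⟩
    exact y.2)
  have h4 := Nat.le_of_dvd Nat.card_pos (Subgroup.card_dvd_of_le h3)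
  rw [Subgroup.card_map_of_injective M.subtype_injective, hP, hn] at h4
  exact absurd h4 (not_le.2 (Nat.pow_lt_pow_right hp.out.one_lt (Nat.lt_succ_self n)))

/-- the delta function -/
def dlt {R : Type*} [Zero R] [One R] {G : Type*} (x₀ : G) [DecidableEq G] : G → R :=
  fun g => if g = x₀ then 1 else 0

omit hp [CharP k p] [Fintype G] in
theorem dlt_inv {R : Type*} [Zero R] [One R] {x₀ : G} (hx₀ : x₀ ∈ centralizer (D : Set G)) :
    ∀ d ∈ D, ∀ g, (dlt x₀ : G → R) (d * g * d⁻¹) = dlt x₀ g := by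
  intro d hd g
  unfold dlt
  have h1 : d * x₀ = x₀ * d := mem_centralizer_iff.1 hx₀ d hd
  have h2 : d * g * d⁻¹ = x₀ ↔ g = x₀ := by
    constructor
    · intro h
      have h3 : d * g = d * x₀ := by rw [h1, ← h]; group
      exact mul_left_cancel h3
    · rintro rfl
      rw [h1]; group
  simp only [h2]

omit hp [CharP k p] in
theorem WW_dlt (hab : D ≤ centralizer (D : Set G)) {x₀ : G} (hx₀ : x₀ ∈ centralizer (D : Set G)) :
    WW D (dlt x₀ : G → k) = (D.relIndex (centralizer (D : Set G) ⊓ centralizer {x₀}) : k) •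
      ext (centralizer (D : Set G)) (cls k (⟨x₀, hx₀⟩ : centralizer (D : Set G))) := by
  set C : Subgroup G := centralizer (D : Set G) with hC
  have hinv := dlt_inv (R := k) (D := D) hx₀
  have hDM : D ≤ C ⊓ centralizer {x₀} := by
    refine le_inf hab fun d hd => ?_
    rw [mem_centralizer_singleton_iff]
    exact mem_centralizer_iff.1 hx₀ d hd
  -- the value at `x₀`
  have h1 : TrS D C (dlt x₀ : G → k) x₀ = (D.relIndex (C ⊓ centralizer {x₀}) : k) := by
    rw [← card_cosets D (C ⊓ centralizer {x₀}) hDM, Finset.card_filter]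
    push_cast
    unfold TrS
    refine Finset.sum_congr rfl fun c _ => ?_
    have h2 : c.out⁻¹ * x₀ * c.out = x₀ ↔ c.out ∈ centralizer {x₀} := by
      rw [mem_centralizer_singleton_iff, mul_assoc, inv_mul_eq_iff_eq_mul]
      exact eq_comm
    unfold dlt
    by_cases h3 : c.out ∈ C
    · by_cases h4 : c.out ∈ centralizer {x₀}
      · rw [if_pos h3, if_pos (h2.2 h4), if_pos (Subgroup.mem_inf.2 ⟨h3, h4⟩)]
      · rw [if_pos h3, if_neg (fun h => h4 (h2.1 h)), if_neg (fun h => h4 (Subgroup.mem_inf.1 h).2)]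
    · rw [if_neg h3, if_neg (fun h => h3 (Subgroup.mem_inf.1 h).1)]
  funext g
  rw [Pi.smul_apply, smul_eq_mul]
  by_cases hg : g ∈ C
  · have h2 : WW D (dlt x₀ : G → k) g = TrS D C (dlt x₀ : G → k) g := by
      unfold WW cutC
      rw [if_pos hg]
    rw [h2, ext_of_mem C _ hg]
    unfold cls
    by_cases hconj : IsConj (⟨x₀, hx₀⟩ : C) ⟨g, hg⟩
    · rw [if_pos hconj, mul_one, ← h1]
      obtain ⟨c, hc⟩ := isConj_iff.1 hconj
      have h3 : (c : G) * x₀ * (c : G)⁻¹ = g := congrArg Subtype.val hc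
      rw [← h3, TrS_inv hab hinv c.2]
    · rw [if_neg hconj, mul_zero]
      unfold TrS
      refine Finset.sum_eq_zero fun c _ => ?_
      by_cases hc : c.out ∈ C
      · rw [if_pos hc]
        unfold dlt
        rw [if_neg]
        intro h3
        apply hconj
        refine isConj_iff.2 ⟨⟨c.out, hc⟩, Subtype.ext ?_⟩
        change c.out * x₀ * c.out⁻¹ = g
        rw [← h3]; group
      · rw [if_neg hc]
  · rw [ext_of_not_mem C _ hg, mul_zero]
    unfold WW cutC
    rw [if_neg hg]

theorem exists_x0 (hl : BP p D l) (hD : IsPGroup p D) (hab : D ≤ centralizer (D : Set G)) :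
    ∃ x₀ ∈ centralizer (D : Set G), l (WW D (dlt x₀ : G → k)) ≠ 0 := by
  set C : Subgroup G := centralizer (D : Set G) with hC
  have hlC := hl.restrict (H := C) hab le_rfl
  have hDp : IsPGroup p (D.subgroupOf C) := hD.comap_subtype
  have habC : D.subgroupOf C ≤ centralizer ((D.subgroupOf C : Subgroup C) : Set C) := by
    intro x hx
    rw [mem_cent_subgroupOf hab]
    exact hab (by simpa [Subgroup.mem_subgroupOf] using hx)
  obtain ⟨a, ha, hla, hax⟩ := hl.dfct
  have hb : IsCF (fun h : C => a h) := fun h x => ha.1 h h.2 x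
  obtain ⟨x₀, hx₀, hne⟩ := exists_cls_ne (μ := lres C l) (hlC.isHomCF hDp habC) hb (by
    rw [hl.lres_coe le_rfl]
    exact hla)
  refine ⟨x₀, x₀.2, ?_⟩
  rw [WW_dlt hab x₀.2, hl.smul]
  refine mul_ne_zero ?_ hne
  rw [Ne, CharP.cast_eq_zero_iff k p]
  refine not_dvd_relIndex hD ?_ ?_
  · refine le_inf hab fun d hd => ?_
    rw [mem_centralizer_singleton_iff]
    exact mem_centralizer_iff.1 x₀.2 d hd
  · intro P hP hPM
    exact hax x₀ hx₀ P hP (hPM.trans inf_le_right) (hPM.trans inf_le_left)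

end X0

section ED

variable {k : Type v} [Field k] (red : AA →+* k) {G : Type} [Group G] [Fintype G]

/-- the (lifted) idempotent of a block with `ND` -/
structure ED (H : Subgroup G) (l : (G → k) → k) (E : H → AA) (e : H → k) (b : ℕ) : Prop where
  hb : (b : k) ≠ 0
  cfE : IsCF E
  red_E : ∀ x, red (E x) = b * e x
  cfe : IsCF e
  idem : conv e e = e
  le : lres H l e = 1
  kill : ∀ ψ : Irr H, ¬ InL red (lres H l) ψ.1 → cv E (chA ψ) = 0
  lam : ∀ ψ : Irr H, lam red ψ.1 e = if InL red (lres H l) ψ.1 then 1 else 0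

variable (p : ℕ) [hp : Fact p.Prime] [CharP k p]

theorem exists_ED (H : Subgroup G) {l : (G → k) → k} {q : ℕ} {φ : H → ℂ}
    (hφ : ND red p (lres H l) q φ) : ∃ E e b, ED red H l E e b := by
  obtain ⟨a, b, ha, hb, hab⟩ := hφ.unit
  obtain ⟨E, e, hE, hEx, hred, he, hee, hle, -, hlam⟩ := exists_idem p red hφ hb hab
  have hH0 : (Nat.card H : ℂ) ≠ 0 := by exact_mod_cast Nat.card_pos.ne'
  have hEE : ∀ x, (E x : ℂ) = b * Eid red (lres H l) x := by
    intro x
    rw [hEx, Eid, KK_one_eq p red hφ]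
    by_cases hx : ¬ p ∣ orderOf x
    · rw [if_pos hx, if_pos hx, eq_comm, mul_div_assoc', div_eq_iff hH0]
      linear_combination (-φ x⁻¹) * hab
    · rw [if_neg hx, if_neg hx]
      simp
  refine ⟨E, e, b, ⟨?_, hE, hred, he, hee, hle, ?_, hlam⟩⟩
  · rw [Ne, CharP.cast_eq_zero_iff k p]; exact hb
  · intro ψ hψ
    funext y
    apply Subtype.ext
    change ((∑ g, E g * chA ψ (g * y) : AA) : ℂ) = ((0 : AA) : ℂ)
    push_cast
    have h1 : ∀ g : H, (E g : ℂ) * (chA ψ (g * y) : ℂ) =
        b * (Eid red (lres H l) g * ψ.1 (y * g)) := by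
      intro g
      rw [hEE, ← ψ.mul_comm]
      change _ * ψ.1 (g * y) = _
      ring
    rw [Finset.sum_congr rfl fun g _ => h1 g, ← Finset.mul_sum,
      sum_mul_irr' ψ (Eid_isCF red (lres H l)), omC_Eid, if_neg hψ, zero_mul, mul_zero]

end ED

end P179I
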