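import Vale.Agent.P179.H905.I7

/-!
# (INT) 8: the integral function `j`, construction
-/

namespace P179I

open Finset P179P P179C P179Y Subgroup P179H524

open scoped Classical

universe v

section

variable {p : ℕ} [hp : Fact p.Prime] {k : Type v} [Field k] [CharP k p] {red : AA →+* k}
  {G : Type} [Group G] [Fintype G] {D : Subgroup G} {l : (G → k) → k}

omit hp [CharP k p] [Fintype G] in
theorem mem_cent_zpowers (u x : G) :
    x ∈ centralizer ((zpowers u : Subgroup G) : Set G) ↔ x ∈ centralizer ({u} : Set G) := by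
  rw [mem_centralizer_iff, mem_centralizer_singleton_iff]
  constructor
  · intro h
    exact (h u (mem_zpowers u)).symm
  · rintro h _ ⟨i, rfl⟩
    exact ((Commute.zpow_right (show Commute x u from h) i).eq).symm

include hp in
/-- the Brauer homomorphism to `C_G(u)` -/
theorem res_conv {u : G} {a : ℕ} (hu : u ^ p ^ a = 1) {x y : G → k}
    (hx : ∀ g, x (u * g * u⁻¹) = x g) (hy : ∀ g, y (u * g * u⁻¹) = y g) :
    (fun h : (centralizer {u} : Subgroup G) => conv y x h) =
      conv (fun h : (centralizer {u} : Subgroup G) => y h) (fun h => x h) := by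
  set H : Subgroup G := centralizer {u} with hH
  have hP : IsPGroup p (zpowers u) := by
    rintro ⟨_, i, rfl⟩
    refine ⟨a, Subtype.ext ?_⟩
    change (u ^ i) ^ p ^ a = 1
    rw [← zpow_natCast, ← zpow_mul, mul_comm, zpow_mul, zpow_natCast, hu, one_zpow]
  have hinv : ∀ {x : G → k}, (∀ g, x (u * g * u⁻¹) = x g) → ∀ d ∈ zpowers u, ∀ g,
      x (d * g * d⁻¹) = x g := by
    intro x hx d hd
    obtain ⟨n, rfl⟩ := (mem_powers_iff_mem_zpowers (x := u)).2 hd
    change ∀ g, x (u ^ n * g * (u ^ n)⁻¹) = x g
    induction n with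
    | zero => intro g; simp
    | succ n ih =>
      intro g
      have h1 : u ^ (n + 1) * g * (u ^ (n + 1))⁻¹ = u * (u ^ n * g * (u ^ n)⁻¹) * u⁻¹ := by
        rw [pow_succ']; group
      rw [h1, hx]
      exact ih (by exact npow_mem_zpowers u n) g
  have hext : ∀ x : G → k, ext H (fun h : H => x h) = cutC (zpowers u) x := by
    intro x
    funext g
    by_cases hg : g ∈ H
    · rw [ext_of_mem H _ hg, cutC, if_pos ((mem_cent_zpowers u g).2 hg)]
    · rw [ext_of_not_mem H _ hg, cutC, if_neg (fun h => hg ((mem_cent_zpowers u g).1 h))]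
  funext h
  have h1 := conv_cut p (zpowers u) hP (hinv hy) (hinv hx) ((mem_cent_zpowers u h).2 h.2)
  rw [h1, ← hext, ← hext, ← ext_conv, P179Y.ext_coe]

/-- extension by zero -/
noncomputable def extA (H : Subgroup G) (z : H → AA) : G → AA :=
  fun g => if h : g ∈ H then z ⟨g, h⟩ else 0

omit hp [CharP k p] [Fintype G] in
theorem red_extA (H : Subgroup G) {E : H → AA} {e : H → k} {b : ℕ}
    (h : ∀ x, red (E x) = b * e x) : (fun g => red (extA H E g)) = (b : k) • ext H e := by
  funext g
  rw [Pi.smul_apply, smul_eq_mul]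
  by_cases hg : g ∈ H
  · rw [extA, dif_pos hg, ext_of_mem H _ hg, h]
  · rw [extA, dif_neg hg, ext_of_not_mem H _ hg, map_zero, mul_zero]

omit [Fintype G] in
theorem extA_inv (H : Subgroup G) {E : H → AA} (hE : IsCF E) {c : G} (hc : c ∈ H) (g : G) :
    extA H E (c * g * c⁻¹) = extA H E g := by
  unfold extA
  by_cases hg : g ∈ H
  · rw [dif_pos hg, dif_pos (mul_mem (mul_mem hc hg) (inv_mem hc))]
    exact hE ⟨c, hc⟩ ⟨g, hg⟩
  · rw [dif_neg hg, dif_neg]
    intro h1
    apply hg
    have := mul_mem (mul_mem (inv_mem hc) h1) hc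
    have e : c⁻¹ * (c * g * c⁻¹) * c = g := by group
    rwa [e] at this

omit hp [CharP k p] in
theorem red_conv (a b : G → AA) : (fun g => red (conv a b g)) =
    conv (fun g => red (a g)) (fun g => red (b g)) := by
  funext g
  unfold conv
  rw [map_sum]
  exact Finset.sum_congr rfl fun h _ => by rw [map_mul]

theorem conv_inv {R : Type*} [CommRing R] {a b : G → R} {c : G}
    (ha : ∀ g, a (c * g * c⁻¹) = a g) (hb : ∀ g, b (c * g * c⁻¹) = b g) (g : G) :
    conv a b (c * g * c⁻¹) = conv a b g := by
  unfold conv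
  symm
  refine Fintype.sum_equiv (MulAut.conj c).toEquiv _ _ fun h => ?_
  change _ = a (c * h * c⁻¹) * b ((c * h * c⁻¹)⁻¹ * (c * g * c⁻¹))
  have e1 : (c * h * c⁻¹)⁻¹ * (c * g * c⁻¹) = c * (h⁻¹ * g) * c⁻¹ := by group
  rw [e1, ha, hb]

omit hp [CharP k p] [Fintype G] in
theorem cj_cutC {n : G} (hn : n ∈ normalizer (D : Set G)) (x : G → k) :
    cj n (cutC D x) = cutC D (cj n x) := by
  funext g
  unfold cj cutC
  have := conj_mem_cent (inv_mem hn) g
  rw [inv_inv] at this
  by_cases h : g ∈ centralizer (D : Set G)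
  · rw [if_pos h, if_pos (this.2 h)]
  · rw [if_neg h, if_neg (fun h' => h (this.1 h'))]

include p hp in
/-- separation by the block of `C_G(D)` -/
theorem sep_ED [IsAlgClosed k] (hl : BP p D l) (hD : IsPGroup p D)
    (hab : D ≤ centralizer (D : Set G))
    {E : (centralizer (D : Set G) : Subgroup G) → AA} {e : (centralizer (D : Set G) : Subgroup G) → k}
    {b : ℕ} (hE : ED red (centralizer (D : Set G)) l E e b) {n : G}
    (hn : n ∈ normalizer (D : Set G)) (hnT : n ∉ stabT D l) :
    l (cj n (ext (centralizer (D : Set G)) e)) = 0 := by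
  have hμ := hl.isHomCF_cj hD hab (H := centralizer (D : Set G)) le_rfl hn
  obtain ⟨ψ, hψ⟩ := exists_inL p red hμ
  have h1 := hψ e hE.cfe
  rw [hE.lam] at h1
  by_cases hψl : InL red (lres (centralizer (D : Set G)) l) ψ.1
  · exfalso
    apply hnT
    rw [mem_stabT]
    refine ⟨hn, fun z hz => ?_⟩
    have hzz : ext (centralizer (D : Set G)) (fun h : (centralizer (D : Set G) : Subgroup G) => z h) = z := ext_restr' hz.2
    have hzCF : IsCF (fun h : (centralizer (D : Set G) : Subgroup G) => z h) := fun h x => hz.1 h h.2 x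
    have h5 := hψ _ hzCF
    rw [hψl _ hzCF] at h5
    unfold lres at h5
    beta_reduce at h5
    rw [hzz] at h5
    exact h5.symm
  · rw [if_neg hψl] at h1
    exact h1.symm

include p hp in
/-- **the function `j`** -/
theorem exists_j [IsAlgClosed k] (hl : BP p D l) (hD : IsPGroup p D)
    (hab : D ≤ centralizer (D : Set G))
    {E₀ : (centralizer (D : Set G) : Subgroup G) → AA} {e₀ : (centralizer (D : Set G) : Subgroup G) → k}
    {b₀ : ℕ} (hE₀ : ED red (centralizer (D : Set G)) l E₀ e₀ b₀)
    (E : ∀ u : G, (centralizer {u} : Subgroup G) → AA)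
    (e : ∀ u : G, (centralizer {u} : Subgroup G) → k) (b : G → ℕ) (S : Finset G)
    (hS : ∀ u ∈ S, u ∈ D) (hE : ∀ u ∈ S, ED red (centralizer {u}) l (E u) (e u) (b u)) :
    ∃ j : G → AA, (∀ d ∈ D, ∀ g, j (d * g * d⁻¹) = j g) ∧ l (WW D (fun g => red (j g))) ≠ 0 ∧
      (∀ n ∈ normalizer (D : Set G), n ∉ stabT D l → l (cj n (WW D (fun g => red (j g)))) = 0) ∧
      ∀ u ∈ S, conv (e u) (fun h : (centralizer {u} : Subgroup G) => red (j h)) =
        (fun h : (centralizer {u} : Subgroup G) => red (j h)) := by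
  -- the general step
  have hWWcutl : ∀ (y x : G → k), (∀ d ∈ D, ∀ g, x (d * g * d⁻¹) = x g) →
      (∀ c ∈ centralizer (D : Set G), ∀ g, y (c * g * c⁻¹) = y g) → l (WW D (conv y x)) = l y * l (WW D x) ∧
      ∀ n ∈ normalizer (D : Set G), l (cj n (WW D (conv y x))) = l (cj n y) * l (cj n (WW D x)) := by
    intro y x hx hy
    have h1 := WW_conv hD hab hx hy
    have hyi := invOn_cutC D hy
    have hxi := WW_inv hab hx
    refine ⟨?_, fun n hn => ?_⟩
    · rw [h1, hl.mul _ _ hyi hxi, hl.cut]
    · rw [h1, cj_conv, hl.mul _ _ (hyi.cj hn) (hxi.cj hn), cj_cutC hn, hl.cut]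
  induction S using Finset.induction_on with
  | empty =>
    obtain ⟨x₀, hx₀, hne⟩ := exists_x0 hl hD hab
    have hred := red_extA (red := red) (centralizer (D : Set G)) hE₀.red_E
    have hdlt : (fun g => red ((dlt x₀ : G → AA) g)) = (dlt x₀ : G → k) := by
      funext g
      unfold dlt
      split_ifs
      · exact map_one red
      · exact map_zero red
    have hyinv : ∀ c ∈ centralizer (D : Set G), ∀ g, ((b₀ : k) • ext (centralizer (D : Set G)) e₀) (c * g * c⁻¹) = ((b₀ : k) • ext (centralizer (D : Set G)) e₀) g := by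
      intro c hc g
      rw [← hred]
      beta_reduce
      rw [extA_inv (centralizer (D : Set G)) hE₀.cfE hc]
    refine ⟨conv (extA (centralizer (D : Set G)) E₀) (dlt x₀), ?_, ?_, ?_, by simp⟩
    · intro d hd g
      exact conv_inv (fun g => extA_inv (centralizer (D : Set G)) hE₀.cfE (hab hd) g) (dlt_inv hx₀ d hd) g
    · rw [red_conv, hred, hdlt, (hWWcutl _ _ (dlt_inv hx₀) hyinv).1, hl.smul]
      refine mul_ne_zero (mul_ne_zero hE₀.hb ?_) hne
      have := hE₀.le
      unfold lres at this
      rw [this]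
      exact one_ne_zero
    · intro n hn hnT
      rw [red_conv, hred, hdlt, (hWWcutl _ _ (dlt_inv hx₀) hyinv).2 n hn, cj_smul, hl.smul,
        sep_ED hl hD hab hE₀ hn hnT, mul_zero, zero_mul]
  | insert v S hv ih =>
    obtain ⟨j, hj1, hj2, hj3, hj4⟩ := ih (fun u hu => hS u (mem_insert_of_mem hu))
      (fun u hu => hE u (mem_insert_of_mem hu))
    have hEv := hE v (mem_insert_self _ _)
    have hvD := hS v (mem_insert_self _ _)
    have hCH : centralizer (D : Set G) ≤ centralizer {v} := cent_le_of_mem hvD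
    have hDH : D ≤ centralizer {v} := le_cent_of_mem hvD hab
    have hred := red_extA (red := red) (centralizer {v}) hEv.red_E
    have hyinvA : ∀ c ∈ centralizer {v}, ∀ g, extA (centralizer {v}) (E v) (c * g * c⁻¹) =
        extA (centralizer {v}) (E v) g := fun c hc g => extA_inv _ hEv.cfE hc g
    have hyinv : ∀ c ∈ centralizer {v}, ∀ g, ((b v : k) • ext (centralizer {v}) (e v)) (c * g * c⁻¹) =
        ((b v : k) • ext (centralizer {v}) (e v)) g := by
      intro c hc g
      rw [← hred]
      beta_reduce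
      rw [hyinvA c hc]
    have hxinv : ∀ d ∈ D, ∀ g, (fun g => red (j g)) (d * g * d⁻¹) = (fun g => red (j g)) g :=
      fun d hd g => congrArg red (hj1 d hd g)
    refine ⟨conv (extA (centralizer {v}) (E v)) j, ?_, ?_, ?_, ?_⟩
    · intro d hd g
      exact conv_inv (fun g => hyinvA d (hDH hd) g) (hj1 d hd) g
    · rw [red_conv, hred, (hWWcutl _ _ hxinv (fun c hc => hyinv c (hCH hc))).1, hl.smul]
      refine mul_ne_zero (mul_ne_zero hEv.hb ?_) hj2
      have := hEv.le
      unfold lres at this
      rw [this]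
      exact one_ne_zero
    · intro n hn hnT
      rw [red_conv, hred, (hWWcutl _ _ hxinv (fun c hc => hyinv c (hCH hc))).2 n hn,
        hj3 n hn hnT, mul_zero]
    · intro u hu
      have huD := hS u hu
      have hEu := hE u hu
      obtain ⟨n, hn⟩ := hD ⟨u, huD⟩
      have hun : u ^ p ^ n = 1 := by simpa using congrArg Subtype.val hn
      have h1 : (fun h : (centralizer {u} : Subgroup G) => red (conv (extA (centralizer {v}) (E v)) j h)) =
          conv (fun h : (centralizer {u} : Subgroup G) => ((b v : k) • ext (centralizer {v}) (e v)) h)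
            (fun h : (centralizer {u} : Subgroup G) => red (j h)) := by
        refine Eq.trans ?_ (res_conv (x := fun g => red (j g))
          (y := (b v : k) • ext (centralizer {v}) (e v)) hun (hxinv u huD) (hyinv u (hDH huD)))
        funext h
        rw [← hred]
        exact congrFun (red_conv (red := red) (extA (centralizer {v}) (E v)) j) h
      rw [h1]
      rcases Finset.mem_insert.1 hu with rfl | huS
      · have h2 : (fun h : (centralizer {u} : Subgroup G) =>
            ((b u : k) • ext (centralizer {u}) (e u)) h) = (b u : k) • e u := by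
          funext h
          rw [Pi.smul_apply, Pi.smul_apply, P179Y.ext_coe]
        rw [h2, ← conv_assoc', conv_smul_right, hEu.idem]
      · rw [← conv_assoc', conv_comm' hEu.cfe, conv_assoc', hj4 u huS]

end

end P179I
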