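import Vale.Agent.P179.H905.I8

/-!
# (INT) 9: invariance of the generalised decomposition numbers, Gram matrix
-/

namespace P179I

open Finset P179P P179C P179Y Subgroup P179H524

open P179X (pp SameSec)

open scoped Classical

universe v

section

variable {p : ℕ} [hp : Fact p.Prime] {k : Type v} [Field k] [CharP k p] {red : AA →+* k}
  {G : Type} [Group G] [Fintype G] {D : Subgroup G} {l : (G → k) → k}

omit hp [CharP k p] in
theorem l_cj_stab (hl : BP p D l) {t : G} (ht : t ∈ stabT D l) {z : G → k}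
    (hz : ∀ c ∈ centralizer (D : Set G), ∀ x, z (c * x * c⁻¹) = z x) : l (cj t z) = l z := by
  rw [← hl.cut (cj t z), ← cj_cutC (stabT_le_norm D l ht), (mem_stabT.1 ht).2 _ (invOn_cutC D hz),
    hl.cut]

/-- conjugation of centralisers -/
noncomputable def cEquiv (t u : G) :
    (centralizer {u} : Subgroup G) ≃* (centralizer {t * u * t⁻¹} : Subgroup G) where
  toFun x := ⟨t * x * t⁻¹, by
    rw [mem_centralizer_singleton_iff]
    have := mem_centralizer_singleton_iff.1 x.2
    calc t * (x : G) * t⁻¹ * (t * u * t⁻¹) = t * ((x : G) * u) * t⁻¹ := by group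
      _ = t * (u * x) * t⁻¹ := by rw [this]
      _ = _ := by group⟩
  invFun x := ⟨t⁻¹ * x * t, by
    rw [mem_centralizer_singleton_iff]
    have := mem_centralizer_singleton_iff.1 x.2
    calc t⁻¹ * (x : G) * t * u = t⁻¹ * ((x : G) * (t * u * t⁻¹)) * t := by group
      _ = t⁻¹ * (t * u * t⁻¹ * x) * t := by rw [this]
      _ = _ := by group⟩
  left_inv x := Subtype.ext (by simp [mul_assoc])
  right_inv x := Subtype.ext (by simp [mul_assoc])
  map_mul' x y := Subtype.ext (by simp [mul_assoc])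

omit [Fintype G] in
theorem cEquiv_coe (t u : G) (x : (centralizer {u} : Subgroup G)) :
    ((cEquiv t u x : (centralizer {t * u * t⁻¹} : Subgroup G)) : G) = t * x * t⁻¹ := rfl

omit hp [CharP k p] in
/-- comparison of the local characters -/
theorem phi_conj (hl : BP p D l) {u t : G} (hu : u ∈ D)
    (ht : t ∈ stabT D l) {q : ℕ} {φ : (centralizer {u} : Subgroup G) → ℂ}
    {φ' : (centralizer {t * u * t⁻¹} : Subgroup G) → ℂ}
    (hφ : ND red p (lres (centralizer {u}) l) q φ)
    (hφ' : ND red p (lres (centralizer {t * u * t⁻¹}) l) q φ')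
    {s : (centralizer {u} : Subgroup G)} (hs : ¬ p ∣ orderOf s) : φ' (cEquiv t u s) = φ s := by
  have hu' : t * u * t⁻¹ ∈ D := (mem_normalizer_iff.1 (stabT_le_norm D l ht) u).1 hu
  have hCH := cent_le_of_mem (D := D) hu
  have hirr : IsIrrChar (fun x => φ' (cEquiv t u x)) :=
    hφ'.irr.comp (cEquiv t u).toMonoidHom (cEquiv t u).surjective
  refine hφ.eq ⟨_, hirr⟩ ?_ s hs
  intro z hz
  have h1 : IsCF (fun x => z ((cEquiv t u).symm x)) := by
    intro a x
    simp only [map_mul, map_inv]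
    exact hz _ _
  have h2 : z = fun x => (fun y => z ((cEquiv t u).symm y)) (cEquiv t u x) := by
    funext x; simp
  rw [h2, lam_comp red (cEquiv t u) hφ'.irr h1, hφ'.mem _ h1, ← h2]
  unfold lres
  have h3 : ext (centralizer {t * u * t⁻¹}) (fun x => z ((cEquiv t u).symm x)) =
      cj t (ext (centralizer {u}) z) := by
    funext g
    unfold cj
    by_cases hg : t⁻¹ * g * t ∈ (centralizer {u} : Subgroup G)
    · rw [ext_of_mem _ _ hg]
      have hg' : g ∈ (centralizer {t * u * t⁻¹} : Subgroup G) := by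
        have := (cEquiv t u ⟨_, hg⟩).2
        rw [cEquiv_coe] at this
        have e : t * (t⁻¹ * g * t) * t⁻¹ = g := by group
        change t * (t⁻¹ * g * t) * t⁻¹ ∈ _ at this
        rwa [e] at this
      rw [ext_of_mem _ _ hg']
      rfl
    · rw [ext_of_not_mem _ _ hg, ext_of_not_mem]
      intro hg'
      exact hg ((cEquiv t u).symm ⟨g, hg'⟩).2
  rw [h3]
  refine l_cj_stab hl ht ?_
  intro c hc x
  have hcH := hCH hc
  by_cases hx : x ∈ (centralizer {u} : Subgroup G)
  · rw [ext_of_mem _ _ hx, ext_of_mem _ _ (mul_mem (mul_mem hcH hx) (inv_mem hcH))]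
    exact hz ⟨c, hcH⟩ ⟨x, hx⟩
  · rw [ext_of_not_mem _ _ hx, ext_of_not_mem]
    intro h1
    apply hx
    have := mul_mem (mul_mem (inv_mem hcH) h1) hcH
    have e : c⁻¹ * (c * x * c⁻¹) * c = x := by group
    rwa [e] at this

omit hp [CharP k p] in
/-- invariance of the generalised decomposition numbers -/
theorem dn_conj (hl : BP p D l) {u t : G} (hu : u ∈ D)
    (ht : t ∈ stabT D l) {q : ℕ} {φ : (centralizer {u} : Subgroup G) → ℂ}
    {φ' : (centralizer {t * u * t⁻¹} : Subgroup G) → ℂ}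
    (hφ : ND red p (lres (centralizer {u}) l) q φ)
    (hφ' : ND red p (lres (centralizer {t * u * t⁻¹}) l) q φ') (χ : Irr G) :
    dn p (centralizer {t * u * t⁻¹}) q φ' (t * u * t⁻¹) χ.1 =
      dn p (centralizer {u}) q φ u χ.1 := by
  unfold dn
  rw [Nat.card_congr (cEquiv t u).symm.toEquiv]
  congr 1
  rw [rsum_eq, rsum_eq]
  symm
  refine Finset.sum_bij (fun s _ => cEquiv t u s) ?_ ?_ ?_ ?_
  · intro s hs
    rw [mem_filter] at hs ⊢
    exact ⟨mem_univ _, by rw [(cEquiv t u).orderOf_eq]; exact hs.2⟩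
  · intro s _ s' _ h
    exact (cEquiv t u).injective h
  · intro s hs
    refine ⟨(cEquiv t u).symm s, ?_, (cEquiv t u).apply_symm_apply s⟩
    rw [mem_filter] at hs ⊢
    exact ⟨mem_univ _, by rw [(cEquiv t u).symm.orderOf_eq]; exact hs.2⟩
  · intro s hs
    have h1 : (t * u * t⁻¹) * ((cEquiv t u s : (centralizer {t * u * t⁻¹} : Subgroup G)) : G) =
        t * (u * s) * t⁻¹ := by
      rw [cEquiv_coe]; group
    rw [h1, χ.conj, ← map_inv, phi_conj hl hu ht hφ hφ' (by
      rw [orderOf_inv]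
      exact (mem_filter.1 hs).2)]

/-- the complex conjugate of a generalised decomposition number -/
theorem dn_star (H : Subgroup G) {q : ℕ} {φ : H → ℂ} {l' : (H → k) → k}
    (hφ : ND red p l' q φ) (u : G) (hH : ∀ x, x ∈ H → x * u = u * x) (χ : Irr G) :
    (starRingEnd ℂ) (dn p H q φ u χ.1) = dn p H q φ u⁻¹ χ.1 := by
  unfold dn
  rw [map_mul, map_div₀, map_natCast, map_natCast, rsum_eq, rsum_eq, map_sum]
  congr 1
  refine Finset.sum_bij' (i := fun s _ => s⁻¹) (j := fun s _ => s⁻¹) ?_ ?_ ?_ ?_ ?_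
  · intro s hs
    rw [mem_filter] at hs ⊢
    exact ⟨mem_univ _, by rw [orderOf_inv]; exact hs.2⟩
  · intro s hs
    rw [mem_filter] at hs ⊢
    exact ⟨mem_univ _, by rw [orderOf_inv]; exact hs.2⟩
  · intro s _; exact inv_inv s
  · intro s _; exact inv_inv s
  · intro s _
    rw [map_mul, ← χ.inv_eq_conj]
    have h1 := Irr.inv_eq_conj (⟨φ, hφ.irr⟩ : Irr H) s⁻¹
    rw [inv_inv] at h1
    have h2 : (starRingEnd ℂ) (φ s⁻¹) = φ s := h1.symm
    rw [h2, inv_inv]
    congr 2
    have := hH s s.2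
    push_cast
    rw [← this, mul_inv_rev]

omit hp [CharP k p] in
/-- orthogonality with the `p`-regular elements -/
theorem dn_reg (H : Subgroup G) (q : ℕ) (φ : H → ℂ) {u : G} (hu : ∃ a : ℕ, u ^ p ^ a = 1)
    (hu1 : u ≠ 1) [Fact p.Prime] (hH : ∀ x, x ∈ H ↔ x * u = u * x) {g : G} (hg : ¬ p ∣ orderOf g) :
    ∑ χ : Irr G, dn p H q φ u χ.1 * χ.1 g = 0 := by
  unfold dn
  have h1 : ∀ χ : Irr G, (q : ℂ) / Nat.card H * rsum p (fun t : H => χ.1 (u * t) * φ t⁻¹) * χ.1 g =
      (q : ℂ) / Nat.card H * ∑ t ∈ univ.filter (fun s : H => ¬ p ∣ orderOf s),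
        φ t⁻¹ * (χ.1 (u * t) * χ.1 (g⁻¹)⁻¹) := by
    intro χ
    rw [rsum_eq, mul_assoc, Finset.sum_mul]
    congr 1
    exact Finset.sum_congr rfl fun t _ => by rw [inv_inv]; ring
  rw [Finset.sum_congr rfl fun χ _ => h1 χ, ← Finset.mul_sum, Finset.sum_comm]
  rw [Finset.sum_eq_zero, mul_zero]
  intro t ht
  rw [← Finset.mul_sum, col_orth]
  have h2 : IsEmpty {x : G // x * (u * t) * x⁻¹ = g⁻¹} := by
    refine ⟨fun x => hu1 ?_⟩
    have h3 : pp p (u * (t : G)) = u := by
      refine pp_eq ((hH t).1 t.2).symm hu ?_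
      rw [Subgroup.orderOf_coe]
      exact (mem_filter.1 ht).2
    have h4 : pp p (g⁻¹) = 1 := (pp_eq_one_iff _).2 (by rwa [orderOf_inv])
    have h5 := pp_conj (p := p) x.1 (u * (t : G))
    rw [x.2, h3, h4] at h5
    have h6 : x.1⁻¹ * (x.1 * u * x.1⁻¹) * x.1 = u := by group
    rw [← h5] at h6
    rw [← h6]; group
  rw [Nat.card_of_isEmpty, Nat.cast_zero, mul_zero]

end

end P179I
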