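import Vale.Agent.P179.H905.I16

/-!
# (INT), general form: 1. further factors of the function `j`
-/

namespace P179I

open Finset P179P P179C P179Y Subgroup P179H524

open scoped Classical

universe v

set_option linter.unusedSectionVars false

section Kill

variable {K R : Type*} [Group K] [Fintype K] [CommRing R]

theorem sum_conv_kill {z E F : K → R} (hF : cv E F = 0) (y : K) :
    ∑ g, conv E z g * F (g * y) = 0 := by
  unfold conv
  simp only [Finset.sum_mul]
  rw [Finset.sum_comm]
  have h2 : ∀ h : K, ∑ g, E h * z (h⁻¹ * g) * F (g * y) = ∑ g, z g * (E h * F (h * (g * y))) := by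
    intro h
    rw [← Equiv.sum_comp (Equiv.mulLeft h)]
    refine Finset.sum_congr rfl fun g _ => ?_
    rw [Equiv.coe_mulLeft, inv_mul_cancel_left, mul_assoc h g y]
    ring
  rw [Finset.sum_congr rfl fun h _ => h2 h, Finset.sum_comm]
  refine Finset.sum_eq_zero fun g _ => ?_
  rw [← Finset.mul_sum]
  have h3 : ∑ h, E h * F (h * (g * y)) = 0 := congrFun hF (g * y)
  rw [h3, mul_zero]

theorem TT_kill' {z y z'' F : K → R} (hy : IsCF y) (hF : cv y F = 0) (n : ℕ) :
    TT (fun g => z g - conv y z'' g) n F = TT z n F := by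
  rw [TT_eq_cv, TT_eq_cv]
  have h : cv y ((cv z)^[n] F) = 0 ∧
      (cv (fun g => z g - conv y z'' g))^[n] F = (cv z)^[n] F := by
    induction n with
    | zero => exact ⟨hF, rfl⟩
    | succ n ih =>
      obtain ⟨ih1, ih2⟩ := ih
      refine ⟨?_, ?_⟩
      · rw [Function.iterate_succ', Function.comp_apply]
        exact cv_cv_kill hy ih1
      · rw [Function.iterate_succ', Function.comp_apply, ih2, Function.iterate_succ',
          Function.comp_apply]
        generalize (cv z)^[n] F = F' at ih1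
        ext x
        unfold cv
        simp only [sub_mul, Finset.sum_sub_distrib]
        rw [sum_conv_kill ih1, sub_zero]
  rw [h.2]

end Kill

section

variable {p : ℕ} [hp : Fact p.Prime] {k : Type v} [Field k] [CharP k p] {red : AA →+* k}

theorem exists_TT_mem' {K : Type*} [Group K] [Fintype K] {z y z'' : K → AA} (hy : IsCF y)
    (hz : ∀ g, red (z g - conv y z'' g) = 0) (N : ℕ) :
    ∃ M : ℕ, ∀ n ≥ M, ∀ F : K → AA, cv y F = 0 → TT z n F ∈ QN p red N := by
  obtain ⟨M, hM⟩ := exists_prod_mem (p := p) (red := red) (fun g => z g - conv y z'' g) hz N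
  refine ⟨M, fun n hn F hF => ?_⟩
  rw [← TT_kill' (z'' := z'') hy hF n, TT]
  refine Ideal.sum_mem _ fun w _ => ?_
  exact Ideal.mul_mem_right _ _ (hM n hn w)

variable {G : Type} [Group G] [Fintype G] {D : Subgroup G} {l : (G → k) → k}

include hp in
theorem WW_l_mul (hl : BP p D l) (hD : IsPGroup p D) (hab : D ≤ centralizer (D : Set G))
    (y x : G → k) (hx : ∀ d ∈ D, ∀ g, x (d * g * d⁻¹) = x g)
    (hy : ∀ c ∈ centralizer (D : Set G), ∀ g, y (c * g * c⁻¹) = y g) :
    l (WW D (conv y x)) = l y * l (WW D x) ∧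
      ∀ n ∈ normalizer (D : Set G), l (cj n (WW D (conv y x))) = l (cj n y) * l (cj n (WW D x)) := by
  have h1 := WW_conv hD hab hx hy
  have hyi := invOn_cutC D hy
  have hxi := WW_inv hab hx
  refine ⟨?_, fun n hn => ?_⟩
  · rw [h1, hl.mul _ _ hyi hxi, hl.cut]
  · rw [h1, cj_conv, hl.mul _ _ (hyi.cj hn) (hxi.cj hn), cj_cutC hn, hl.cut]

include p hp in
/-- further factors of the function `j` -/
theorem exists_j2 (hl : BP p D l) (hD : IsPGroup p D) (hab : D ≤ centralizer (D : Set G))
    (S₀ : Finset G) (hS₀ : ∀ u ∈ S₀, u ∈ D) (e : ∀ u : G, (centralizer {u} : Subgroup G) → k)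
    (he : ∀ u ∈ S₀, IsCF (e u)) {j₀ : G → AA} (h1 : ∀ d ∈ D, ∀ g, j₀ (d * g * d⁻¹) = j₀ g)
    (h2 : l (WW D (fun g => red (j₀ g))) ≠ 0)
    (h3 : ∀ n ∈ normalizer (D : Set G), n ∉ stabT D l → l (cj n (WW D (fun g => red (j₀ g)))) = 0)
    (h4 : ∀ u ∈ S₀, conv (e u) (fun h : (centralizer {u} : Subgroup G) => red (j₀ h)) =
        (fun h : (centralizer {u} : Subgroup G) => red (j₀ h)))
    {ι : Type*} (v : ι → G) (y : ι → G → AA)
    (S : Finset ι) (hv : ∀ i ∈ S, v i ∈ D)
    (hy : ∀ i ∈ S, ∀ c ∈ centralizer {v i}, ∀ g, y i (c * g * c⁻¹) = y i g)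
    (hly : ∀ i ∈ S, l (fun g => red (y i g)) ≠ 0) :
    ∃ j : G → AA, (∀ d ∈ D, ∀ g, j (d * g * d⁻¹) = j g) ∧ l (WW D (fun g => red (j g))) ≠ 0 ∧
      (∀ n ∈ normalizer (D : Set G), n ∉ stabT D l → l (cj n (WW D (fun g => red (j g)))) = 0) ∧
      (∀ u ∈ S₀, conv (e u) (fun h : (centralizer {u} : Subgroup G) => red (j h)) =
        (fun h : (centralizer {u} : Subgroup G) => red (j h))) ∧
      ∀ i ∈ S, ∃ z : G → AA, (∀ d ∈ D, ∀ g, z (d * g * d⁻¹) = z g) ∧
        (fun h : (centralizer {v i} : Subgroup G) => red (j h)) =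
          conv (fun h : (centralizer {v i} : Subgroup G) => red (y i h))
            (fun h : (centralizer {v i} : Subgroup G) => red (z h)) := by
  induction S using Finset.induction_on with
  | empty => exact ⟨j₀, h1, h2, h3, h4, by simp⟩
  | insert i₀ S hi₀ ih =>
    obtain ⟨j, hj1, hj2, hj3, hj4, hj5⟩ := ih (fun i hi => hv i (mem_insert_of_mem hi))
      (fun i hi => hy i (mem_insert_of_mem hi)) (fun i hi => hly i (mem_insert_of_mem hi))
    have hvD := hv i₀ (mem_insert_self _ _)
    have hyv := hy i₀ (mem_insert_self _ _)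
    have hlyv := hly i₀ (mem_insert_self _ _)
    have hCH : centralizer (D : Set G) ≤ centralizer {v i₀} := cent_le_of_mem hvD
    have hDH : D ≤ centralizer {v i₀} := le_cent_of_mem hvD hab
    have hyinv : ∀ c ∈ centralizer {v i₀}, ∀ g, (fun g => red (y i₀ g)) (c * g * c⁻¹) =
        (fun g => red (y i₀ g)) g := fun c hc g => congrArg red (hyv c hc g)
    have hinvk : ∀ {x : G → AA}, (∀ d ∈ D, ∀ g, x (d * g * d⁻¹) = x g) →
        ∀ d ∈ D, ∀ g, (fun g => red (x g)) (d * g * d⁻¹) = (fun g => red (x g)) g :=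
      fun hx d hd g => congrArg red (hx d hd g)
    have hpow : ∀ u ∈ D, ∃ n : ℕ, u ^ p ^ n = 1 := by
      intro u hu
      obtain ⟨n, hn⟩ := hD ⟨u, hu⟩
      exact ⟨n, by simpa using congrArg Subtype.val hn⟩
    -- restriction of `y * x`
    have hres : ∀ (x : G → AA), (∀ d ∈ D, ∀ g, x (d * g * d⁻¹) = x g) → ∀ u ∈ D,
        (fun h : (centralizer {u} : Subgroup G) => red (conv (y i₀) x h)) =
          conv (fun h : (centralizer {u} : Subgroup G) => red (y i₀ h))
            (fun h : (centralizer {u} : Subgroup G) => red (x h)) := by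
      intro x hx u hu
      obtain ⟨n, hn⟩ := hpow u hu
      refine Eq.trans ?_ (res_conv (x := fun g => red (x g)) (y := fun g => red (y i₀ g)) hn
        (hinvk hx u hu) (hyinv u (hDH hu)))
      funext h
      exact congrFun (red_conv (red := red) (y i₀) x) h
    refine ⟨conv (y i₀) j, ?_, ?_, ?_, ?_, ?_⟩
    · intro d hd g
      exact conv_inv (fun g => hyv d (hDH hd) g) (hj1 d hd) g
    · rw [red_conv, (WW_l_mul hl hD hab _ _ (hinvk hj1) (fun c hc => hyinv c (hCH hc))).1]
      exact mul_ne_zero hlyv hj2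
    · intro n hn hnT
      rw [red_conv, (WW_l_mul hl hD hab _ _ (hinvk hj1) (fun c hc => hyinv c (hCH hc))).2 n hn,
        hj3 n hn hnT, mul_zero]
    · intro u hu
      rw [hres j hj1 u (hS₀ u hu), ← conv_assoc', conv_comm' (he u hu), conv_assoc', hj4 u hu]
    · intro i hi
      rcases Finset.mem_insert.1 hi with rfl | hiS
      · exact ⟨j, hj1, hres j hj1 _ hvD⟩
      · obtain ⟨z, hz1, hz2⟩ := hj5 i hiS
        have hviD := hv i hi
        have hDHi : D ≤ centralizer {v i} := le_cent_of_mem hviD hab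
        refine ⟨conv (y i₀) z, ?_, ?_⟩
        · intro d hd g
          exact conv_inv (fun g => hyv d (hDH hd) g) (hz1 d hd) g
        · have hyicf : IsCF (fun h : (centralizer {v i} : Subgroup G) => red (y i h)) :=
            fun t x => congrArg red (hy i hi t t.2 x)
          rw [hres j hj1 _ hviD, hres z hz1 _ hviD, hz2, ← conv_assoc', ← conv_assoc',
            conv_comm' hyicf]

end

end P179I
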