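import Vale.Agent.P179.H905.J1

/-!
# (INT), general form: 2. local data for the regular elements
-/

namespace P179I

open Finset P179P P179C P179Y Subgroup P179H524

open P179X (pp SameSec)

open scoped Classical

universe v

set_option linter.unusedSectionVars false

section Reg

variable {k : Type v} [Field k] {G : Type*} [Group G] {D : Subgroup G} {l : (G → k) → k}

theorem RegT.conj' {u : G} (hu : RegT D l u) {t : G} (ht : t ∈ stabT D l) :
    RegT D l (t * u * t⁻¹) := by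
  have htN := stabT_le_norm D l ht
  refine ⟨(mem_normalizer_iff.1 htN u).1 hu.1, fun n hn h => ?_⟩
  have h1 : (t⁻¹ * n * t) * u * (t⁻¹ * n * t)⁻¹ = u := by
    calc (t⁻¹ * n * t) * u * (t⁻¹ * n * t)⁻¹ = t⁻¹ * (n * (t * u * t⁻¹) * n⁻¹) * t := by group
      _ = t⁻¹ * (t * u * t⁻¹) * t := by rw [h]
      _ = u := by group
  have h2 := hu.2 _ (mul_mem (mul_mem (inv_mem ht) hn) ht) h1
  have h3 := (conj_mem_cent htN (t⁻¹ * n * t)).2 h2
  have h4 : t * (t⁻¹ * n * t) * t⁻¹ = n := by group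
  rwa [h4] at h3

theorem RegT.inv' {u : G} (hu : RegT D l u) : RegT D l u⁻¹ := by
  refine ⟨inv_mem hu.1, fun n hn h => hu.2 n hn ?_⟩
  have := congrArg (fun x => x⁻¹) h
  simpa [mul_assoc] using this

theorem RegT.pow' {u : G} (hu : RegT D l u) {m : ℕ} (hm : (orderOf u).Coprime m) :
    RegT D l (u ^ m) := by
  refine ⟨pow_mem hu.1 m, fun n hn h => hu.2 n hn ?_⟩
  obtain ⟨e, he⟩ := exists_pow_eq_self_of_coprime hm.symm
  have h3 : (n * u * n⁻¹) ^ m = u ^ m := by rw [conj_pow]; exact h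
  have h5 : ((n * u * n⁻¹) ^ m) ^ e = n * u * n⁻¹ := by
    rw [conj_pow, conj_pow, he]
  rw [← h5, h3, he]

end Reg

section

variable (p : ℕ) [hp : Fact p.Prime] {k : Type v} [Field k] [CharP k p] (red : AA →+* k)
  {G : Type} [Group G] [Fintype G]

/-- the local data, for the regular elements -/
structure LocR (D : Subgroup G) (l : (G → k) → k) (Φ : ∀ H : Subgroup G, Irr H)
    (aH bH : Subgroup G → ℕ) (ε : Subgroup G → ℤ) (κ₀ : k) : Prop where
  nd : ∀ u, RegT D l u → u ≠ 1 → ND red p (lres (centralizer {u}) l) (Nat.card D) (Φ (centralizer {u})).1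
  hb : ∀ u, RegT D l u → u ≠ 1 → ¬ p ∣ bH (centralizer {u})
  unit : ∀ u, RegT D l u → u ≠ 1 → (aH (centralizer {u}) : ℂ) * Nat.card (centralizer {u} : Subgroup G) =
    bH (centralizer {u}) * (Nat.card D * (Φ (centralizer {u})).1 1)
  sgn : ∀ u, RegT D l u → u ≠ 1 → ε (centralizer {u}) = 1 ∨ ε (centralizer {u}) = -1
  eps : ∀ u, RegT D l u → u ≠ 1 → (aH (centralizer {u}) : k) = ε (centralizer {u}) * κ₀ * bH (centralizer {u})
  ne : κ₀ ≠ 0
  conj : ∀ u, RegT D l u → u ≠ 1 → ∀ t ∈ stabT D l, ε (centralizer {t * u * t⁻¹}) = ε (centralizer {u})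

variable {p} {red} {D : Subgroup G} {l : (G → k) → k} {Φ : ∀ H : Subgroup G, Irr H}
  {aH bH : Subgroup G → ℕ} {ε : Subgroup G → ℤ} {κ₀ : k}

theorem LocR.dn_coe (h : LocR p red D l Φ aH bH ε κ₀) {u : G} (hu : RegT D l u) (hu1 : u ≠ 1)
    (χ : Irr G) : (dnA p (centralizer {u}) (Nat.card D) (Φ (centralizer {u})).1 u χ.1 : ℂ) =
      dn p (centralizer {u}) (Nat.card D) (Φ (centralizer {u})).1 u χ.1 :=
  dnA_coe p red _ Nat.card_pos.ne' (h.nd u hu hu1) (mem_cz u) χ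

omit hp [CharP k p] in
theorem LocR.sq (h : LocR p red D l Φ aH bH ε κ₀) {u : G} (hu : RegT D l u) (hu1 : u ≠ 1) :
    ε (centralizer {u}) * ε (centralizer {u}) = 1 := by
  rcases h.sgn u hu hu1 with h | h <;> rw [h] <;> norm_num

theorem LocR.ad_conj (h : LocR p red D l Φ aH bH ε κ₀) (hl : BP p D l) {u : G} (hu : RegT D l u)
    (hu1 : u ≠ 1) {t : G} (ht : t ∈ stabT D l) (χ : Irr G) :
    Ad p D Φ ε (t * u * t⁻¹) χ = Ad p D Φ ε u χ := by
  have hu' := RegT.conj' hu ht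
  have hu1' : t * u * t⁻¹ ≠ 1 := conj_ne hu1
  unfold Ad
  rw [h.conj u hu hu1 t ht]
  congr 1
  apply Subtype.ext
  rw [h.dn_coe hu hu1, h.dn_coe hu' hu1']
  exact dn_conj hl hu.1 ht (h.nd u hu hu1) (h.nd _ hu' hu1') χ

theorem LocR.ad_star (h : LocR p red D l Φ aH bH ε κ₀) {u : G} (hu : RegT D l u) (hu1 : u ≠ 1)
    (χ : Irr G) : (starRingEnd ℂ) (Ad p D Φ ε u χ : ℂ) = (Ad p D Φ ε u⁻¹ χ : ℂ) := by
  have hui := RegT.inv' hu
  have hui1 : u⁻¹ ≠ 1 := by simpa using hu1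
  unfold Ad
  push_cast
  rw [h.dn_coe hui hui1, h.dn_coe hu hu1, map_mul, dn_star (red := red) _ (h.nd u hu hu1) u
    (fun x hx => (mem_cz _ x).1 hx), cz_inv]
  simp

/-- the Gram matrix -/
theorem LocR.gram (h : LocR p red D l Φ aH bH ε κ₀) (hl : BP p D l) (hD : IsPGroup p D)
    (hab : D ≤ centralizer (D : Set G)) {u b : G} (hu : RegT D l u)
    (hu1 : u ≠ 1) (hb : RegT D l b) (hb1 : b ≠ 1) :
    ∑ χ : Irr G, Ad p D Φ ε u χ * Ad p D Φ ε b χ =
      if ∃ t ∈ stabT D l, t * u * t⁻¹ = b⁻¹ then (Nat.card D : AA) else 0 := by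
  have hbi := RegT.inv' hb
  have hbi1 : b⁻¹ ≠ 1 := by simpa using hb1
  have hpel : ∀ w ∈ D, ∃ a : ℕ, w ^ p ^ a = 1 := by
    intro w hw
    obtain ⟨n, hn⟩ := hD ⟨w, hw⟩
    exact ⟨n, by simpa using congrArg Subtype.val hn⟩
  apply Subtype.ext
  -- the second factor
  have h1 : ∀ χ : Irr G, (Ad p D Φ ε b χ : ℂ) = (ε (centralizer {b⁻¹}) : ℂ) *
      (starRingEnd ℂ) (dn p (centralizer {b⁻¹}) (Nat.card D) (Φ (centralizer {b⁻¹})).1 b⁻¹ χ.1) := by
    intro χ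
    unfold Ad
    push_cast
    rw [h.dn_coe hb hb1, dn_star (red := red) _ (h.nd _ hbi hbi1) b⁻¹ (fun x hx => (mem_cz _ x).1 hx),
      inv_inv, cz_inv]
  have h2 : ∀ χ : Irr G, (Ad p D Φ ε u χ : ℂ) = (ε (centralizer {u}) : ℂ) *
      dn p (centralizer {u}) (Nat.card D) (Φ (centralizer {u})).1 u χ.1 := by
    intro χ
    unfold Ad
    push_cast
    rw [h.dn_coe hu hu1]
  have h3 : ((∑ χ : Irr G, Ad p D Φ ε u χ * Ad p D Φ ε b χ : AA) : ℂ) =
      (ε (centralizer {u}) : ℂ) * ε (centralizer {b⁻¹}) *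
        ∑ χ : Irr G, dn p (centralizer {u}) (Nat.card D) (Φ (centralizer {u})).1 u χ.1 *
          (starRingEnd ℂ) (dn p (centralizer {b⁻¹}) (Nat.card D) (Φ (centralizer {b⁻¹})).1 b⁻¹ χ.1) := by
    push_cast
    rw [Finset.mul_sum]
    exact Finset.sum_congr rfl fun χ _ => by rw [h1, h2]; ring
  rw [h3]
  have hg := P179Y.gram p red (centralizer {u}) (centralizer {b⁻¹}) Nat.card_pos.ne'
    (h.nd u hu hu1) (h.nd _ hbi hbi1) u b⁻¹ (hpel u hu.1) (hpel _ hbi.1) (mem_cz u) (mem_cz _)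
  by_cases hex : ∃ t ∈ stabT D l, t * u * t⁻¹ = b⁻¹
  · rw [if_pos hex]
    obtain ⟨t, ht, htu⟩ := hex
    have h4 : ∀ χ : Irr G, dn p (centralizer {b⁻¹}) (Nat.card D) (Φ (centralizer {b⁻¹})).1 b⁻¹ χ.1 =
        dn p (centralizer {u}) (Nat.card D) (Φ (centralizer {u})).1 u χ.1 := by
      intro χ
      rw [← htu]
      exact dn_conj hl hu.1 ht (h.nd u hu hu1) (by rw [htu]; exact h.nd _ hbi hbi1) χ
    simp only [h4]
    rw [gram_self p red _ Nat.card_pos.ne' (h.nd u hu hu1) u (hpel u hu.1) (mem_cz u), ← htu,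
      h.conj u hu hu1 t ht]
    have h5 := congrArg (fun n : ℤ => (n : ℂ)) (h.sq hu hu1)
    push_cast at h5
    rw [h5, one_mul]
    push_cast
    rfl
  · rw [if_neg hex]
    rcases hg with hg | ⟨-, g, hgu, hz⟩
    · rw [hg, mul_zero]
      rfl
    · exfalso
      obtain ⟨n, hn, hn2⟩ := fusionT hl hD hab (w := u) (g := g) hu.1
        (by rw [hgu]; exact hbi)
        (by
          rw [hgu]
          intro z hzI
          have := hz z hzI
          unfold cj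
          rw [inv_inv]
          exact this)
      exact hex ⟨n, hn, hn2.trans hgu⟩

/-- orthogonality with the regular elements -/
theorem LocR.reg (h : LocR p red D l Φ aH bH ε κ₀) (hD : IsPGroup p D) {u : G} (hu : RegT D l u)
    (hu1 : u ≠ 1) {g : G} (hg : ¬ p ∣ orderOf g) :
    ∑ χ : Irr G, Ad p D Φ ε u χ * chA χ g = 0 := by
  apply Subtype.ext
  push_cast
  obtain ⟨n, hn⟩ := hD ⟨u, hu.1⟩
  have h1 := dn_reg (p := p) (centralizer {u}) (Nat.card D) (Φ (centralizer {u})).1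
    ⟨n, by simpa using congrArg Subtype.val hn⟩ hu1 (mem_cz u) hg
  have h2 : ∀ χ : Irr G, (Ad p D Φ ε u χ : ℂ) * (chA χ g : ℂ) = (ε (centralizer {u}) : ℂ) *
      (dn p (centralizer {u}) (Nat.card D) (Φ (centralizer {u})).1 u χ.1 * χ.1 g) := by
    intro χ
    unfold Ad
    push_cast
    rw [h.dn_coe hu hu1]
    change _ * χ.1 g = _
    ring
  rw [Finset.sum_congr rfl fun χ _ => h2 χ, ← Finset.mul_sum, h1, mul_zero]

omit [CharP k p] in
theorem sum_dn_char (H : Subgroup G) (q : ℕ) (φ : H → ℂ) {u v : G} (hu : ∃ a : ℕ, u ^ p ^ a = 1)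
    (hv : ∃ a : ℕ, v ^ p ^ a = 1) (hH : ∀ x, x ∈ H ↔ x * u = u * x) {h : G} (hh : h * v = v * h)
    (hreg : ¬ p ∣ orderOf h) :
    ∑ χ : Irr G, dn p H q φ u χ.1 * χ.1 (h * v) =
      (q : ℂ) / Nat.card H * ∑ g : G, if g * u * g⁻¹ = v⁻¹ then ext H φ (g⁻¹ * h * g) else 0 := by
  unfold dn
  have h1 : ∀ χ : Irr G, (q : ℂ) / Nat.card H * rsum p (fun t : H => χ.1 (u * t) * φ t⁻¹) *
      χ.1 (h * v) = (q : ℂ) / Nat.card H * ∑ t ∈ univ.filter (fun s : H => ¬ p ∣ orderOf s),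
        φ t⁻¹ * (χ.1 (u * t) * χ.1 ((h * v)⁻¹)⁻¹) := by
    intro χ
    rw [rsum_eq, mul_assoc, Finset.sum_mul]
    congr 1
    exact Finset.sum_congr rfl fun t _ => by rw [inv_inv]; ring
  rw [Finset.sum_congr rfl fun χ _ => h1 χ, ← Finset.mul_sum, Finset.sum_comm]
  congr 1
  have h2 : ∀ t : H, ∑ χ : Irr G, φ t⁻¹ * (χ.1 (u * t) * χ.1 ((h * v)⁻¹)⁻¹) =
      ∑ g : G, if g * (u * t) * g⁻¹ = (h * v)⁻¹ then φ t⁻¹ else 0 := by
    intro t
    rw [← Finset.mul_sum, col_orth, ← Finset.sum_filter, Finset.sum_const, nsmul_eq_mul,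
      Nat.card_eq_fintype_card, Fintype.card_subtype, mul_comm]
  rw [Finset.sum_congr rfl fun t _ => h2 t, Finset.sum_comm]
  refine Finset.sum_congr rfl fun g _ => ?_
  have hpp : ∀ x : H, ¬ p ∣ orderOf x → pp p (u * (x : G)) = u := by
    intro x hx
    refine pp_eq ((hH x).1 x.2).symm hu ?_
    rwa [Subgroup.orderOf_coe]
  have hvi : ∃ a : ℕ, (v⁻¹) ^ p ^ a = 1 := by
    obtain ⟨a, ha⟩ := hv
    exact ⟨a, by rw [inv_pow, ha, inv_one]⟩
  have hcomm : v⁻¹ * h⁻¹ = h⁻¹ * v⁻¹ := by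
    rw [← mul_inv_rev, ← mul_inv_rev, hh]
  have hpp' : pp p ((h * v)⁻¹) = v⁻¹ := by
    rw [mul_inv_rev]
    exact pp_eq hcomm hvi (by rwa [orderOf_inv])
  by_cases hg : g * u * g⁻¹ = v⁻¹
  · rw [if_pos hg]
    have hmem : g⁻¹ * h * g ∈ H := by
      rw [hH]
      have h3 : h * v⁻¹ = v⁻¹ * h := by
        calc h * v⁻¹ = v⁻¹ * (v * h) * v⁻¹ := by group
          _ = v⁻¹ * (h * v) * v⁻¹ := by rw [hh]
          _ = v⁻¹ * h := by group
      calc g⁻¹ * h * g * u = g⁻¹ * (h * (g * u * g⁻¹)) * g := by group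
        _ = g⁻¹ * ((g * u * g⁻¹) * h) * g := by rw [hg, h3]
        _ = u * (g⁻¹ * h * g) := by group
    rw [Finset.sum_eq_single ((⟨g⁻¹ * h * g, hmem⟩ : H)⁻¹)]
    · rw [if_pos, inv_inv, P179Y.ext, dif_pos hmem]
      have h4 : (((⟨g⁻¹ * h * g, hmem⟩ : H)⁻¹ : H) : G) = g⁻¹ * h⁻¹ * g := by
        push_cast; group
      rw [h4]
      calc g * (u * (g⁻¹ * h⁻¹ * g)) * g⁻¹ = (g * u * g⁻¹) * h⁻¹ := by group
        _ = (h * v)⁻¹ := by rw [hg, mul_inv_rev]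
    · intro t ht hne
      rw [if_neg]
      intro h5
      apply hne
      apply Subtype.ext
      have h6 : (((⟨g⁻¹ * h * g, hmem⟩ : H)⁻¹ : H) : G) = g⁻¹ * h⁻¹ * g := by
        push_cast; group
      rw [h6]
      have h7 : g * (u * (t : G)) * g⁻¹ = (g * u * g⁻¹) * (g * (t : G) * g⁻¹) := by group
      rw [h7, hg, mul_inv_rev] at h5
      have h8 := mul_left_cancel h5
      rw [← h8]; group
    · intro h5
      exfalso
      apply h5
      rw [mem_filter]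
      refine ⟨mem_univ _, ?_⟩
      rw [orderOf_inv, ← Subgroup.orderOf_coe]
      change ¬ p ∣ orderOf (g⁻¹ * h * g)
      have h6 : g⁻¹ * h * g = g⁻¹ * h * g⁻¹⁻¹ := by rw [inv_inv]
      rw [h6, P179C.orderOf_conj]
      exact hreg
  · rw [if_neg hg]
    refine Finset.sum_eq_zero fun t ht => ?_
    rw [if_neg]
    intro h5
    apply hg
    have h6 := pp_conj (p := p) g (u * (t : G))
    rw [h5, hpp', hpp t (mem_filter.1 ht).2] at h6
    exact h6.symm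

omit [CharP k p] in
theorem sum_dn_char_conj (H : Subgroup G) (q : ℕ) {φ : H → ℂ} (hφ : IsCF φ) {u v : G}
    (hu : ∃ a : ℕ, u ^ p ^ a = 1)
    (hv : ∃ a : ℕ, v ^ p ^ a = 1) (hH : ∀ x, x ∈ H ↔ x * u = u * x) {h : G} (hh : h * v = v * h)
    (hreg : ¬ p ∣ orderOf h) {g : G} (hg : g * u * g⁻¹ = v⁻¹) :
    ∑ χ : Irr G, dn p H q φ u χ.1 * χ.1 (h * v) = q * ext H φ (g⁻¹ * h * g) := by
  rw [sum_dn_char H q φ hu hv hH hh hreg]
  have hH0 : (Nat.card H : ℂ) ≠ 0 := by exact_mod_cast Nat.card_pos.ne'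
  have hmem : g⁻¹ * h * g ∈ H := by
    rw [hH]
    have h3 : h * v⁻¹ = v⁻¹ * h := by
      calc h * v⁻¹ = v⁻¹ * (v * h) * v⁻¹ := by group
        _ = v⁻¹ * (h * v) * v⁻¹ := by rw [hh]
        _ = v⁻¹ * h := by group
    calc g⁻¹ * h * g * u = g⁻¹ * (h * (g * u * g⁻¹)) * g := by group
      _ = g⁻¹ * ((g * u * g⁻¹) * h) * g := by rw [hg, h3]
      _ = u * (g⁻¹ * h * g) := by group
  have h1 : ∀ g' : G, g' * u * g'⁻¹ = v⁻¹ → ext H φ (g'⁻¹ * h * g') = ext H φ (g⁻¹ * h * g) := by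
    intro g' hg'
    have hc : g⁻¹ * g' ∈ H := by
      rw [hH]
      calc g⁻¹ * g' * u = g⁻¹ * (g' * u * g'⁻¹) * g' := by group
        _ = g⁻¹ * (g * u * g⁻¹) * g' := by rw [hg', hg]
        _ = u * (g⁻¹ * g') := by group
    have h2 : g'⁻¹ * h * g' = (g⁻¹ * g')⁻¹ * (g⁻¹ * h * g) * (g⁻¹ * g')⁻¹⁻¹ := by group
    have h3 := hφ (⟨g⁻¹ * g', hc⟩ : H)⁻¹ ⟨g⁻¹ * h * g, hmem⟩
    have h4 : g'⁻¹ * h * g' ∈ H := by
      rw [h2]
      exact mul_mem (mul_mem (inv_mem hc) hmem) (inv_mem (inv_mem hc))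
    rw [P179Y.ext, dif_pos h4, P179Y.ext, dif_pos hmem, ← h3]
    congr 1
    exact Subtype.ext h2
  have h2 : ∑ g' : G, (if g' * u * g'⁻¹ = v⁻¹ then ext H φ (g'⁻¹ * h * g') else 0) =
      Nat.card H * ext H φ (g⁻¹ * h * g) := by
    have h3 : ∀ g' : G, (if g' * u * g'⁻¹ = v⁻¹ then ext H φ (g'⁻¹ * h * g') else 0) =
        if g' * u * g'⁻¹ = v⁻¹ then ext H φ (g⁻¹ * h * g) else 0 := by
      intro g'
      split_ifs with h4
      · exact h1 g' h4
      · rfl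
    rw [Finset.sum_congr rfl fun g' _ => h3 g', ← Finset.sum_filter, Finset.sum_const, nsmul_eq_mul]
    congr 2
    rw [Nat.card_eq_fintype_card]
    refine Finset.card_bij' (i := fun g' hg' => (⟨g⁻¹ * g', ?_⟩ : H)) (j := fun h _ => g * h)
      (fun _ _ => mem_univ _) ?_ ?_ ?_ |>.trans Finset.card_univ
    · rw [hH]
      have h4 := (mem_filter.1 hg').2
      calc g⁻¹ * g' * u = g⁻¹ * (g' * u * g'⁻¹) * g' := by group
        _ = g⁻¹ * (g * u * g⁻¹) * g' := by rw [h4, hg]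
        _ = u * (g⁻¹ * g') := by group
    · intro c _
      rw [mem_filter]
      refine ⟨mem_univ _, ?_⟩
      have h4 := (hH c).1 c.2
      rw [← hg]
      calc g * (c : G) * u * (g * c)⁻¹ = g * ((c : G) * u) * (c : G)⁻¹ * g⁻¹ := by group
        _ = g * (u * c) * (c : G)⁻¹ * g⁻¹ := by rw [h4]
        _ = _ := by group
    · intro g' _
      simp
    · intro c _
      apply Subtype.ext
      simp
  rw [h2]
  field_simp

end

end P179I
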