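import Vale.Agent.P179.H905.J2

/-!
# (INT), general form: 3. the function `j`
-/

namespace P179I

open Finset P179P P179C P179Y Subgroup P179H524

open P179X (pp SameSec)

open scoped Classical

universe v

set_option linter.unusedSectionVars false

section

variable {p : ℕ} [hp : Fact p.Prime] {k : Type v} [Field k] [CharP k p] {red : AA →+* k}
  {G : Type} [Group G] [Fintype G] {D : Subgroup G} {l : (G → k) → k}
  {Φ : ∀ H : Subgroup G, Irr H} {aH bH : Subgroup G → ℕ} {ε : Subgroup G → ℤ} {κ₀ : k}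

include p hp in
/-- a central element which kills a character outside the block -/
theorem exists_killer [IsAlgClosed k] {K : Type} [Group K] [Fintype K] {μ : (K → k) → k}
    (hμ : IsHomCF μ) (φ' : Irr K) (hφ' : ¬ InL red μ φ'.1) :
    ∃ y : K → AA, IsCF y ∧ cv y (chA φ') = 0 ∧ μ (fun h => red (y h)) ≠ 0 := by
  obtain ⟨ψ, hψ⟩ := exists_inL p red hμ
  have h1 : ∃ z : K → k, lam red φ'.1 z ≠ lam red ψ.1 z := by
    by_contra hcon
    push Not at hcon
    exact hφ' fun z hz => (hcon z).trans (hψ z hz)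
  obtain ⟨z, hne⟩ := h1
  obtain ⟨z', hz', hne'⟩ := sep_self red φ' ψ hne
  set ω : AA := omA φ' z' hz' with hω
  set y : K → AA := fun h => (z' h : AA) - ω * (if h = 1 then 1 else 0) with hy
  have hycf : IsCF y := by
    intro t x
    simp only [hy]
    rw [hz' t x]
    congr 2
    have h2 : t * x * t⁻¹ = 1 ↔ x = 1 := by
      constructor
      · intro h
        have : x = t⁻¹ * (t * x * t⁻¹) * t := by group
        rw [this, h]; group
      · rintro rfl; group
    simp only [h2]
  refine ⟨y, hycf, ?_, ?_⟩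
  · have h2 := cv_chA φ' z' hz'
    ext x
    have h3 := congrFun h2 x
    unfold cv at h3 ⊢
    simp only [hy, sub_mul, Finset.sum_sub_distrib]
    rw [h3]
    have h4 : ∑ g, ω * (if g = 1 then (1 : AA) else 0) * chA φ' (g * x) = ω * chA φ' x := by
      rw [Finset.sum_eq_single (1 : K)]
      · rw [if_pos rfl, mul_one, one_mul]
      · intro g _ hg
        rw [if_neg hg, mul_zero, zero_mul]
      · intro h; exact absurd (mem_univ _) h
    rw [h4, sub_self]
    rfl
  · obtain ⟨X, hX, hX2⟩ := exists_omAA red ψ hycf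
    have hcfk : IsCF (fun h => red (y h)) := fun t x => congrArg red (hycf t x)
    rw [← hψ _ hcfk, ← hX2]
    have h2 : X = omA ψ z' hz' - ω := by
      apply Subtype.ext
      rw [hX]
      push_cast
      have h3 : (omA ψ z' hz' : ℂ) = omC ψ.1 (fun x => (z' x : ℂ)) := by
        rw [← om_eq_omC]
        rfl
      rw [h3]
      unfold omC
      have h0 := ψ.one_ne_zero
      rw [div_sub' h0]
      congr 1
      simp only [hy]
      push_cast
      simp only [sub_mul, Finset.sum_sub_distrib]
      congr 1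
      rw [Finset.sum_eq_single (1 : K)]
      · rw [if_pos rfl]
        push_cast
        ring
      · intro g _ hg
        rw [if_neg hg]
        push_cast
        ring
      · intro h; exact absurd (mem_univ _) h
    rw [h2, map_sub]
    exact sub_ne_zero.2 (fun h => hne' h.symm)

include hp in
theorem LocR.exists_jj [IsAlgClosed k] (h : LocR p red D l Φ aH bH ε κ₀) (hl : BP p D l)
    (hD : IsPGroup p D) (hab : D ≤ centralizer (D : Set G)) :
    ∃ j : G → AA, (∀ d ∈ D, ∀ g, j (d * g * d⁻¹) = j g) ∧ l (WW D (fun g => red (j g))) ≠ 0 ∧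
      (∀ n ∈ normalizer (D : Set G), n ∉ stabT D l → l (cj n (WW D (fun g => red (j g)))) = 0) ∧
      (∀ N : ℕ, ∃ M : ℕ, ∀ m ≥ M, ∀ u, RegT D l u → u ≠ 1 → ∀ χ : Irr G,
        Psi j (p ^ m) χ u - cc p Φ j m (centralizer {u}) *
          dnA p (centralizer {u}) (Nat.card D) (Φ (centralizer {u})).1 u χ.1 ∈ QN p red N) ∧
      (∀ v ∈ D, ∀ φ' : Irr (centralizer {v} : Subgroup G),
        ¬ InL red (lres (centralizer {v}) l) φ'.1 → ∀ N : ℕ, ∃ M : ℕ, ∀ n ≥ M,
          TT (fun h : (centralizer {v} : Subgroup G) => j h) n (chA φ') ∈ QN p red N) := by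
  obtain ⟨φ₀, hφ₀⟩ := exists_NDC (red := red) hl hD hab
  obtain ⟨E₀, e₀, b₀, hE₀⟩ := exists_ED red p (centralizer (D : Set G)) hφ₀
  have h1 : ∀ u : G, ∃ (E : (centralizer {u} : Subgroup G) → AA) (e : (centralizer {u} : Subgroup G) → k)
      (b : ℕ), RegT D l u → u ≠ 1 → ED red (centralizer {u}) l E e b := by
    intro u
    by_cases hu : RegT D l u ∧ u ≠ 1
    · obtain ⟨E, e, b, hE⟩ := exists_ED red p (centralizer {u}) (h.nd u hu.1 hu.2)
      exact ⟨E, e, b, fun _ _ => hE⟩
    · exact ⟨0, 0, 0, fun h1 h2 => absurd ⟨h1, h2⟩ hu⟩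
  choose E e b hE using h1
  set S₀ : Finset G := univ.filter fun u : G => RegT D l u ∧ u ≠ 1 with hS₀
  have hES : ∀ u ∈ S₀, ED red (centralizer {u}) l (E u) (e u) (b u) := fun u hu =>
    hE u (mem_filter.1 hu).2.1 (mem_filter.1 hu).2.2
  have hS₀D : ∀ u ∈ S₀, u ∈ D := fun u hu => (mem_filter.1 hu).2.1.1
  obtain ⟨j₀, g1, g2, g3, g4⟩ := exists_j hl hD hab hE₀ E e b S₀ hS₀D hES
  -- the killers
  have h2 : ∀ i : (v : G) × Irr (centralizer {v} : Subgroup G),
      ∃ y : (centralizer {i.1} : Subgroup G) → AA,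
      (i.1 ∈ D ∧ ¬ InL red (lres (centralizer {i.1}) l) i.2.1) → (IsCF y ∧ cv y (chA i.2) = 0 ∧
        lres (centralizer {i.1}) l (fun h => red (y h)) ≠ 0) := by
    intro i
    by_cases hi : i.1 ∈ D ∧ ¬ InL red (lres (centralizer {i.1}) l) i.2.1
    · have hDH := le_cent_of_mem hi.1 hab
      have hCH := cent_le_of_mem (D := D) hi.1
      have hDp : IsPGroup p (D.subgroupOf (centralizer {i.1})) := hD.comap_subtype
      have habH : D.subgroupOf (centralizer {i.1}) ≤
          centralizer ((D.subgroupOf (centralizer {i.1}) : Subgroup _) : Set _) := by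
        intro x hx
        rw [mem_cent_subgroupOf hDH]
        exact hab (by simpa [Subgroup.mem_subgroupOf] using hx)
      obtain ⟨y, hy⟩ := exists_killer (p := p) (red := red)
        ((hl.restrict hDH hCH).isHomCF hDp habH) i.2 hi.2
      exact ⟨y, fun _ => hy⟩
    · exact ⟨0, fun h => absurd h hi⟩
  choose y hy using h2
  set S : Finset ((v : G) × Irr (centralizer {v} : Subgroup G)) :=
    univ.filter fun i => i.1 ∈ D ∧ ¬ InL red (lres (centralizer {i.1}) l) i.2.1 with hS
  have hyS : ∀ i ∈ S, IsCF (y i) ∧ cv (y i) (chA i.2) = 0 ∧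
        lres (centralizer {i.1}) l (fun h => red (y i h)) ≠ 0 := fun i hi =>
    hy i (mem_filter.1 hi).2
  have hredext : ∀ i : (v : G) × Irr (centralizer {v} : Subgroup G),
      (fun g => red (extA (centralizer {i.1}) (y i) g)) =
      P179Y.ext (centralizer {i.1}) (fun h => red (y i h)) := by
    intro i
    funext g
    unfold extA P179Y.ext
    split_ifs
    · rfl
    · exact map_zero red
  obtain ⟨j, hj1, hj2, hj3, hj4, hj5⟩ := exists_j2 (red := red) hl hD hab S₀ hS₀D e
    (fun u hu => (hES u hu).cfe) g1 g2 g3 g4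
    (fun i : (v : G) × Irr (centralizer {v} : Subgroup G) => i.1)
    (fun i : (v : G) × Irr (centralizer {v} : Subgroup G) => extA (centralizer {i.1}) (y i)) S
    (fun i hi => (mem_filter.1 hi).2.1)
    (fun i hi c hc g => extA_inv (centralizer {i.1}) (hyS i hi).1 hc g)
    (fun i hi => by
      beta_reduce
      rw [hredext i]
      exact (hyS i hi).2.2)
  refine ⟨j, hj1, hj2, hj3, fun N => ?_, ?_⟩
  · have h2 : ∀ u : G, ∃ M : ℕ, RegT D l u → u ≠ 1 → ∀ m ≥ M, ∀ χ : Irr G,
        Psi j (p ^ m) χ u - cc p Φ j m (centralizer {u}) *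
          dnA p (centralizer {u}) (Nat.card D) (Φ (centralizer {u})).1 u χ.1 ∈ QN p red N := by
      intro u
      by_cases hu : RegT D l u ∧ u ≠ 1
      swap
      · exact ⟨0, fun h1 h2 => absurd ⟨h1, h2⟩ hu⟩
      obtain ⟨huD, hu1⟩ := hu
      obtain ⟨n, hn⟩ := hD ⟨u, huD.1⟩
      have hun : u ^ p ^ n = 1 := by simpa using congrArg Subtype.val hn
      have hEu := hE u huD hu1
      have hj4u := hj4 u (mem_filter.2 ⟨mem_univ _, huD, hu1⟩)
      obtain ⟨M, hM⟩ := approx p red (centralizer {u}) Nat.card_pos.ne' (h.nd u huD hu1) hun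
        (mem_cz u) j (hj1 u huD.1) hEu.cfE (b := (b u : AA)) (by rw [map_natCast]; exact hEu.hb) (by
          intro g
          have h3 : red (conv (E u) (fun h : (centralizer {u} : Subgroup G) => j h) g) =
              (b u : k) * red (j g) := by
            rw [← congrFun hj4u g]
            unfold conv
            rw [map_sum, Finset.mul_sum]
            refine Finset.sum_congr rfl fun x _ => ?_
            rw [map_mul, hEu.red_E]
            ring
          rw [map_sub, map_mul, map_natCast, h3, sub_self]) hEu.kill N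
      exact ⟨M, fun _ _ => hM⟩
    choose M hM using h2
    refine ⟨∑ u, M u, fun m hm u hu hu1 χ => hM u hu hu1 m
      ((Finset.single_le_sum (fun _ _ => Nat.zero_le _) (mem_univ u)).trans hm) χ⟩
  · intro v hv φ' hφ' N
    set i : (v : G) × Irr (centralizer {v} : Subgroup G) := ⟨v, φ'⟩ with hi
    have hiS : i ∈ S := mem_filter.2 ⟨mem_univ _, hv, hφ'⟩
    obtain ⟨z, hz1, hz2⟩ := hj5 i hiS
    obtain ⟨M, hM⟩ := exists_TT_mem' (p := p) (red := red)
      (z := fun h : (centralizer {v} : Subgroup G) => j h) (y := y i)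
      (z'' := fun h : (centralizer {v} : Subgroup G) => z h) (hyS i hiS).1 (by
        intro g
        rw [map_sub, sub_eq_zero]
        have h3 := congrFun hz2 g
        have h4 := congrFun (red_conv (red := red) (y i)
          (fun h : (centralizer {v} : Subgroup G) => z h)) g
        refine h3.trans (Eq.trans ?_ h4.symm)
        congr 1
        funext h'
        unfold extA
        rw [dif_pos h'.2]) N
    exact ⟨M, fun n hn => hM n hn _ (hyS i hiS).2.1⟩

end

end P179I
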