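import Vale.Agent.P179.H905.J3

/-!
# (INT), general form: 4. orthogonality with the elements which are not regular
-/

namespace P179I

open Finset P179P P179C P179Y Subgroup P179H524

open P179X (pp SameSec)

open scoped Classical

universe v

set_option linter.unusedSectionVars false

section

variable {p : ℕ} [hp : Fact p.Prime] {k : Type v} [Field k] [CharP k p] {red : AA →+* k}
  {G : Type} [Group G] [Fintype G] {D : Subgroup G} {l : (G → k) → k}
  {Φ : ∀ H : Subgroup G, Irr H} {aH bH : Subgroup G → ℕ} {ε : Subgroup G → ℤ} {κ₀ : k}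

theorem TT_reg {K : Type*} [Group K] [Fintype K] {F : K → AA} (hF : IsCF F)
    (h : ∀ s, ¬ p ∣ orderOf s → F s = 0) (z : K → AA) (c : ℕ)
    (hc : ∀ x : K, ¬ p ∣ orderOf (x ^ p ^ c)) (i : ℕ) :
    TT z (p ^ (i + c)) F ∈ QN p red (i + 1) := by
  have h1 := lemW_core p z F (1 : K) 0 (by simp) (by simp) (fun g x => hF g x) c hc (by
      intro β _ hβ
      rw [mul_one]
      exact h β hβ) i
  refine mem_QN_of_dvd ?_
  have h2 : TT z (p ^ (i + c)) F =
      ∑ w : Fin (p ^ (i + c)) → K, (∏ j, z (w j)) * F (wprod w * 1) := by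
    unfold TT
    exact Finset.sum_congr rfl fun w _ => by rw [mul_one]
  rw [h2]
  exact h1

/-- conjugation `x ↦ g⁻¹ x g` from `C(v)` to `C(u)`, if `g u g⁻¹ = v⁻¹` -/
noncomputable def eCo {g u v : G} (hg : g * u * g⁻¹ = v⁻¹) :
    (centralizer {v} : Subgroup G) ≃* (centralizer {u} : Subgroup G) where
  toFun x := ⟨g⁻¹ * x * g, by
    rw [mem_centralizer_singleton_iff]
    have h1 := mem_centralizer_singleton_iff.1 x.2
    have h2 : (x : G) * v⁻¹ = v⁻¹ * x := by
      calc (x : G) * v⁻¹ = v⁻¹ * (v * x) * v⁻¹ := by group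
        _ = v⁻¹ * (x * v) * v⁻¹ := by rw [h1]
        _ = v⁻¹ * x := by group
    calc g⁻¹ * (x : G) * g * u = g⁻¹ * (x * (g * u * g⁻¹)) * g := by group
      _ = g⁻¹ * ((g * u * g⁻¹) * x) * g := by rw [hg, h2]
      _ = _ := by group⟩
  invFun x := ⟨g * x * g⁻¹, by
    rw [mem_centralizer_singleton_iff]
    have h1 := mem_centralizer_singleton_iff.1 x.2
    have h3 : v = g * u⁻¹ * g⁻¹ := by
      have := congrArg (fun y => y⁻¹) hg
      simpa [mul_assoc] using this.symm
    have h2 : (x : G) * u⁻¹ = u⁻¹ * x := by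
      calc (x : G) * u⁻¹ = u⁻¹ * (u * x) * u⁻¹ := by group
        _ = u⁻¹ * (x * u) * u⁻¹ := by rw [h1]
        _ = u⁻¹ * x := by group
    rw [h3]
    calc g * (x : G) * g⁻¹ * (g * u⁻¹ * g⁻¹) = g * ((x : G) * u⁻¹) * g⁻¹ := by group
      _ = g * (u⁻¹ * x) * g⁻¹ := by rw [h2]
      _ = _ := by group⟩
  left_inv x := Subtype.ext (by simp [mul_assoc])
  right_inv x := Subtype.ext (by simp [mul_assoc])
  map_mul' x y := Subtype.ext (by simp [mul_assoc])

theorem eCo_coe {g u v : G} (hg : g * u * g⁻¹ = v⁻¹) (x : (centralizer {v} : Subgroup G)) :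
    ((eCo hg x : (centralizer {u} : Subgroup G)) : G) = g⁻¹ * x * g := rfl

/-- the conjugate of the local character -/
noncomputable def phiC (Φ : ∀ H : Subgroup G, Irr H) {g u v : G} (hg : g * u * g⁻¹ = v⁻¹) :
    Irr (centralizer {v} : Subgroup G) :=
  ⟨fun x => (Φ (centralizer {u})).1 (eCo hg x),
    (Φ (centralizer {u})).2.comp (eCo hg).toMonoidHom (eCo hg).surjective⟩

include hp in
/-- it does not belong to the block -/
theorem LocR.phiC_not (h : LocR p red D l Φ aH bH ε κ₀) (hl : BP p D l) (hD : IsPGroup p D)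
    (hab : D ≤ centralizer (D : Set G)) {g u v : G} (hu : RegT D l u) (hu1 : u ≠ 1) (hv : v ∈ D)
    (hvr : ¬ RegT D l v) (hg : g * u * g⁻¹ = v⁻¹) :
    ¬ InL red (lres (centralizer {v}) l) (phiC Φ hg).1 := by
  intro hIn
  have hu' : g⁻¹ * v⁻¹ * g⁻¹⁻¹ = u := by rw [← hg]; group
  obtain ⟨n, hn, hn2⟩ := fusionT hl hD hab (w := v⁻¹) (g := g⁻¹) (inv_mem hv)
    (by rw [hu']; exact hu) (by
      rw [hu', inv_inv]
      intro z hz
      have hz' : IsCF fun x : (centralizer {u} : Subgroup G) => z x := fun t x => hz.1 t t.2 x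
      have hzc : IsCF fun x : (centralizer {v} : Subgroup G) =>
          (fun x : (centralizer {u} : Subgroup G) => z x) (eCo hg x) := by
        intro t x
        simp only [map_mul, map_inv]
        exact hz' _ _
      have h1 := hIn _ hzc
      have h2 := lam_comp red (eCo hg) (Φ (centralizer {u})).2 hz'
      have h3 := (h.nd u hu hu1).mem _ hz'
      have h4 : l (cj g z) = lres (centralizer {v}) l (fun x : (centralizer {v} : Subgroup G) =>
          (fun x : (centralizer {u} : Subgroup G) => z x) (eCo hg x)) := by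
        unfold lres
        congr 1
        funext x
        unfold cj P179Y.ext
        split_ifs with hx
        · rfl
        · apply hz.2
          intro hx'
          apply hx
          have h5 := ((eCo hg).symm ⟨_, hx'⟩).2
          have h6 : (((eCo hg).symm ⟨_, hx'⟩ : (centralizer {v} : Subgroup G)) : G) =
              g * (g⁻¹ * x * g) * g⁻¹ := rfl
          rw [h6] at h5
          have h7 : g * (g⁻¹ * x * g) * g⁻¹ = x := by group
          rwa [h7] at h5
      have h5 : l z = lres (centralizer {u}) l (fun x : (centralizer {u} : Subgroup G) => z x) := by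
        unfold lres
        congr 1
        funext x
        unfold P179Y.ext
        split_ifs with hx
        · rfl
        · exact hz.2 x hx
      rw [h4, h5, ← h3, ← h1, ← h2]
      rfl)
  rw [hu'] at hn2
  apply hvr
  -- `v⁻¹ = n⁻¹ u n`
  have h1 : v⁻¹ = n⁻¹ * u * n⁻¹⁻¹ := by rw [← hn2]; group
  have h2 := RegT.inv' (RegT.conj' hu (inv_mem hn))
  rw [← h1, inv_inv] at h2
  exact h2

include hp in
/-- **no contribution of the elements which are not regular** -/
theorem LocR.orth (h : LocR p red D l Φ aH bH ε κ₀) (hl : BP p D l) (hD : IsPGroup p D)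
    (hab : D ≤ centralizer (D : Set G)) (j : G → AA) (hj1 : ∀ d ∈ D, ∀ g, j (d * g * d⁻¹) = j g)
    (hkill : ∀ v ∈ D, ∀ φ' : Irr (centralizer {v} : Subgroup G),
        ¬ InL red (lres (centralizer {v}) l) φ'.1 → ∀ N : ℕ, ∃ M : ℕ, ∀ n ≥ M,
          TT (fun h : (centralizer {v} : Subgroup G) => j h) n (chA φ') ∈ QN p red N)
    {u v : G} (hu : RegT D l u) (hu1 : u ≠ 1) (hv : v ∈ D) (hvr : ¬ (RegT D l v ∧ v ≠ 1)) (N : ℕ) :
    ∃ M : ℕ, ∀ m ≥ M, ∑ χ : Irr G, Ad p D Φ ε u χ * Psi j (p ^ m) χ v ∈ QN p red N := by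
  have hpel : ∀ w ∈ D, ∃ a : ℕ, w ^ p ^ a = 1 := by
    intro w hw
    obtain ⟨n, hn⟩ := hD ⟨w, hw⟩
    exact ⟨n, by simpa using congrArg Subtype.val hn⟩
  obtain ⟨a, ha⟩ := hpel v hv
  set F : (centralizer {v} : Subgroup G) → AA := fun x => ∑ χ : Irr G, Ad p D Φ ε u χ *
    chA χ ((x : G) * v) with hF
  have hFcf : IsCF F := by
    intro t x
    simp only [hF]
    refine Finset.sum_congr rfl fun χ _ => ?_
    congr 1
    have h1 := mem_centralizer_singleton_iff.1 t.2
    have h2 : ((t * x * t⁻¹ : (centralizer {v} : Subgroup G)) : G) * v =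
        (t : G) * (x * v) * (t : G)⁻¹ := by
      push_cast
      have h3 : (t : G)⁻¹ * v = v * (t : G)⁻¹ := by
        calc (t : G)⁻¹ * v = (t : G)⁻¹ * (v * t) * (t : G)⁻¹ := by group
          _ = (t : G)⁻¹ * (t * v) * (t : G)⁻¹ := by rw [h1]
          _ = v * (t : G)⁻¹ := by group
      rw [mul_assoc, h3]; group
    rw [h2, chA_isCF χ]
  -- the cut
  have hcut : ∀ m : ℕ, (∑ χ : Irr G, Ad p D Φ ε u χ * Psi j (p ^ m) χ v) -
      TT (fun h : (centralizer {v} : Subgroup G) => j h) (p ^ m) F ∈ QN p red (m + 1) := by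
    intro m
    rw [hF, TT_sum, ← Finset.sum_sub_distrib]
    refine Ideal.sum_mem _ fun χ _ => ?_
    rw [← mul_sub]
    refine Ideal.mul_mem_left _ _ ?_
    have h1 := cut_mem p red v ha j (chA χ) (hj1 v hv) (chA_isCF χ) (centralizer {v}) (mem_cz v) m
    have h2 : ∑ w : Fin (p ^ m) → G, (∏ i, j (w i)) * chA χ (wprod w * v) = Psi j (p ^ m) χ v := by
      unfold Psi
      refine Finset.sum_congr rfl fun w _ => ?_
      congr 1
      exact Subtype.ext (χ.mul_comm _ _)
    rwa [h2] at h1
  set s : ℕ := (Nat.card (centralizer {v} : Subgroup G)).factorization p with hs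
  -- the values of `F`
  have hFval : ∀ x : (centralizer {v} : Subgroup G), (F x : ℂ) = (ε (centralizer {u}) : ℂ) *
      ∑ χ : Irr G, dn p (centralizer {u}) (Nat.card D) (Φ (centralizer {u})).1 u χ.1 *
        χ.1 ((x : G) * v) := by
    intro x
    simp only [hF]
    push_cast
    rw [Finset.mul_sum]
    refine Finset.sum_congr rfl fun χ _ => ?_
    unfold Ad
    push_cast
    rw [h.dn_coe hu hu1]
    change _ * χ.1 _ = _
    ring
  by_cases hex : ∃ g : G, g * u * g⁻¹ = v⁻¹
  · obtain ⟨g, hg⟩ := hex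
    have hv1 : v ≠ 1 := by
      rintro rfl
      apply hu1
      have : u = g⁻¹ * (g * u * g⁻¹) * g := by group
      rw [this, hg]; group
    have hvr' : ¬ RegT D l v := fun h => hvr ⟨h, hv1⟩
    obtain ⟨M, hM⟩ := hkill v hv (phiC Φ hg) (h.phiC_not hl hD hab hu hu1 hv hvr' hg) N
    refine ⟨M + N + s, fun m hm => ?_⟩
    set cst : AA := (ε (centralizer {u}) : AA) * Nat.card D with hcst
    have hreg : ∀ x : (centralizer {v} : Subgroup G), ¬ p ∣ orderOf x →
        F x - cst * chA (phiC Φ hg) x = 0 := by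
      intro x hx
      apply Subtype.ext
      push_cast
      rw [hFval]
      have hx' : ¬ p ∣ orderOf (x : G) := by rwa [Subgroup.orderOf_coe]
      rw [sum_dn_char_conj (centralizer {u}) (Nat.card D) (h.nd u hu hu1).irr.conj (hpel u hu.1)
        ⟨a, ha⟩ (mem_cz u) (mem_centralizer_singleton_iff.1 x.2) hx' hg]
      have h1 : P179Y.ext (centralizer {u}) (Φ (centralizer {u})).1 (g⁻¹ * (x : G) * g) =
          (chA (phiC Φ hg) x : ℂ) := by
        unfold P179Y.ext
        have hmem : g⁻¹ * (x : G) * g ∈ centralizer {u} := (eCo hg x).2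
        rw [dif_pos hmem]
        rfl
      rw [h1, hcst]
      push_cast
      change _ = ((0 : AA) : ℂ)
      push_cast
      ring
    have hGcf : IsCF (fun x => F x - cst * chA (phiC Φ hg) x) := by
      intro t x
      beta_reduce
      rw [hFcf t x, chA_isCF (phiC Φ hg) t x]
    have h1 := TT_reg (p := p) (red := red) hGcf hreg
      (fun h : (centralizer {v} : Subgroup G) => j h) s
      (fun x => not_dvd_orderOf_pow p x) (m - s)
    rw [Nat.sub_add_cancel (by omega)] at h1
    have h2 : TT (fun h : (centralizer {v} : Subgroup G) => j h) (p ^ m)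
        (fun x => F x - cst * chA (phiC Φ hg) x) =
        TT (fun h : (centralizer {v} : Subgroup G) => j h) (p ^ m) F -
          cst * TT (fun h : (centralizer {v} : Subgroup G) => j h) (p ^ m) (chA (phiC Φ hg)) := by
      unfold TT
      rw [Finset.mul_sum, ← Finset.sum_sub_distrib]
      exact Finset.sum_congr rfl fun w _ => by ring
    rw [h2] at h1
    have h3 := hM (p ^ m) (by
      have := Nat.lt_pow_self (n := m) hp.out.one_lt
      omega)
    have h4 : TT (fun h : (centralizer {v} : Subgroup G) => j h) (p ^ m) F ∈ QN p red N := by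
      have h5 := Ideal.add_mem _ (QN_mono (show N ≤ m - s + 1 by omega) h1)
        (Ideal.mul_mem_left _ cst h3)
      rwa [sub_add_cancel] at h5
    have h5 := Ideal.add_mem _ (QN_mono (show N ≤ m + 1 by omega) (hcut m)) h4
    rwa [sub_add_cancel] at h5
  · refine ⟨N + s, fun m hm => ?_⟩
    have hreg : ∀ x : (centralizer {v} : Subgroup G), ¬ p ∣ orderOf x → F x = 0 := by
      intro x hx
      apply Subtype.ext
      rw [hFval]
      have hx' : ¬ p ∣ orderOf (x : G) := by rwa [Subgroup.orderOf_coe]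
      rw [sum_dn_char (centralizer {u}) (Nat.card D) _ (hpel u hu.1)
        ⟨a, ha⟩ (mem_cz u) (mem_centralizer_singleton_iff.1 x.2) hx', Finset.sum_eq_zero, mul_zero,
        mul_zero]
      · rfl
      · intro g _
        rw [if_neg (fun h => hex ⟨g, h⟩)]
    have h1 := TT_reg (p := p) (red := red) hFcf hreg
      (fun h : (centralizer {v} : Subgroup G) => j h) s
      (fun x => not_dvd_orderOf_pow p x) (m - s)
    rw [Nat.sub_add_cancel (by omega)] at h1
    have h5 := Ideal.add_mem _ (QN_mono (show N ≤ m + 1 by omega) (hcut m))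
      (QN_mono (show N ≤ m - s + 1 by omega) h1)
    rwa [sub_add_cancel] at h5

end

end P179I
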