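import Vale.Agent.P179.H905.J4
import Vale.Agent.P179.H905.I19

/-!
# (INT), general form: 5. local integrality
-/

namespace P179I

open Finset P179P P179C P179Y Subgroup P179H524

open P179X (pp SameSec)

open scoped Classical IsMulCommutative

universe v

set_option linter.unusedSectionVars false

section Abs

variable {k : Type*} [Field k] {p : ℕ} [hp : Fact p.Prime] [CharP k p] {red : AA →+* k}
  {A : Type*} [AddCommGroup A] [Fintype A] {X : Type*} [Fintype X]

theorem int_absW (hp2 : p ≠ 2) {a N : ℕ} (hA : Fintype.card A = p ^ a) (hN : a ≤ N) (W : A → Prop)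
    (F Aχ : X → A → AA) (C : A → AA) (m : X → AA) (hF : ∀ χ, RI (F χ))
    (h1 : ∀ χ, ∀ b, W b → F χ b - C b * Aχ χ b ∈ QN p red N)
    (h2 : ∀ b, W b → (∑ χ, F χ b * m χ) - C b ^ 2 ∈ QN p red N)
    (γ : k) (hγ : γ ≠ 0) (h3 : ∀ b, W b → red (C b) = γ) (θ : A → AA) (hθ : RI θ)
    (hθW : ∀ b, ¬ W b → θ b = 0) (χ : X) :
    ∑ b, θ b * Aχ χ b ∈ QN p red a := by
  by_cases hne : ∃ b₀ : A, W b₀
  swap
  · push Not at hne
    rw [Finset.sum_eq_zero fun b _ => by rw [hθW b (hne b), zero_mul]]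
    exact zero_mem _
  obtain ⟨b₀, hb₀⟩ := hne
  -- the exponent
  have hM : ∀ b : A, ∃ M : ℕ, W b → ∀ m ≥ M, C b ^ p ^ m - C b₀ ^ p ^ m ∈ QN p red N := by
    intro b
    by_cases hb : W b
    · obtain ⟨M, hM⟩ := exists_pow_sub_mem (p := p) (red := red) (C b) (C b₀)
        (by rw [h3 b hb, h3 b₀ hb₀]) N
      exact ⟨M, fun _ => hM⟩
    · exact ⟨0, fun h => absurd h hb⟩
  choose M hM using hM
  set M₀ := ∑ b, M b with hM₀
  set κ := C b₀ ^ p ^ M₀ with hκ
  have hκ' : ∀ b, W b → C b ^ p ^ M₀ - κ ∈ QN p red N := fun b hb =>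
    hM b hb M₀ (Finset.single_le_sum (fun _ _ => Nat.zero_le _) (mem_univ b))
  have hodd : Odd (p ^ M₀) := (hp.out.odd_of_ne_two hp2).pow
  obtain ⟨h, hh⟩ := hodd
  set P : A → AA := fun b => ∑ χ, F χ b * m χ with hP
  have hPRI : RI P := by
    refine RI.sum univ fun χ _ => ?_
    exact (hF χ).mul (RI.const _)
  set f : A → AA := fun b => F χ b * P b ^ h with hf
  have hfRI : RI f := (hF χ).mul (hPRI.pow h)
  have key : ∀ b, W b → f b - κ * Aχ χ b ∈ QN p red N := by
    intro b hb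
    rw [← Ideal.Quotient.eq]
    have e1 := Ideal.Quotient.eq.2 (h1 χ b hb)
    have e2 := Ideal.Quotient.eq.2 (h2 b hb)
    have e3 := Ideal.Quotient.eq.2 (hκ' b hb)
    have e4 : Ideal.Quotient.mk (QN p red N) (P b) = Ideal.Quotient.mk (QN p red N) (C b ^ 2) := e2
    simp only [hf, map_mul, map_pow] at e1 e3 e4 ⊢
    rw [e1, e4, ← e3, hh]
    ring
  -- conclusion
  obtain ⟨c₀, hc₀⟩ := (hθ.mul hfRI).pair 0
  have e5 : ∑ b, θ b * f b = (p : AA) ^ a * c₀ := by
    have e6 : ∀ b, θ b * f b = θ b * f b * lamA 0 b := by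
      intro b
      rw [lamA_zero, mul_one]
    rw [Finset.sum_congr rfl fun b _ => e6 b, ← hc₀, hA]
    push_cast
    ring
  refine mem_of_unit_mul (v := κ) ?_ ?_
  · rw [hκ, map_pow, h3 b₀ hb₀]
    exact pow_ne_zero _ hγ
  · have e7 : κ * ∑ b, θ b * Aχ χ b =
        (p : AA) ^ a * c₀ - ∑ b, θ b * (f b - κ * Aχ χ b) := by
      rw [← e5, ← Finset.sum_sub_distrib, Finset.mul_sum]
      refine Finset.sum_congr rfl fun b _ => ?_
      ring
    rw [e7]
    refine Ideal.sub_mem _ (mem_QN_of_dvd (dvd_mul_right _ _)) (Ideal.sum_mem _ fun b _ => ?_)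
    by_cases hb : W b
    · exact Ideal.mul_mem_left _ _ (QN_mono hN (key b hb))
    · rw [hθW b hb, zero_mul]
      exact zero_mem _

end Abs

section

variable {p : ℕ} [hp : Fact p.Prime] {k : Type v} [Field k] [CharP k p] {red : AA →+* k}
  {G : Type} [Group G] [Fintype G] {D : Subgroup G} {l : (G → k) → k}
  {Φ : ∀ H : Subgroup G, Irr H} {aH bH : Subgroup G → ℕ} {ε : Subgroup G → ℤ} {κ₀ : k}

theorem LocR.avT_sub (h : LocR p red D l Φ aH bH ε κ₀) (hl : BP p D l) (j : G → AA) {N m : ℕ}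
    (hjm : ∀ u, RegT D l u → u ≠ 1 → ∀ χ : Irr G,
        Psi j (p ^ m) χ u - cc p Φ j m (centralizer {u}) *
          dnA p (centralizer {u}) (Nat.card D) (Φ (centralizer {u})).1 u χ.1 ∈ QN p red N)
    {u : G} (hu : RegT D l u) (hu1 : u ≠ 1) (χ : Irr G) :
    AvT D (stabT D l) (Psi j (p ^ m) χ) u - CU p D (stabT D l) Φ ε j m u * Ad p D Φ ε u χ ∈
      QN p red N := by
  unfold CU AvT
  rw [Finset.sum_mul, ← Finset.sum_sub_distrib]
  refine Ideal.sum_mem _ fun c _ => ?_
  by_cases hc : c.out ∈ stabT D l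
  · rw [if_pos hc, if_pos hc]
    have e : c.out⁻¹ * u * c.out = c.out⁻¹ * u * c.out⁻¹⁻¹ := by rw [inv_inv]
    rw [e]
    have hci := inv_mem hc
    set t := c.out⁻¹ with ht
    have hv := RegT.conj' hu hci
    have hv1 := conj_ne (t := t) hu1
    have h1 := hjm _ hv hv1 χ
    rw [← h.ad_conj hl hu hu1 hci χ]
    have h2 : (ε (centralizer {t * u * t⁻¹}) : AA) * cc p Φ j m (centralizer {t * u * t⁻¹}) *
        Ad p D Φ ε (t * u * t⁻¹) χ = cc p Φ j m (centralizer {t * u * t⁻¹}) *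
          dnA p (centralizer {t * u * t⁻¹}) (Nat.card D) (Φ (centralizer {t * u * t⁻¹})).1
            (t * u * t⁻¹) χ.1 := by
      unfold Ad
      have h3 := congrArg (fun n : ℤ => (n : AA)) (h.sq hv hv1)
      push_cast at h3
      linear_combination (cc p Φ j m (centralizer {t * u * t⁻¹}) *
          dnA p (centralizer {t * u * t⁻¹}) (Nat.card D) (Φ (centralizer {t * u * t⁻¹})).1
            (t * u * t⁻¹) χ.1) * h3
    rw [h2]
    exact h1
  · rw [if_neg hc, if_neg hc, zero_mul, sub_zero]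
    exact zero_mem _

include hp in
theorem LocR.red_CU (h : LocR p red D l Φ aH bH ε κ₀) (hl : BP p D l) (hD : IsPGroup p D)
    (hab : D ≤ centralizer (D : Set G)) (hp2 : p ≠ 2)
    (j : G → AA) (hj : ∀ d ∈ D, ∀ g, j (d * g * d⁻¹) = j g)
    (hsep : ∀ n ∈ normalizer (D : Set G), n ∉ stabT D l →
      l (cj n (WW D (fun g => red (j g)))) = 0) (m : ℕ) {u : G} (hu : RegT D l u) (hu1 : u ≠ 1) :
    red (CU p D (stabT D l) Φ ε j m u) = ((centralizer (D : Set G)).relIndex (stabT D l) : k) *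
      (κ₀ * l (WW D (fun g => red (j g)))) ^ p ^ m := by
  unfold CU AvT
  rw [map_sum]
  have h1 : ∀ c : G ⧸ centralizer (D : Set G), red (if c.out ∈ stabT D l then
      (ε (centralizer {c.out⁻¹ * u * c.out}) : AA) * cc p Φ j m (centralizer {c.out⁻¹ * u * c.out})
      else 0) = if c.out ∈ stabT D l then (κ₀ * l (WW D (fun g => red (j g)))) ^ p ^ m else 0 := by
    intro c
    by_cases hc : c.out ∈ stabT D l
    · rw [if_pos hc, if_pos hc]
      have e : c.out⁻¹ * u * c.out = c.out⁻¹ * u * c.out⁻¹⁻¹ := by rw [inv_inv]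
      rw [e]
      have hci := inv_mem hc
      set t := c.out⁻¹ with ht
      have hv := RegT.conj' hu hci
      have hv1 := conj_ne (t := t) hu1
      have hb : (bH (centralizer {t * u * t⁻¹}) : k) ≠ 0 := by
        rw [Ne, CharP.cast_eq_zero_iff k p]
        exact h.hb _ hv hv1
      have h2 := value_S hl hD hab j hj hsep hv (h.nd _ hv hv1) (h.unit _ hv hv1)
      rw [h.eps _ hv hv1] at h2
      have h3 : ∑ x : (centralizer {t * u * t⁻¹} : Subgroup G), red (j x) *
          red (chA (Φ (centralizer {t * u * t⁻¹})) x) =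
          (ε (centralizer {t * u * t⁻¹}) : k) * (κ₀ * l (WW D (fun g => red (j g)))) := by
        apply mul_left_cancel₀ hb
        rw [h2]; ring
      rw [map_mul, map_intCast, cc, red_TT, h3, mul_pow, ← mul_assoc]
      have h4 : (ε (centralizer {t * u * t⁻¹}) : k) * (ε (centralizer {t * u * t⁻¹}) : k) ^ p ^ m = 1 := by
        have hodd : Odd (p ^ m) := (hp.out.odd_of_ne_two hp2).pow
        rcases h.sgn _ hv hv1 with h5 | h5
        · rw [h5]; simp
        · rw [h5]
          push_cast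
          rw [hodd.neg_one_pow]
          norm_num
      rw [h4, one_mul]
    · rw [if_neg hc, if_neg hc, map_zero]
  rw [Finset.sum_congr rfl fun c _ => h1 c, ← Finset.sum_filter, Finset.sum_const, nsmul_eq_mul,
    card_cosets _ _ (cent_le_stabT D l)]

include hp in
/-- **(INT), general local form** -/
theorem LocR.int [IsAlgClosed k] [IsMulCommutative D] (h : LocR p red D l Φ aH bH ε κ₀)
    (hl : BP p D l) (hD : IsPGroup p D) (hab : D ≤ centralizer (D : Set G)) (hp2 : p ≠ 2)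
    (he : ((centralizer (D : Set G)).relIndex (stabT D l) : k) ≠ 0) {a : ℕ}
    (ha : Nat.card D = p ^ a) (θ : Additive D → AA) (hθ : RI θ)
    (hθW : ∀ b : Additive D, ¬ (RegT D l (b.toMul : G) ∧ (b.toMul : G) ≠ 1) → θ b = 0)
    (χ : Irr G) :
    ∑ b : Additive D, θ b * Ad p D Φ ε (b.toMul : G) χ ∈ QN p red a := by
  obtain ⟨j, hj1, hj2, hj3, hj4, hj5⟩ := h.exists_jj hl hD hab
  obtain ⟨M, hM⟩ := hj4 (a + a)
  -- the elements which are not regular
  have hM' : ∀ u v : D, ∃ M : ℕ, (RegT D l (u : G) ∧ (u : G) ≠ 1) →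
      ¬ (RegT D l (v : G) ∧ (v : G) ≠ 1) → ∀ m ≥ M,
        ∑ χ : Irr G, Ad p D Φ ε (u : G) χ * Psi j (p ^ m) χ (v : G) ∈ QN p red (a + a) := by
    intro u v
    by_cases hu : RegT D l (u : G) ∧ (u : G) ≠ 1
    · by_cases hv : ¬ (RegT D l (v : G) ∧ (v : G) ≠ 1)
      · obtain ⟨M, hM⟩ := h.orth hl hD hab j hj1 hj5 hu.1 hu.2 v.2 hv (a + a)
        exact ⟨M, fun _ _ => hM⟩
      · exact ⟨0, fun _ h => absurd h hv⟩
    · exact ⟨0, fun h => absurd h hu⟩
  choose M' hM' using hM'
  set m := M + ∑ u, ∑ v, M' u v with hm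
  have hmM' : ∀ u v, M' u v ≤ m := by
    intro u v
    have h1 : M' u v ≤ ∑ v, M' u v := Finset.single_le_sum (fun _ _ => Nat.zero_le _) (mem_univ v)
    have h2 : ∑ v, M' u v ≤ ∑ u, ∑ v, M' u v :=
      Finset.single_le_sum (f := fun u => ∑ v, M' u v) (fun _ _ => Nat.zero_le _) (mem_univ u)
    omega
  have hjm := hM m (by omega)
  have hcardA : Fintype.card (Additive D) = p ^ a := by
    rw [← ha, Nat.card_eq_fintype_card, Fintype.card_congr (Additive.toMul (α := D))]
  -- the coefficients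
  have hpair : ∀ χ : Irr G, ∃ c : AA, (p : AA) ^ a * c =
      ∑ b : Additive D, Psi j (p ^ m) χ (b.toMul : G) := by
    intro χ
    obtain ⟨c, hc⟩ := (RI_Psi j hj1 (p ^ m) χ).pair 0
    refine ⟨c, ?_⟩
    rw [hcardA] at hc
    push_cast at hc
    rw [hc]
    exact Finset.sum_congr rfl fun b _ => by rw [lamA_zero, mul_one]
  choose mχ hmχ using hpair
  refine int_absW (p := p) (red := red) hp2 (N := a) hcardA le_rfl
    (fun b : Additive D => RegT D l (b.toMul : G) ∧ (b.toMul : G) ≠ 1)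
    (fun (χ : Irr G) (b : Additive D) => AvT D (stabT D l) (Psi j (p ^ m) χ) (b.toMul : G))
    (fun χ b => Ad p D Φ ε (b.toMul : G) χ)
    (fun b => CU p D (stabT D l) Φ ε j m (b.toMul : G)) mχ
    (fun χ => RI_AvT (stabT_le_norm D l) (RI_Psi j hj1 (p ^ m) χ)) ?_ ?_
    (((centralizer (D : Set G)).relIndex (stabT D l) : k) *
      (κ₀ * l (WW D (fun g => red (j g)))) ^ p ^ m) ?_ ?_ θ hθ hθW χ
  · intro χ b hb
    exact QN_mono (by omega) (h.avT_sub hl j hjm hb.1 hb.2 χ)
  · intro b₀ hb₀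
    set u : G := (b₀.toMul : G) with hu
    have huR : RegT D l u := hb₀.1
    have hu1 : u ≠ 1 := hb₀.2
    set Cu := CU p D (stabT D l) Φ ε j m u with hCu
    set F : Irr G → AA := fun χ => AvT D (stabT D l) (Psi j (p ^ m) χ) u with hF
    have hFu : ∀ χ, F χ - Cu * Ad p D Φ ε u χ ∈ QN p red (a + a) := fun χ =>
      h.avT_sub hl j hjm huR hu1 χ
    set w : G → AA := fun v => (ε (centralizer {v}) : AA) * cc p Φ j m (centralizer {v}) with hw
    have hwinv : ∀ v, w v⁻¹ = w v := by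
      intro v
      simp only [hw, cz_inv]
    have horb := orb_sum' huR hu1 w (Nat.card D : AA)
    simp only [hwinv] at horb
    refine mem_QN_of_mul (a := a) ?_
    -- the difference
    have key : (p : AA) ^ a * ((∑ χ, F χ * mχ χ) - Cu ^ 2) =
        ∑ b : Additive D, ((∑ χ, F χ * Psi j (p ^ m) χ (b.toMul : G)) -
          Cu * (if b = 0 then 0 else w (b.toMul : G) *
            (if ∃ t ∈ stabT D l, t * u * t⁻¹ = (b.toMul : G)⁻¹ then (Nat.card D : AA) else 0))) := by
      rw [Finset.sum_sub_distrib, ← Finset.mul_sum, horb, ha]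
      have h1 : AvT D (stabT D l) w u = Cu := rfl
      rw [h1, mul_sub, Finset.mul_sum, Finset.sum_comm]
      congr 1
      · refine Finset.sum_congr rfl fun χ _ => ?_
        rw [← Finset.mul_sum, ← hmχ]
        ring
      · push_cast; ring
    rw [key]
    refine Ideal.sum_mem _ fun b _ => ?_
    by_cases hb : RegT D l (b.toMul : G) ∧ (b.toMul : G) ≠ 1
    · have hb0 : b ≠ 0 := by
        rintro rfl
        exact hb.2 rfl
      rw [if_neg hb0]
      have hgram := h.gram hl hD hab huR hu1 hb.1 hb.2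
      rw [← hgram]
      have h1 : (∑ χ, F χ * Psi j (p ^ m) χ (b.toMul : G)) - Cu * (w (b.toMul : G) *
          ∑ χ, Ad p D Φ ε u χ * Ad p D Φ ε (b.toMul : G) χ) =
          ∑ χ, ((F χ - Cu * Ad p D Φ ε u χ) * Psi j (p ^ m) χ (b.toMul : G) +
            Cu * Ad p D Φ ε u χ * (Psi j (p ^ m) χ (b.toMul : G) -
              w (b.toMul : G) * Ad p D Φ ε (b.toMul : G) χ)) := by
        rw [Finset.mul_sum, Finset.mul_sum, ← Finset.sum_sub_distrib]
        exact Finset.sum_congr rfl fun χ _ => by ring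
      rw [h1]
      refine Ideal.sum_mem _ fun χ _ => Ideal.add_mem _ (Ideal.mul_mem_right _ _ (hFu χ))
        (Ideal.mul_mem_left _ _ ?_)
      have h2 := hjm _ hb.1 hb.2 χ
      have h3 : w (b.toMul : G) * Ad p D Φ ε (b.toMul : G) χ = cc p Φ j m (centralizer {(b.toMul : G)}) *
          dnA p (centralizer {(b.toMul : G)}) (Nat.card D) (Φ (centralizer {(b.toMul : G)})).1
            (b.toMul : G) χ.1 := by
        simp only [hw]
        unfold Ad
        have h4 := congrArg (fun n : ℤ => (n : AA)) (h.sq hb.1 hb.2)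
        push_cast at h4
        linear_combination (cc p Φ j m (centralizer {(b.toMul : G)}) *
          dnA p (centralizer {(b.toMul : G)}) (Nat.card D) (Φ (centralizer {(b.toMul : G)})).1
            (b.toMul : G) χ.1) * h4
      rw [h3]
      exact h2
    · have h0 : (if b = 0 then 0 else w (b.toMul : G) *
            (if ∃ t ∈ stabT D l, t * u * t⁻¹ = (b.toMul : G)⁻¹ then (Nat.card D : AA) else 0)) = 0 := by
        by_cases hb0 : b = 0
        · rw [if_pos hb0]
        · rw [if_neg hb0, if_neg, mul_zero]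
          rintro ⟨t, ht, htu⟩
          apply hb
          have h1 := RegT.inv' (RegT.conj' huR ht)
          rw [htu, inv_inv] at h1
          refine ⟨h1, fun h2 => hb0 ?_⟩
          apply Additive.toMul.injective
          exact Subtype.ext h2
      rw [h0, mul_zero, sub_zero]
      have h1 : ∑ χ, F χ * Psi j (p ^ m) χ (b.toMul : G) =
          ∑ χ, (F χ - Cu * Ad p D Φ ε u χ) * Psi j (p ^ m) χ (b.toMul : G) +
            Cu * ∑ χ, Ad p D Φ ε u χ * Psi j (p ^ m) χ (b.toMul : G) := by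
        rw [Finset.mul_sum, ← Finset.sum_add_distrib]
        refine Finset.sum_congr rfl fun χ _ => ?_
        ring
      rw [h1]
      refine Ideal.add_mem _ (Ideal.sum_mem _ fun χ _ => Ideal.mul_mem_right _ _ (hFu χ)) ?_
      exact Ideal.mul_mem_left _ _ (hM' b₀.toMul b.toMul hb₀ hb m (hmM' _ _))
  · exact mul_ne_zero he (pow_ne_zero _ (mul_ne_zero h.ne hj2))
  · intro b hb
    exact h.red_CU hl hD hab hp2 j hj1 hj3 m hb.1 hb.2

end

end P179I
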