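import Vale.Agent.P179.H905.J5

/-!
# (INT), general form: 6. integrality, existence of the local data, congruences
-/

namespace P179I

open Finset P179P P179C P179Y Subgroup P179H524

open P179X (pp SameSec)

open scoped Classical IsMulCommutative

universe v

set_option linter.unusedSectionVars false

section

variable {p : ℕ} [hp : Fact p.Prime] {k : Type v} [Field k] [CharP k p] {red : AA →+* k}
  {G : Type} [Group G] [Fintype G] {D : Subgroup G} {l : (G → k) → k}
  {Φ : ∀ H : Subgroup G, Irr H} {aH bH : Subgroup G → ℕ} {ε : Subgroup G → ℤ} {κ₀ : k}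

include hp in
theorem LocR.int_rat [IsMulCommutative D] (h : LocR p red D l Φ aH bH ε κ₀)
    (hD : IsPGroup p D) (hp2 : p ≠ 2) (c : AddChar (Additive D) ℂ → ℤ)
    (hθW : ∀ b : Additive D, ¬ (RegT D l (b.toMul : G) ∧ (b.toMul : G) ≠ 1) →
      ∑ ψ, (c ψ : AA) * lamA ψ b = 0) (χ : Irr G) :
    ∃ z : ℤ, ∑ b : Additive D, (∑ ψ, (c ψ : AA) * lamA ψ b) * Ad p D Φ ε (b.toMul : G) χ =
      (z : AA) := by
  obtain ⟨m, hm, -, hgen⟩ := P179P.exists_exponent (p := p) hp2 (Nat.card G) Nat.card_pos.ne'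
  set N := ordProj[p] (Nat.card G) with hN
  have hN0 : N ≠ 0 := pow_ne_zero _ hp.out.ne_zero
  have hNpos : 0 < N := Nat.pos_of_ne_zero hN0
  have hG0 : Nat.card G ≠ 0 := Nat.card_pos.ne'
  have huN : ∀ u ∈ D, u ^ N = 1 := by
    intro u hu
    obtain ⟨a, ha⟩ := hD ⟨u, hu⟩
    have ha' : u ^ p ^ a = 1 := by simpa using congrArg Subtype.val ha
    obtain ⟨i, -, hi⟩ := (Nat.dvd_prime_pow hp.out).1 (orderOf_dvd_of_pow_eq_one ha')
    rw [← orderOf_dvd_iff_pow_eq_one, hi]
    have h1 : p ^ i ∣ Nat.card G := by rw [← hi]; exact orderOf_dvd_natCard u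
    exact pow_dvd_pow p ((hp.out.pow_dvd_iff_le_factorization hG0).1 h1)
  set ζ : ℂ := Complex.exp (2 * Real.pi * Complex.I / N) with hζdef
  have hζ : IsPrimitiveRoot ζ N := Complex.isPrimitiveRoot_exp N hN0
  have hNe : NeZero N := ⟨hN0⟩
  -- the regular elements
  set W : Additive D → Prop := fun b => RegT D l (b.toMul : G) ∧ (b.toMul : G) ≠ 1 with hW
  -- the polynomials
  have hP : ∀ b : Additive D, ∃ P : Polynomial ℤ, W b → ∀ j : ℕ,
      dn p (centralizer {(b.toMul : G)}) (Nat.card D) (Φ (centralizer {(b.toMul : G)})).1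
        ((b.toMul : G) ^ j) χ.1 = Polynomial.aeval (ζ ^ j) P := by
    intro b
    by_cases hb : W b
    · obtain ⟨P, hP⟩ := dn_poly p red _ Nat.card_pos.ne' (h.nd _ hb.1 hb.2)
        (b.toMul : G) (huN _ b.toMul.2) hN0 (mem_cz _) χ hζ
      exact ⟨P, fun _ => hP⟩
    · exact ⟨0, fun h => absurd h hb⟩
  choose P hP using hP
  have hi : ∀ (ψ : AddChar (Additive D) ℂ) (b : Additive D), ∃ i : ℕ, ζ ^ i = ψ b := by
    intro ψ b
    have h1 : ψ b ^ N = 1 := by
      rw [← AddChar.map_nsmul_eq_pow]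
      have h2 : N • b = 0 := by
        apply Additive.toMul.injective
        apply Subtype.ext
        change (b.toMul : G) ^ N = 1
        exact huN _ b.toMul.2
      rw [h2, AddChar.map_zero_eq_one]
    obtain ⟨i, -, hi⟩ := hζ.eq_pow_of_pow_eq_one h1
    exact ⟨i, hi⟩
  choose i hi using hi
  set R : Polynomial ℤ := ∑ b : Additive D, if W b then
    (∑ ψ, Polynomial.C (c ψ) * Polynomial.X ^ i ψ b) *
      (Polynomial.C (ε (centralizer {(b.toMul : G)})) * P b) else 0 with hR
  have hRj : ∀ j : ℕ, Polynomial.aeval (ζ ^ j) R = ∑ b : Additive D, if W b then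
      (∑ ψ, (c ψ : ℂ) * ψ b ^ j) * ((ε (centralizer {(b.toMul : G)}) : ℂ) *
        dn p (centralizer {(b.toMul : G)}) (Nat.card D) (Φ (centralizer {(b.toMul : G)})).1
          ((b.toMul : G) ^ j) χ.1) else 0 := by
    intro j
    rw [hR, map_sum]
    refine Finset.sum_congr rfl fun b _ => ?_
    by_cases hb : W b
    · rw [if_pos hb, if_pos hb, hP b hb j]
      simp only [map_mul, map_sum, map_pow, Polynomial.aeval_X, Polynomial.aeval_C]
      congr 1
      refine Finset.sum_congr rfl fun ψ _ => ?_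
      rw [← hi ψ b, ← pow_mul, ← pow_mul, mul_comm j]
      rfl
    · rw [if_neg hb, if_neg hb, map_zero]
  -- the values
  set t : Additive D → ℂ := fun b => if W b then
      (∑ ψ, (c ψ : ℂ) * ψ b) * ((ε (centralizer {(b.toMul : G)}) : ℂ) *
        dn p (centralizer {(b.toMul : G)}) (Nat.card D) (Φ (centralizer {(b.toMul : G)})).1
          (b.toMul : G) χ.1) else 0 with ht
  have h1 : Polynomial.aeval ζ R = ∑ b, t b := by
    have := hRj 1
    rw [pow_one] at this
    rw [this]
    refine Finset.sum_congr rfl fun b _ => ?_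
    simp only [ht, pow_one]
  have hcop : (Nat.card D).Coprime m :=
    (Nat.Coprime.coprime_dvd_right (Subgroup.card_subgroup_dvd_card D) hm).symm
  have hmG : ∀ u : G, (orderOf u).Coprime m := fun u =>
    Nat.Coprime.coprime_dvd_left (orderOf_dvd_natCard u) (Nat.Coprime.symm hm)
  have hmb : ∀ b : Additive D, W (m • b) ↔ W b := by
    intro b
    have e : (((m • b : Additive D).toMul : D) : G) = (b.toMul : G) ^ m := rfl
    simp only [hW]
    rw [e]
    constructor
    · rintro ⟨h2, h3⟩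
      refine ⟨?_, fun h4 => h3 (by rw [h4, one_pow])⟩
      obtain ⟨e', he'⟩ := exists_pow_eq_self_of_coprime (hmG (b.toMul : G)).symm
      have hcop' : (orderOf ((b.toMul : G) ^ m)).Coprime e' := by
        have h5 : ((b.toMul : G) ^ m) ^ (e' * m) = (b.toMul : G) ^ m := by
          rw [pow_mul, he']
        -- `e' m = 1` modulo the order
        have h6 : e' * m ≡ 1 [MOD orderOf ((b.toMul : G) ^ m)] := by
          rw [← pow_eq_pow_iff_modEq, h5, pow_one]
        have h7 : Nat.gcd (e' * m) (orderOf ((b.toMul : G) ^ m)) = 1 := by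
          rw [h6.gcd_eq, Nat.gcd_one_left]
        exact (Nat.Coprime.coprime_mul_right (show Nat.Coprime (e' * m) _ from h7)).symm
      have h5 := RegT.pow' h2 hcop'
      rwa [he'] at h5
    · rintro ⟨h2, h3⟩
      refine ⟨RegT.pow' h2 (hmG _), fun h4 => h3 ?_⟩
      obtain ⟨e', he'⟩ := exists_pow_eq_self_of_coprime (hmG (b.toMul : G)).symm
      rw [← he', h4, one_pow]
  have h2 : Polynomial.aeval (ζ ^ m) R = ∑ b, t b := by
    rw [hRj m]
    have hcardA : (Nat.card (Additive D)).Coprime m := by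
      rw [Nat.card_congr (Additive.toMul (α := D))]; exact hcop
    refine Fintype.sum_equiv (nsmulCoprime hcardA) _ _ fun b => ?_
    change _ = t (m • b)
    simp only [ht]
    by_cases hb : W b
    · rw [if_pos hb, if_pos ((hmb b).2 hb)]
      have h3 : (((m • b : Additive D).toMul : D) : G) = (b.toMul : G) ^ m := rfl
      have h4 : (centralizer {(b.toMul : G) ^ m} : Subgroup G) = centralizer {(b.toMul : G)} :=
        cz_pow (hmG _)
      rw [h3, h4]
      congr 1
      exact Finset.sum_congr rfl fun ψ _ => by rw [AddChar.map_nsmul_eq_pow]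
    · rw [if_neg hb, if_neg (fun h => hb ((hmb b).1 h))]
  obtain ⟨z, hz⟩ := P179H234.exists_int_of_gen hNpos hζ R
    (Nat.Coprime.coprime_dvd_right (Nat.ordProj_dvd _ _) hm) (fun j hj => by
    by_cases hf : (Nat.card G).factorization p = 0
    · refine ⟨0, ?_⟩
      have : N = 1 := by rw [hN, hf, pow_zero]
      rw [this]
      exact Nat.modEq_one
    · apply hgen
      intro hpj
      have h1 : p ∣ Nat.gcd j N := Nat.dvd_gcd hpj (dvd_pow_self p hf)
      rw [hj] at h1
      exact hp.out.one_lt.ne' (Nat.dvd_one.1 h1)) (by rw [h1, h2])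
  refine ⟨z, Subtype.ext ?_⟩
  push_cast
  rw [← hz, h1]
  refine Finset.sum_congr rfl fun b _ => ?_
  simp only [ht]
  by_cases hb : W b
  · rw [if_pos hb]
    unfold Ad
    push_cast
    rw [h.dn_coe hb.1 hb.2]
    rfl
  · rw [if_neg hb]
    have h3 := congrArg (fun x : AA => (x : ℂ)) (hθW b hb)
    push_cast at h3
    rw [h3, zero_mul]

theorem RI_intComb [IsMulCommutative D] (c : AddChar (Additive D) ℂ → ℤ) :
    RI (fun b => ∑ ψ, (c ψ : AA) * lamA ψ b) := ⟨fun ψ => (c ψ : AA), fun _ => rfl⟩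

include hp in
/-- **(INT), general form**: for every generalised character `θ` of `D` which vanishes on `1` and
on the elements which are not `T`-regular, `∑ θ(b) A_χ(b)` is an integer divisible by `|D|` -/
theorem LocR.INT [IsAlgClosed k] [IsMulCommutative D] (h : LocR p red D l Φ aH bH ε κ₀)
    (hl : BP p D l) (hD : IsPGroup p D) (hab : D ≤ centralizer (D : Set G)) (hp2 : p ≠ 2)
    (he : ((centralizer (D : Set G)).relIndex (stabT D l) : k) ≠ 0)
    (c : AddChar (Additive D) ℂ → ℤ)
    (hθW : ∀ b : Additive D, ¬ (RegT D l (b.toMul : G) ∧ (b.toMul : G) ≠ 1) →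
      ∑ ψ, (c ψ : AA) * lamA ψ b = 0) (χ : Irr G) :
    ∃ z : ℤ, ∑ b : Additive D, (∑ ψ, (c ψ : AA) * lamA ψ b) * Ad p D Φ ε (b.toMul : G) χ =
      (Nat.card D : AA) * z := by
  obtain ⟨a, ha⟩ := (IsPGroup.iff_card (p := p)).1 hD
  have h1 := h.int hl hD hab hp2 he ha _ (RI_intComb c) hθW χ
  obtain ⟨z, hz⟩ := h.int_rat hD hp2 c hθW χ
  rw [hz] at h1
  obtain ⟨d, rfl⟩ := int_of_mem h1
  refine ⟨d, ?_⟩
  rw [hz, ha]
  push_cast
  ring

include hp in
/-- existence of the local data -/
theorem exists_LocR [IsAlgClosed k] (hl : BP p D l) (hD : IsPGroup p D)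
    (hab : D ≤ centralizer (D : Set G)) :
    ∃ Φ aH bH ε κ₀, LocR p red D l Φ aH bH ε κ₀ := by
  -- the characters
  have h1 : ∀ H : Subgroup G, ∃ φ : Irr H, (∃ φ', ND red p (lres H l) (Nat.card D) φ') →
      ND red p (lres H l) (Nat.card D) φ.1 := by
    intro H
    by_cases h : ∃ φ', ND red p (lres H l) (Nat.card D) φ'
    · obtain ⟨φ, hφ⟩ := h
      exact ⟨⟨φ, hφ.irr⟩, fun _ => hφ⟩
    · obtain ⟨φ⟩ := nonempty_Irr H
      exact ⟨φ, fun h' => absurd h' h⟩
  choose Φ hΦ using h1
  have hnd : ∀ u, RegT D l u → u ≠ 1 → ND red p (lres (centralizer {u}) l) (Nat.card D)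
      (Φ (centralizer {u})).1 := fun u hu hu1 =>
    hΦ _ (exists_NDT p red hl hD hab hu)
  -- the units
  have h2 : ∀ H : Subgroup G, ∃ a b : ℕ, ND red p (lres H l) (Nat.card D) (Φ H).1 →
      ¬ p ∣ a ∧ ¬ p ∣ b ∧ (a : ℂ) * Nat.card H = b * (Nat.card D * (Φ H).1 1) := by
    intro H
    by_cases h : ND red p (lres H l) (Nat.card D) (Φ H).1
    · obtain ⟨a, b, ha, hb, hab⟩ := h.unit
      exact ⟨a, b, fun _ => ⟨ha, hb, hab⟩⟩
    · exact ⟨0, 0, fun h' => absurd h' h⟩
  choose aH bH hunit using h2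
  have hcast : ∀ n : ℕ, ¬ p ∣ n → (n : k) ≠ 0 := fun n hn => by
    rw [Ne, CharP.cast_eq_zero_iff k p]; exact hn
  by_cases hex : ∃ u₀, RegT D l u₀ ∧ u₀ ≠ 1
  swap
  · push Not at hex
    exact ⟨Φ, aH, bH, fun _ => 1, 1, fun u hu hu1 => absurd (hex u hu) hu1,
      fun u hu hu1 => absurd (hex u hu) hu1, fun u hu hu1 => absurd (hex u hu) hu1,
      fun u hu hu1 => absurd (hex u hu) hu1, fun u hu hu1 => absurd (hex u hu) hu1, one_ne_zero,
      fun u hu hu1 => absurd (hex u hu) hu1⟩
  obtain ⟨u₀, hu₀, hu₀1⟩ := hex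
  set a₀ := aH (centralizer {u₀}) with ha₀
  set b₀ := bH (centralizer {u₀}) with hb₀
  obtain ⟨ha0, hb0, hab0⟩ := hunit _ (hnd u₀ hu₀ hu₀1)
  rw [← ha₀] at ha0
  rw [← hb₀] at hb0
  have hsq := hsq_ofT p red hl hD hab (fun w => (Φ (centralizer {w})).1) (by
    intro w hw
    exact hΦ _ (exists_NDT p red hl hD hab hw))
  set ε : Subgroup G → ℤ := fun H => if (bH H : k) * a₀ = aH H * b₀ then 1 else -1 with hε
  refine ⟨Φ, aH, bH, ε, (a₀ : k) / b₀, hnd, ?_, ?_, ?_, ?_, ?_, ?_⟩
  · intro u hu hu1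
    exact (hunit _ (hnd u hu hu1)).2.1
  · intro u hu hu1
    exact (hunit _ (hnd u hu hu1)).2.2
  · intro u _ _
    simp only [hε]
    split_ifs
    · exact Or.inl rfl
    · exact Or.inr rfl
  · intro u hu hu1
    obtain ⟨ha, hb, hab1⟩ := hunit _ (hnd u hu hu1)
    have h3 := hsq u u₀ hu hu₀ _ _ _ _ ha hb ha0 hb0 hab1 hab0
    rcases sq_eq_sq_iff_eq_or_eq_neg.1 h3 with h4 | h4
    · simp only [hε]
      rw [if_pos h4]
      have := hcast _ hb0
      field_simp
      push_cast
      linear_combination (-1 : k) * h4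
    · simp only [hε]
      by_cases h5 : (bH (centralizer {u}) : k) * a₀ = aH (centralizer {u}) * b₀
      · rw [if_pos h5]
        have := hcast _ hb0
        field_simp
        push_cast
        linear_combination (-1 : k) * h5
      · rw [if_neg h5]
        have := hcast _ hb0
        field_simp
        push_cast
        linear_combination h4
  · exact div_ne_zero (hcast _ ha0) (hcast _ hb0)
  · intro u hu hu1 t ht
    have hu' := RegT.conj' hu ht
    have hu1' := conj_ne (t := t) hu1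
    obtain ⟨ha, hb, hab1⟩ := hunit _ (hnd u hu hu1)
    obtain ⟨ha', hb', hab1'⟩ := hunit _ (hnd _ hu' hu1')
    have hval : (Φ (centralizer {t * u * t⁻¹})).1 1 = (Φ (centralizer {u})).1 1 := by
      have := phi_conj hl hu.1 ht (hnd u hu hu1) (hnd _ hu' hu1') (s := 1) (by
        rw [orderOf_one]; exact hp.out.one_lt.ne' ∘ Nat.dvd_one.1)
      rwa [map_one] at this
    rw [hval, ← Nat.card_congr (cEquiv t u).toEquiv] at hab1'
    have hcard0 : (Nat.card (centralizer {u} : Subgroup G) : ℂ) ≠ 0 := by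
      exact_mod_cast Nat.card_pos.ne'
    have h3 : (aH (centralizer {t * u * t⁻¹}) : ℂ) * bH (centralizer {u}) =
        aH (centralizer {u}) * bH (centralizer {t * u * t⁻¹}) := by
      apply mul_right_cancel₀ hcard0
      linear_combination (bH (centralizer {u}) : ℂ) * hab1' -
        (bH (centralizer {t * u * t⁻¹}) : ℂ) * hab1
    have h4 : (aH (centralizer {t * u * t⁻¹}) : k) * bH (centralizer {u}) =
        aH (centralizer {u}) * bH (centralizer {t * u * t⁻¹}) := by
      have h5 : aH (centralizer {t * u * t⁻¹}) * bH (centralizer {u}) =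
        aH (centralizer {u}) * bH (centralizer {t * u * t⁻¹}) := by exact_mod_cast h3
      exact_mod_cast congrArg (fun n : ℕ => (n : k)) h5
    have h5 : ((bH (centralizer {t * u * t⁻¹}) : k) * a₀ = aH (centralizer {t * u * t⁻¹}) * b₀) ↔
        ((bH (centralizer {u}) : k) * a₀ = aH (centralizer {u}) * b₀) := by
      constructor
      · intro h6
        apply mul_left_cancel₀ (hcast _ hb')
        linear_combination (bH (centralizer {u}) : k) * h6 + (b₀ : k) * h4
      · intro h6
        apply mul_left_cancel₀ (hcast _ hb)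
        linear_combination (bH (centralizer {t * u * t⁻¹}) : k) * h6 - (b₀ : k) * h4
    simp only [hε, h5]

end

end P179I
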