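import Vale.Agent.P179.H905.J6
import Vale.Agent.P179.H143.MainY

/-!
# (INT), general form: 7. vanishing, congruences, rational characters
-/

namespace P179I

open Finset P179P P179C P179Y Subgroup P179H524

open P179X (pp SameSec)

open scoped Classical IsMulCommutative

universe v

set_option linter.unusedSectionVars false

section

variable {p : ℕ} [hp : Fact p.Prime] {k : Type v} [Field k] [CharP k p] {red : AA →+* k}
  {G : Type} [Group G] [Fintype G] {D : Subgroup G} {l : (G → k) → k}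
  {Φ : ∀ H : Subgroup G, Irr H} {aH bH : Subgroup G → ℕ} {ε : Subgroup G → ℤ} {κ₀ : k}

theorem LocR.Ad_eq_zero (h : LocR p red D l Φ aH bH ε κ₀) (hl : BP p D l) (hD : IsPGroup p D)
    {u : G} (hu : RegT D l u) (hu1 : u ≠ 1) (χ : Irr G) (hχ : ¬ InL red l χ.1) :
    Ad p D Φ ε u χ = 0 := by
  obtain ⟨n, hn⟩ := hD ⟨u, hu.1⟩
  apply Subtype.ext
  unfold Ad
  push_cast
  rw [h.dn_coe hu hu1, dn_eq_zero p red (centralizer {u}) (hl.lres_coe (cent_le_of_mem hu.1))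
    (h.nd u hu hu1) u ⟨n, by simpa using congrArg Subtype.val hn⟩ (mem_cz u) χ hχ, mul_zero]

include hp in
theorem LocR.Ad_ne_zero [IsAlgClosed k] (h : LocR p red D l Φ aH bH ε κ₀) (hl : BP p D l)
    (hD : IsPGroup p D) (hab : D ≤ centralizer (D : Set G))
    (he : ((centralizer (D : Set G)).relIndex (stabT D l) : k) ≠ 0)
    {u : G} (hu : RegT D l u) (hu1 : u ≠ 1) (χ : Irr G) (hχ : InL red l χ.1) :
    Ad p D Φ ε u χ ≠ 0 := by
  have h1 := dn_ne_zero p red (centralizer {u}) Nat.card_pos.ne' (h.nd u hu hu1) (h.hb u hu hu1)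
    (h.unit u hu hu1) u (mem_cz u) hl.smul he (K5P_ofT p red hl hD hab hu) χ hχ
  intro h0
  apply h1
  rw [← h.dn_coe hu hu1]
  have h2 := congrArg (fun x : AA => (x : ℂ)) h0
  unfold Ad at h2
  push_cast at h2
  rcases mul_eq_zero.1 h2 with h3 | h3
  · exfalso
    have h4 : ε (centralizer {u}) = 0 := by exact_mod_cast h3
    rcases h.sgn u hu hu1 with h5 | h5 <;> rw [h5] at h4 <;> norm_num at h4
  · exact h3

include hp in
/-- the congruence, with the signs -/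
theorem LocR.cong [IsAlgClosed k] (h : LocR p red D l Φ aH bH ε κ₀) (hl : BP p D l)
    (hD : IsPGroup p D) (hab : D ≤ centralizer (D : Set G))
    (he : ((centralizer (D : Set G)).relIndex (stabT D l) : k) ≠ 0)
    {u u' : G} (hu : RegT D l u) (hu1 : u ≠ 1) (hu' : RegT D l u') (hu1' : u' ≠ 1) (χ : Irr G)
    (hχ : InL red l χ.1) : red (Ad p D Φ ε u χ) = red (Ad p D Φ ε u' χ) := by
  have hq0 : (Nat.card D : ℂ) ≠ 0 := by exact_mod_cast Nat.card_pos.ne'
  have hG0 : (Nat.card G : ℂ) ≠ 0 := by exact_mod_cast Nat.card_pos.ne'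
  obtain ⟨X, hX, hX2⟩ := P179Y.cong p red (centralizer {u}) Nat.card_pos.ne' (h.nd u hu hu1)
    (h.hb u hu hu1) (h.unit u hu hu1) u (mem_cz u) hl.smul (K5P_ofT p red hl hD hab hu) χ hχ
  obtain ⟨X', hX', hX2'⟩ := P179Y.cong p red (centralizer {u'}) Nat.card_pos.ne' (h.nd u' hu' hu1')
    (h.hb u' hu' hu1') (h.unit u' hu' hu1') u' (mem_cz u') hl.smul (K5P_ofT p red hl hD hab hu') χ hχ
  rw [← h.dn_coe hu hu1] at hX
  rw [← h.dn_coe hu' hu1'] at hX'
  set d : AA := dnA p (centralizer {u}) (Nat.card D) (Φ (centralizer {u})).1 u χ.1 with hd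
  set d' : AA := dnA p (centralizer {u'}) (Nat.card D) (Φ (centralizer {u'})).1 u' χ.1 with hd'
  have h1 : X * ((aH (centralizer {u'}) : AA) * d') = X' * ((aH (centralizer {u}) : AA) * d) := by
    apply Subtype.ext
    push_cast
    have hχ0 := χ.one_ne_zero
    apply mul_right_cancel₀ (mul_ne_zero hq0 hχ0)
    apply mul_right_cancel₀ hG0
    linear_combination (aH (centralizer {u'}) * (d' : ℂ) * Nat.card G) * hX -
      (aH (centralizer {u}) * (d : ℂ) * Nat.card G) * hX'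
  have h2 := congrArg red h1
  simp only [map_mul, map_natCast, hX2, hX2'] at h2
  rw [h.eps u hu hu1, h.eps u' hu' hu1'] at h2
  have hb : (bH (centralizer {u}) : k) ≠ 0 := by
    rw [Ne, CharP.cast_eq_zero_iff k p]; exact h.hb u hu hu1
  have hb' : (bH (centralizer {u'}) : k) ≠ 0 := by
    rw [Ne, CharP.cast_eq_zero_iff k p]; exact h.hb u' hu' hu1'
  have hκ := h.ne
  unfold Ad
  rw [map_mul, map_mul, map_intCast, map_intCast]
  apply mul_left_cancel₀ (mul_ne_zero (mul_ne_zero (mul_ne_zero hb hb') hκ) he)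
  linear_combination (-1 : k) * h2

omit [CharP k p] in
/-- the generalised decomposition numbers of a rational character -/
theorem dn_pow_m (H : Subgroup G) (q : ℕ) (φ : H → ℂ) (u : G) (hH : ∀ x, x ∈ H → x * u = u * x)
    (χ : Irr G) {m : ℕ} (hm1 : m ≡ 1 [MOD ordCompl[p] (Nat.card G)])
    (hχm : ∀ g, χ.1 (g ^ m) = χ.1 g) : dn p H q φ (u ^ m) χ.1 = dn p H q φ u χ.1 := by
  rw [dn, dn]
  congr 1
  rw [rsum_eq, rsum_eq]
  refine Finset.sum_congr rfl fun t ht => ?_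
  congr 1
  have h1 : (t : G) ^ m = t := by
    apply pow_eq_of_modEq_of_dvd (p := p) hm1
    rw [Subgroup.orderOf_coe]
    exact (mem_filter.1 ht).2
  have h2 : Commute u (t : G) := (hH t t.2).symm
  rw [← hχm (u * t), h2.mul_pow, h1]

/-- the values of a rational character of the block are constant on the generators of `⟨u⟩` -/
theorem LocR.Ad_pow (h : LocR p red D l Φ aH bH ε κ₀) (hD : IsPGroup p D) {m : ℕ}
    (hm : m.Coprime (Nat.card G)) (hm1 : m ≡ 1 [MOD ordCompl[p] (Nat.card G)])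
    (hgen : ∀ j : ℕ, ¬ p ∣ j → ∃ i : ℕ, m ^ i ≡ j [MOD ordProj[p] (Nat.card G)])
    {χ : Irr G} (hχm : ∀ g, χ.1 (g ^ m) = χ.1 g) {u : G} (hu : RegT D l u) (hu1 : u ≠ 1) {j : ℕ}
    (hj : ¬ p ∣ j) : Ad p D Φ ε (u ^ j) χ = Ad p D Φ ε u χ := by
  have hG0 : Nat.card G ≠ 0 := Nat.card_pos.ne'
  have hmo : ∀ v : G, (orderOf v).Coprime m := fun v =>
    Nat.Coprime.coprime_dvd_left (orderOf_dvd_natCard v) (Nat.Coprime.symm hm)
  have hne : ∀ v : G, v ≠ 1 → v ^ m ≠ 1 := by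
    intro v hv h1
    apply hv
    obtain ⟨e, he⟩ := exists_pow_eq_self_of_coprime (hmo v).symm
    rw [← he, h1, one_pow]
  have key : ∀ v : G, RegT D l v → v ≠ 1 → Ad p D Φ ε (v ^ m) χ = Ad p D Φ ε v χ := by
    intro v hv hv1
    have hvm := RegT.pow' hv (hmo v)
    have hvm1 := hne v hv1
    apply Subtype.ext
    unfold Ad
    push_cast
    rw [h.dn_coe hv hv1, h.dn_coe hvm hvm1, cz_pow (hmo v)]
    rw [dn_pow_m (centralizer {v}) _ _ v (fun x hx => (mem_cz v x).1 hx) χ hm1 hχm]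
  have hpow : ∀ i : ℕ, RegT D l (u ^ m ^ i) ∧ u ^ m ^ i ≠ 1 ∧
      Ad p D Φ ε (u ^ m ^ i) χ = Ad p D Φ ε u χ := by
    intro i
    induction i with
    | zero => rw [pow_zero, pow_one]; exact ⟨hu, hu1, rfl⟩
    | succ i ih =>
      rw [pow_succ, pow_mul]
      exact ⟨RegT.pow' ih.1 (hmo _), hne _ ih.2.1, (key _ ih.1 ih.2.1).trans ih.2.2⟩
  obtain ⟨i, hi⟩ := hgen j hj
  have huN : u ^ ordProj[p] (Nat.card G) = 1 := by
    obtain ⟨a, ha⟩ := hD ⟨u, hu.1⟩
    have ha' : u ^ p ^ a = 1 := by simpa using congrArg Subtype.val ha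
    obtain ⟨i, -, hi⟩ := (Nat.dvd_prime_pow hp.out).1 (orderOf_dvd_of_pow_eq_one ha')
    rw [← orderOf_dvd_iff_pow_eq_one, hi]
    have h1 : p ^ i ∣ Nat.card G := by rw [← hi]; exact orderOf_dvd_natCard u
    exact pow_dvd_pow p ((hp.out.pow_dvd_iff_le_factorization hG0).1 h1)
  have h1 : u ^ j = u ^ m ^ i := by
    rw [pow_eq_pow_iff_modEq]
    exact (hi.symm).of_dvd (orderOf_dvd_of_pow_eq_one huN)
  rw [h1]
  exact (hpow i).2.2

/-- the values of a rational character of the block are integers -/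
theorem LocR.exists_int (h : LocR p red D l Φ aH bH ε κ₀) (hD : IsPGroup p D) {m : ℕ}
    (hm : m.Coprime (Nat.card G)) (hm1 : m ≡ 1 [MOD ordCompl[p] (Nat.card G)])
    (hgen : ∀ j : ℕ, ¬ p ∣ j → ∃ i : ℕ, m ^ i ≡ j [MOD ordProj[p] (Nat.card G)])
    {χ : Irr G} (hχm : ∀ g, χ.1 (g ^ m) = χ.1 g) :
    ∃ A : G → ℤ, ∀ u, RegT D l u → u ≠ 1 → Ad p D Φ ε u χ = (A u : AA) := by
  have h1 : ∀ u : G, ∃ z : ℤ, RegT D l u → u ≠ 1 → Ad p D Φ ε u χ = (z : AA) := by
    intro u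
    by_cases hu : RegT D l u ∧ u ≠ 1
    · obtain ⟨n, hn⟩ := hD ⟨u, hu.1.1⟩
      obtain ⟨c, hc⟩ := P179Y.dn_int p red (centralizer {u}) Nat.card_pos.ne' (h.nd u hu.1 hu.2) u
        ⟨n, by simpa using congrArg Subtype.val hn⟩ (mem_cz u) χ hm hm1 hgen hχm
      refine ⟨ε (centralizer {u}) * c, fun _ _ => ?_⟩
      apply Subtype.ext
      unfold Ad
      push_cast
      rw [h.dn_coe hu.1 hu.2, hc]
    · exact ⟨0, fun h1 h2 => absurd ⟨h1, h2⟩ hu⟩
  choose A hA using h1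
  exact ⟨A, hA⟩

/-- all the properties of the values of a rational character of the block -/
theorem LocR.exists_A [IsAlgClosed k] (h : LocR p red D l Φ aH bH ε κ₀) (hl : BP p D l)
    (hD : IsPGroup p D) (hab : D ≤ centralizer (D : Set G))
    (he : ((centralizer (D : Set G)).relIndex (stabT D l) : k) ≠ 0) {m : ℕ}
    (hm : m.Coprime (Nat.card G)) (hm1 : m ≡ 1 [MOD ordCompl[p] (Nat.card G)])
    (hgen : ∀ j : ℕ, ¬ p ∣ j → ∃ i : ℕ, m ^ i ≡ j [MOD ordProj[p] (Nat.card G)])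
    {χ : Irr G} (hχ : InL red l χ.1) (hχm : ∀ g, χ.1 (g ^ m) = χ.1 g) :
    ∃ A : G → ℤ, (∀ u, RegT D l u → u ≠ 1 → Ad p D Φ ε u χ = (A u : AA)) ∧
      (∀ u, RegT D l u → u ≠ 1 → A u ≠ 0) ∧
      (∀ u, RegT D l u → u ≠ 1 → ∀ j : ℕ, ¬ p ∣ j → A (u ^ j) = A u) ∧
      (∀ u, RegT D l u → u ≠ 1 → ∀ u', RegT D l u' → u' ≠ 1 → (p : ℤ) ∣ A u - A u') ∧
      (∀ u, RegT D l u → u ≠ 1 → ∀ t ∈ stabT D l, A (t * u * t⁻¹) = A u) := by
  obtain ⟨A, hA⟩ := h.exists_int hD hm hm1 hgen hχm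
  have hinj : ∀ {a b : ℤ}, (a : AA) = (b : AA) → a = b := by
    intro a b hab
    have := congrArg (fun x : AA => (x : ℂ)) hab
    push_cast at this
    exact_mod_cast this
  refine ⟨A, hA, ?_, ?_, ?_, ?_⟩
  · intro u hu hu1 h0
    apply h.Ad_ne_zero hl hD hab he hu hu1 χ hχ
    rw [hA u hu hu1, h0, Int.cast_zero]
  · intro u hu hu1 j hj
    apply hinj
    obtain ⟨n, hn⟩ := hD ⟨u, hu.1⟩
    have hun : u ^ p ^ n = 1 := by simpa using congrArg Subtype.val hn
    have hcop : (orderOf u).Coprime j := by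
      refine Nat.Coprime.coprime_dvd_left (orderOf_dvd_of_pow_eq_one hun) ?_
      exact Nat.Coprime.pow_left _ ((Nat.Prime.coprime_iff_not_dvd hp.out).2 hj)
    rw [← hA u hu hu1, ← hA (u ^ j) (RegT.pow' hu hcop) (by
      intro h1
      apply hu1
      obtain ⟨e, he⟩ := exists_pow_eq_self_of_coprime hcop.symm
      rw [← he, h1, one_pow])]
    exact h.Ad_pow hD hm hm1 hgen hχm hu hu1 hj
  · intro u hu hu1 u' hu' hu1'
    have h1 := h.cong hl hD hab he hu hu1 hu' hu1' χ hχ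
    rw [hA u hu hu1, hA u' hu' hu1', map_intCast, map_intCast, ← sub_eq_zero] at h1
    rw [← CharP.intCast_eq_zero_iff k p]
    push_cast
    exact h1
  · intro u hu hu1 t ht
    apply hinj
    rw [← hA u hu hu1, ← hA _ (RegT.conj' hu ht) (conj_ne hu1)]
    exact h.ad_conj hl hu hu1 ht χ

end

end P179I
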