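import Vale.Agent.P179.H905.K1
import Vale.Agent.P179.H905.J7
import Vale.Agent.P179.H905.I23
import Vale.Agent.P179.H143.Z2
import Vale.Agent.P179.H526.Z8

/-!
# The bound for the number of rational characters, when the elements which are not regular
lie in the union of few proper subgroups
-/

namespace P179I

open P179H524 P179C P179A Finset P179P Subgroup P179Y

open scoped Classical IsMulCommutative

set_option linter.unusedSectionVars false

section Core

/-- the core: a set of integral vectors with the Gram relations, congruences, Galois constancy and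
integrality -/
theorem zcoreS {G : Type*} [Group G] [Fintype G] {p : ℕ} [hp : Fact p.Prime] (hp2 : p ≠ 2)
    {D T : Subgroup G} [IsMulCommutative D] (hD : IsPGroup p D) {s : ℕ}
    (hs : 0 < s) (f : Fin s → (Additive D →+ ZMod p)) (hf : ∀ i, f i ≠ 0)
    (hes : (centralizer (D : Set G)).relIndex T + s + 1 ≤ p) (W : Finset G)
    (hW : ∀ u, u ∈ W ↔ ∃ h : u ∈ D, ∀ i, f i (Additive.ofMul ⟨u, h⟩) ≠ 0)
    (A : G → Irr G → ℂ)
    (hgram : ∀ u ∈ W, ∀ b ∈ W, ∑ χ, A u χ * (starRingEnd ℂ) (A b χ) =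
      if ∃ t ∈ T, t * u * t⁻¹ = b then (Nat.card D : ℂ) else 0)
    (R : Finset (Irr G)) (a : Irr G → G → ℤ)
    (ha : ∀ χ ∈ R, ∀ u ∈ W, A u χ = a χ u)
    (hne : ∀ χ ∈ R, ∀ u ∈ W, a χ u ≠ 0)
    (hcong : ∀ χ ∈ R, ∀ u ∈ W, ∀ v ∈ W, (p : ℤ) ∣ a χ u - a χ v)
    (hgal : ∀ χ ∈ R, ∀ u ∈ W, ∀ j : ℕ, ¬ p ∣ j → a χ (u ^ j) = a χ u)
    (hint : ∀ χ ∈ R, ∀ c : AddChar (Additive D) ℂ → ℤ,
      (∀ b : Additive D, ((b.toMul : D) : G) ∉ W → ∑ ψ, (c ψ : ℂ) * ψ b = 0) →
      ∃ z : ℤ, ∑ b : Additive D, (∑ ψ, (c ψ : ℂ) * ψ b) * (a χ ((b.toMul : D) : G) : ℂ) =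
        z * Nat.card D) :
    R.card * p ≤ p * (centralizer (D : Set G)).relIndex T + R.card * s := by
  set e := (centralizer (D : Set G)).relIndex T with hedef
  set q := Nat.card D with hqdef
  have hqpos : 0 < q := Nat.card_pos
  have hppos : 0 < p := hp.out.pos
  have hιne : Nonempty (Fin s) := ⟨⟨0, hs⟩⟩
  have hcardι : Fintype.card (Fin s) = s := Fintype.card_fin s
  set W' : Finset (Additive D) := univ.filter (fun b : Additive D => ∀ i, f i b ≠ 0) with hW'
  have hinj : Function.Injective (fun b : Additive D => ((b.toMul : D) : G)) := by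
    intro b b' hbb
    exact Additive.toMul.injective (Subtype.ext hbb)
  have hWimg : W = W'.image (fun b : Additive D => ((b.toMul : D) : G)) := by
    ext u
    rw [hW, Finset.mem_image]
    constructor
    · rintro ⟨h, hi⟩
      exact ⟨Additive.ofMul ⟨u, h⟩, mem_filter.2 ⟨mem_univ _, hi⟩, rfl⟩
    · rintro ⟨b, hb, rfl⟩
      exact ⟨b.toMul.2, (mem_filter.1 hb).2⟩
  have hmemW' : ∀ b : Additive D, b ∈ W' ↔ ((b.toMul : D) : G) ∈ W := by
    intro b
    rw [hW, hW', mem_filter]
    constructor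
    · rintro ⟨-, h⟩
      exact ⟨b.toMul.2, h⟩
    · rintro ⟨h, hi⟩
      exact ⟨mem_univ _, hi⟩
  have hWcard : W.card = W'.card := by
    rw [hWimg, Finset.card_image_of_injective _ hinj]
  have hqA : Nat.card (Additive D) = q := rfl
  have hWS : p * q ≤ p * W.card + s * q := by
    have h1 := P179Z.card_WS (p := p) f hf
    rw [hqA, hcardι] at h1
    rw [hWcard]
    convert h1
  have hWpos : 0 < W.card := by
    rcases Nat.eq_zero_or_pos W.card with h0 | h0
    · exfalso
      rw [h0, mul_zero, zero_add] at hWS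
      have := Nat.le_of_mul_le_mul_right hWS hqpos
      omega
    · exact h0
  obtain ⟨u₀, hu₀⟩ := Finset.card_pos.1 hWpos
  have hWD : ∀ u ∈ W, u ∈ D := fun u hu => ((hW u).1 hu).1
  -- the sums
  have key : ∀ χ ∈ R, (W.card : ℤ) ^ 2 ≤ (∑ u ∈ W, a χ u) ^ 2 := by
    intro χ hχ
    set a0 : ℤ := Int.bmod (a χ u₀) p with ha0
    have hdvd0 : (p : ℤ) ∣ a χ u₀ - a0 := by
      have := Int.dvd_bmod_sub_self (x := a χ u₀) (m := p)
      have h2 := (dvd_neg (α := ℤ)).2 this
      rwa [neg_sub] at h2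
    have hmod : ∀ u ∈ W, (p : ℤ) ∣ a χ u - a0 := by
      intro u hu
      have := dvd_add (hcong χ hχ u hu u₀ hu₀) hdvd0
      rwa [sub_add_sub_cancel] at this
    have h2a : 2 * |a0| < p := by
      have hodd := hp.out.odd_of_ne_two hp2
      obtain ⟨r, hr⟩ := hodd
      have h1 := Int.bmod_lt (x := a χ u₀) (m := p) hppos
      have h2 := Int.le_bmod (x := a χ u₀) (m := p) hppos
      rw [← ha0] at h1 h2
      rcases abs_cases a0 with ⟨h3, -⟩ | ⟨h3, -⟩ <;> rw [h3] <;> omega
    have hmass : ∑ u ∈ W, a χ u ^ 2 ≤ (q : ℤ) * e :=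
      P179T.sum_sq_le hqpos.ne' W hWD A hgram R a ha χ hχ
    have ha0ne : a0 ≠ 0 := by
      intro h0
      have h1 : ∀ u ∈ W, (p : ℤ) ^ 2 ≤ a χ u ^ 2 := by
        intro u hu
        have h2 := hmod u hu
        rw [h0, sub_zero] at h2
        have h3 := Int.natAbs_dvd_natAbs.2 h2
        have h4 := Nat.le_of_dvd (Int.natAbs_pos.2 (hne χ hχ u hu)) h3
        have h5 : (p : ℤ) ≤ |a χ u| := by
          rw [Int.abs_eq_natAbs]
          exact_mod_cast (by simpa using h4)
        rw [← sq_abs (a χ u)]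
        have hp0 : (0 : ℤ) ≤ p := by positivity
        nlinarith
      have h2 := (Finset.sum_le_sum h1).trans hmass
      rw [Finset.sum_const, nsmul_eq_mul] at h2
      have h3 : W.card * p ^ 2 ≤ q * e := by exact_mod_cast h2
      have h4 : p * (p * q) ≤ p * (p * W.card + s * q) := Nat.mul_le_mul_left _ hWS
      have h5 : q * (p * p) ≤ q * (e + p * s) := by nlinarith
      have h6 := Nat.le_of_mul_le_mul_left h5 hqpos
      have h7 : e + s + 1 ≤ p := hes
      nlinarith
    have h1 := P179Z.main_combS (p := p) (D := Additive D) (by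
        obtain ⟨n, hn⟩ := (IsPGroup.iff_card (p := p)).1 hD
        exact ⟨n, hn⟩) f hf (fun b => a χ ((b.toMul : D) : G)) a0 e (by rw [hcardι]; exact hes)
      ha0ne h2a (by
        intro b hb j hj
        exact hgal χ hχ _ ((hmemW' b).1 (mem_filter.2 ⟨mem_univ _, hb⟩)) j hj)
      (by
        intro b hb
        exact hmod _ ((hmemW' b).1 (mem_filter.2 ⟨mem_univ _, hb⟩)))
      (by
        intro c hc
        exact hint χ hχ c fun b hb => hc b (by
          by_contra hcon
          push Not at hcon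
          exact hb ((hmemW' b).1 (mem_filter.2 ⟨mem_univ _, hcon⟩))))
      (by
        refine le_trans (le_of_eq ?_) hmass
        rw [hWimg, Finset.sum_image fun x _ y _ h => hinj h]
        convert rfl)
    have h2 : ∑ u ∈ W, a χ u = a0 * W.card := by
      rw [hWcard, hWimg, Finset.sum_image fun x _ y _ h => hinj h]
      convert h1
    rw [h2, mul_pow]
    have h3 : 1 ≤ a0 ^ 2 := by
      have := Int.one_le_abs ha0ne
      rw [← sq_abs]
      nlinarith
    nlinarith [sq_nonneg (W.card : ℤ)]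
  -- Bessel
  have h1 := P179T.bessel_int hqpos.ne' W hWD A hgram R a ha (fun _ => 1)
  have h2 : (R.card : ℝ) * (W.card : ℝ) ^ 2 ≤
      ∑ χ ∈ R, (∑ u ∈ W, (1 : ℝ) * a χ u) ^ 2 := by
    rw [← nsmul_eq_mul, ← Finset.sum_const]
    refine Finset.sum_le_sum fun χ hχ => ?_
    have h3 := key χ hχ
    have h4 : ∑ u ∈ W, (1 : ℝ) * a χ u = ((∑ u ∈ W, a χ u : ℤ) : ℝ) := by
      push_cast
      exact Finset.sum_congr rfl fun u _ => one_mul _
    rw [h4]
    exact_mod_cast h3
  have h3 := h2.trans h1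
  have h4 : ∑ u ∈ W, (1 : ℝ) ^ 2 = W.card := by simp
  rw [h4] at h3
  have h5 : R.card * W.card ^ 2 ≤ q * e * W.card := by exact_mod_cast h3
  have h6 : R.card * W.card ≤ q * e := by
    refine Nat.le_of_mul_le_mul_right ?_ hWpos
    calc R.card * W.card * W.card = R.card * W.card ^ 2 := by ring
      _ ≤ _ := h5
  have h7 : q * (R.card * p) ≤ q * (p * e + R.card * s) := by
    calc q * (R.card * p) = R.card * (p * q) := by ring
      _ ≤ R.card * (p * W.card + s * q) := Nat.mul_le_mul_left _ hWS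
      _ = p * (R.card * W.card) + q * (R.card * s) := by ring
      _ ≤ p * (q * e) + q * (R.card * s) := Nat.add_le_add_right (Nat.mul_le_mul_left _ h6) _
      _ = _ := by ring
  exact Nat.le_of_mul_le_mul_left h7 hqpos

end Core

end P179I
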