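import Vale.Agent.P179.H905.K2

/-!
# Few rational characters, when the elements which are not regular lie in the union of few proper
subgroups
-/

namespace P179I

open P179H524 P179C P179A Finset P179P Subgroup P179Y

open P179X (pp SameSec IrrB Srat autOrd)

open P179B (inertialGroup inertialIndex regularElements)

open scoped Classical IsMulCommutative

set_option linter.unusedSectionVars false

universe v

section

variable {p : ℕ} [hp : Fact p.Prime] {k : Type v} [Field k] [CharP k p] (red : AA →+* k)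
  {G : Type} [Group G] [Fintype G] {D : Subgroup G} {l : (G → k) → k}

/-- the number of rational characters of the block -/
theorem card_Srat_le_of_cover [IsAlgClosed k] (hl : BP p D l) (hD : IsPGroup p D)
    (hab : D ≤ centralizer (D : Set G)) (hp2 : p ≠ 2)
    (he : ((centralizer (D : Set G)).relIndex (stabT D l) : k) ≠ 0)
    {B : MonoidAlgebra k G} (hlB : ∀ χ : Irr G, InL red l χ.1 ↔ CharInBlock red χ.1 B)
    {s : ℕ} (hs : 0 < s) (K : Fin s → Subgroup G) (hK : ∀ i, ¬ D ≤ K i)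
    (hcov : ∀ u ∈ D, ¬ RegT D l u → ∃ i, u ∈ K i)
    (hes : (centralizer (D : Set G)).relIndex (stabT D l) + s + 1 ≤ p) {m : ℕ}
    (hm : m.Coprime (Nat.card G)) (hm1 : m ≡ 1 [MOD ordCompl[p] (Nat.card G)])
    (hgen : ∀ j : ℕ, ¬ p ∣ j → ∃ i : ℕ, m ^ i ≡ j [MOD ordProj[p] (Nat.card G)]) :
    (Srat red m B).card * p ≤ p * (centralizer (D : Set G)).relIndex (stabT D l) +
      (Srat red m B).card * s := by
  have hcomm : IsMulCommutative D := ⟨⟨fun a b => Subtype.ext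
    (mem_centralizer_iff.1 (hab b.2) _ a.2)⟩⟩
  obtain ⟨Φ, aH, bH, ε, κ₀, h⟩ := exists_LocR (red := red) hl hD hab
  have hf0 : ∀ i, ∃ f : Additive D →+ ZMod p, f ≠ 0 ∧
      ∀ b : Additive D, ((b.toMul : D) : G) ∈ K i → f b = 0 := fun i => exists_hom_of_lt hD (hK i)
  choose f hf hfK using hf0
  set W : Finset G := univ.filter (fun u => ∃ h : u ∈ D, ∀ i, f i (Additive.ofMul ⟨u, h⟩) ≠ 0)
    with hWdef
  have hW : ∀ u, u ∈ W ↔ ∃ h : u ∈ D, ∀ i, f i (Additive.ofMul ⟨u, h⟩) ≠ 0 := by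
    intro u
    rw [hWdef, mem_filter]
    exact and_iff_right (mem_univ _)
  have hWreg : ∀ u ∈ W, RegT D l u ∧ u ≠ 1 := by
    intro u hu
    obtain ⟨huD, hi⟩ := (hW u).1 hu
    constructor
    · by_contra hcon
      obtain ⟨i, hiK⟩ := hcov u huD hcon
      exact hi i (hfK i _ hiK)
    · rintro rfl
      apply hi ⟨0, hs⟩
      have : Additive.ofMul (⟨1, huD⟩ : D) = 0 := rfl
      rw [this, map_zero]
  -- the rational characters
  have hSmem : ∀ χ ∈ Srat red m B, χ ∈ IrrB red B ∧ ∀ g, χ (g ^ m) = χ g := by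
    intro χ hχ
    simp only [P179X.Srat, mem_filter] at hχ
    exact hχ
  set R : Finset (Irr G) := univ.filter (fun χ : Irr G => χ.1 ∈ Srat red m B) with hR
  have hRS : R.card = (Srat red m B).card := by
    refine Finset.card_bij (fun χ _ => χ.1) (fun χ hχ => (mem_filter.1 hχ).2)
      (fun χ _ ψ _ h => Subtype.ext h) fun χ hχ => ?_
    exact ⟨⟨χ, isIrr_of_mem_IrrB (hSmem χ hχ).1⟩, mem_filter.2 ⟨mem_univ _, hχ⟩, rfl⟩
  have hInL : ∀ χ ∈ R, InL red l χ.1 := by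
    intro χ hχ
    rw [hlB]
    have h1 := (hSmem χ.1 (mem_filter.1 hχ).2).1
    unfold P179X.IrrB at h1
    exact (mem_filter.1 h1).2
  have hrat : ∀ χ ∈ R, ∀ g, χ.1 (g ^ m) = χ.1 g := fun χ hχ => (hSmem χ.1 (mem_filter.1 hχ).2).2
  have hA : ∀ χ : Irr G, ∃ A : G → ℤ, χ ∈ R →
      ((∀ u, RegT D l u → u ≠ 1 → Ad p D Φ ε u χ = (A u : AA)) ∧
      (∀ u, RegT D l u → u ≠ 1 → A u ≠ 0) ∧
      (∀ u, RegT D l u → u ≠ 1 → ∀ j : ℕ, ¬ p ∣ j → A (u ^ j) = A u) ∧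
      (∀ u, RegT D l u → u ≠ 1 → ∀ u', RegT D l u' → u' ≠ 1 → (p : ℤ) ∣ A u - A u') ∧
      (∀ u, RegT D l u → u ≠ 1 → ∀ t ∈ stabT D l, A (t * u * t⁻¹) = A u)) := by
    intro χ
    by_cases hχ : χ ∈ R
    · obtain ⟨A, hA⟩ := h.exists_A hl hD hab he hm hm1 hgen (hInL χ hχ) (hrat χ hχ)
      exact ⟨A, fun _ => hA⟩
    · exact ⟨fun _ => 0, fun h => absurd h hχ⟩
  choose a ha using hA
  rw [← hRS]
  refine zcoreS hp2 hD hs f hf hes W hW (fun u χ => (Ad p D Φ ε u χ : ℂ)) ?_ R a ?_ ?_ ?_ ?_ ?_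
  · intro u hu b hb
    have hu' := hWreg u hu
    have hb' := hWreg b hb
    have h1 := h.gram hl hD hab hu'.1 hu'.2 (RegT.inv' hb'.1) (by simpa using hb'.2)
    have h2 := congrArg (fun x : AA => (x : ℂ)) h1
    rw [inv_inv] at h2
    have h3 : ∀ χ : Irr G, (Ad p D Φ ε u χ : ℂ) * (starRingEnd ℂ) (Ad p D Φ ε b χ : ℂ) =
        ((Ad p D Φ ε u χ * Ad p D Φ ε b⁻¹ χ : AA) : ℂ) := by
      intro χ
      rw [h.ad_star hb'.1 hb'.2 χ]
      push_cast
      rfl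
    rw [Finset.sum_congr rfl fun χ _ => h3 χ]
    have h4 : ((∑ χ : Irr G, Ad p D Φ ε u χ * Ad p D Φ ε b⁻¹ χ : AA) : ℂ) =
        ∑ χ : Irr G, ((Ad p D Φ ε u χ * Ad p D Φ ε b⁻¹ χ : AA) : ℂ) := by
      push_cast
      rfl
    rw [← h4, h2]
    split_ifs <;> simp
  · intro χ hχ u hu
    have hu' := hWreg u hu
    rw [(ha χ hχ).1 u hu'.1 hu'.2]
    simp
  · intro χ hχ u hu
    have hu' := hWreg u hu
    exact (ha χ hχ).2.1 u hu'.1 hu'.2
  · intro χ hχ u hu v hv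
    have hu' := hWreg u hu
    have hv' := hWreg v hv
    exact (ha χ hχ).2.2.2.1 u hu'.1 hu'.2 v hv'.1 hv'.2
  · intro χ hχ u hu j hj
    have hu' := hWreg u hu
    exact (ha χ hχ).2.2.1 u hu'.1 hu'.2 j hj
  · intro χ hχ c hc
    have hθ : ∀ b : Additive D, ((∑ ψ, (c ψ : AA) * lamA ψ b : AA) : ℂ) = ∑ ψ, (c ψ : ℂ) * ψ b := by
      intro b
      push_cast
      rfl
    have hθ0 : ∀ b : Additive D, ((b.toMul : D) : G) ∉ W → (∑ ψ, (c ψ : AA) * lamA ψ b) = 0 := by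
      intro b hb
      apply Subtype.ext
      rw [hθ, hc b hb]
      rfl
    obtain ⟨z, hz⟩ := h.INT hl hD hab hp2 he c (by
      intro b hb
      exact hθ0 b fun hbW => hb (hWreg _ hbW)) χ
    refine ⟨z, ?_⟩
    have h2 := congrArg (fun x : AA => (x : ℂ)) hz
    beta_reduce at h2
    have h3 : ∀ b : Additive D, (∑ ψ, (c ψ : ℂ) * ψ b) * (a χ ((b.toMul : D) : G) : ℂ) =
        (((∑ ψ, (c ψ : AA) * lamA ψ b) * Ad p D Φ ε (b.toMul : G) χ : AA) : ℂ) := by
      intro b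
      by_cases hb : ((b.toMul : D) : G) ∈ W
      · have hb' := hWreg _ hb
        rw [(ha χ hχ).1 _ hb'.1 hb'.2, ← hθ]
        push_cast
        rfl
      · rw [hθ0 b hb, hc b hb, zero_mul, zero_mul]
        rfl
    rw [Finset.sum_congr rfl fun b _ => h3 b]
    have h4 : ((∑ b : Additive D, (∑ ψ, (c ψ : AA) * lamA ψ b) * Ad p D Φ ε (b.toMul : G) χ : AA) : ℂ)
        = ∑ b : Additive D, (((∑ ψ, (c ψ : AA) * lamA ψ b) * Ad p D Φ ε (b.toMul : G) χ : AA) : ℂ) := by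
      rw [← AddSubmonoidClass.coe_finsetSum]
    rw [← h4, h2]
    push_cast
    ring

end

end P179I
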