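import Vale.Agent.P179.H905.Tri

/-!
# The main lemma: the free part and the two braid generators
-/

set_option linter.unusedSectionVars false

namespace P179A

open Subgroup

open scoped Classical Pointwise

variable {G : Type*} [Group G] [Finite G]

/-- The triples for `g` as a finite set. -/
noncomputable def OF (p : ℕ) (g : G) : Finset (Tri G) :=
  (Set.toFinite {w : Tri G | InO p g w}).toFinset

theorem mem_OF {p : ℕ} {g : G} {w : Tri G} : w ∈ OF p g ↔ InO p g w := by
  simp [OF]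

/-- The triples with free `R`-orbit and chain of parity `ε`. -/
noncomputable def FP (p : ℕ) (g : G) (R : Subgroup G) (ε : ℤ) : Finset (Tri G) :=
  (OF p g).filter (fun w => U R w = ⊥ ∧ (-1 : ℤ) ^ w.s.card = ε)

theorem mem_FP {p : ℕ} {g : G} {R : Subgroup G} {ε : ℤ} {w : Tri G} :
    w ∈ FP p g R ε ↔ InO p g w ∧ U R w = ⊥ ∧ (-1 : ℤ) ^ w.s.card = ε := by
  simp [FP, mem_OF]

/-- The sum of the signs over all triples. -/
theorem sum_W_eq (p : ℕ) [Fintype G] (g : G) :
    ∑ t ∈ (Finset.univ : Finset (G × G)).filter (fun t => t.1 * t.2 * t.1⁻¹ * t.2⁻¹ = g),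
      W p t.1 t.2 = ∑ w ∈ OF p g, (-1 : ℤ) ^ w.s.card := by
  unfold W
  rw [Finset.sum_sigma']
  refine Finset.sum_bij (fun a _ => (⟨a.1.1, a.1.2, a.2⟩ : Tri G)) ?_ ?_ ?_ ?_
  · intro a ha
    simp only [Finset.mem_sigma, Finset.mem_filter, Finset.mem_univ, true_and, mem_chains] at ha
    exact mem_OF.2 ⟨ha.1, ha.2.1, ha.2.2.1, ha.2.2.2⟩
  · rintro ⟨⟨a, b⟩, s⟩ _ ⟨⟨a', b'⟩, s'⟩ _ h
    simp only [Tri.mk.injEq] at h
    obtain ⟨rfl, rfl, rfl⟩ := h
    rfl
  · rintro ⟨x, y, s⟩ hw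
    have hw' := mem_OF.1 hw
    refine ⟨⟨(x, y), s⟩, ?_, rfl⟩
    simp only [Finset.mem_sigma, Finset.mem_filter, Finset.mem_univ, true_and, mem_chains]
    exact ⟨hw'.comm, hw'.chain, hw'.hx, hw'.hy⟩
  · intro a _; rfl

section

variable {R : Subgroup G} {p : ℕ} (hR : IsPGroup p R) (hc : ∀ a ∈ R, ∀ b ∈ R, a * b = b * a)
  {g : G}

include hR hc

/-- The non-free triples cancel. -/
theorem sum_nonfree :
    ∑ w ∈ (OF p g).filter (fun w => U R w ≠ ⊥), (-1 : ℤ) ^ w.s.card = 0 := by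
  refine Finset.sum_involution (fun w _ => tg (U R w) w) ?_ ?_ ?_ ?_
  · intro w hw
    simp only [tg]
    rw [neg_one_pow_card_tog]; ring
  · intro w hw _ h
    have := congrArg Tri.s h
    exact tog_ne _ _ this
  · intro w hw
    rw [Finset.mem_filter, mem_OF] at hw ⊢
    have hle : U R w ≤ T R w := inf_le_left
    refine ⟨hw.1.tg hR hle hw.2 (mem_normalizer_of_comm fun v hv => (mem_U.1 hv).2.2.1.symm), ?_⟩
    rw [U_tg hR hc hw.1.chain hle hw.2]
    exact hw.2
  · intro w hw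
    rw [Finset.mem_filter, mem_OF] at hw
    have hle : U R w ≤ T R w := inf_le_left
    rw [U_tg hR hc hw.1.chain hle hw.2, tg_tg]

theorem sum_OF_eq : ∑ w ∈ OF p g, (-1 : ℤ) ^ w.s.card
    = ((FP p g R 1).card : ℤ) - (FP p g R (-1)).card := by
  rw [← Finset.sum_filter_add_sum_filter_not (OF p g) (fun w => U R w = ⊥)]
  have h0 := sum_nonfree hR hc (g := g)
  rw [show (∑ w ∈ (OF p g).filter (fun w => ¬ U R w = ⊥), (-1 : ℤ) ^ w.s.card) = 0 from h0,
    add_zero]
  rw [← Finset.sum_filter_add_sum_filter_not ((OF p g).filter (fun w => U R w = ⊥))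
    (fun w => (-1 : ℤ) ^ w.s.card = 1)]
  have h1 : ∑ w ∈ ((OF p g).filter (fun w => U R w = ⊥)).filter
      (fun w => (-1 : ℤ) ^ w.s.card = 1), (-1 : ℤ) ^ w.s.card = (FP p g R 1).card := by
    rw [Finset.filter_filter]
    rw [Finset.sum_congr rfl (g := fun _ => (1 : ℤ))]
    · rw [Finset.sum_const, FP]; simp
    · intro w hw
      exact (Finset.mem_filter.1 hw).2.2
  have h2 : ∑ w ∈ ((OF p g).filter (fun w => U R w = ⊥)).filter
      (fun w => ¬ (-1 : ℤ) ^ w.s.card = 1), (-1 : ℤ) ^ w.s.card = -(FP p g R (-1)).card := by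
    rw [Finset.filter_filter]
    rw [Finset.sum_congr rfl (g := fun _ => (-1 : ℤ))]
    · rw [Finset.sum_const, FP]
      have : ((OF p g).filter (fun w => U R w = ⊥ ∧ ¬ (-1 : ℤ) ^ w.s.card = 1))
          = ((OF p g).filter (fun w => U R w = ⊥ ∧ (-1 : ℤ) ^ w.s.card = -1)) := by
        refine Finset.filter_congr fun w _ => and_congr_right fun _ => ?_
        rcases neg_one_pow_eq_or ℤ w.s.card with h | h <;> simp [h]
      rw [this]; simp
    · intro w hw
      rcases neg_one_pow_eq_or ℤ w.s.card with h | h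
      · exact absurd h (Finset.mem_filter.1 hw).2.2
      · exact h
  rw [h1, h2]; ring

end

/-! ### the action of an abstract commutative group -/

section abstract

variable {P : Type*} [CommGroup P] [MulAction P (Tri G)] {ι : P →* G}
  (hι : Function.Injective ι) (hact : ∀ (e : P) (w : Tri G), e • w = ι e • w)
  {p : ℕ} {g : G} (hg : ∀ e : P, ι e * g = g * ι e)

omit [Finite G] [MulAction P (Tri G)] in
/-- The commutativity of the range. -/
theorem range_comm (ι : P →* G) : ∀ a ∈ ι.range, ∀ b ∈ ι.range, a * b = b * a := by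
  rintro _ ⟨a, rfl⟩ _ ⟨b, rfl⟩
  rw [← map_mul, ← map_mul, mul_comm]

include hact

theorem U_smul (e : P) (w : Tri G) : U ι.range (e • w) = U ι.range w := by
  rw [hact]
  have he : ι e ∈ ι.range := ⟨e, rfl⟩
  ext h
  unfold U
  rw [T_smul (range_comm ι) he]
  simp only [mem_inf, mem_centralizer_singleton_iff]
  refine and_congr_right fun hh => ?_
  have hh1 := (mem_T.1 hh).1
  have h1 := range_comm ι h hh1 (ι e) he
  have h2 : ι e * h * (ι e)⁻¹ = h := by rw [← h1, mul_inv_cancel_right]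
  simp only [smul_y]
  constructor
  · intro h3
    have : ι e * (h * w.y) * (ι e)⁻¹ = ι e * (w.y * h) * (ι e)⁻¹ := by
      calc ι e * (h * w.y) * (ι e)⁻¹ = (ι e * h * (ι e)⁻¹) * (ι e * w.y * (ι e)⁻¹) := by group
        _ = h * (ι e * w.y * (ι e)⁻¹) := by rw [h2]
        _ = (ι e * w.y * (ι e)⁻¹) * h := h3
        _ = (ι e * w.y * (ι e)⁻¹) * (ι e * h * (ι e)⁻¹) := by rw [h2]
        _ = ι e * (w.y * h) * (ι e)⁻¹ := by group
    exact mul_left_cancel (mul_right_cancel this)
  · intro h3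
    calc h * (ι e * w.y * (ι e)⁻¹) = (ι e * h * (ι e)⁻¹) * (ι e * w.y * (ι e)⁻¹) := by rw [h2]
      _ = ι e * (h * w.y) * (ι e)⁻¹ := by group
      _ = ι e * (w.y * h) * (ι e)⁻¹ := by rw [h3]
      _ = (ι e * w.y * (ι e)⁻¹) * (ι e * h * (ι e)⁻¹) := by group
      _ = (ι e * w.y * (ι e)⁻¹) * h := by rw [h2]

theorem L_smul' (e : P) (w : Tri G) : L ι.range (e • w) = L ι.range w := by
  rw [hact]; exact L_smul (range_comm ι) ⟨e, rfl⟩ w

theorem T_smul' (e : P) (w : Tri G) : T ι.range (e • w) = T ι.range w := by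
  rw [hact]; exact T_smul (range_comm ι) ⟨e, rfl⟩ w

theorem sign_smul (e : P) (w : Tri G) : (-1 : ℤ) ^ (e • w).s.card = (-1) ^ w.s.card := by
  rw [hact, smul_s, card_smul_chain]

include hg

theorem FP_stable {ε : ℤ} {w : Tri G} (hw : w ∈ FP p g ι.range ε) (e : P) :
    e • w ∈ FP p g ι.range ε := by
  rw [mem_FP] at hw ⊢
  refine ⟨?_, ?_, ?_⟩
  · rw [hact]; exact hw.1.smul (hg e)
  · rw [U_smul hact]; exact hw.2.1
  · rw [sign_smul hact]; exact hw.2.2

omit hg

include hι

theorem FP_free {ε : ℤ} {w : Tri G} (hw : w ∈ FP p g ι.range ε) {e : P} (he : e • w = w) :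
    e = 1 := by
  rw [mem_FP] at hw
  rw [hact] at he
  have h1 := (smul_eq_iff (p := p) hw.1.chain (R := ι.range) ⟨e, rfl⟩).1 he
  rw [hw.2.1, mem_bot] at h1
  exact hι (by rw [h1, map_one])


omit hι

include hg

theorem eqv_s1 (ε : ℤ) : Eqv P (FP p g ι.range ε) (FP p g ι.range ε) s1 where
  maps w hw := by
    rw [mem_FP] at hw ⊢
    exact ⟨hw.1.s1, by rw [U_s1]; exact hw.2.1, hw.2.2⟩
  comm w _ e := by rw [hact, hact, s1_smul]
  inj w _ w' _ h := s1_inj h
  surj w' hw' := by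
    rw [mem_FP] at hw'
    refine ⟨⟨w'.x, w'.y * w'.x⁻¹, w'.s⟩, ?_, ?_⟩
    · have hs : s1 (⟨w'.x, w'.y * w'.x⁻¹, w'.s⟩ : Tri G) = w' := by
        apply Tri.ext
        · rfl
        · simp [s1]
        · rfl
      rw [mem_FP]
      refine ⟨⟨?_, hw'.1.chain, hw'.1.hx, mul_mem hw'.1.hy (inv_mem hw'.1.hx)⟩, ?_, hw'.2.2⟩
      · have := hw'.1.comm
        rw [← this]; group
      · rw [← U_s1, hs]; exact hw'.2.1
    · apply Tri.ext
      · rfl
      · simp [s1]
      · rfl

theorem eqv_s2 (ε : ℤ) : Eqv P (FP p g ι.range ε) (FP p g ι.range ε) s2 where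
  maps w hw := by
    rw [mem_FP] at hw ⊢
    exact ⟨hw.1.s2, by rw [U_s2]; exact hw.2.1, hw.2.2⟩
  comm w _ e := by rw [hact, hact, s2_smul]
  inj w _ w' _ h := s2_inj h
  surj w' hw' := by
    rw [mem_FP] at hw'
    have hs : s2 (⟨w'.x * w'.y, w'.y, w'.s⟩ : Tri G) = w' := by
      apply Tri.ext
      · simp [s2]
      · rfl
      · rfl
    refine ⟨⟨w'.x * w'.y, w'.y, w'.s⟩, ?_, hs⟩
    rw [mem_FP]
    refine ⟨⟨?_, hw'.1.chain, mul_mem hw'.1.hx hw'.1.hy, hw'.1.hy⟩, ?_, hw'.2.2⟩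
    · have := hw'.1.comm
      rw [← this]; group
    · rw [← U_s2, hs]; exact hw'.2.1

/-- The transfers of the two braid generators and of the full twist. -/
theorem twist_eq {ε : ℤ} {c : Tri G → P} (hcT : Triv (FP p g ι.range ε) c) {q : ℕ} {u : P}
    (hu : ι u = g ^ q) :
    (u⁻¹) ^ (reps c (FP p g ι.range ε)).card
      = (delta c (s1^[q]) (FP p g ι.range ε)) ^ 12 := by
  have e1 := eqv_s1 (p := p) hact hg ε
  have e2 := eqv_s2 (p := p) hact hg ε
  set S := FP p g ι.range ε with hS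
  have d1 : delta c (fun w => s1 (s2 (s1 w))) S
      = delta c s1 S * (delta c s2 S * delta c s1 S) := by
    rw [delta_comp hcT e1 (e2.comp e1), delta_comp hcT e2 e1]
  have d2 : delta c (fun w => s2 (s1 (s2 w))) S
      = delta c s2 S * (delta c s1 S * delta c s2 S) := by
    rw [delta_comp hcT e2 (e1.comp e2), delta_comp hcT e1 e2]
  have d3 : delta c (fun w : Tri G => s1 (s2 (s1 w))) S = delta c (fun w => s2 (s1 (s2 w))) S :=
    delta_congr fun w _ => braid w
  have d4 : delta c s1 S = delta c s2 S := by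
    rw [d1, d2] at d3
    have h1 : delta c s1 S * (delta c s1 S * delta c s2 S)
        = delta c s2 S * (delta c s1 S * delta c s2 S) := by
      rw [← d3]; congr 1; exact mul_comm _ _
    exact mul_right_cancel h1
  have d5 : delta c (fun w : Tri G => s1 (s2 (s1 w))) S = delta c s1 S ^ 3 := by
    rw [d1, ← d4]; rw [pow_succ', pow_succ', pow_one]
  have e3 : Eqv P S S (fun w => s1 (s2 (s1 w))) := e1.comp (e2.comp e1)
  have e4 : Eqv P S S ((fun w : Tri G => s1 (s2 (s1 w)))^[4]) := e3.iterate 4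
  have d6 := delta_iterate hcT e4 q
  rw [delta_iterate hcT e3 4, d5] at d6
  have d7 : delta c (((fun w : Tri G => s1 (s2 (s1 w)))^[4])^[q]) S
      = delta c (fun w => u⁻¹ • w) S := by
    have key : ∀ n : ℕ, ∀ w ∈ S, ((fun w : Tri G => s1 (s2 (s1 w)))^[4])^[n] w = (g⁻¹) ^ n • w := by
      intro n
      induction n with
      | zero => intro w _; simp
      | succ n ih =>
        intro w hw
        rw [Function.iterate_succ', Function.comp, ih w hw, pow_succ', mul_smul]
        refine delta_four (p := p) (g := g) ?_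
        have hw' := (mem_FP.1 hw).1
        refine hw'.smul ?_
        exact (Commute.pow_left (Commute.inv_left (Commute.refl g)) n)
    refine delta_congr fun w hw => ?_
    rw [key q w hw, hact, map_inv, hu, inv_pow]
  rw [d7, delta_smul hcT] at d6
  rw [d6, delta_iterate hcT e1 q, ← pow_mul, ← pow_mul, ← pow_mul]
  congr 1
  ring

end abstract

end P179A
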