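import Vale.Agent.P179.H524.MDefs
import Vale.Agent.P179.H905.MainLem

/-!
# Theorem M, part A: the transfer for a nonabelian group `P`, and the twist
-/

set_option linter.unusedSectionVars false

namespace P179M

open P179A Subgroup

section general

variable {P Ω : Type*} [Group P] [MulAction P Ω]

omit [MulAction P Ω] in
theorem mem_reps {c : Ω → P} {S : Finset Ω} {w : Ω} : w ∈ reps c S ↔ w ∈ S ∧ c w = 1 := by
  classical
  simp [reps]

theorem Triv.free {S : Finset Ω} {c : Ω → P} (h : Triv S c) {w : Ω} (hw : w ∈ S) {e : P}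
    (he : e • w = w) : e = 1 := by
  have := h.map w hw e
  rw [he] at this
  exact mul_eq_right.1 this.symm

theorem Triv.rep_mem {S : Finset Ω} {c : Ω → P} (h : Triv S c) {w : Ω} (hw : w ∈ S) :
    (c w)⁻¹ • w ∈ reps c S := by
  rw [mem_reps]
  refine ⟨h.stable w hw _, ?_⟩
  rw [h.map w hw, inv_mul_cancel]

theorem Triv.rep_eq {S : Finset Ω} {c : Ω → P} (h : Triv S c) {w : Ω} (hw : w ∈ reps c S)
    (e : P) : (c (e • w))⁻¹ • (e • w) = w := by
  rw [mem_reps] at hw
  rw [h.map w hw.1, hw.2, mul_one, inv_smul_smul]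

/-- Sub-trivialisations. -/
theorem Triv.mono {S S' : Finset Ω} {c : Ω → P} (h : Triv S c) (hS : S' ⊆ S)
    (hst : ∀ w ∈ S', ∀ e : P, e • w ∈ S') : Triv S' c :=
  ⟨hst, fun w hw e => h.map w (hS hw) e⟩

/-- Invariant functions have the same sum over the representatives. -/
theorem sum_reindex {M : Type*} [AddCommMonoid M] {S S' : Finset Ω} {c c' : Ω → P}
    (hc : Triv S c) (hc' : Triv S' c')
    {b : Ω → Ω} (hb : Eqv P S S' b) {F : Ω → M} (hF : ∀ w ∈ S', ∀ e : P, F (e • w) = F w) :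
    ∑ w ∈ reps c S, F (b w) = ∑ w ∈ reps c' S', F w := by
  refine Finset.sum_bij (fun w _ => (c' (b w))⁻¹ • b w) ?_ ?_ ?_ ?_
  · intro w hw
    exact hc'.rep_mem (hb.maps w (mem_reps.1 hw).1)
  · intro w hw w' hw' h
    have h1 := (mem_reps.1 hw).1
    have h2 := (mem_reps.1 hw').1
    rw [← hb.comm w h1, ← hb.comm w' h2] at h
    have h3 := hb.inj _ (hc.stable w h1 _) _ (hc.stable w' h2 _) h
    have h4 := congrArg (fun z => (c z)⁻¹ • z) h3
    beta_reduce at h4
    rwa [hc.rep_eq hw, hc.rep_eq hw'] at h4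
  · intro w' hw'
    have hw1 := mem_reps.1 hw'
    obtain ⟨w, hw, rfl⟩ := hb.surj w' hw1.1
    refine ⟨(c w)⁻¹ • w, hc.rep_mem hw, ?_⟩
    rw [hb.comm w hw]
    exact hc'.rep_eq hw' _
  · intro w hw
    have h1 := (mem_reps.1 hw).1
    rw [hF _ (hb.maps w h1)]

theorem Eqv.id_ (S : Finset Ω) : Eqv P S S (fun w => w) :=
  ⟨fun _ h => h, fun _ _ _ => rfl, fun _ _ _ _ h => h, fun w h => ⟨w, h, rfl⟩⟩

theorem sum_reps_eq {M : Type*} [AddCommMonoid M] {S : Finset Ω} {c c' : Ω → P} (hc : Triv S c)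
    (hc' : Triv S c') {F : Ω → M} (hF : ∀ w ∈ S, ∀ e : P, F (e • w) = F w) :
    ∑ w ∈ reps c S, F w = ∑ w ∈ reps c' S, F w :=
  sum_reindex hc hc' (Eqv.id_ S) hF

theorem Eqv.comp {S S' S'' : Finset Ω} {a b : Ω → Ω} (ha : Eqv P S' S'' a) (hb : Eqv P S S' b) :
    Eqv P S S'' (fun w => a (b w)) where
  maps w hw := ha.maps _ (hb.maps w hw)
  comm w hw e := by rw [hb.comm w hw, ha.comm _ (hb.maps w hw)]
  inj w hw w' hw' h := hb.inj w hw w' hw' (ha.inj _ (hb.maps w hw) _ (hb.maps w' hw') h)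
  surj w' hw' := by
    obtain ⟨v, hv, rfl⟩ := ha.surj w' hw'
    obtain ⟨w, hw, rfl⟩ := hb.surj v hv
    exact ⟨w, hw, rfl⟩

theorem Eqv.iterate {S : Finset Ω} {a : Ω → Ω} (ha : Eqv P S S a) (n : ℕ) :
    Eqv P S S (a^[n]) := by
  induction n with
  | zero => exact Eqv.id_ S
  | succ n ih =>
    have := ha.comp ih
    rwa [Function.iterate_succ']

/-- The cardinality of a free `P`-set. -/
theorem card_eq {S : Finset Ω} {c : Ω → P} (hc : Triv S c) :
    S.card = Nat.card P * (reps c S).card := by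
  classical
  by_cases hne : S.Nonempty
  · obtain ⟨w0, hw0⟩ := hne
    -- `P` is finite
    have hfin : Finite P := by
      refine Finite.of_injective (fun e : P => (⟨e • w0, hc.stable w0 hw0 e⟩ : {x // x ∈ S})) ?_
      intro e e' h
      have h1 : e • w0 = e' • w0 := congrArg Subtype.val h
      have h2 : (e'⁻¹ * e) • w0 = w0 := by rw [mul_smul, h1, inv_smul_smul]
      have h3 := hc.free hw0 h2
      exact (inv_mul_eq_one.1 h3).symm
    have : Fintype P := Fintype.ofFinite P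
    rw [Nat.card_eq_fintype_card, ← Finset.card_univ, ← Finset.card_product]
    refine (Finset.card_bij (fun (t : P × Ω) _ => t.1 • t.2) ?_ ?_ ?_).symm
    · intro t ht
      rw [Finset.mem_product] at ht
      exact hc.stable _ (mem_reps.1 ht.2).1 _
    · intro t ht t' ht' h
      rw [Finset.mem_product] at ht ht'
      have h1 := congrArg c h
      have m1 := mem_reps.1 ht.2
      have m2 := mem_reps.1 ht'.2
      rw [hc.map _ m1.1, hc.map _ m2.1, m1.2, m2.2, mul_one, mul_one] at h1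
      have h2 : t.2 = t'.2 := by
        simp only [h1] at h
        exact MulAction.injective _ h
      exact Prod.ext h1 h2
    · intro w hw
      refine ⟨(c w, (c w)⁻¹ • w), ?_, ?_⟩
      · rw [Finset.mem_product]
        exact ⟨Finset.mem_univ _, hc.rep_mem hw⟩
      · simp
  · rw [Finset.not_nonempty_iff_eq_empty] at hne
    subst hne
    simp [reps]

/-- A free stable set has a trivialisation. -/
theorem exists_triv (S : Finset Ω) (hst : ∀ w ∈ S, ∀ e : P, e • w ∈ S)
    (hfree : ∀ w ∈ S, ∀ e : P, e • w = w → e = 1) : ∃ c : Ω → P, Triv S c := by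
  classical
  let r : Ω → Ω := fun w => (Quotient.mk (MulAction.orbitRel P Ω) w).out
  have hr : ∀ w, ∃ e : P, e • r w = w := by
    intro w
    have h0 : Quotient.mk (MulAction.orbitRel P Ω) (r w) = Quotient.mk (MulAction.orbitRel P Ω) w :=
      Quotient.out_eq _
    have h1 : (MulAction.orbitRel P Ω) w (r w) := Quotient.exact h0.symm
    exact h1
  choose c hcw using hr
  have hr2 : ∀ w (e : P), r (e • w) = r w := by
    intro w e
    have : Quotient.mk (MulAction.orbitRel P Ω) (e • w) = Quotient.mk (MulAction.orbitRel P Ω) w :=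
      Quotient.sound ⟨e, rfl⟩
    simp only [r, this]
  refine ⟨c, hst, ?_⟩
  intro w hw e
  have h1 := hcw (e • w)
  rw [hr2] at h1
  have h2 := hcw w
  have hrS : r w ∈ S := by
    have : r w = (c w)⁻¹ • w := by rw [eq_inv_smul_iff]; exact h2
    rw [this]; exact hst w hw _
  have h3 : ((e * c w)⁻¹ * c (e • w)) • r w = r w := by
    rw [mul_smul, h1, mul_inv_rev, mul_smul, inv_smul_smul]
    rw [inv_smul_eq_iff]; exact h2.symm
  have h4 := hfree _ hrS _ h3
  exact (inv_mul_eq_one.1 h4).symm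

/-! ### the transfer -/

variable {A : Type*} [AddCommGroup A] {L : P → A} (hL : ∀ a b, L (a * b) = L a + L b)

omit [MulAction P Ω] in
include hL in
theorem L_one : L 1 = 0 := by
  have := hL 1 1
  rw [mul_one] at this
  exact left_eq_add.1 this

omit [MulAction P Ω] in
include hL in
theorem L_inv (a : P) : L a⁻¹ = - L a := by
  have := hL a a⁻¹
  rw [mul_inv_cancel, L_one hL] at this
  exact (neg_eq_of_add_eq_zero_right this.symm).symm

omit [MulAction P Ω] in
theorem tr_congr {S : Finset Ω} {c : Ω → P} {a a' : Ω → Ω} (h : ∀ w ∈ S, a w = a' w) :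
    tr L c a S = tr L c a' S := by
  unfold tr
  exact Finset.sum_congr rfl fun w hw => by rw [h w (mem_reps.1 hw).1]

omit [MulAction P Ω] in
theorem tr_union {S S' : Finset Ω} [DecidableEq Ω] {c : Ω → P} {a : Ω → Ω}
    (h : Disjoint S S') : tr L c a (S ∪ S') = tr L c a S + tr L c a S' := by
  classical
  unfold tr reps
  rw [Finset.filter_union, Finset.sum_union]
  exact Finset.disjoint_filter_filter h

omit [MulAction P Ω] in
theorem tr_empty {c : Ω → P} {a : Ω → Ω} : tr L c a ∅ = 0 := by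
  unfold tr reps
  simp

include hL

omit [MulAction P Ω] in
theorem tr_eq_diff {S : Finset Ω} {c : Ω → P} {a : Ω → Ω} :
    tr L c a S = ∑ w ∈ reps c S, (L (c (a w)) - L (c w)) := by
  unfold tr
  refine Finset.sum_congr rfl fun w hw => ?_
  rw [(mem_reps.1 hw).2, L_one hL, sub_zero]

theorem diff_inv {S S' : Finset Ω} {c c' : Ω → P} (hc : Triv S c) (hc' : Triv S' c') {a : Ω → Ω}
    (ha : Eqv P S S' a) : ∀ w ∈ S, ∀ e : P,
      L (c' (a (e • w))) - L (c (e • w)) = L (c' (a w)) - L (c w) := by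
  intro w hw e
  rw [ha.comm w hw, hc'.map _ (ha.maps w hw), hc.map w hw, hL, hL]
  abel

/-- The transfer is additive. -/
theorem tr_comp {S : Finset Ω} {c : Ω → P} (hc : Triv S c) {a b : Ω → Ω} (ha : Eqv P S S a)
    (hb : Eqv P S S b) : tr L c (fun w => a (b w)) S = tr L c a S + tr L c b S := by
  have key := sum_reindex (F := fun w => L (c (a w)) - L (c w)) hc hc hb (diff_inv hL hc hc ha)
  rw [tr_eq_diff hL (a := a), ← key]
  unfold tr
  rw [← Finset.sum_add_distrib]
  refine Finset.sum_congr rfl fun w _ => ?_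
  abel

omit [MulAction P Ω] in
theorem tr_id {S : Finset Ω} {c : Ω → P} : tr L c (fun w => w) S = 0 := by
  unfold tr
  refine Finset.sum_eq_zero fun w hw => ?_
  rw [(mem_reps.1 hw).2, L_one hL]

theorem tr_iterate {S : Finset Ω} {c : Ω → P} (hc : Triv S c) {a : Ω → Ω} (ha : Eqv P S S a)
    (n : ℕ) : tr L c (a^[n]) S = n • tr L c a S := by
  induction n with
  | zero => rw [zero_smul]; exact tr_id hL
  | succ n ih =>
    rw [Function.iterate_succ', succ_nsmul', ← ih]
    exact tr_comp hL hc ha (ha.iterate n)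

omit hL in
/-- The transfer of an element of `P` (central or not, the map `w ↦ u • w`). -/
theorem tr_smul {S : Finset Ω} {c : Ω → P} (hc : Triv S c) (u : P) :
    tr L c (fun w => u • w) S = (reps c S).card • L u := by
  unfold tr
  rw [Finset.sum_congr rfl (g := fun _ => L u), Finset.sum_const]
  intro w hw
  rw [hc.map w (mem_reps.1 hw).1, (mem_reps.1 hw).2, mul_one]

/-- The transfer does not depend on the trivialisation. -/
theorem tr_indep {S : Finset Ω} {c c' : Ω → P} (hc : Triv S c) (hc' : Triv S c') {a : Ω → Ω}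
    (ha : Eqv P S S a) : tr L c a S = tr L c' a S := by
  rw [tr_eq_diff hL, tr_eq_diff hL, sum_reps_eq hc hc' (diff_inv hL hc hc ha)]
  have hh : ∀ w ∈ S, ∀ e : P, L (c' (e • w)) - L (c (e • w)) = L (c' w) - L (c w) := by
    intro w hw e
    rw [hc'.map w hw, hc.map w hw, hL, hL]
    abel
  have key := sum_reindex (F := fun w => L (c' w) - L (c w)) hc' hc' ha hh
  rw [← sub_eq_zero, ← Finset.sum_sub_distrib]
  have h2 : ∑ w ∈ reps c' S, ((L (c' w) - L (c w)) - (L (c' (a w)) - L (c (a w)))) = 0 := by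
    rw [Finset.sum_sub_distrib, key, sub_self]
  rw [← h2]
  refine Finset.sum_congr rfl fun w _ => ?_
  abel

/-- Isomorphic pairs have the same transfer. -/
theorem tr_iso {S S' : Finset Ω} {c c' : Ω → P} (hc : Triv S c) (hc' : Triv S' c')
    {a a' : Ω → Ω} (ha : Eqv P S S a) {f : Ω → Ω} (hf : Eqv P S S' f)
    (hfa : ∀ w ∈ S, f (a w) = a' (f w)) : tr L c a S = tr L c' a' S' := by
  have hcf : Triv S (fun w => c' (f w)) :=
    ⟨hc.stable, fun w hw e => by rw [hf.comm w hw, hc'.map _ (hf.maps w hw)]⟩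
  rw [tr_indep hL hc hcf ha]
  unfold tr
  refine Finset.sum_bij (fun w _ => f w) ?_ ?_ ?_ ?_
  · intro w hw
    rw [mem_reps] at hw ⊢
    exact ⟨hf.maps w hw.1, hw.2⟩
  · intro w hw w' hw' h
    exact hf.inj w (mem_reps.1 hw).1 w' (mem_reps.1 hw').1 h
  · intro w' hw'
    rw [mem_reps] at hw'
    obtain ⟨w, hw, rfl⟩ := hf.surj w' hw'.1
    exact ⟨w, mem_reps.2 ⟨hw, hw'.2⟩, rfl⟩
  · intro w hw
    simp only
    rw [hfa w (mem_reps.1 hw).1]

end general

/-! ### the free triples for `P` -/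

open scoped Classical Pointwise

variable {G : Type*} [Group G] [Finite G]

/-- The triples with free `P`-orbit and chain of parity `ε`. -/
noncomputable def FN (p : ℕ) (g : G) (P : Subgroup G) (ε : ℤ) : Finset (Tri G) :=
  (OF p g).filter (fun w => U P w = ⊥ ∧ (-1 : ℤ) ^ w.s.card = ε)

theorem mem_FN {p : ℕ} {g : G} {P : Subgroup G} {ε : ℤ} {w : Tri G} :
    w ∈ FN p g P ε ↔ InO p g w ∧ U P w = ⊥ ∧ (-1 : ℤ) ^ w.s.card = ε := by
  simp [FN, mem_OF]

variable {P : Subgroup G}

omit [Finite G] in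
theorem smul_def' (e : P) (w : Tri G) : e • w = (e : G) • w := rfl

omit [Finite G] in
/-- `U` of a conjugate. -/
theorem mem_U_smul {e : G} (he : e ∈ P) (w : Tri G) (h : G) :
    h ∈ U P (e • w) ↔ e⁻¹ * h * e ∈ U P w := by
  have hP : h ∈ P ↔ e⁻¹ * h * e ∈ P := by
    rw [Subgroup.mul_mem_cancel_right _ he, Subgroup.mul_mem_cancel_left _ (inv_mem he)]
  have hcm : ∀ z : G, h * (e * z * e⁻¹) = (e * z * e⁻¹) * h ↔
      (e⁻¹ * h * e) * z = z * (e⁻¹ * h * e) := by
    intro z
    constructor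
    · intro h3
      calc (e⁻¹ * h * e) * z = e⁻¹ * (h * (e * z * e⁻¹)) * e := by group
        _ = e⁻¹ * ((e * z * e⁻¹) * h) * e := by rw [h3]
        _ = z * (e⁻¹ * h * e) := by group
    · intro h3
      calc h * (e * z * e⁻¹) = e * ((e⁻¹ * h * e) * z) * e⁻¹ := by group
        _ = e * (z * (e⁻¹ * h * e)) * e⁻¹ := by rw [h3]
        _ = (e * z * e⁻¹) * h := by group
  rw [mem_U, mem_U]
  simp only [smul_x, smul_y, smul_s]
  rw [hP, hcm, hcm]
  have hs : h ∈ stab (MulAut.conj e • w.s) ↔ e⁻¹ * h * e ∈ stab w.s := by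
    have h2 : h = MulAut.conj e (e⁻¹ * h * e) := by
      rw [MulAut.conj_apply]; group
    conv_lhs => rw [h2]
    exact smul_mem_stab_iff _ _ _
  rw [hs]

omit [Finite G] in
theorem U_smul_eq_bot {e : G} (he : e ∈ P) (w : Tri G) : U P (e • w) = ⊥ ↔ U P w = ⊥ := by
  rw [Subgroup.eq_bot_iff_forall, Subgroup.eq_bot_iff_forall]
  constructor
  · intro h x hx
    have h1 : e * x * e⁻¹ ∈ U P (e • w) := by
      rw [mem_U_smul he]
      convert hx using 1
      group
    have h2 := h _ h1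
    rw [mul_inv_eq_one] at h2
    exact mul_eq_left.1 h2
  · intro h x hx
    rw [mem_U_smul he] at hx
    have h2 := h _ hx
    have : x = e * (e⁻¹ * x * e) * e⁻¹ := by group
    rw [this, h2]; group

variable {p : ℕ} {g : G} (hg : ∀ a ∈ P, a * g = g * a)

include hg in
theorem OF_stable {w : Tri G} (hw : w ∈ OF p g) (e : P) : e • w ∈ OF p g := by
  rw [mem_OF] at hw ⊢
  exact hw.smul (hg e e.2)

include hg in
theorem FN_stable {ε : ℤ} : ∀ w ∈ FN p g P ε, ∀ e : P, e • w ∈ FN p g P ε := by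
  intro w hw e
  rw [mem_FN] at hw ⊢
  refine ⟨hw.1.smul (hg e e.2), ?_, ?_⟩
  · exact (U_smul_eq_bot e.2 w).2 hw.2.1
  · rw [smul_def', smul_s, card_smul_chain]; exact hw.2.2

theorem FN_free {ε : ℤ} : ∀ w ∈ FN p g P ε, ∀ e : P, e • w = w → e = 1 := by
  intro w hw e he
  rw [mem_FN] at hw
  have h1 := (smul_eq_iff (p := p) hw.1.chain (R := P) e.2).1 he
  rw [hw.2.1, mem_bot] at h1
  exact Subtype.ext h1

include hg in
theorem exists_triv_FN (ε : ℤ) : ∃ c : Tri G → P, Triv (FN p g P ε) c :=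
  exists_triv _ (FN_stable hg) FN_free

include hg in
theorem eqv_s1 (ε : ℤ) : Eqv P (FN p g P ε) (FN p g P ε) s1 where
  maps w hw := by
    rw [mem_FN] at hw ⊢
    exact ⟨hw.1.s1, by rw [U_s1]; exact hw.2.1, hw.2.2⟩
  comm w _ e := by rw [smul_def', smul_def', s1_smul]
  inj w _ w' _ h := s1_inj h
  surj w' hw' := by
    rw [mem_FN] at hw'
    refine ⟨⟨w'.x, w'.y * w'.x⁻¹, w'.s⟩, ?_, ?_⟩
    · have hs : s1 (⟨w'.x, w'.y * w'.x⁻¹, w'.s⟩ : Tri G) = w' := by
        apply Tri.ext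
        · rfl
        · simp [s1]
        · rfl
      rw [mem_FN]
      refine ⟨⟨?_, hw'.1.chain, hw'.1.hx, mul_mem hw'.1.hy (inv_mem hw'.1.hx)⟩, ?_, hw'.2.2⟩
      · have := hw'.1.comm
        rw [← this]; group
      · rw [← U_s1, hs]; exact hw'.2.1
    · apply Tri.ext
      · rfl
      · simp [s1]
      · rfl

include hg in
theorem eqv_s2 (ε : ℤ) : Eqv P (FN p g P ε) (FN p g P ε) s2 where
  maps w hw := by
    rw [mem_FN] at hw ⊢
    exact ⟨hw.1.s2, by rw [U_s2]; exact hw.2.1, hw.2.2⟩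
  comm w _ e := by rw [smul_def', smul_def', s2_smul]
  inj w _ w' _ h := s2_inj h
  surj w' hw' := by
    rw [mem_FN] at hw'
    have hs : s2 (⟨w'.x * w'.y, w'.y, w'.s⟩ : Tri G) = w' := by
      apply Tri.ext
      · simp [s2]
      · rfl
      · rfl
    refine ⟨⟨w'.x * w'.y, w'.y, w'.s⟩, ?_, hs⟩
    rw [mem_FN]
    refine ⟨⟨?_, hw'.1.chain, mul_mem hw'.1.hx hw'.1.hy, hw'.1.hy⟩, ?_, hw'.2.2⟩
    · have := hw'.1.comm
      rw [← this]; group
    · rw [← U_s2, hs]; exact hw'.2.1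

/-- **The twist**: the transfers of `s1^[q]` and of `g^q`. -/
theorem twist {A : Type*} [AddCommGroup A] {L : P → A} (hL : ∀ a b, L (a * b) = L a + L b)
    (hg : ∀ a ∈ P, a * g = g * a) {ε : ℤ} {c : Tri G → P} (hc : Triv (FN p g P ε) c) {q : ℕ}
    (hu : g ^ q ∈ P) :
    12 • tr L c (s1^[q]) (FN p g P ε)
      = (reps c (FN p g P ε)).card • L (⟨g ^ q, hu⟩ : P)⁻¹ := by
  have e1 := eqv_s1 (p := p) hg ε
  have e2 := eqv_s2 (p := p) hg ε
  set S := FN p g P ε with hS
  have d1 : tr L c (fun w => s1 (s2 (s1 w))) S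
      = tr L c s1 S + (tr L c s2 S + tr L c s1 S) := by
    rw [tr_comp hL hc e1 (e2.comp e1), tr_comp hL hc e2 e1]
  have d2 : tr L c (fun w => s2 (s1 (s2 w))) S
      = tr L c s2 S + (tr L c s1 S + tr L c s2 S) := by
    rw [tr_comp hL hc e2 (e1.comp e2), tr_comp hL hc e1 e2]
  have d3 : tr L c (fun w : Tri G => s1 (s2 (s1 w))) S = tr L c (fun w => s2 (s1 (s2 w))) S :=
    tr_congr fun w _ => braid w
  have d4 : tr L c s1 S = tr L c s2 S := by
    rw [d1, d2] at d3
    have h1 : tr L c s1 S + (tr L c s1 S + tr L c s2 S)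
        = tr L c s2 S + (tr L c s1 S + tr L c s2 S) := by
      rw [← d3]; congr 1; exact add_comm _ _
    exact add_right_cancel h1
  have d5 : tr L c (fun w : Tri G => s1 (s2 (s1 w))) S = 3 • tr L c s1 S := by
    rw [d1, ← d4]
    rw [succ_nsmul', succ_nsmul', one_nsmul]
  have e3 : Eqv P S S (fun w => s1 (s2 (s1 w))) := e1.comp (e2.comp e1)
  have e4 : Eqv P S S ((fun w : Tri G => s1 (s2 (s1 w)))^[4]) := e3.iterate 4
  have d6 := tr_iterate hL hc e4 q
  rw [tr_iterate hL hc e3 4, d5] at d6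
  have d7 : tr L c (((fun w : Tri G => s1 (s2 (s1 w)))^[4])^[q]) S
      = tr L c (fun w => (⟨g ^ q, hu⟩ : P)⁻¹ • w) S := by
    have key : ∀ n : ℕ, ∀ w ∈ S, ((fun w : Tri G => s1 (s2 (s1 w)))^[4])^[n] w = (g⁻¹) ^ n • w := by
      intro n
      induction n with
      | zero => intro w _; simp
      | succ n ih =>
        intro w hw
        rw [Function.iterate_succ', Function.comp, ih w hw, pow_succ', mul_smul]
        refine delta_four (p := p) (g := g) ?_
        have hw' := (mem_FN.1 hw).1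
        refine hw'.smul ?_
        exact (Commute.pow_left (Commute.inv_left (Commute.refl g)) n)
    refine tr_congr fun w hw => ?_
    rw [key q w hw, smul_def']
    congr 1
    simp
  rw [d7, tr_smul hc] at d6
  rw [d6, tr_iterate hL hc e1 q, ← mul_nsmul, ← mul_nsmul, ← mul_nsmul]
  congr 1
  ring

end P179M
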