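import Mathlib

/-!
# A family of `p`-groups in which no section `K ≠ 1` has its centre inside its derived subgroup

`A` is an abelian normal subgroup of `D` with `D / A` cyclic, every element of `D` acts on `A` by
`a ↦ a ^ r` with `r ≡ 1` modulo `p ^ s`, and `A ^ (p ^ (2 s - 1)) = 1`.
-/

namespace P179M

open Subgroup

open scoped commutatorElement

/-- A family of groups. -/
def PowerFamily (p : ℕ) (D : Type*) [Group D] : Prop :=
  ∃ (s : ℕ) (A : Subgroup D) (_ : A.Normal), (∀ a ∈ A, ∀ b ∈ A, a * b = b * a) ∧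
    IsCyclic (D ⧸ A) ∧ (∀ d : D, ∃ r : ℕ, r ≡ 1 [MOD p ^ s] ∧ ∀ a ∈ A, d * a * d⁻¹ = a ^ r) ∧
    (∀ a ∈ A, a ^ (p ^ (2 * s - 1)) = 1) ∧ 0 < s

/-- the elementwise form -/
structure PF (p s : ℕ) (K : Type*) [Group K] (A : Subgroup K) (g : K) : Prop where
  comm : ∀ a ∈ A, ∀ b ∈ A, a * b = b * a
  gen : ∀ x : K, ∃ (k : ℤ) (a : K), a ∈ A ∧ x = g ^ k * a
  act : ∀ x : K, ∃ r : ℕ, r ≡ 1 [MOD p ^ s] ∧ ∀ a ∈ A, x * a * x⁻¹ = a ^ r
  exp : ∀ a ∈ A, a ^ (p ^ (2 * s - 1)) = 1
  pos : 0 < s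

section core

variable {p s : ℕ} {K : Type*} [Group K] {A : Subgroup K} {g : K}

/-- an element of `A` which commutes with everything -/
theorem PF.central (h : PF p s K A g) {a : K} (ha : a ∈ A) (h1 : a ^ (p ^ s) = 1) :
    a ∈ center K := by
  rw [mem_center_iff]
  intro x
  obtain ⟨r, hr, hx⟩ := h.act x
  have h2 : a ^ r = a := by
    have h3 : r ≡ 1 [MOD orderOf a] := hr.of_dvd (orderOf_dvd_of_pow_eq_one h1)
    have h4 := pow_eq_pow_iff_modEq.2 h3
    rwa [pow_one] at h4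
  have h3 := hx a ha
  rw [h2] at h3
  exact mul_inv_eq_iff_eq_mul.1 h3

/-- the subgroup of the `p ^ s`-th powers of `A` -/
def PF.B (h : PF p s K A g) : Subgroup K where
  carrier := {x | ∃ a ∈ A, a ^ (p ^ s) = x}
  mul_mem' := by
    rintro _ _ ⟨a, ha, rfl⟩ ⟨b, hb, rfl⟩
    exact ⟨a * b, A.mul_mem ha hb, Commute.mul_pow (h.comm a ha b hb) _⟩
  one_mem' := ⟨1, A.one_mem, one_pow _⟩
  inv_mem' := by
    rintro _ ⟨a, ha, rfl⟩
    exact ⟨a⁻¹, A.inv_mem ha, inv_pow a _⟩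

theorem PF.mem_B (h : PF p s K A g) {x : K} : x ∈ h.B ↔ ∃ a ∈ A, a ^ (p ^ s) = x := Iff.rfl

theorem PF.normal_B (h : PF p s K A g) : h.B.Normal := by
  refine ⟨?_⟩
  rintro _ ⟨a, ha, rfl⟩ x
  obtain ⟨r, -, hx⟩ := h.act x
  refine ⟨x * a * x⁻¹, ?_, conj_pow⟩
  rw [hx a ha]
  exact A.pow_mem ha r

theorem PF.commutator_le (h : PF p s K A g) : commutator K ≤ h.B := by
  have hB := h.normal_B
  rw [commutator_def, Subgroup.commutator_le]
  -- the elements of `A` are central modulo `B`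
  have hc : ∀ a ∈ A, ∀ x : K, Commute (QuotientGroup.mk x : K ⧸ h.B) (QuotientGroup.mk a) := by
    intro a ha x
    obtain ⟨r, hr, hx⟩ := h.act x
    have h1 : x * a * x⁻¹ * a⁻¹ ∈ h.B := by
      rw [hx a ha]
      rcases Nat.eq_zero_or_pos r with rfl | hr0
      · have h3 : p ^ s = 1 := by
          have h4 : (p ^ s) ∣ 1 := by
            have := (Nat.modEq_zero_iff_dvd (n := p ^ s) (a := 1)).1 hr.symm
            exact this
          exact Nat.dvd_one.1 h4
        refine ⟨a⁻¹, A.inv_mem ha, ?_⟩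
        rw [h3, pow_one, pow_zero, one_mul]
      · obtain ⟨c, hc⟩ := (Nat.modEq_iff_dvd' hr0).1 hr.symm
        refine ⟨a ^ c, A.pow_mem ha c, ?_⟩
        rw [← pow_mul]
        have h5 : r = c * p ^ s + 1 := by
          have : r - 1 = p ^ s * c := hc
          rw [mul_comm c]; omega
        rw [h5, pow_succ, mul_inv_cancel_right]
    have h2 : (QuotientGroup.mk (x * a * x⁻¹ * a⁻¹) : K ⧸ h.B) = 1 :=
      (QuotientGroup.eq_one_iff _).2 h1
    have h3 : (QuotientGroup.mk x : K ⧸ h.B) * QuotientGroup.mk a * (QuotientGroup.mk x)⁻¹ *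
        (QuotientGroup.mk a)⁻¹ = 1 := h2
    change (QuotientGroup.mk x : K ⧸ h.B) * QuotientGroup.mk a = QuotientGroup.mk a *
      QuotientGroup.mk x
    rw [mul_inv_eq_one, mul_inv_eq_iff_eq_mul] at h3
    exact h3
  intro x _ y _
  obtain ⟨k, a, ha, rfl⟩ := h.gen x
  obtain ⟨l, b, hb, rfl⟩ := h.gen y
  rw [← QuotientGroup.eq_one_iff]
  have h1 : Commute (QuotientGroup.mk (g ^ k * a) : K ⧸ h.B) (QuotientGroup.mk (g ^ l * b)) := by
    have e1 : (QuotientGroup.mk (g ^ k * a) : K ⧸ h.B) =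
      (QuotientGroup.mk g : K ⧸ h.B) ^ k * QuotientGroup.mk a := rfl
    have e2 : (QuotientGroup.mk (g ^ l * b) : K ⧸ h.B) =
      (QuotientGroup.mk g : K ⧸ h.B) ^ l * QuotientGroup.mk b := rfl
    rw [e1, e2]
    have c1 : Commute ((QuotientGroup.mk g : K ⧸ h.B) ^ k) ((QuotientGroup.mk g : K ⧸ h.B) ^ l) :=
      (Commute.refl _).zpow_zpow k l
    have c2 : Commute ((QuotientGroup.mk g : K ⧸ h.B) ^ k) (QuotientGroup.mk b) :=
      (hc b hb g).zpow_left k
    have c3 : Commute (QuotientGroup.mk a : K ⧸ h.B) ((QuotientGroup.mk g : K ⧸ h.B) ^ l) :=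
      ((hc a ha g).zpow_left l).symm
    have c4 : Commute (QuotientGroup.mk a : K ⧸ h.B) (QuotientGroup.mk b) := hc b hb a
    exact (c1.mul_right c2).mul_left (c3.mul_right c4)
  have h2 : (QuotientGroup.mk ⁅g ^ k * a, g ^ l * b⁆ : K ⧸ h.B) =
    ⁅(QuotientGroup.mk (g ^ k * a) : K ⧸ h.B), QuotientGroup.mk (g ^ l * b)⁆ := rfl
  rw [h2]
  exact commutatorElement_eq_one_iff_commute.2 h1

/-- the centre is not contained in the derived subgroup -/
theorem PF.subsingleton (h : PF p s K A g) (hle : center K ≤ commutator K) :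
    Subsingleton K := by
  have hs := h.pos
  have h1 : ∀ z ∈ center K, z ^ (p ^ (s - 1)) = 1 := by
    intro z hz
    obtain ⟨a, ha, rfl⟩ := h.commutator_le (hle hz)
    rw [← pow_mul, ← pow_add, show s + (s - 1) = 2 * s - 1 by omega]
    exact h.exp a ha
  have h2 : ∀ (m : ℕ) (a : K), a ∈ A → a ^ (p ^ (s - 1 + m)) = 1 → a ^ (p ^ (s - 1)) = 1 := by
    intro m
    induction m with
    | zero => intro a _ h; exact h
    | succ m ih =>
      intro a ha h3
      apply ih a ha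
      have h4 : (a ^ (p ^ m)) ^ (p ^ s) = 1 := by
        rw [← pow_mul, ← pow_add, show m + s = s - 1 + (m + 1) by omega]
        exact h3
      have h5 := h1 _ (h.central (A.pow_mem ha _) h4)
      rw [← pow_mul, ← pow_add] at h5
      rw [add_comm (s - 1) m]
      exact h5
  have h3 : ∀ a ∈ A, a ∈ center K := by
    intro a ha
    have h4 : a ^ (p ^ (s - 1)) = 1 := by
      refine h2 s a ha ?_
      rw [show s - 1 + s = 2 * s - 1 by omega]
      exact h.exp a ha
    refine h.central ha ?_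
    obtain ⟨n, rfl⟩ : ∃ n, s = n + 1 := ⟨s - 1, by omega⟩
    rw [Nat.add_sub_cancel] at h4
    rw [pow_succ, pow_mul, h4, one_pow]
  have h4 : ∀ x y : K, x * y = y * x := by
    intro x y
    obtain ⟨k, a, ha, rfl⟩ := h.gen x
    obtain ⟨l, b, hb, rfl⟩ := h.gen y
    have ca := h3 a ha
    have cb := h3 b hb
    rw [mem_center_iff] at ca cb
    have c1 : Commute (g ^ k) (g ^ l) := (Commute.refl g).zpow_zpow k l
    have c2 : Commute (g ^ k) b := cb _
    have c3 : Commute a (g ^ l) := (ca _).symm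
    have c4 : Commute a b := cb _
    exact (c1.mul_right c2).mul_left (c3.mul_right c4)
  refine ⟨fun x y => ?_⟩
  have h5 : commutator K = ⊥ := by
    rw [commutator_def, Subgroup.commutator_eq_bot_iff_le_centralizer]
    intro x _
    rw [mem_centralizer_iff]
    intro y _
    exact h4 y x
  rw [h5] at hle
  have h6 : ∀ z : K, z = 1 := fun z => by
    have : z ∈ center K := by
      rw [mem_center_iff]
      intro y
      exact h4 y z
    exact mem_bot.1 (hle this)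
  rw [h6 x, h6 y]

end core

/-- the sections of a group of the family -/
theorem PowerFamily.section_ {p : ℕ} {D : Type*} [Group D] (h : PowerFamily p D)
    (H : Subgroup D) (N : Subgroup H) [N.Normal] :
    ∃ (s : ℕ) (A : Subgroup (H ⧸ N)) (g : H ⧸ N), PF p s (H ⧸ N) A g := by
  obtain ⟨s, A, hA, hcomm, hcyc, hact, hexp, hs⟩ := h
  -- a generator of `H` modulo `A`
  have hg : ∃ h0 : H, ∀ x : H, ∃ (k : ℤ), ((h0 ^ k)⁻¹ * x : H) ∈ A.subgroupOf H := by
    have hc : IsCyclic (H.map (QuotientGroup.mk' A)) := Subgroup.isCyclic _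
    obtain ⟨⟨y, hy⟩, hgen⟩ := hc.exists_generator
    obtain ⟨h0, hh0, rfl⟩ := Subgroup.mem_map.1 hy
    refine ⟨⟨h0, hh0⟩, fun x => ?_⟩
    have h1 := hgen ⟨QuotientGroup.mk' A x, Subgroup.mem_map_of_mem _ x.2⟩
    obtain ⟨k, hk⟩ := mem_zpowers_iff.1 h1
    refine ⟨k, ?_⟩
    have h2 := congrArg Subtype.val hk
    rw [Subgroup.mem_subgroupOf]
    have h3 : (QuotientGroup.mk (h0 ^ k) : D ⧸ A) = QuotientGroup.mk (x : D) := by
      simpa using h2
    have h4 := QuotientGroup.eq.1 h3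
    simpa using h4
  obtain ⟨h0, hh0⟩ := hg
  refine ⟨s, (A.subgroupOf H).map (QuotientGroup.mk' N), QuotientGroup.mk h0, ?_, ?_, ?_, ?_, hs⟩
  · rintro _ ⟨a, ha, rfl⟩ _ ⟨b, hb, rfl⟩
    rw [← map_mul, ← map_mul]
    congr 1
    exact Subtype.ext (hcomm a ha b hb)
  · intro x
    obtain ⟨x, rfl⟩ := QuotientGroup.mk'_surjective N x
    obtain ⟨k, hk⟩ := hh0 x
    refine ⟨k, QuotientGroup.mk' N ((h0 ^ k)⁻¹ * x), Subgroup.mem_map_of_mem _ hk, ?_⟩
    change QuotientGroup.mk' N x = (QuotientGroup.mk' N h0) ^ k * _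
    rw [← map_zpow, ← map_mul, mul_inv_cancel_left]
  · intro x
    obtain ⟨x, rfl⟩ := QuotientGroup.mk'_surjective N x
    obtain ⟨r, hr, hx⟩ := hact x
    refine ⟨r, hr, ?_⟩
    rintro _ ⟨a, ha, rfl⟩
    rw [← map_inv, ← map_mul, ← map_mul, ← map_pow]
    congr 1
    exact Subtype.ext (hx a ha)
  · rintro _ ⟨a, ha, rfl⟩
    rw [← map_pow]
    have : a ^ (p ^ (2 * s - 1)) = 1 := Subtype.ext (hexp a ha)
    rw [this, map_one]

/-- **No section `K ≠ 1` of a group of the family has its centre inside its derived subgroup.** -/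
theorem family_good_sections {p : ℕ} {D : Type*} [Group D] (h : PowerFamily p D)
    (H : Subgroup D) (N : Subgroup H) [N.Normal] :
    Subsingleton (H ⧸ N) ∨ ¬ center (H ⧸ N) ≤ commutator (H ⧸ N) := by
  obtain ⟨s, A, g, hpf⟩ := h.section_ H N
  by_cases hle : center (H ⧸ N) ≤ commutator (H ⧸ N)
  · exact Or.inl (hpf.subsingleton hle)
  · exact Or.inr hle

theorem family_good {p : ℕ} [Fact p.Prime] {D : Type} [Group D] [Finite D]
    (_hD : IsPGroup p D) (h : PowerFamily p D) (H : Subgroup D) (N : Subgroup H) [N.Normal] :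
    Subsingleton (H ⧸ N) ∨ ¬ center (H ⧸ N) ≤ commutator (H ⧸ N) :=
  family_good_sections h H N

end P179M
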