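import Mathlib

/-!
# `p`-groups whose centre is cyclic, of index `p ^ 2` and of order larger than `p`

For such a group `D` the centre is not contained in the derived subgroup, and `H / N` is abelian
for all subgroups `H` of `D` and all normal subgroups `N ≠ 1` of `H`.
-/

namespace P179M

open Subgroup

open scoped commutatorElement

/-- in a finite cyclic `p`-group every nontrivial subgroup contains all elements with
`c ^ p = 1` -/
theorem mem_zpowers_cyc {p : ℕ} [hp : Fact p.Prime] {Z : Type*} [Group Z] [Finite Z] [IsCyclic Z]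
    (hP : IsPGroup p Z) {z c : Z} (hz : z ≠ 1) (hc : c ^ p = 1) : c ∈ zpowers z := by
  classical
  have := Fintype.ofFinite Z
  obtain ⟨k, hk⟩ := (IsPGroup.iff_orderOf.1 hP) z
  have hk0 : k ≠ 0 := by
    rintro rfl
    rw [pow_zero, orderOf_eq_one_iff] at hk
    exact hz hk
  obtain ⟨j, rfl⟩ := Nat.exists_eq_succ_of_ne_zero hk0
  have hm : orderOf (z ^ (p ^ j)) = p := by
    rw [orderOf_pow' z (pow_ne_zero _ hp.out.ne_zero), hk]
    rw [Nat.gcd_eq_right (pow_dvd_pow p (Nat.le_succ j)), pow_succ,
      Nat.mul_div_cancel_left _ (pow_pos hp.out.pos _)]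
  have h1 : (Finset.univ.filter fun a : Z => a ^ p = 1).card ≤ p :=
    IsCyclic.card_pow_eq_one_le hp.out.pos
  have h2 : (Finset.univ.filter fun a : Z => a ∈ zpowers (z ^ (p ^ j))).card = p := by
    rw [← Fintype.card_subtype]
    have h3 := Nat.card_zpowers (z ^ (p ^ j))
    rw [hm, Nat.card_eq_fintype_card] at h3
    exact h3
  have h3 : (Finset.univ.filter fun a : Z => a ∈ zpowers (z ^ (p ^ j))) ⊆
      (Finset.univ.filter fun a : Z => a ^ p = 1) := by
    intro a ha
    rw [Finset.mem_filter] at ha ⊢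
    refine ⟨ha.1, ?_⟩
    obtain ⟨i, rfl⟩ := mem_zpowers_iff.1 ha.2
    have h4 : (z ^ (p ^ j)) ^ p = 1 := by
      have h5 := pow_orderOf_eq_one (z ^ (p ^ j))
      rwa [hm] at h5
    rw [← zpow_natCast, ← zpow_mul, mul_comm, zpow_mul, zpow_natCast, h4, one_zpow]
  have h4 := Finset.eq_of_subset_of_card_le h3 (by rw [h2]; exact h1)
  have h5 : c ∈ (Finset.univ.filter fun a : Z => a ∈ zpowers (z ^ (p ^ j))) := by
    rw [h4, Finset.mem_filter]
    exact ⟨Finset.mem_univ _, hc⟩
  have h6 := (Finset.mem_filter.1 h5).2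
  exact (zpowers_le.2 (pow_mem (mem_zpowers z) _)) h6

section main

variable {D : Type*} [Group D] [Finite D] {p : ℕ} [hp : Fact p.Prime]

omit [Finite D] in
theorem comm_mem_center (h2 : (center D).index = p ^ 2) (x y : D) : ⁅x, y⁆ ∈ center D := by
  have hc : Nat.card (D ⧸ center D) = p ^ 2 := h2
  have h1 := (IsPGroup.isMulCommutative_of_card_eq_prime_sq hc).is_comm.comm
    (QuotientGroup.mk x : D ⧸ center D) (QuotientGroup.mk y)
  have h3 : (QuotientGroup.mk ⁅x, y⁆ : D ⧸ center D) = 1 := by
    rw [commutatorElement_def]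
    simp only [QuotientGroup.mk_mul, QuotientGroup.mk_inv]
    rw [h1]
    group
  exact (QuotientGroup.eq_one_iff _).1 h3

theorem pow_mem_center (h2 : (center D).index = p ^ 2) (x : D) : x ^ p ∈ center D := by
  have hc : Nat.card (D ⧸ center D) = p ^ 2 := h2
  have h1 : orderOf (QuotientGroup.mk x : D ⧸ center D) ∣ p ^ 2 := by
    rw [← hc]
    exact orderOf_dvd_natCard _
  obtain ⟨k, hk, h3⟩ := (Nat.dvd_prime_pow hp.out).1 h1
  have h4 : k ≠ 2 := by
    rintro rfl
    have h5 : IsCyclic (D ⧸ center D) := by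
      apply isCyclic_of_orderOf_eq_card (QuotientGroup.mk x : D ⧸ center D)
      rw [h3, hc]
    have h6 := isMulCommutative_of_isCyclic_quotient_center_self D
    have h7 : center D = ⊤ := by
      rw [eq_top_iff]
      intro a _
      rw [mem_center_iff]
      intro g
      exact h6.is_comm.comm g a
    rw [h7, index_top] at h2
    have h8 := Nat.one_lt_pow (two_ne_zero) hp.out.one_lt
    omega
  have h5 : orderOf (QuotientGroup.mk x : D ⧸ center D) ∣ p := by
    rw [h3]
    have h6 : k ≤ 1 := by omega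
    calc p ^ k ∣ p ^ 1 := pow_dvd_pow p h6
      _ = p := pow_one p
  have h6 : (QuotientGroup.mk (x ^ p) : D ⧸ center D) = 1 := by
    rw [QuotientGroup.mk_pow]
    exact orderOf_dvd_iff_pow_eq_one.1 h5
  exact (QuotientGroup.eq_one_iff _).1 h6

theorem comm_pow (h2 : (center D).index = p ^ 2) (x y : D) : ⁅x, y⁆ ^ p = 1 := by
  set c := ⁅x, y⁆ with hc
  have hz := mem_center_iff.1 (comm_mem_center (p := p) h2 x y)
  rw [← hc] at hz
  have h1 : ∀ k : ℕ, x ^ k * y = c ^ k * y * x ^ k := by
    intro k
    induction k with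
    | zero => simp
    | succ k ih =>
      have h3 : x * y = c * y * x := by
        rw [hc, commutatorElement_def]
        group
      have h4 : x * c ^ k = c ^ k * x := ((show Commute x c from hz x).pow_right k).eq
      calc x ^ (k + 1) * y = x * (x ^ k * y) := by rw [pow_succ', mul_assoc]
        _ = x * c ^ k * (y * x ^ k) := by rw [ih]; simp only [mul_assoc]
        _ = c ^ k * (x * y) * x ^ k := by rw [h4]; simp only [mul_assoc]
        _ = c ^ (k + 1) * y * x ^ (k + 1) := by
          rw [h3, pow_succ, pow_succ']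
          simp only [mul_assoc]
  have h3 := h1 p
  have h4 := mem_center_iff.1 (pow_mem_center (p := p) h2 x) y
  rw [mul_assoc, h4] at h3
  have h5 : 1 * (x ^ p * y) = c ^ p * (x ^ p * y) := by rw [one_mul]; exact h3
  exact (mul_right_cancel h5).symm

/-- the derived subgroup consists of central elements with `c ^ p = 1` -/
theorem derived_le (h2 : (center D).index = p ^ 2) {c : D} (hc : c ∈ commutator D) :
    c ∈ center D ∧ c ^ p = 1 := by
  let Om : Subgroup D :=
    { carrier := {c | c ∈ center D ∧ c ^ p = 1}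
      mul_mem' := by
        rintro a b ⟨ha, ha'⟩ ⟨hb, hb'⟩
        refine ⟨mul_mem ha hb, ?_⟩
        rw [Commute.mul_pow (show Commute a b from mem_center_iff.1 hb a), ha', hb', one_mul]
      one_mem' := ⟨one_mem _, one_pow _⟩
      inv_mem' := by
        rintro a ⟨ha, ha'⟩
        refine ⟨inv_mem ha, ?_⟩
        rw [inv_pow, ha', inv_one] }
  have h1 : commutator D ≤ Om := by
    rw [commutator_def, commutator_le]
    intro x _ y _
    exact ⟨comm_mem_center (p := p) h2 x y, comm_pow h2 x y⟩
  exact h1 hc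

/-- the centre is not contained in the derived subgroup -/
theorem not_center_le (hZ : IsCyclic (center D)) (h1 : p < Nat.card (center D))
    (h2 : (center D).index = p ^ 2) : ¬ center D ≤ commutator D := by
  intro h
  obtain ⟨g, hg⟩ := hZ.exists_generator
  have h3 : g ^ p = 1 := by
    have h4 := (derived_le (p := p) h2 (h g.2)).2
    exact Subtype.ext h4
  have h4 : orderOf g ∣ p := orderOf_dvd_of_pow_eq_one h3
  have h5 : orderOf g = Nat.card (center D) := orderOf_eq_card_of_forall_mem_zpowers hg
  rw [h5] at h4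
  exact absurd (Nat.le_of_dvd hp.out.pos h4) (not_le.2 h1)

omit [Finite D] in
/-- the centraliser of a noncentral element is abelian -/
theorem centralizer_comm (h2 : (center D).index = p ^ 2) {n a b : D} (hn : n ∉ center D)
    (ha : a * n = n * a) (hb : b * n = n * b) : a * b = b * a := by
  set C : Subgroup D := centralizer {n} with hC
  have hnC : n ∈ C := by
    rw [hC, mem_centralizer_singleton_iff]
  have haC : a ∈ C := by
    rw [hC, mem_centralizer_singleton_iff]
    exact ha
  have hbC : b ∈ C := by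
    rw [hC, mem_centralizer_singleton_iff]
    exact hb
  have hZC : center D ≤ C := center_le_centralizer _
  have h3 := relIndex_mul_index hZC
  rw [h2] at h3
  have h4 : C.index ≠ 1 := by
    rw [Ne, index_eq_one]
    intro h5
    apply hn
    rw [mem_center_iff]
    intro g
    have h6 : g ∈ C := by rw [h5]; exact mem_top g
    rw [hC, mem_centralizer_singleton_iff] at h6
    exact h6
  have h5 : (center D).relIndex C ∣ p := by
    have h6 : (center D).relIndex C ∣ p ^ 2 := ⟨_, h3.symm⟩
    obtain ⟨k, hk, h7⟩ := (Nat.dvd_prime_pow hp.out).1 h6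
    have h8 : k ≠ 2 := by
      rintro rfl
      rw [h7] at h3
      exact h4 (Nat.eq_of_mul_eq_mul_left (pow_pos hp.out.pos 2) (by rw [h3, mul_one]))
    rw [h7]
    have h9 : k ≤ 1 := by omega
    calc p ^ k ∣ p ^ 1 := pow_dvd_pow p h9
      _ = p := pow_one p
  have h6 : Nat.card (C ⧸ (center D).subgroupOf C) ∣ p := h5
  have h7 : IsCyclic (C ⧸ (center D).subgroupOf C) := isCyclic_of_card_dvd_prime h6
  have h8 := (QuotientGroup.mk' ((center D).subgroupOf C)).isMulCommutative_of_isCyclic_of_ker_le_center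
    (by
      rw [QuotientGroup.ker_mk']
      intro x hx
      rw [mem_subgroupOf] at hx
      rw [mem_center_iff]
      intro g
      exact Subtype.ext (mem_center_iff.1 hx g))
  have h9 := h8.is_comm.comm (⟨a, haC⟩ : C) ⟨b, hbC⟩
  exact congrArg Subtype.val h9

/-- all sections `H / N` with `N ≠ 1` are abelian -/
theorem section_comm (hD : IsPGroup p D) (hZ : IsCyclic (center D))
    (h2 : (center D).index = p ^ 2) (H : Subgroup D) (N : Subgroup H) [N.Normal] (hN : N ≠ ⊥)
    (a b : H ⧸ N) : a * b = b * a := by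
  obtain ⟨x, rfl⟩ := QuotientGroup.mk_surjective a
  obtain ⟨y, rfl⟩ := QuotientGroup.mk_surjective b
  obtain ⟨n, hnN, hn1⟩ := N.bot_or_exists_ne_one.resolve_left hN
  by_cases hc : ∃ m : H, m ∈ N ∧ m ≠ 1 ∧ (m : D) ∈ center D
  · obtain ⟨m, hmN, hm1, hmZ⟩ := hc
    have h3 : ⁅(x : D), (y : D)⁆ ∈ zpowers (m : D) := by
      have h4 : (⟨⁅(x : D), (y : D)⁆, comm_mem_center (p := p) h2 _ _⟩ : center D) ∈
          zpowers (⟨(m : D), hmZ⟩ : center D) := by
        refine mem_zpowers_cyc (p := p) (hD.to_subgroup _) ?_ ?_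
        · intro h5
          have h6 : (m : D) = 1 := congrArg Subtype.val h5
          exact hm1 (Subtype.ext h6)
        · exact Subtype.ext (comm_pow h2 _ _)
      obtain ⟨i, hi⟩ := mem_zpowers_iff.1 h4
      exact mem_zpowers_iff.2 ⟨i, congrArg Subtype.val hi⟩
    obtain ⟨i, hi⟩ := mem_zpowers_iff.1 h3
    have h4 : ⁅x, y⁆ ∈ N := by
      have h5 : ⁅x, y⁆ = m ^ i := by
        apply Subtype.ext
        rw [show ((m ^ i : H) : D) = (m : D) ^ i from rfl, hi]
        rfl
      rw [h5]
      exact N.zpow_mem hmN i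
    have h5 : (QuotientGroup.mk ⁅x, y⁆ : H ⧸ N) = 1 := (QuotientGroup.eq_one_iff _).2 h4
    rw [commutatorElement_def] at h5
    simp only [QuotientGroup.mk_mul, QuotientGroup.mk_inv] at h5
    rw [mul_inv_eq_one, mul_inv_eq_iff_eq_mul] at h5
    exact h5
  · have h3 : ∀ m : H, m ∈ N → (m : D) ∈ center D → m = 1 := by
      intro m hm hmZ
      by_contra h4
      exact hc ⟨m, hm, h4, hmZ⟩
    have h4 : ∀ h : H, (h : D) * n = n * h := by
      intro h
      have h5 : ⁅h, n⁆ ∈ N := by
        rw [commutatorElement_def]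
        exact N.mul_mem (Normal.conj_mem ‹_› n hnN h) (N.inv_mem hnN)
      have h6 : ⁅h, n⁆ = 1 := h3 _ h5 (comm_mem_center (p := p) h2 (h : D) (n : D))
      rw [commutatorElement_eq_one_iff_mul_comm] at h6
      exact congrArg Subtype.val h6
    have hnZ : (n : D) ∉ center D := fun h => hn1 (h3 n hnN h)
    have h5 : (x : D) * y = y * x := centralizer_comm (p := p) h2 hnZ (h4 x) (h4 y)
    have h6 : x * y = y * x := Subtype.ext h5
    rw [← QuotientGroup.mk_mul, ← QuotientGroup.mk_mul, h6]

end main

end P179M
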