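import Vale.Agent.P179.H905.MainLem
import Vale.Agent.P179.H143.LemQ

/-!
# The main lemma
-/

set_option linter.unusedSectionVars false

namespace P179A

open Subgroup

open scoped Classical Pointwise

variable {G : Type*} [Group G] [Finite G]

variable {P : Type*} [CommGroup P] [MulAction P (Tri G)] {ι : P →* G}
  (hι : Function.Injective ι) (hact : ∀ (e : P) (w : Tri G), e • w = ι e • w)
  {p : ℕ} {g : G} (hg : ∀ e : P, ι e * g = g * ι e)

/-- The free triples with `L = ⊥`. -/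
noncomputable def F1 (p : ℕ) (g : G) (R : Subgroup G) (ε : ℤ) : Finset (Tri G) :=
  (FP p g R ε).filter (fun w => L R w = ⊥)

/-- The free triples with `L ≠ ⊥`. -/
noncomputable def F2 (p : ℕ) (g : G) (R : Subgroup G) (ε : ℤ) : Finset (Tri G) :=
  (FP p g R ε).filter (fun w => ¬ L R w = ⊥)

theorem mem_F1 {R : Subgroup G} {ε : ℤ} {w : Tri G} :
    w ∈ F1 p g R ε ↔ InO p g w ∧ L R w = ⊥ ∧ (-1 : ℤ) ^ w.s.card = ε := by
  rw [F1, Finset.mem_filter, mem_FP]
  constructor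
  · rintro ⟨⟨h1, h2, h3⟩, h4⟩; exact ⟨h1, h4, h3⟩
  · rintro ⟨h1, h4, h3⟩
    exact ⟨⟨h1, le_bot_iff.1 (h4 ▸ U_le_L R w), h3⟩, h4⟩

theorem mem_F2 {R : Subgroup G} {ε : ℤ} {w : Tri G} :
    w ∈ F2 p g R ε ↔ InO p g w ∧ U R w = ⊥ ∧ (-1 : ℤ) ^ w.s.card = ε ∧ ¬ L R w = ⊥ := by
  rw [F2, Finset.mem_filter, mem_FP, and_assoc, and_assoc]

theorem F_union (R : Subgroup G) (ε : ℤ) : F1 p g R ε ∪ F2 p g R ε = FP p g R ε :=
  Finset.filter_union_filter_not_eq _ _

theorem F_disjoint (R : Subgroup G) (ε : ℤ) : Disjoint (F1 p g R ε) (F2 p g R ε) :=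
  Finset.disjoint_filter_filter_not _ _ _

theorem Triv.mono {S S' : Finset (Tri G)} {c : Tri G → P} (h : Triv S c) (hS : S' ⊆ S)
    (hst : ∀ w ∈ S', ∀ e : P, e • w ∈ S') : Triv S' c :=
  ⟨hst, fun w hw e => h.map w (hS hw) e⟩

/-- `rm` by an element commuting with `x`, fixing `s` and commuting with `T`. -/
theorem rm_mem_F1 {R : Subgroup G} {ε : ℤ} {w : Tri G} (hw : w ∈ F1 p g R ε) {a : G}
    (ha : a * w.x = w.x * a) (has : a ∈ stab w.s) (haT : ∀ t ∈ T R w, a * t = t * a) :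
    rm a w ∈ F1 p g R ε := by
  rw [mem_F1] at hw ⊢
  exact ⟨hw.1.rm ha has, by rw [L_rm haT]; exact hw.2.1, hw.2.2⟩

theorem pow_comm_T {R : Subgroup G} {w : Tri G} (q : ℕ) :
    ∀ t ∈ T R w, w.x ^ q * t = t * w.x ^ q := by
  intro t ht
  have h1 : Commute w.x t := (mem_T.1 ht).2.1.symm
  exact (h1.pow_left q)

/-- The permutation `s1^[q]`. -/
theorem sq_eq (q : ℕ) (w : Tri G) : s1^[q] w = rm (w.x ^ q) w := s1_iterate w q

theorem L_sq {R : Subgroup G} (q : ℕ) (w : Tri G) : L R (s1^[q] w) = L R w := by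
  rw [sq_eq, L_rm (pow_comm_T q)]

theorem eqv_filter {S S' : Finset (Tri G)} {f : Tri G → Tri G} (hf : Eqv P S S' f)
    (pr : Tri G → Prop) [DecidablePred pr] (hpr : ∀ w ∈ S, pr (f w) ↔ pr w) :
    Eqv P (S.filter pr) (S'.filter pr) f where
  maps w hw := by
    rw [Finset.mem_filter] at hw ⊢
    exact ⟨hf.maps w hw.1, (hpr w hw.1).2 hw.2⟩
  comm w hw e := hf.comm w (Finset.mem_filter.1 hw).1 e
  inj w hw w' hw' h := hf.inj w (Finset.mem_filter.1 hw).1 w' (Finset.mem_filter.1 hw').1 h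
  surj w' hw' := by
    rw [Finset.mem_filter] at hw'
    obtain ⟨w, hw, rfl⟩ := hf.surj w' hw'.1
    exact ⟨w, Finset.mem_filter.2 ⟨hw, (hpr w hw).1 hw'.2⟩, rfl⟩

include hact hg in
theorem eqv_sq_F1 (ε : ℤ) (q : ℕ) :
    Eqv P (F1 p g ι.range ε) (F1 p g ι.range ε) (s1^[q]) :=
  eqv_filter ((eqv_s1 (p := p) (g := g) hact hg ε).iterate q) (fun w => L ι.range w = ⊥)
    fun w _ => by rw [L_sq]

include hact hg in
theorem eqv_sq_F2 (ε : ℤ) (q : ℕ) :
    Eqv P (F2 p g ι.range ε) (F2 p g ι.range ε) (s1^[q]) :=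
  eqv_filter ((eqv_s1 (p := p) (g := g) hact hg ε).iterate q) (fun w => ¬ L ι.range w = ⊥)
    fun w _ => by rw [L_sq]

include hact hg in
theorem F1_stable (ε : ℤ) : ∀ w ∈ F1 p g ι.range ε, ∀ e : P, e • w ∈ F1 p g ι.range ε := by
  intro w hw e
  rw [F1, Finset.mem_filter] at hw ⊢
  exact ⟨FP_stable hact hg hw.1 e, by rw [L_smul' hact]; exact hw.2⟩

include hact hg in
theorem F2_stable (ε : ℤ) : ∀ w ∈ F2 p g ι.range ε, ∀ e : P, e • w ∈ F2 p g ι.range ε := by
  intro w hw e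
  rw [F2, Finset.mem_filter] at hw ⊢
  exact ⟨FP_stable hact hg hw.1 e, by rw [L_smul' hact]; exact hw.2⟩

/-- Toggling by `L` exchanges the two parts of `F2`. -/
noncomputable def tgL (R : Subgroup G) (w : Tri G) : Tri G := tg (L R w) w

include hact in
theorem eqv_tgL (hP : IsPGroup p ι.range) (ε : ℤ) :
    Eqv P (F2 p g ι.range ε) (F2 p g ι.range (-ε)) (tgL ι.range) where
  maps w hw := by
    rw [mem_F2] at hw ⊢
    refine ⟨hw.1.tg hP (L_le_T _ _) hw.2.2.2 (mem_normalizer_L _ _), ?_, ?_, ?_⟩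
    · rw [tgL, U_tg hP (range_comm ι) hw.1.chain (L_le_T _ _) hw.2.2.2]; exact hw.2.1
    · simp only [tgL, tg]
      rw [neg_one_pow_card_tog, hw.2.2.1]
    · rw [tgL, L_tg hP (range_comm ι) hw.1.chain (L_le_T _ _) hw.2.2.2]; exact hw.2.2.2
  comm w hw e := by
    rw [tgL, tgL, L_smul' hact, hact, hact]
    exact tg_smul (range_comm ι) ⟨e, rfl⟩ (fun _ hv => (mem_T.1 (L_le_T _ _ hv)).1) w
  inj w hw w' hw' h := by
    rw [mem_F2] at hw hw'
    have h1 := L_tg hP (range_comm ι) hw.1.chain (L_le_T _ _) hw.2.2.2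
    have h2 := L_tg hP (range_comm ι) hw'.1.chain (L_le_T _ _) hw'.2.2.2
    have h3 : L ι.range w = L ι.range w' := by
      rw [← h1, ← h2]
      exact congrArg _ h
    have h4 := congrArg (tg (L ι.range w)) h
    rw [tgL, tgL, tg_tg, ← h3, tg_tg] at h4
    exact h4
  surj w' hw' := by
    rw [mem_F2] at hw'
    have h1 := L_tg hP (range_comm ι) hw'.1.chain (L_le_T _ _) hw'.2.2.2
    refine ⟨tgL ι.range w', ?_, ?_⟩
    · rw [mem_F2]
      refine ⟨hw'.1.tg hP (L_le_T _ _) hw'.2.2.2 (mem_normalizer_L _ _), ?_, ?_, ?_⟩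
      · rw [tgL, U_tg hP (range_comm ι) hw'.1.chain (L_le_T _ _) hw'.2.2.2]; exact hw'.2.1
      · simp only [tgL, tg]
        rw [neg_one_pow_card_tog, hw'.2.2.1, neg_neg]
      · rw [tgL, h1]; exact hw'.2.2.2
    · rw [tgL, tgL, h1, tg_tg]

include hact hg in
theorem delta_F2 (hP : IsPGroup p ι.range) {c : Tri G → P} (ε : ℤ)
    (hc1 : Triv (F2 p g ι.range ε) c) (hc2 : Triv (F2 p g ι.range (-ε)) c) (q : ℕ) :
    delta c (s1^[q]) (F2 p g ι.range ε) = delta c (s1^[q]) (F2 p g ι.range (-ε)) := by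
  refine delta_iso hc1 hc2 (eqv_sq_F2 hact hg ε q) (eqv_tgL hact hP ε) ?_
  intro w hw
  rw [tgL, L_sq, sq_eq, tgL, sq_eq]
  rfl

/-! ### the part `L = ⊥` -/

/-- The abelian group `T<x^q>`. -/
def AA (R : Subgroup G) (q : ℕ) (w : Tri G) : Subgroup G := T R w ⊔ zpowers (w.x ^ q)

theorem AA_comm {R : Subgroup G} (hc : ∀ a ∈ R, ∀ b ∈ R, a * b = b * a) (q : ℕ) (w : Tri G) :
    ∀ a ∈ AA R q w, ∀ b ∈ AA R q w, a * b = b * a := by
  have h1 : AA R q w ≤ centralizer (T R w : Set G) := by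
    refine sup_le ?_ ?_
    · intro a ha
      rw [mem_centralizer_iff]
      intro b hb
      exact hc b (mem_T.1 hb).1 a (mem_T.1 ha).1
    · rw [zpowers_le, mem_centralizer_iff]
      intro b hb
      exact (pow_comm_T q b hb).symm
  have h2 : AA R q w ≤ centralizer {w.x ^ q} := by
    refine sup_le ?_ ?_
    · intro a ha
      rw [mem_centralizer_singleton_iff]
      exact (pow_comm_T q a ha).symm
    · rw [zpowers_le, mem_centralizer_singleton_iff]
  have h3 : AA R q w ≤ centralizer (AA R q w : Set G) := by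
    rw [le_centralizer_iff]
    refine sup_le ?_ ?_
    · rw [le_centralizer_iff]; exact h1
    · rw [zpowers_le, mem_centralizer_iff]
      intro b hb
      exact mem_centralizer_singleton_iff.1 (h2 hb)
  intro a ha b hb
  exact (mem_centralizer_iff.1 (h3 ha) b hb).symm

theorem AA_x {R : Subgroup G} (q : ℕ) (w : Tri G) : ∀ a ∈ AA R q w, a * w.x = w.x * a := by
  have h2 : AA R q w ≤ centralizer {w.x} := by
    refine sup_le ?_ ?_
    · intro a ha
      rw [mem_centralizer_singleton_iff]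
      exact (mem_T.1 ha).2.1
    · rw [zpowers_le, mem_centralizer_singleton_iff]
      exact (Commute.pow_self w.x q)
  intro a ha
  exact mem_centralizer_singleton_iff.1 (h2 ha)

theorem AA_stab {R : Subgroup G} (q : ℕ) {w : Tri G} (hw : InO p g w) : AA R q w ≤ stab w.s := by
  refine sup_le (fun _ ha => (mem_T.1 ha).2.2) ?_
  rw [zpowers_le]
  exact pow_mem hw.hx q

theorem AA_pGroup {R : Subgroup G} [hp : Fact p.Prime] (hP : IsPGroup p R) (q : ℕ)
    (hq : ∀ x : G, ∃ n : ℕ, (x ^ q) ^ (p ^ n) = 1) (w : Tri G) : IsPGroup p (AA R q w) := by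
  have h1 : IsPGroup p (T R w) := hP.to_le fun _ hv => (mem_T.1 hv).1
  have h2 : IsPGroup p (zpowers (w.x ^ q)) := by
    obtain ⟨n, hn⟩ := hq w.x
    refine IsPGroup.of_card (n := (Nat.card (zpowers (w.x ^ q))).factorization p) ?_
    rw [Nat.card_zpowers]
    have : orderOf (w.x ^ q) ∣ p ^ n := orderOf_dvd_of_pow_eq_one hn
    obtain ⟨k, _, hk⟩ := (Nat.dvd_prime_pow hp.out).1 this
    rw [hk, hp.out.factorization_pow]
    simp
  unfold AA
  refine IsPGroup.to_sup_of_normal_right' h1 h2 ?_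
  intro t ht
  refine mem_normalizer_of_comm fun v hv => ?_
  obtain ⟨k, rfl⟩ := mem_zpowers_iff.1 hv
  have h3 : Commute (w.x ^ q) t := pow_comm_T q t ht
  exact (h3.zpow_left k).symm

/-- `T` is the same for a product and conjugation relation. -/
def Rel (ι : P →* G) (q : ℕ) (w w' : Tri G) : Prop :=
  ∃ e : P, ∃ a ∈ AA ι.range q w, w' = e • rm a w

theorem AA_rm (R : Subgroup G) (q : ℕ) (a : G) (w : Tri G) : AA R q (rm a w) = AA R q w := rfl

include hact in
theorem mem_AA_smul (q : ℕ) (e : P) (w : Tri G) {a : G} (ha : a ∈ AA ι.range q w) :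
    ι e * a * (ι e)⁻¹ ∈ AA ι.range q (e • w) := by
  have h1 : (AA ι.range q w).map (MulAut.conj (ι e)).toMonoidHom ≤ AA ι.range q (e • w) := by
    unfold AA
    rw [Subgroup.map_sup]
    refine sup_le_sup ?_ ?_
    · rintro _ ⟨t, ht, rfl⟩
      rw [T_smul' hact]
      have h2 : (MulAut.conj (ι e)).toMonoidHom t = t := by
        simp only [MulEquiv.toMonoidHom_eq_coe, MonoidHom.coe_coe, MulAut.conj_apply]
        rw [range_comm ι (ι e) ⟨e, rfl⟩ t (mem_T.1 ht).1, mul_inv_cancel_right]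
      rw [h2]; exact ht
    · rw [MonoidHom.map_zpowers]
      rw [hact, smul_x]
      simp [conj_pow]
  exact h1 ⟨a, ha, rfl⟩

include hact in
theorem mem_AA_smul_inv (q : ℕ) (e : P) (w : Tri G) {a : G} (ha : a ∈ AA ι.range q (e • w)) :
    (ι e)⁻¹ * a * ι e ∈ AA ι.range q w := by
  have := mem_AA_smul hact q e⁻¹ (e • w) ha
  rw [inv_smul_smul, map_inv, inv_inv] at this
  exact this

include hact in
theorem rm_smul (e : P) (a : G) (w : Tri G) :
    rm (ι e * a * (ι e)⁻¹) (e • w) = e • rm a w := by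
  rw [hact, hact]
  apply Tri.ext
  · rfl
  · simp only [rm, smul_y]; group
  · rfl

theorem rm_rm (a b : G) (w : Tri G) : rm b (rm a w) = rm (a * b) w := by
  apply Tri.ext
  · rfl
  · simp only [rm]; rw [mul_assoc]
  · rfl

theorem rm_one (w : Tri G) : rm 1 w = w := by
  apply Tri.ext
  · rfl
  · simp only [rm]; rw [mul_one]
  · rfl

include hact in
theorem Rel.symm {q : ℕ} {w w' : Tri G} (h : Rel ι q w w') : Rel ι q w' w := by
  obtain ⟨e, a, ha, rfl⟩ := h
  refine ⟨e⁻¹, ι e * a⁻¹ * (ι e)⁻¹, ?_, ?_⟩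
  · exact mem_AA_smul hact q e (rm a w) (inv_mem ha)
  · rw [rm_smul hact, inv_smul_smul, rm_rm, mul_inv_cancel, rm_one]

include hact in
theorem Rel.trans {q : ℕ} {w w' w'' : Tri G} (h : Rel ι q w w') (h' : Rel ι q w' w'') :
    Rel ι q w w'' := by
  obtain ⟨e, a, ha, rfl⟩ := h
  obtain ⟨e', a', ha', rfl⟩ := h'
  refine ⟨e' * e, a * ((ι e)⁻¹ * a' * ι e), ?_, ?_⟩
  · exact mul_mem ha (mem_AA_smul_inv hact q e (rm a w) ha')
  · have h1 : a' = ι e * ((ι e)⁻¹ * a' * ι e) * (ι e)⁻¹ := by group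
    conv_lhs => rw [h1]
    rw [rm_smul hact, rm_rm, mul_smul]

theorem Rel.refl {q : ℕ} (w : Tri G) : Rel ι q w w :=
  ⟨1, 1, one_mem _, by rw [one_smul, rm_one]⟩

end P179A
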