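import Vale.Agent.P179.H905.MainLem2

/-!
# The main lemma: the classes with `L = ⊥`
-/

set_option linter.unusedSectionVars false

namespace P179A

open Subgroup

open scoped Classical Pointwise

variable {G : Type*} [Group G] [Finite G]

variable {P : Type*} [CommGroup P] [MulAction P (Tri G)] {ι : P →* G}
  (hι : Function.Injective ι) (hact : ∀ (e : P) (w : Tri G), e • w = ι e • w)
  {p : ℕ} {g : G} (hg : ∀ e : P, ι e * g = g * ι e)

/-- The class of a triple. -/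
noncomputable def Cl (p : ℕ) (g : G) (ι : P →* G) (q : ℕ) (ε : ℤ) (w : Tri G) : Finset (Tri G) :=
  (F1 p g ι.range ε).filter (fun w' => Rel ι q w w')

theorem T_le_AA (R : Subgroup G) (q : ℕ) (w : Tri G) : T R w ≤ AA R q w := le_sup_left

include hact hg in
theorem smul_rm_mem_F1 {ε : ℤ} {q : ℕ} {w : Tri G} (hw : w ∈ F1 p g ι.range ε) {a : G}
    (ha : a ∈ AA ι.range q w) (e : P) : e • rm a w ∈ F1 p g ι.range ε :=
  F1_stable hact hg ε _ (rm_mem_F1 hw (AA_x q w a ha) (AA_stab q (mem_F1.1 hw).1 ha)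
    (fun t ht => AA_comm (range_comm ι) q w a ha t (T_le_AA _ _ _ ht))) e

include hact hg in
theorem mem_Cl {ε : ℤ} {q : ℕ} {w w' : Tri G} (hw : w ∈ F1 p g ι.range ε) :
    w' ∈ Cl p g ι q ε w ↔ Rel ι q w w' := by
  rw [Cl, Finset.mem_filter]
  constructor
  · rintro ⟨_, h⟩; exact h
  · intro h
    refine ⟨?_, h⟩
    obtain ⟨e, a, ha, rfl⟩ := h
    exact smul_rm_mem_F1 hact hg hw ha e

include hact hg in
theorem Cl_stable {ε : ℤ} {q : ℕ} {w : Tri G} (hw : w ∈ F1 p g ι.range ε) :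
    ∀ w' ∈ Cl p g ι q ε w, ∀ e : P, e • w' ∈ Cl p g ι q ε w := by
  intro w' hw' e
  rw [mem_Cl hact hg hw] at hw' ⊢
  obtain ⟨e', a, ha, rfl⟩ := hw'
  exact ⟨e * e', a, ha, by rw [mul_smul]⟩

theorem sq_rm (q : ℕ) (a : G) (w : Tri G) : s1^[q] (rm a w) = rm (a * w.x ^ q) w := by
  rw [sq_eq, rm_rm]
  rfl

include hact hg in
theorem eqv_sq_Cl {ε : ℤ} {q : ℕ} {w : Tri G} (hw : w ∈ F1 p g ι.range ε) :
    Eqv P (Cl p g ι q ε w) (Cl p g ι q ε w) (s1^[q]) := by
  have hF := eqv_sq_F1 (p := p) (g := g) hact hg ε q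
  have hx : w.x ^ q ∈ AA ι.range q w := le_sup_right (a := T ι.range w) (mem_zpowers _)
  have hsub : ∀ w' ∈ Cl p g ι q ε w, w' ∈ F1 p g ι.range ε :=
    fun w' h => (Finset.mem_filter.1 h).1
  refine ⟨?_, fun w' hw' e => hF.comm w' (hsub w' hw') e,
    fun w' hw' w'' hw'' h => hF.inj w' (hsub w' hw') w'' (hsub w'' hw'') h, ?_⟩
  · intro w' hw'
    have h0 := hsub w' hw'
    rw [mem_Cl hact hg hw] at hw' ⊢
    obtain ⟨e, a, ha, rfl⟩ := hw'
    refine ⟨e, a * w.x ^ q, mul_mem ha hx, ?_⟩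
    have h1 : rm a w ∈ F1 p g ι.range ε := by
      have := smul_rm_mem_F1 hact hg hw ha 1
      rwa [one_smul] at this
    rw [hF.comm _ h1, sq_rm]
  · intro w' hw'
    rw [mem_Cl hact hg hw] at hw'
    obtain ⟨e, a, ha, rfl⟩ := hw'
    have h2 : a * (w.x ^ q)⁻¹ ∈ AA ι.range q w := mul_mem ha (inv_mem hx)
    refine ⟨e • rm (a * (w.x ^ q)⁻¹) w, ?_, ?_⟩
    · rw [mem_Cl hact hg hw]
      exact ⟨e, _, h2, rfl⟩
    · have h1 : rm (a * (w.x ^ q)⁻¹) w ∈ F1 p g ι.range ε := by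
        have := smul_rm_mem_F1 hact hg hw h2 1
        rwa [one_smul] at this
      rw [hF.comm _ h1, sq_rm, inv_mul_cancel_right]

/-- `L = ⊥` in terms of conjugation by `y⁻¹`. -/
theorem no_of_L {R : Subgroup G} {w : Tri G} (hL : L R w = ⊥) {V : Subgroup G}
    (hV : V ≤ T R w) (h : ∀ t ∈ V, w.y⁻¹ * t * w.y ∈ V) : V = ⊥ := by
  rw [← le_bot_iff, ← hL]
  refine le_L hV ?_
  have h1 : w.y⁻¹ ∈ normalizer (V : Set G) := by
    refine mem_normalizer_fintype fun n hn => ?_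
    rw [inv_inv]; exact h n hn
  have := inv_mem h1
  rwa [inv_inv] at this

include hact in
theorem eq_smul_rm {w : Tri G} {a a' : G} {e : P} (hch : IsPChain p w.s)
    (h : rm a w = e • rm a' w) : ι e ∈ T ι.range w ∧ w.y * a = ι e * (w.y * a') * (ι e)⁻¹ := by
  rw [hact] at h
  have h1 := congrArg Tri.x h
  have h2 := congrArg Tri.y h
  have h3 := congrArg Tri.s h
  simp only [rm, smul_x, smul_y, smul_s] at h1 h2 h3
  refine ⟨mem_T.2 ⟨⟨e, rfl⟩, ?_, mem_stab_of_conj_smul_eq hch.2 h3.symm⟩, h2⟩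
  rw [eq_mul_inv_iff_mul_eq] at h1; exact h1.symm

include hact in
theorem smul_rm_of {w : Tri G} {a a' : G} {e : P} (he : ι e ∈ T ι.range w)
    (h : w.y * a = ι e * (w.y * a') * (ι e)⁻¹) : rm a w = e • rm a' w := by
  rw [hact]
  have he' := mem_T.1 he
  apply Tri.ext
  · simp only [rm, smul_x]
    rw [he'.2.1, mul_inv_cancel_right]
  · simp only [rm, smul_y]; exact h
  · simp only [rm, smul_s]; exact (conj_smul_eq_self_of_mem he'.2.2).symm

include hι hact hg in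
/-- The transfer of `s1^q` on a class with `L = ⊥` is trivial. -/
theorem class_delta [hp : Fact p.Prime] (hP : IsPGroup p ι.range) {q : ℕ}
    (hq : ∀ x : G, ∃ n : ℕ, (x ^ q) ^ (p ^ n) = 1) {ε : ℤ} {c : Tri G → P}
    (hc : Triv (F1 p g ι.range ε) c) {w : Tri G} (hw : w ∈ F1 p g ι.range ε) :
    delta c (s1^[q]) (Cl p g ι q ε w) = 1 := by
  have hfinP : Finite P := Finite.of_injective ι hι
  set R := ι.range with hR
  set A := AA R q w with hA
  have hTA : T R w ≤ A := T_le_AA R q w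
  have hAc := AA_comm (range_comm ι) q w
  have hxA : w.x ^ q ∈ A := le_sup_right (a := T ι.range w) (mem_zpowers _)
  let _ : CommGroup A := { (inferInstance : Group A) with
    mul_comm := fun a b => Subtype.ext (hAc a.1 a.2 b.1 b.2) }
  have hcC : Triv (Cl p g ι q ε w) c :=
    hc.mono (Finset.filter_subset _ _) (Cl_stable hact hg hw)
  have hsC := eqv_sq_Cl (p := p) (g := g) (q := q) hact hg hw
  have hch := (mem_F1.1 hw).1.chain
  let φ : A → Tri G := fun a => rm a.1 w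
  have hφ : ∀ a, φ a ∈ Cl p g ι q ε w := by
    intro a
    rw [mem_Cl hact hg hw]
    exact ⟨1, a.1, a.2, by rw [one_smul]⟩
  have hsurj : ∀ w' ∈ Cl p g ι q ε w, ∃ (e : P) (a : A), w' = e • φ a := by
    intro w' hw'
    rw [mem_Cl hact hg hw] at hw'
    obtain ⟨e, a, ha, rfl⟩ := hw'
    exact ⟨e, ⟨a, ha⟩, rfl⟩
  have hRel : ∀ (a a' b : A) (e : P), φ a = e • φ a' → φ (a * b) = e • φ (a' * b) := by
    intro a a' b e h
    obtain ⟨h1, _⟩ := eq_smul_rm hact hch h
    have h3 : ι e * b.1 * (ι e)⁻¹ = b.1 := by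
      rw [hAc _ (hTA h1) _ b.2, mul_inv_cancel_right]
    have h4 : φ (a * b) = rm b.1 (φ a) := (rm_rm a.1 b.1 w).symm
    have h5 : φ (a' * b) = rm b.1 (φ a') := (rm_rm a'.1 b.1 w).symm
    rw [h4, h5, h, ← rm_smul hact e b.1, h3]
  let ξ : A := ⟨w.x ^ q, hxA⟩
  have hξ : ∀ a, s1^[q] (φ a) = φ (a * ξ) := fun a => sq_rm q a.1 w
  have key := delta_transitive hcC hsC φ hφ hsurj hRel ξ hξ
  have hφ1 : φ 1 = w := rm_one w
  rw [hφ1] at key
  -- the number of orbits
  have hcard := card_transitive hcC φ hφ hsurj hRel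
  have hbij : Nat.card {t : P × A // φ t.2 = t.1 • φ 1}
      = Nat.card (A ⊓ (T R w).map (MulAut.conj w.y⁻¹).toMonoidHom : Subgroup G) := by
    refine Nat.card_congr ?_
    have hmem : ∀ z : G, z ∈ (A ⊓ (T R w).map (MulAut.conj w.y⁻¹).toMonoidHom : Subgroup G)
        ↔ z ∈ A ∧ w.y * z * w.y⁻¹ ∈ T R w := by
      intro z
      rw [mem_inf, mem_map]
      refine and_congr_right fun _ => ?_
      constructor
      · rintro ⟨t, ht, rfl⟩
        simpa [mul_assoc] using ht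
      · intro h
        exact ⟨_, h, by simp [mul_assoc]⟩
    refine Equiv.ofBijective (fun t => ⟨t.1.2.1 * ι t.1.1, ?_⟩) ⟨?_, ?_⟩
    · obtain ⟨⟨e, a⟩, h⟩ := t
      have h' : rm a.1 w = e • rm (1 : G) w := h
      obtain ⟨h1, h2⟩ := eq_smul_rm hact hch h'
      rw [hmem]
      refine ⟨mul_mem a.2 (hTA h1), ?_⟩
      simp only
      have : w.y * (a.1 * ι e) * w.y⁻¹ = ι e := by
        rw [← mul_assoc, h2]; group
      rw [this]; exact h1
    · rintro ⟨⟨e, a⟩, h⟩ ⟨⟨e', a'⟩, h'⟩ hh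
      have hh' : a.1 * ι e = a'.1 * ι e' := congrArg Subtype.val hh
      have k : rm a.1 w = e • rm (1 : G) w := h
      have k' : rm a'.1 w = e' • rm (1 : G) w := h'
      obtain ⟨h1, h2⟩ := eq_smul_rm hact hch k
      obtain ⟨h1', h2'⟩ := eq_smul_rm hact hch k'
      have h3 : w.y * (a.1 * ι e) = ι e * w.y := by
        rw [← mul_assoc, h2]; group
      have h3' : w.y * (a'.1 * ι e') = ι e' * w.y := by
        rw [← mul_assoc, h2']; group
      have h4 : ι e = ι e' := by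
        rw [hh', h3'] at h3
        exact (mul_right_cancel h3).symm
      have h5 : e = e' := hι h4
      have h6 : a = a' := by
        rw [h4] at hh'
        exact Subtype.ext (mul_right_cancel hh')
      subst h5; subst h6; rfl
    · rintro ⟨z, hz⟩
      rw [hmem] at hz
      obtain ⟨e, he⟩ : ∃ e : P, ι e = w.y * z * w.y⁻¹ := (mem_T.1 hz.2).1
      have heT : ι e ∈ T R w := by rw [he]; exact hz.2
      refine ⟨⟨⟨e, ⟨z * (ι e)⁻¹, mul_mem hz.1 (inv_mem (hTA heT))⟩⟩, ?_⟩, ?_⟩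
      · change rm (z * (ι e)⁻¹) w = e • rm (1 : G) w
        refine smul_rm_of hact heT ?_
        rw [mul_one]
        rw [← mul_assoc]
        congr 1
        rw [he]; group
      · apply Subtype.ext
        simp
  have hdiv : orderOf (w.x ^ q) ∣ (reps c (Cl p g ι q ε w)).card := by
    have h1 := P179H143.lemQ p (T R w) A hTA hAc (AA_pGroup hP q hq w) w.y (w.x ^ q) hxA
      (fun V hV h => no_of_L (mem_F1.1 hw).2.1 hV h)
    rw [hcard, hbij, mul_comm _ (Nat.card _)] at h1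
    exact Nat.dvd_of_mul_dvd_mul_left Nat.card_pos h1
  have hξ1 : ξ ^ (reps c (Cl p g ι q ε w)).card = 1 := by
    rw [← orderOf_dvd_iff_pow_eq_one]
    have : orderOf ξ = orderOf (w.x ^ q) := orderOf_mk _ _
    rw [this]; exact hdiv
  rw [hξ1, hφ1] at key
  exact hc.free hw key.symm

end P179A
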