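import Vale.Agent.P179.H905.N4

/-!
# (N5) sums over `p`-sections
-/

namespace P179P

open P179H524 P179C P179A Finset Subgroup

open P179X (IrrB Srat SameSec pp X4 IsCompl aval autOrd)

open scoped Classical

section Compl

variable {p : ℕ} [hp : Fact p.Prime] {G : Type*} [Group G] [Finite G]

theorem IsCompl.mem_iff {w : G} {K : Subgroup G} (h : IsCompl p w K) (s : G) :
    s ∈ K ↔ s ∈ centralizer ({w} : Set G) ∧ ¬ p ∣ orderOf s := by
  constructor
  · intro hs
    refine ⟨h.le hs, fun hd => h.reg (hd.trans ?_)⟩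
    have := orderOf_dvd_natCard (⟨s, hs⟩ : K)
    rwa [← Subgroup.orderOf_coe] at this
  · rintro ⟨hs, hd⟩
    let C := centralizer ({w} : Set G)
    let K' : Subgroup C := K.subgroupOf C
    have hn : K'.Normal := ⟨fun x hx c => by
      rw [mem_subgroupOf] at hx ⊢
      exact h.normal c.1 c.2 x.1 hx⟩
    have hcard : Nat.card K' = Nat.card K :=
      Nat.card_congr (subgroupOfEquivOfLe h.le).toEquiv
    obtain ⟨n, hcn⟩ := h.card
    have hq : Nat.card (C ⧸ K') = p ^ n := by
      have h1 := Subgroup.card_eq_card_quotient_mul_card_subgroup K'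
      rw [hcard] at h1
      have h2 : Nat.card (centralizer ({w} : Set G)) = Nat.card C := rfl
      rw [h2, h1, mul_comm] at hcn
      exact Nat.eq_of_mul_eq_mul_left Nat.card_pos hcn
    let x : C := ⟨s, hs⟩
    have h3 : orderOf (QuotientGroup.mk' K' x) ∣ orderOf x := orderOf_map_dvd _ _
    have h4 : orderOf (QuotientGroup.mk' K' x) ∣ p ^ n := by
      rw [← hq]; exact orderOf_dvd_natCard _
    have h5 : orderOf x = orderOf s := by rw [← Subgroup.orderOf_coe]
    have h6 : orderOf (QuotientGroup.mk' K' x) = 1 := by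
      obtain ⟨j, -, hj⟩ := (Nat.dvd_prime_pow hp.out).1 h4
      rcases Nat.eq_zero_or_pos j with rfl | hj0
      · rw [hj, pow_zero]
      · exfalso
        apply hd
        rw [← h5]
        exact (dvd_trans (by rw [hj]; exact dvd_pow_self p hj0.ne') h3)
    rw [orderOf_eq_one_iff] at h6
    have h7 : x ∈ K' := (QuotientGroup.eq_one_iff x).1 h6
    exact mem_subgroupOf.1 h7

omit hp [Finite G] in
theorem mem_cent_iff {w s : G} : s ∈ centralizer ({w} : Set G) ↔ w * s = s * w := by
  rw [mem_centralizer_singleton_iff]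
  exact eq_comm

end Compl

section Sec

variable {p : ℕ} [hp : Fact p.Prime] {G : Type*} [Group G] [Fintype G]

/-- the sum over the `p`-section of `w` -/
noncomputable def secSum (p : ℕ) {G : Type*} [Group G] [Fintype G] (w : G) (F : G → ℂ) : ℂ :=
  ∑ y : G, if IsConj w (pp p y) then F y else 0

theorem card_pairs {w : G} (hw : ∃ n : ℕ, w ^ p ^ n = 1) {K : Subgroup G}
    (hK : IsCompl p w K) (y : G) :
    #{x : G × K | x.1 * (w * (x.2 : G)) * x.1⁻¹ = y} =
      if IsConj w (pp p y) then Nat.card (centralizer {w} : Subgroup G) else 0 := by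
  rw [← card_conj w (pp p y)]
  refine Finset.card_bij (fun x _ => x.1) ?_ ?_ ?_
  · rintro ⟨g, s⟩ hx
    rw [mem_filter] at hx ⊢
    refine ⟨mem_univ _, ?_⟩
    obtain ⟨h1, h2⟩ := (IsCompl.mem_iff hK s.1).1 s.2
    dsimp only at hx ⊢
    rw [← hx.2, pp_conj, pp_eq (mem_cent_iff.1 h1) hw h2]
  · rintro ⟨g, s⟩ hx ⟨g', s'⟩ hx' heq
    dsimp only at heq
    subst heq
    rw [mem_filter] at hx hx'
    have h1 : g * (w * (s : G)) * g⁻¹ = g * (w * (s' : G)) * g⁻¹ := by rw [hx.2, hx'.2]
    have h2 : (s : G) = s' := by simpa using h1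
    rw [Subtype.ext h2]
  · intro g hg
    rw [mem_filter] at hg
    have hcomm := pp_comm (p := p) y
    have h1 : w = g⁻¹ * pp p y * g := by rw [← hg.2]; group
    have hs : g⁻¹ * pr p y * g ∈ K := by
      rw [IsCompl.mem_iff hK, mem_cent_iff]
      refine ⟨?_, ?_⟩
      · rw [h1]
        calc g⁻¹ * pp p y * g * (g⁻¹ * pr p y * g) = g⁻¹ * (pp p y * pr p y) * g := by group
          _ = g⁻¹ * (pr p y * pp p y) * g := by rw [hcomm]
          _ = _ := by group
      · have := MulEquiv.orderOf_eq (MulAut.conj g⁻¹) (pr p y)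
        rw [MulAut.conj_apply, inv_inv] at this
        rw [this]
        exact pr_regular' y
    refine ⟨(g, ⟨_, hs⟩), ?_, rfl⟩
    rw [mem_filter]
    refine ⟨mem_univ _, ?_⟩
    dsimp only
    rw [h1]
    calc g * (g⁻¹ * pp p y * g * (g⁻¹ * pr p y * g)) * g⁻¹ = pp p y * pr p y := by group
      _ = y := pp_mul_pr y

theorem secSum_eq {w : G} (hw : ∃ n : ℕ, w ^ p ^ n = 1) {K : Subgroup G}
    (hK : IsCompl p w K) {F : G → ℂ} (hF : IsCF F) :
    (Nat.card (centralizer ({w} : Set G)) : ℂ) * secSum p w F =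
      Fintype.card G * ∑ s : K, F (w * (s : G)) := by
  have h1 : ∑ x : G × K, F (x.1 * (w * (x.2 : G)) * x.1⁻¹) =
      Fintype.card G * ∑ s : K, F (w * (s : G)) := by
    rw [Fintype.sum_prod_type]
    simp only [hF _ _, Finset.sum_const, Finset.card_univ, nsmul_eq_mul]
  rw [← h1, ← Finset.sum_fiberwise (s := univ) (g := fun x : G × K => x.1 * (w * (x.2 : G)) * x.1⁻¹)
    (f := fun x => F (x.1 * (w * (x.2 : G)) * x.1⁻¹)), secSum, Finset.mul_sum]
  refine Finset.sum_congr rfl fun y _ => ?_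
  rw [Finset.sum_congr rfl (g := fun _ => F y) (fun x hx => by rw [(mem_filter.1 hx).2]),
    sum_const, nsmul_eq_mul, card_pairs hw hK y]
  split_ifs <;> simp

end Sec

end P179P
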