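import Vale.Agent.P179.H905.N5a

/-!
# (N5) abelian Sylow subgroups: regular elements, fusion, complements
-/

namespace P179P

open P179H524 P179C P179A Finset Subgroup

open P179X (IrrB Srat SameSec pp X4 IsCompl aval autOrd)

open scoped Classical

section

variable {p : ℕ} [hp : Fact p.Prime] {G : Type*} [Group G] [Finite G]

/-- The regular elements of `P`: those whose centraliser in `N_G(P)` is `C_G(P)`. -/
def IsRegEl {G : Type*} [Group G] (P : Subgroup G) (w : G) : Prop :=
  w ∈ P ∧ ∀ n ∈ normalizer (P : Set G), n * w = w * n → n ∈ centralizer (P : Set G)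

omit hp [Finite G] in
theorem sylow_le_cent {P : Sylow p G} (hab : ∀ a ∈ P, ∀ b ∈ P, a * b = b * a) {w : G}
    (hw : w ∈ P) : (P : Subgroup G) ≤ centralizer ({w} : Set G) := by
  intro x hx
  rw [mem_cent_iff]
  exact hab w hw x hx

/-- Burnside's transfer theorem -/
theorem exists_compl {P : Sylow p G} (hab : ∀ a ∈ P, ∀ b ∈ P, a * b = b * a) {w : G}
    (hw : IsRegEl (P : Subgroup G) w) : ∃ K : Subgroup G, IsCompl p w K := by
  let H := centralizer ({w} : Set G)
  have hPH : (P : Subgroup G) ≤ H := sylow_le_cent hab hw.1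
  let PH : Sylow p H := P.subtype hPH
  have hmem : ∀ x : H, x ∈ PH ↔ (x : G) ∈ P := fun x => Iff.rfl
  have hN : normalizer (PH : Set H) ≤ centralizer (PH : Set H) := by
    intro n hn
    have h1 : (n : G) ∈ normalizer ((P : Subgroup G) : Set G) := by
      have hn : n ∈ normalizer ((PH : Subgroup H) : Set H) := hn
      rw [mem_normalizer_iff] at hn ⊢
      intro x
      constructor
      · intro hx
        have := (hn ⟨x, hPH hx⟩).1 ((hmem _).2 hx)
        exact (hmem _).1 this
      · intro hx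
        have h2 : (n : G)⁻¹ * ((n : G) * x * (n : G)⁻¹) * n ∈ H := by
          exact mul_mem (mul_mem (inv_mem n.2) (hPH hx)) n.2
        have h3 : (n : G)⁻¹ * ((n : G) * x * (n : G)⁻¹) * n = x := by group
        rw [h3] at h2
        exact (hmem _).1 ((hn ⟨x, h2⟩).2 ((hmem _).2 hx))
    have h2 : (n : G) ∈ centralizer (P : Set G) := hw.2 _ h1 (mem_cent_iff.1 n.2).symm
    rw [mem_centralizer_iff] at h2 ⊢
    intro x hx
    exact Subtype.ext (h2 x.1 ((hmem x).1 hx))
  let KH := (MonoidHom.transferSylow PH hN).ker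
  have hc := MonoidHom.ker_transferSylow_isComplement' PH hN
  have hcard : Nat.card (KH.map H.subtype) = Nat.card KH :=
    Nat.card_congr (KH.equivMapOfInjective H.subtype H.subtype_injective).toEquiv.symm
  refine ⟨KH.map H.subtype, ?_, ?_, ?_, ?_⟩
  · exact map_subtype_le _
  · rintro c hcm s hs
    obtain ⟨s', hs', rfl⟩ := mem_map.1 hs
    refine mem_map.2 ⟨⟨c, hcm⟩ * s' * (⟨c, hcm⟩ : H)⁻¹, ?_, rfl⟩
    exact (MonoidHom.normal_ker _).conj_mem s' hs' _
  · rw [hcard]
    exact MonoidHom.not_dvd_card_ker_transferSylow PH hN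
  · obtain ⟨n, hn⟩ := IsPGroup.iff_card.1 PH.2
    exact ⟨n, by rw [hcard, ← hn]; exact hc.card_mul_card.symm⟩

/-- the order of the centraliser of `w ∈ P` -/
theorem card_cent {P : Sylow p G} (hab : ∀ a ∈ P, ∀ b ∈ P, a * b = b * a) {w : G}
    (hw : w ∈ P) {K : Subgroup G} (hK : IsCompl p w K) :
    Nat.card (centralizer ({w} : Set G)) = Nat.card K * Nat.card P := by
  obtain ⟨n, hn⟩ := hK.card
  obtain ⟨a, ha⟩ := IsPGroup.iff_card.1 P.2
  have h1 : Nat.card P ∣ Nat.card (centralizer ({w} : Set G)) :=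
    card_dvd_of_le (sylow_le_cent hab hw)
  have h2 : a ≤ n := by
    have ha' : Nat.card P = p ^ a := ha
    rw [hn, ha'] at h1
    have h3 : p ^ a ∣ p ^ n := by
      refine Nat.Coprime.dvd_of_dvd_mul_left ?_ h1
      exact Nat.Coprime.pow_left _ ((Nat.Prime.coprime_iff_not_dvd hp.out).2 hK.reg)
    exact (Nat.pow_dvd_pow_iff_le_right hp.out.one_lt).1 h3
  have h4 : n ≤ a := by
    have h5 : p ^ n ∣ Nat.card G :=
      (Dvd.intro_left _ hn.symm).trans (card_subgroup_dvd_card _)
    have h6 : Nat.card P = p ^ (Nat.card G).factorization p := P.card_eq_multiplicity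
    have h7 : a = (Nat.card G).factorization p := by
      have ha' : Nat.card P = p ^ a := ha
      rw [ha'] at h6
      exact Nat.pow_right_injective hp.out.two_le h6
    rw [h7]
    exact (hp.out.pow_dvd_iff_le_factorization Nat.card_pos.ne').1 h5
  have h8 : n = a := le_antisymm h4 h2
  have ha' : Nat.card P = p ^ a := ha
  rw [hn, ha', h8]

/-- fusion in abelian Sylow subgroups: at most `|N_G(P) : C_G(P)|` elements of `P` in a class. -/
theorem card_fusion (P : Sylow p G) (hab : ∀ a ∈ P, ∀ b ∈ P, a * b = b * a) (v : G) :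
    Nat.card {w : G // w ∈ P ∧ IsConj w v} ≤ autOrd (P : Subgroup G) := by
  by_cases hne : Nonempty {w : G // w ∈ P ∧ IsConj w v}
  swap
  · rw [not_nonempty_iff] at hne
    rw [Nat.card_of_isEmpty]
    exact Nat.zero_le _
  obtain ⟨w0, hw0, hc0⟩ := hne
  have : IsMulCommutative (P : Subgroup G) := ⟨⟨fun a b => Subtype.ext (hab a a.2 b b.2)⟩⟩
  let N := normalizer ((P : Subgroup G) : Set G)
  let C' : Subgroup N := (centralizer ((P : Subgroup G) : Set G)).subgroupOf N
  have hC : ∀ c : G, c ∈ centralizer ((P : Subgroup G) : Set G) → c * w0 = w0 * c := by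
    intro c hc
    exact ((mem_centralizer_iff.1 hc) w0 hw0).symm
  have hf : ∀ n : N, (n : G) * w0 * (n : G)⁻¹ ∈ P ∧ IsConj ((n : G) * w0 * (n : G)⁻¹) v := by
    intro n
    refine ⟨((mem_normalizer_iff.1 n.2) w0).1 hw0, ?_⟩
    exact (isConj_iff.2 ⟨(n : G)⁻¹, by group⟩).trans hc0
  let f : N ⧸ C' → {w : G // w ∈ P ∧ IsConj w v} :=
    Quotient.lift (fun n : N => ⟨(n : G) * w0 * (n : G)⁻¹, hf n⟩) (by
      intro a b hab'
      have h1 : a⁻¹ * b ∈ C' := QuotientGroup.leftRel_apply.1 hab'
      rw [mem_subgroupOf] at h1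
      have h2 := hC _ h1
      apply Subtype.ext
      change (a : G) * w0 * (a : G)⁻¹ = (b : G) * w0 * (b : G)⁻¹
      have h3 : ((a⁻¹ * b : N) : G) = (a : G)⁻¹ * b := rfl
      rw [h3] at h2
      have h4 : (b : G) * w0 * (b : G)⁻¹ = a * ((a : G)⁻¹ * b * w0) * (b : G)⁻¹ := by group
      rw [h4, h2]; group)
  have hsurj : Function.Surjective f := by
    rintro ⟨w, hw, hcw⟩
    obtain ⟨g, hg⟩ := isConj_iff.1 (hc0.trans hcw.symm)
    obtain ⟨n, hn, hn2⟩ := P.conj_eq_normalizer_conj_of_mem w0 g⁻¹ hw0 (by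
      rw [inv_inv, hg]; exact hw)
    refine ⟨QuotientGroup.mk (⟨n⁻¹, inv_mem hn⟩ : N), Subtype.ext ?_⟩
    change (n⁻¹ : G) * w0 * (n⁻¹ : G)⁻¹ = w
    rw [inv_inv, ← hn2, inv_inv, hg]
  exact Nat.card_le_card_of_surjective f hsurj

/-- the number of regular elements -/
theorem card_regEl (P : Sylow p G) :
    Nat.card P * (p + 1 - autOrd (P : Subgroup G)) ≤
      p * Nat.card {w : G // IsRegEl (P : Subgroup G) w} := by
  have := Fintype.ofFinite G
  let N := normalizer ((P : Subgroup G) : Set G)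
  let C' : Subgroup N := (centralizer ((P : Subgroup G) : Set G)).subgroupOf N
  have := Fintype.ofFinite (N ⧸ C')
  let reg : Finset G := univ.filter fun w => IsRegEl (P : Subgroup G) w
  let all : Finset G := univ.filter fun w => w ∈ P
  let bad : Finset G := univ.filter fun w => w ∈ P ∧ ¬ IsRegEl (P : Subgroup G) w
  let F : N ⧸ C' → Finset G := fun c =>
    univ.filter fun w => w ∈ (P : Subgroup G) ⊓ centralizer ({((c.out : N) : G)} : Set G)
  have hsplit : all.card = reg.card + bad.card := by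
    rw [← Finset.card_filter_add_card_filter_not (s := all)
      (p := fun w => IsRegEl (P : Subgroup G) w)]
    congr 1
    · congr 1
      ext w
      simp only [all, reg, mem_filter, mem_univ, true_and]
      exact ⟨fun h => h.2, fun h => ⟨h.1, h⟩⟩
    · congr 1
      ext w
      simp only [all, bad, mem_filter, mem_univ, true_and]
  have hbad : bad ⊆ (univ.erase (1 : N ⧸ C')).biUnion F := by
    intro w hw
    simp only [bad, mem_filter, mem_univ, true_and] at hw
    obtain ⟨hwP, hw2⟩ := hw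
    have h1 : ∃ n ∈ N, n * w = w * n ∧ n ∉ centralizer ((P : Subgroup G) : Set G) := by
      by_contra hcon
      push Not at hcon
      exact hw2 ⟨hwP, hcon⟩
    obtain ⟨n, hn, hnw, hnc⟩ := h1
    rw [mem_biUnion]
    refine ⟨QuotientGroup.mk (⟨n, hn⟩ : N), ?_, ?_⟩
    · rw [mem_erase]
      refine ⟨fun h => hnc ?_, mem_univ _⟩
      have h2 := (QuotientGroup.eq_one_iff (⟨n, hn⟩ : N)).1 h
      exact mem_subgroupOf.1 h2
    · simp only [F, mem_filter, mem_univ, true_and]
      refine mem_inf.2 ⟨hwP, ?_⟩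
      rw [mem_cent_iff]
      obtain ⟨z, hz⟩ := QuotientGroup.mk_out_eq_mul C' (⟨n, hn⟩ : N)
      rw [hz]
      have hz2 := mem_subgroupOf.1 z.2
      have hz3 := (mem_centralizer_iff.1 hz2) w hwP
      change n * ((z : N) : G) * w = w * (n * ((z : N) : G))
      rw [mul_assoc, ← hz3, ← mul_assoc, hnw, mul_assoc]
  have hF : ∀ c ∈ univ.erase (1 : N ⧸ C'), p * (F c).card ≤ Nat.card P := by
    intro c hc
    rw [mem_erase] at hc
    let n : N := c.out
    have hn : (n : G) ∉ centralizer ((P : Subgroup G) : Set G) := by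
      intro h
      apply hc.1
      have h2 : n ∈ C' := mem_subgroupOf.2 h
      rw [← QuotientGroup.out_eq' c]
      exact (QuotientGroup.eq_one_iff _).2 h2
    let Q : Subgroup G := (P : Subgroup G) ⊓ centralizer ({(n : G)} : Set G)
    have hcard : (F c).card = Nat.card Q := by
      rw [Nat.card_eq_fintype_card, Fintype.card_subtype]
    have hQP : Q ≤ P := inf_le_left
    obtain ⟨a, ha⟩ := IsPGroup.iff_card.1 P.2
    have ha' : Nat.card P = p ^ a := ha
    obtain ⟨b, hb, hb2⟩ := (Nat.dvd_prime_pow hp.out).1 (by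
      rw [← ha']; exact card_dvd_of_le hQP : Nat.card Q ∣ p ^ a)
    have hne : b ≠ a := by
      intro h
      have h1 : Nat.card P ≤ Nat.card Q := by rw [ha', hb2, h]
      have h2 : Q = P := eq_of_le_of_card_ge hQP h1
      apply hn
      rw [mem_centralizer_iff]
      intro x hx
      have h3 : x ∈ Q := by rw [h2]; exact hx
      have h4 := mem_cent_iff.1 h3.2
      exact h4.symm
    rw [hcard, hb2, ha', ← pow_succ']
    exact Nat.pow_le_pow_right hp.out.pos (by omega)
  have he : autOrd (P : Subgroup G) = Fintype.card (N ⧸ C') := by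
    rw [← Nat.card_eq_fintype_card]
    rfl
  have hbad2 : p * bad.card ≤ (autOrd (P : Subgroup G) - 1) * Nat.card P := by
    calc p * bad.card ≤ p * ∑ c ∈ univ.erase (1 : N ⧸ C'), (F c).card :=
          Nat.mul_le_mul_left _ ((Finset.card_le_card hbad).trans card_biUnion_le)
      _ = ∑ c ∈ univ.erase (1 : N ⧸ C'), p * (F c).card := Finset.mul_sum _ _ _
      _ ≤ ∑ c ∈ univ.erase (1 : N ⧸ C'), Nat.card P := Finset.sum_le_sum hF
      _ = _ := by
        rw [Finset.sum_const, smul_eq_mul, card_erase_of_mem (mem_univ _), card_univ, he]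
  have hall : all.card = Nat.card P := by
    rw [Nat.card_eq_fintype_card, Fintype.card_subtype]
    rfl
  have hreg : reg.card = Nat.card {w : G // IsRegEl (P : Subgroup G) w} := by
    rw [Nat.card_eq_fintype_card, Fintype.card_subtype]
  have hepos : 1 ≤ autOrd (P : Subgroup G) := by
    rw [he]; exact Fintype.card_pos
  rw [← hreg]
  rw [hall] at hsplit
  rcases Nat.lt_or_ge (p + 1) (autOrd (P : Subgroup G)) with h | h
  · rw [Nat.sub_eq_zero_of_le h.le, mul_zero]
    exact Nat.zero_le _
  · zify [h]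
    zify [hepos] at hbad2
    have h3 : (Nat.card P : ℤ) = reg.card + bad.card := by exact_mod_cast hsplit
    nlinarith [hbad2, h3]

end

end P179P
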