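import Vale.Agent.P179.H905.N5b

/-!
# (N5) the `L²` bounds
-/

namespace P179P

open P179H524 P179C P179A Finset Subgroup

open P179X (IrrB Srat SameSec pp X4 IsCompl aval autOrd)

open scoped Classical

section Parseval

variable {G : Type*} [Group G] [Fintype G]

theorem mul_inv_eq_normSq (χ : Irr G) (g : G) : χ.1 g * χ.1 g⁻¹ = ((‖χ.1 g‖ ^ 2 : ℝ) : ℂ) := by
  rw [Irr.inv_eq_conj, Complex.mul_conj, Complex.normSq_eq_norm_sq]

/-- the norm of an irreducible character -/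
theorem sum_normSq (χ : Irr G) : ∑ g : G, ‖χ.1 g‖ ^ 2 = Fintype.card G := by
  have h := row_orth χ χ
  rw [if_pos rfl, Finset.sum_congr rfl fun g _ => mul_inv_eq_normSq χ g] at h
  exact_mod_cast h

/-- Parseval -/
theorem parseval {f : G → ℂ} (hf : IsCF f) :
    ∑ χ : Irr G, ‖∑ g : G, f g * χ.1 g⁻¹‖ ^ 2 = Fintype.card G * ∑ g : G, ‖f g‖ ^ 2 := by
  have hG : (Fintype.card G : ℂ) ≠ 0 := by exact_mod_cast Fintype.card_ne_zero
  let c : Irr G → ℂ := fun χ => ∑ g : G, f g * χ.1 g⁻¹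
  have h1 : ∀ g, (Fintype.card G : ℂ) * f g = ∑ χ : Irr G, c χ * χ.1 g := by
    intro g
    rw [cf_expand hf g, Finset.mul_sum]
    refine Finset.sum_congr rfl fun χ _ => ?_
    rw [mul_assoc, mul_inv_cancel_left₀ hG]
  have h2 : ∀ χ : Irr G, ∑ g : G, χ.1 g * (starRingEnd ℂ) (f g) = (starRingEnd ℂ) (c χ) := by
    intro χ
    simp only [c, map_sum, map_mul]
    refine Finset.sum_congr rfl fun g _ => ?_
    rw [Irr.inv_eq_conj, Complex.conj_conj, mul_comm]
  have h3 : (Fintype.card G : ℂ) * ∑ g : G, f g * (starRingEnd ℂ) (f g) =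
      ∑ χ : Irr G, c χ * (starRingEnd ℂ) (c χ) := by
    rw [Finset.mul_sum]
    have : ∀ g, (Fintype.card G : ℂ) * (f g * (starRingEnd ℂ) (f g)) =
        ∑ χ : Irr G, c χ * (χ.1 g * (starRingEnd ℂ) (f g)) := by
      intro g
      rw [← mul_assoc, h1 g, Finset.sum_mul]
      exact Finset.sum_congr rfl fun χ _ => by ring
    rw [Finset.sum_congr rfl fun g _ => this g, Finset.sum_comm]
    refine Finset.sum_congr rfl fun χ _ => ?_
    rw [← Finset.mul_sum, h2]
  simp only [Complex.mul_conj, Complex.normSq_eq_norm_sq] at h3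
  symm
  exact_mod_cast h3

end Parseval

section Bounds

variable {p : ℕ} [hp : Fact p.Prime] {G : Type*} [Group G] [Fintype G]

/-- the `p`-section of `w` -/
noncomputable def Sec (p : ℕ) {G : Type*} [Group G] [Fintype G] (w : G) : Finset G :=
  univ.filter fun y => IsConj w (pp p y)

omit hp in
theorem secSum_eq_sum (w : G) (F : G → ℂ) : secSum p w F = ∑ y ∈ Sec p w, F y := by
  rw [secSum, Sec, Finset.sum_filter]

omit hp [Fintype G] in
theorem isPEl_of_mem {P : Sylow p G} {w : G} (hw : w ∈ P) : ∃ n : ℕ, w ^ p ^ n = 1 := by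
  obtain ⟨n, hn⟩ := P.2 ⟨w, hw⟩
  exact ⟨n, by simpa using congrArg Subtype.val hn⟩

variable {P : Sylow p G} (hab : ∀ a ∈ P, ∀ b ∈ P, a * b = b * a)

include hab in
theorem card_mul_secSum {w : G} (hw : w ∈ P) {K : Subgroup G} (hK : IsCompl p w K)
    {F : G → ℂ} (hF : IsCF F) :
    (Nat.card P : ℂ) * secSum p w F = Fintype.card G * ((∑ s : K, F (w * (s : G))) / Nat.card K) := by
  have h := secSum_eq (isPEl_of_mem hw) hK hF
  rw [card_cent hab hw hK] at h
  have hK0 : (Nat.card K : ℂ) ≠ 0 := by exact_mod_cast Nat.card_pos.ne'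
  rw [mul_div_assoc', eq_div_iff hK0, ← h]
  push_cast
  ring

include hab in
theorem card_mul_secSum_aval {w : G} (hw : w ∈ P) {K : Subgroup G} (hK : IsCompl p w K)
    (χ : Irr G) :
    (Nat.card P : ℂ) * secSum p w χ.1 = Fintype.card G * aval K χ.1 w := by
  rw [card_mul_secSum hab hw hK χ.isCF, aval, finsum_eq_sum_of_fintype]

include hab in
theorem card_Sec {w : G} (hw : w ∈ P) {K : Subgroup G} (hK : IsCompl p w K) :
    Nat.card P * (Sec p w).card = Fintype.card G := by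
  have h := card_mul_secSum hab hw hK (F := fun _ => 1) (fun _ _ => rfl)
  rw [secSum_eq_sum] at h
  simp only [Finset.sum_const, Finset.card_univ, nsmul_eq_mul, mul_one] at h
  have hK0 : (Nat.card K : ℂ) ≠ 0 := by exact_mod_cast Nat.card_pos.ne'
  rw [← Nat.card_eq_fintype_card (α := K), div_self hK0, mul_one] at h
  exact_mod_cast h

/-- the regular elements -/
noncomputable def WW {p : ℕ} {G : Type*} [Group G] [Fintype G] (P : Sylow p G) : Finset G :=
  univ.filter fun w => IsRegEl (P : Subgroup G) w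

omit hp in
theorem mem_WW {w : G} : w ∈ WW P ↔ IsRegEl (P : Subgroup G) w := by simp [WW]

/-- the number of regular elements whose section contains `y` -/
noncomputable def Phi {p : ℕ} {G : Type*} [Group G] [Fintype G] (P : Sylow p G) (y : G) : ℕ :=
  ((WW P).filter fun w => y ∈ Sec p w).card

include hab in
theorem Phi_le (y : G) : Phi P y ≤ autOrd (P : Subgroup G) := by
  refine le_trans ?_ (card_fusion P hab (pp p y))
  rw [Phi, Nat.card_eq_fintype_card, Fintype.card_subtype]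
  refine Finset.card_le_card fun w hw => ?_
  simp only [mem_filter, mem_WW, Sec, mem_univ, true_and] at hw ⊢
  exact ⟨hw.1.1, hw.2⟩

omit hp in
theorem sum_Phi {R : Type*} [CommSemiring R] (F : G → R) :
    ∑ w ∈ WW P, ∑ y ∈ Sec p w, F y = ∑ y : G, (Phi P y : R) * F y := by
  have h1 : ∀ w ∈ WW P, ∑ y ∈ Sec p w, F y = ∑ y : G, if y ∈ Sec p w then F y else 0 := by
    intro w _
    rw [← Finset.sum_filter]
    congr 1
    ext y; simp
  rw [Finset.sum_congr rfl h1, Finset.sum_comm]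
  refine Finset.sum_congr rfl fun y _ => ?_
  rw [← Finset.sum_filter, Finset.sum_const, nsmul_eq_mul, Phi]

variable {K : G → Subgroup G} (hK : ∀ w ∈ WW P, IsCompl p w (K w))

include hab hK in
/-- the `L²` bound for one character -/
theorem L2_bound (χ : Irr G) :
    ∑ w ∈ WW P, ‖aval (K w) χ.1 w‖ ^ 2 ≤ (autOrd (P : Subgroup G) : ℝ) * Nat.card P := by
  have hG : (0 : ℝ) < Fintype.card G := by exact_mod_cast Fintype.card_pos
  have hP : (0 : ℝ) < Nat.card P := by exact_mod_cast Nat.card_pos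
  have h1 : ∀ w ∈ WW P, (Fintype.card G : ℝ) * ‖aval (K w) χ.1 w‖ ^ 2 ≤
      Nat.card P * ∑ y ∈ Sec p w, ‖χ.1 y‖ ^ 2 := by
    intro w hw
    have hwP := (mem_WW.1 hw).1
    have e1 := congrArg norm (card_mul_secSum_aval hab hwP (hK w hw) χ)
    rw [norm_mul, norm_mul, Complex.norm_natCast, Complex.norm_natCast, secSum_eq_sum] at e1
    have e2 : ‖∑ y ∈ Sec p w, χ.1 y‖ ^ 2 ≤ (Sec p w).card * ∑ y ∈ Sec p w, ‖χ.1 y‖ ^ 2 := by
      calc ‖∑ y ∈ Sec p w, χ.1 y‖ ^ 2 ≤ (∑ y ∈ Sec p w, ‖χ.1 y‖) ^ 2 := by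
            gcongr; exact norm_sum_le _ _
        _ ≤ _ := sq_sum_le_card_mul_sum_sq
    have e3 : (Nat.card P : ℝ) * (Sec p w).card = Fintype.card G := by
      exact_mod_cast card_Sec hab hwP (hK w hw)
    have e4 : (Fintype.card G : ℝ) * ((Fintype.card G : ℝ) * ‖aval (K w) χ.1 w‖ ^ 2) ≤
        (Fintype.card G : ℝ) * (Nat.card P * ∑ y ∈ Sec p w, ‖χ.1 y‖ ^ 2) := by
      calc (Fintype.card G : ℝ) * ((Fintype.card G : ℝ) * ‖aval (K w) χ.1 w‖ ^ 2)
          = ((Fintype.card G : ℝ) * ‖aval (K w) χ.1 w‖) ^ 2 := by ring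
        _ = ((Nat.card P : ℝ) * ‖∑ y ∈ Sec p w, χ.1 y‖) ^ 2 := by rw [e1]
        _ = (Nat.card P : ℝ) ^ 2 * ‖∑ y ∈ Sec p w, χ.1 y‖ ^ 2 := by ring
        _ ≤ (Nat.card P : ℝ) ^ 2 * ((Sec p w).card * ∑ y ∈ Sec p w, ‖χ.1 y‖ ^ 2) := by gcongr
        _ = ((Nat.card P : ℝ) * (Sec p w).card) * (Nat.card P * ∑ y ∈ Sec p w, ‖χ.1 y‖ ^ 2) := by
          ring
        _ = _ := by rw [e3]
    exact le_of_mul_le_mul_left e4 hG
  have h2 : (Fintype.card G : ℝ) * ∑ w ∈ WW P, ‖aval (K w) χ.1 w‖ ^ 2 ≤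
      (Fintype.card G : ℝ) * ((autOrd (P : Subgroup G) : ℝ) * Nat.card P) := by
    calc (Fintype.card G : ℝ) * ∑ w ∈ WW P, ‖aval (K w) χ.1 w‖ ^ 2
        = ∑ w ∈ WW P, (Fintype.card G : ℝ) * ‖aval (K w) χ.1 w‖ ^ 2 := Finset.mul_sum _ _ _
      _ ≤ ∑ w ∈ WW P, Nat.card P * ∑ y ∈ Sec p w, ‖χ.1 y‖ ^ 2 := Finset.sum_le_sum h1
      _ = Nat.card P * ∑ y : G, (Phi P y : ℝ) * ‖χ.1 y‖ ^ 2 := by
        rw [← Finset.mul_sum, sum_Phi]
      _ ≤ Nat.card P * ∑ y : G, (autOrd (P : Subgroup G) : ℝ) * ‖χ.1 y‖ ^ 2 := by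
        gcongr with y _
        exact_mod_cast Phi_le hab y
      _ = _ := by rw [← Finset.mul_sum, sum_normSq]; ring
  exact le_of_mul_le_mul_left h2 hG

omit hp in
theorem isCF_Phi [Fact p.Prime] : IsCF fun y => (Phi P y : ℂ) := by
  intro g y
  have : Phi P (g * y * g⁻¹) = Phi P y := by
    unfold Phi
    congr 1
    ext w
    simp only [mem_filter, Sec, mem_univ, true_and, and_congr_right_iff]
    intro _
    rw [pp_conj]
    have h1 : IsConj (pp p y) (g * pp p y * g⁻¹) := isConj_iff.2 ⟨g, rfl⟩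
    exact ⟨fun h => h.trans h1.symm, fun h => h.trans h1⟩
  simp only [this]

include hab hK in
/-- the Bessel bound -/
theorem bessel_bound (S : Finset (Irr G)) :
    ∑ χ ∈ S, ‖∑ w ∈ WW P, aval (K w) χ.1 w‖ ^ 2 ≤
      (autOrd (P : Subgroup G) : ℝ) * (WW P).card * Nat.card P := by
  have hG : (0 : ℝ) < Fintype.card G := by exact_mod_cast Fintype.card_pos
  have hP : (0 : ℝ) < Nat.card P := by exact_mod_cast Nat.card_pos
  have h1 : ∀ χ : Irr G, (Nat.card P : ℂ) * ∑ y : G, (Phi P y : ℂ) * χ.1 y =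
      Fintype.card G * ∑ w ∈ WW P, aval (K w) χ.1 w := by
    intro χ
    rw [← sum_Phi, Finset.mul_sum, Finset.mul_sum]
    refine Finset.sum_congr rfl fun w hw => ?_
    rw [← secSum_eq_sum, card_mul_secSum_aval hab (mem_WW.1 hw).1 (hK w hw) χ]
  have h2 : ∀ χ : Irr G, ‖∑ y : G, (Phi P y : ℂ) * χ.1 y⁻¹‖ = ‖∑ y : G, (Phi P y : ℂ) * χ.1 y‖ := by
    intro χ
    rw [← Complex.norm_conj, map_sum]
    congr 1
    refine Finset.sum_congr rfl fun y _ => ?_
    rw [map_mul, Complex.conj_natCast, Irr.inv_eq_conj, Complex.conj_conj]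
  have h3 : ∑ χ : Irr G, ‖∑ y : G, (Phi P y : ℂ) * χ.1 y‖ ^ 2 =
      Fintype.card G * ∑ y : G, (Phi P y : ℝ) ^ 2 := by
    rw [← Finset.sum_congr rfl fun χ _ => congrArg (· ^ 2) (h2 χ), parseval isCF_Phi]
    simp
  have h4 : (Nat.card P : ℝ) * ∑ y : G, (Phi P y : ℝ) ^ 2 ≤
      (autOrd (P : Subgroup G) : ℝ) * (WW P).card * Fintype.card G := by
    have e1 : ∑ y : G, (Phi P y : ℝ) ^ 2 ≤ (autOrd (P : Subgroup G) : ℝ) * ∑ y : G, (Phi P y : ℝ) := by
      rw [Finset.mul_sum]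
      refine Finset.sum_le_sum fun y _ => ?_
      rw [sq]
      gcongr
      exact_mod_cast Phi_le hab y
    have e2 : (Nat.card P : ℝ) * ∑ y : G, (Phi P y : ℝ) = (WW P).card * Fintype.card G := by
      have := sum_Phi (P := P) (fun _ : G => (1 : ℝ))
      simp only [mul_one] at this
      rw [← this, Finset.mul_sum]
      have e3 : ∀ w ∈ WW P, (Nat.card P : ℝ) * ∑ y ∈ Sec p w, (1 : ℝ) = Fintype.card G := by
        intro w hw
        rw [Finset.sum_const, nsmul_eq_mul, mul_one]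
        exact_mod_cast card_Sec hab (mem_WW.1 hw).1 (hK w hw)
      rw [Finset.sum_congr rfl e3, Finset.sum_const, nsmul_eq_mul]
    calc (Nat.card P : ℝ) * ∑ y : G, (Phi P y : ℝ) ^ 2
        ≤ Nat.card P * ((autOrd (P : Subgroup G) : ℝ) * ∑ y : G, (Phi P y : ℝ)) := by gcongr
      _ = (autOrd (P : Subgroup G) : ℝ) * (Nat.card P * ∑ y : G, (Phi P y : ℝ)) := by ring
      _ = _ := by rw [e2]; ring
  have h5 : (Fintype.card G : ℝ) ^ 2 * ∑ χ ∈ S, ‖∑ w ∈ WW P, aval (K w) χ.1 w‖ ^ 2 ≤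
      (Fintype.card G : ℝ) ^ 2 * ((autOrd (P : Subgroup G) : ℝ) * (WW P).card * Nat.card P) := by
    calc (Fintype.card G : ℝ) ^ 2 * ∑ χ ∈ S, ‖∑ w ∈ WW P, aval (K w) χ.1 w‖ ^ 2
        = ∑ χ ∈ S, ((Nat.card P : ℝ) * ‖∑ y : G, (Phi P y : ℂ) * χ.1 y‖) ^ 2 := by
          rw [Finset.mul_sum]
          refine Finset.sum_congr rfl fun χ _ => ?_
          have := congrArg norm (h1 χ)
          rw [norm_mul, norm_mul, Complex.norm_natCast, Complex.norm_natCast] at this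
          rw [this]; ring
      _ ≤ ∑ χ : Irr G, ((Nat.card P : ℝ) * ‖∑ y : G, (Phi P y : ℂ) * χ.1 y‖) ^ 2 :=
          Finset.sum_le_sum_of_subset_of_nonneg (subset_univ _) fun _ _ _ => sq_nonneg _
      _ = (Nat.card P : ℝ) ^ 2 * (Fintype.card G * ∑ y : G, (Phi P y : ℝ) ^ 2) := by
          rw [← h3, Finset.mul_sum]
          exact Finset.sum_congr rfl fun χ _ => by ring
      _ = Nat.card P * Fintype.card G * (Nat.card P * ∑ y : G, (Phi P y : ℝ) ^ 2) := by ring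
      _ ≤ Nat.card P * Fintype.card G *
          ((autOrd (P : Subgroup G) : ℝ) * (WW P).card * Fintype.card G) := by gcongr
      _ = _ := by ring
  exact le_of_mul_le_mul_left h5 (by positivity)

end Bounds

end P179P
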