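import Vale.Agent.P179.H905.N6c

/-!
# (N6) at most `|N_G(P) : C_G(P)|` weights in the principal block: the count
-/

namespace P179P

open P179H524 P179C P179A Finset Subgroup

open P179X (IsPrincipal autOrd)

open scoped Classical

section

variable {p : ℕ} [hp : Fact p.Prime] {k : Type*} [Field k] [IsAlgClosed k] [CharP k p]
  (red : integralClosure ℤ ℂ →+* k) {G : Type} [Group G] [Fintype G]

omit [IsAlgClosed k] in
include red in
/-- each weight of the principal block is conjugate to a weight with the given Sylow subgroup -/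
theorem exists_conj_sylow (w : P179H524.Weight p G) (hw : PW red w) (P : Sylow p G)
    (hab : ∀ a ∈ P, ∀ b ∈ P, a * b = b * a) (he : autOrd (P : Subgroup G) < p) :
    ∃ w' : P179H524.Weight p G, w.Conj w' ∧ PW red w' ∧ w'.Q = (P : Subgroup G) := by
  obtain ⟨R, hR⟩ := w.isPGroup.exists_le_sylow
  obtain ⟨g, hg⟩ := MulAction.exists_smul_eq G R P
  have h1 : w.Conj (w.conj g) := (Weight.conj_iff _ _).2 ⟨g, (Weight.pr_conj g w).symm⟩
  have h2 : PW red (w.conj g) := hw.conj red h1
  refine ⟨w.conj g, h1, h2, ?_⟩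
  refine weight_sylow red (w.conj g) h2 P hab he ?_
  rintro _ ⟨x, hx, rfl⟩
  rw [← hg]
  exact (Subgroup.smul_mem_pointwise_smul_iff (a := MulAut.conj g) (S := (R : Subgroup G))
    (x := x)).2 (hR hx)

/-- **(N6)** the number of weights in the principal block -/
theorem N6 {B : MonoidAlgebra k G} (hB : IsBlock B) (hpB : IsPrincipal B) (P : Sylow p G)
    (hab : ∀ a ∈ P, ∀ b ∈ P, a * b = b * a) (he : autOrd (P : Subgroup G) < p) :
    numWeightsIn p red B ≤ autOrd (P : Subgroup G) := by
  have key : ∀ w : {w : P179H524.Weight p G // WeightInBlock red w B},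
      ∃ ψ : (normalizer ((P : Subgroup G) : Set G)) ⧸ CN (P : Subgroup G) → ℂ, IsIrrChar ψ ∧
        ∃ (φ : NQ (P : Subgroup G) → ℂ) (h : IsDefectZeroChar p φ),
          w.1.Conj ⟨(P : Subgroup G), P.2, φ, h⟩ ∧
          ∀ n : normalizer ((P : Subgroup G) : Set G),
            φ (QuotientGroup.mk n) = ψ (QuotientGroup.mk n) := by
    rintro ⟨w, hw⟩
    obtain ⟨w', h1, h2, h3⟩ := exists_conj_sylow red w (pw_of_weightInBlock red hB hpB w hw) P
      hab he
    obtain ⟨ψ, h4, h5⟩ := weight_descends red w' h2 P h3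
    obtain ⟨Q, hQp, φ, hφ⟩ := w'
    dsimp only at h3 h4 h5 ψ
    subst h3
    exact ⟨ψ, h4, φ, hφ, h1, h5⟩
  choose Ψ hΨ Φ hΦ hconj hval using key
  let r : {w : P179H524.Weight p G // WeightInBlock red w B} →
      {w : P179H524.Weight p G // WeightInBlock red w B} → Prop := fun a b => Weight.Conj a.1 b.1
  have hout : ∀ q : Quot r, Quot.mk r q.out = q := fun q => Quot.out_eq q
  let F : Quot r → Irr ((normalizer ((P : Subgroup G) : Set G)) ⧸ CN (P : Subgroup G)) :=
    fun q => ⟨Ψ q.out, hΨ q.out⟩
  have hF : Function.Injective F := by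
    intro q q' hqq
    have h1 : Ψ q.out = Ψ q'.out := congrArg Subtype.val hqq
    have h2 : Φ q.out = Φ q'.out := by
      funext x
      obtain ⟨n, rfl⟩ := QuotientGroup.mk_surjective x
      rw [hval, hval, h1]
    have h3 : (⟨(P : Subgroup G), P.2, Φ q.out, hΦ q.out⟩ : P179H524.Weight p G) =
        ⟨(P : Subgroup G), P.2, Φ q'.out, hΦ q'.out⟩ := by
      congr 1
    have h4 := hconj q.out
    have h5 := hconj q'.out
    rw [h3] at h4
    have h6 : q.out.1.Conj q'.out.1 :=
      (conj_equivalence p G).trans h4 ((conj_equivalence p G).symm h5)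
    rw [← hout q, ← hout q']
    exact Quot.sound h6
  have : Finite ((normalizer ((P : Subgroup G) : Set G)) ⧸ CN (P : Subgroup G)) := inferInstance
  refine (Nat.card_le_card_of_injective F hF).trans ?_
  exact card_irr_le _

end

end P179P
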