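import Vale.Agent.P179.H905.N6a

/-!
# (N6) the weights of the principal block with a Sylow subgroup
-/

namespace P179P

open P179H524 P179C P179A Finset Subgroup

open P179X (IsPrincipal autOrd)

open scoped Classical

section

variable {p : ℕ} [hp : Fact p.Prime] {G : Type} [Group G] [Fintype G]

omit hp in
theorem class_card_mul (x : G) :
    Nat.card {y : G // IsConj x y} * Nat.card (centralizer ({x} : Set G)) = Nat.card G := by
  have h1 : ∑ y : G, #{t : G | t * x * t⁻¹ = y} = Fintype.card G := by
    rw [← Finset.card_univ (α := G)]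
    exact (Finset.card_eq_sum_card_fiberwise (f := fun t : G => t * x * t⁻¹)
      (fun t _ => by simp)).symm
  simp only [card_conj] at h1
  rw [← Finset.sum_filter, Finset.sum_const, smul_eq_mul, ← Fintype.card_subtype,
    ← Nat.card_eq_fintype_card, ← Nat.card_eq_fintype_card] at h1
  exact h1

/-- `p` does not divide the length of the class of an element centralizing a Sylow subgroup -/
theorem not_dvd_class (P : Sylow p G) (x : G) (hx : ∀ a ∈ P, a * x = x * a) :
    ¬ p ∣ Nat.card {y : G // IsConj x y} := by
  intro hd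
  have h1 := class_card_mul x
  have h2 : (P : Subgroup G) ≤ centralizer ({x} : Set G) := by
    intro a ha
    rw [mem_centralizer_singleton_iff]
    exact hx a ha
  have h3 : (centralizer ({x} : Set G)).index = Nat.card {y : G // IsConj x y} := by
    have h4 := (centralizer ({x} : Set G)).index_mul_card
    rw [← h1] at h4
    exact Nat.eq_of_mul_eq_mul_right Nat.card_pos h4
  rw [← h3] at hd
  exact P.not_dvd_index (hd.trans (index_dvd_of_le h2))

variable {k : Type*} [Field k] [IsAlgClosed k] [CharP k p]
  (red : integralClosure ℤ ℂ →+* k) 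

/-- conjugation -/
def conjN (Q : Subgroup G) : Q →* Equiv.Perm (normalizer (Q : Set G)) where
  toFun q := (MulAut.conj (⟨(q : G), le_normalizer q.2⟩ : normalizer (Q : Set G))).toEquiv
  map_one' := by
    ext n
    change ((1 : Q) : G) * (n : G) * ((1 : Q) : G)⁻¹ = n
    simp
  map_mul' a b := by
    ext n
    change ((a * b : Q) : G) * (n : G) * ((a * b : Q) : G)⁻¹ = a * (b * n * (b : G)⁻¹) * (a : G)⁻¹
    simp [mul_assoc]

omit [IsAlgClosed k] in
/-- the character of a weight of the principal block is constant on the centralizer, modulo the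
maximal ideal -/
theorem weight_const (w : P179H524.Weight p G) (hw : PW red w) (P : Sylow p G)
    (hQ : w.Q = (P : Subgroup G)) (x : normalizer (w.Q : Set G))
    (hx : ∀ a ∈ P, a * (x : G) = x * a) :
    redC red (w.φ (QuotientGroup.mk x)) = redC red (w.φ 1) := by
  have h1 := weight_cong red w hw (x : G)
  have hmemQ : ∀ a : G, a ∈ w.Q ↔ a ∈ P := fun a => by rw [hQ]; exact Iff.rfl
  have hint : ∀ n, w.φ n ∈ integralClosure ℤ ℂ := fun n => Irr.integral ⟨w.φ, w.defectZero.1⟩ n
  rw [redC_sum] at h1
  swap
  · intro n _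
    split_ifs
    · exact hint _
    · exact zero_mem _
  -- the sum over the elements not centralizing `P`
  let F : normalizer (w.Q : Set G) → k := fun n =>
    if IsConj (x : G) (n : G) ∧ ¬ (∀ a ∈ P, a * (n : G) = n * a) then
      redC red (w.φ (QuotientGroup.mk n)) else 0
  have hF : ∑ n, F n = 0 := by
    refine sum_eq_zero_of_perm p w.isPGroup (conjN w.Q) F ?_ ?_
    · intro q n
      have hq : (q : G) ∈ P := (hmemQ _).1 q.2
      have e1 : ((conjN w.Q q n : normalizer (w.Q : Set G)) : G) = q * n * (q : G)⁻¹ := rfl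
      have e2 : IsConj (x : G) (q * n * (q : G)⁻¹) ↔ IsConj (x : G) n :=
        ⟨fun h => h.trans (isConj_iff.2 ⟨(q : G), rfl⟩).symm,
          fun h => h.trans (isConj_iff.2 ⟨(q : G), rfl⟩)⟩
      have e3 : (∀ a ∈ P, a * (q * n * (q : G)⁻¹) = (q * n * (q : G)⁻¹) * a) ↔
          ∀ a ∈ P, a * (n : G) = n * a := by
        constructor
        · intro h a ha
          have h3 := h (q * a * (q : G)⁻¹) (mul_mem (mul_mem hq ha) (inv_mem hq))
          have h4 : (q : G) * (a * n) * (q : G)⁻¹ = q * (n * a) * (q : G)⁻¹ := by
            calc (q : G) * (a * n) * (q : G)⁻¹ = (q * a * (q : G)⁻¹) * (q * n * (q : G)⁻¹) := by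
                  group
              _ = (q * n * (q : G)⁻¹) * (q * a * (q : G)⁻¹) := h3
              _ = _ := by group
          exact mul_left_cancel (mul_right_cancel h4)
        · intro h a ha
          have h3 := h ((q : G)⁻¹ * a * q) (mul_mem (mul_mem (inv_mem hq) ha) hq)
          calc a * (q * n * (q : G)⁻¹) = q * (((q : G)⁻¹ * a * q) * n) * (q : G)⁻¹ := by group
            _ = q * (n * ((q : G)⁻¹ * a * q)) * (q : G)⁻¹ := by rw [h3]
            _ = _ := by group
      have e4 : (QuotientGroup.mk (conjN w.Q q n) : NQ w.Q) = QuotientGroup.mk n := by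
        have h3 : conjN w.Q q n = ⟨(q : G), le_normalizer q.2⟩ * n *
            (⟨(q : G), le_normalizer q.2⟩ : normalizer (w.Q : Set G))⁻¹ := rfl
        have h4 : (QuotientGroup.mk (⟨(q : G), le_normalizer q.2⟩ : normalizer (w.Q : Set G)) :
            NQ w.Q) = 1 := (QuotientGroup.eq_one_iff _).2 (mem_subgroupOf.2 q.2)
        rw [h3, QuotientGroup.mk_mul, QuotientGroup.mk_mul, QuotientGroup.mk_inv, h4, one_mul,
          inv_one, mul_one]
      simp only [F, e1, e2, e3, e4]
    · intro n hn
      have h2 : ∀ a ∈ P, a * (n : G) = n * a := by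
        intro a ha
        have ha' : a ∈ w.Q := (hmemQ a).2 ha
        have h3 := congrArg Subtype.val (hn ⟨a, ha'⟩)
        exact mul_inv_eq_iff_eq_mul.1 h3
      simp only [F]
      rw [if_neg]
      exact fun h => h.2 h2
  -- the sum over the elements centralizing `P`
  have h2 : ∀ n : normalizer (w.Q : Set G),
      redC red (if IsConj (x : G) (n : G) then w.φ (QuotientGroup.mk n) else 0) = F n +
        if IsConj (x : G) (n : G) ∧ ∀ a ∈ P, a * (n : G) = n * a then
          redC red (w.φ (QuotientGroup.mk x)) else 0 := by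
    intro n
    by_cases hc : IsConj (x : G) (n : G)
    · rw [if_pos hc]
      by_cases hcc : ∀ a ∈ P, a * (n : G) = n * a
      · simp only [F]
        rw [if_neg (fun h => h.2 hcc), if_pos ⟨hc, hcc⟩, zero_add]
        congr 1
        obtain ⟨t, ht⟩ := isConj_iff.1 hc
        obtain ⟨m, hm, hm2⟩ := P.conj_eq_normalizer_conj_of_mem_centralizer (x : G) t⁻¹
          (by rw [mem_centralizer_iff]; exact hx)
          (by rw [inv_inv, ht, mem_centralizer_iff]; exact hcc)
        rw [inv_inv, ht] at hm2
        have hm' : m ∈ normalizer (w.Q : Set G) := by rw [hQ]; exact hm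
        have h3 : n = (⟨m, hm'⟩ : normalizer (w.Q : Set G))⁻¹ * x * ⟨m, hm'⟩ := Subtype.ext hm2
        rw [h3]
        have h4 := w.defectZero.1.conj
          (QuotientGroup.mk (⟨m, hm'⟩ : normalizer (w.Q : Set G))⁻¹) (QuotientGroup.mk x)
        rw [← h4, ← QuotientGroup.mk_inv, ← QuotientGroup.mk_mul, ← QuotientGroup.mk_mul, inv_inv]
      · simp only [F]
        rw [if_pos ⟨hc, hcc⟩, if_neg (fun h => hcc h.2), add_zero]
    · simp only [F]
      rw [if_neg hc, if_neg (fun h => hc h.1), if_neg (fun h => hc h.1), add_zero,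
        redC_of_mem red (zero_mem _)]
      exact map_zero red
  rw [Finset.sum_congr rfl fun n _ => h2 n, Finset.sum_add_distrib, hF, zero_add,
    ← Finset.sum_filter, Finset.sum_const, nsmul_eq_mul] at h1
  have h3 : #{n : normalizer (w.Q : Set G) | IsConj (x : G) (n : G) ∧
      ∀ a ∈ P, a * (n : G) = n * a} =
      Nat.card {y : G // IsConj (x : G) y ∧ ∀ a ∈ P, a * y = y * a} := by
    rw [← Fintype.card_subtype, ← Nat.card_eq_fintype_card]
    refine Nat.card_congr ?_
    exact
      { toFun := fun y => ⟨y.1.1, y.2⟩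
        invFun := fun y => ⟨⟨y.1, by
          rw [mem_normalizer_iff]
          intro a
          rw [hmemQ, hmemQ]
          constructor
          · intro ha
            rw [← y.2.2 a ha, mul_inv_cancel_right]
            exact ha
          · intro ha
            have h2 := y.2.2 _ ha
            have h3 : y.1 * a = y.1 * (y.1 * a * y.1⁻¹) := by
              rw [← h2, mul_assoc, inv_mul_cancel, mul_one]
            rw [mul_left_cancel h3]
            exact ha⟩, y.2⟩
        left_inv := fun y => rfl
        right_inv := fun y => rfl }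
  rw [h3] at h1
  have h4 := card_class_modEq P (x : G)
  have h5 : (Nat.card {y : G // IsConj (x : G) y} : k) =
      (Nat.card {y : G // IsConj (x : G) y ∧ ∀ a ∈ P, a * y = y * a} : k) :=
    (CharP.natCast_eq_natCast k p).2 h4
  rw [← h5] at h1
  refine mul_left_cancel₀ ?_ h1
  intro h0
  exact not_dvd_class P (x : G) hx ((CharP.cast_eq_zero_iff k p _).1 h0)

end

end P179P
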