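import Vale.Agent.P179.H143.Cong
import Vale.Agent.P179.H526.KDef
import Vale.Agent.P179.H234.AG
import Vale.Agent.P179.H234.C0
import Vale.Agent.P179.H905.N6b

/-!
# Theorem N, part 1: units
-/

namespace P179N

open Subgroup Finset P179H524 P179C P179A P179P P179Y

open scoped Classical

section Unit

variable {k : Type*} [Field k] (p : ℕ) [hp : Fact p.Prime] [CharP k p]
  (red : AA →+* k) {G : Type} [Group G] [Fintype G]

omit hp [CharP k p] in
/-- the reduction of `∑_{s regular} χ(s) φ(s⁻¹) / χ(1)` depends only on the block of `χ` -/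
theorem exists_X (φ χ : Irr G) : ∃ X : AA,
    (X : ℂ) = rsum p (fun s => χ.1 s * φ.1 s⁻¹) / χ.1 1 ∧
      red X = lam red χ.1 (fun s => if ¬ p ∣ orderOf s then red ⟨φ.1 s⁻¹, φ.integral _⟩ else 0) := by
  let z : G → AA := fun s => if ¬ p ∣ orderOf s then ⟨φ.1 s⁻¹, φ.integral _⟩ else 0
  have hz : IsCF z := by
    intro t x
    have h1 : orderOf (t * x * t⁻¹) = orderOf x := P179C.orderOf_conj t x
    have h2 : (t * x * t⁻¹)⁻¹ = t * x⁻¹ * t⁻¹ := by group
    simp only [z, h1, h2, φ.conj]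
  obtain ⟨X, hX1, hX2⟩ := exists_omAA red χ hz
  refine ⟨X, ?_, ?_⟩
  · rw [hX1, omC, rsum_eq, Finset.sum_filter]
    congr 1
    refine Finset.sum_congr rfl fun s _ => ?_
    simp only [z]
    split_ifs
    · push_cast; rw [zero_mul]
    · rw [mul_comm]
  · rw [hX2]
    congr 1
    funext s
    simp only [z]
    split_ifs
    · exact map_zero red
    · rfl

variable {p}

/-- an element `x` with `l(x^G) ≠ 0` and `|C(x)|_p = |D|` -/
theorem exists_cls {D : Subgroup G} {l : (G → k) → k} (hl : BP p D l) (hD : IsPGroup p D)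
    (hab : D ≤ centralizer (D : Set G))
    (hT : ¬ p ∣ (centralizer (D : Set G)).relIndex (stabT D l)) :
    ∃ (x : G) (c : ℕ), l (cls k x) ≠ 0 ∧ ¬ p ∣ c ∧
      Nat.card (centralizer {x} : Subgroup G) = Nat.card D * c := by
  obtain ⟨y, hyCF, hyD, hly⟩ := exists_Y hl hD hab hT
  obtain ⟨x, hyx, hlx⟩ := exists_cls_ne (hl.isHomCF hD hab) hyCF hly
  obtain ⟨R, hR⟩ := exists_sylCent p x
  -- `|R| ≤ |D|`
  obtain ⟨c, hc⟩ := hyD x hyx R hR.pgp hR.le
  have h1 : Nat.card R ≤ Nat.card D := by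
    let f : R → D := fun y => ⟨c⁻¹ * y * c, hc y y.2⟩
    refine Nat.card_le_card_of_injective f fun a b hab => ?_
    have h1 : c⁻¹ * (a : G) * c = c⁻¹ * (b : G) * c := congrArg Subtype.val hab
    exact Subtype.ext (mul_left_cancel (mul_right_cancel h1))
  -- `|D| ≤ |R|`
  obtain ⟨x', hx'C, hx'⟩ : ∃ x' ∈ centralizer (D : Set G), cls k x x' ≠ 0 := by
    by_contra hcon
    push Not at hcon
    exact hlx (hl.supp _ hcon)
  have hconj : IsConj x x' := by
    by_contra h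
    exact hx' (if_neg h)
  obtain ⟨g, hg⟩ := isConj_iff.1 hconj.symm
  have h2 : Nat.card D ≤ Nat.card R := by
    have h3 : Nat.card (D.map (MulAut.conj g).toMonoidHom : Subgroup G) = Nat.card D :=
      Nat.card_congr (D.equivMapOfInjective _ (MulAut.conj g).injective).toEquiv.symm
    rw [← h3]
    refine hR.card_le (hD.map _) ?_
    rintro _ ⟨d, hd, rfl⟩
    rw [mem_centralizer_singleton_iff]
    change g * d * g⁻¹ * x = x * (g * d * g⁻¹)
    rw [← hg]
    have h4 := mem_centralizer_iff.1 hx'C d hd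
    calc g * d * g⁻¹ * (g * x' * g⁻¹) = g * (d * x') * g⁻¹ := by group
      _ = g * (x' * d) * g⁻¹ := by rw [h4]
      _ = _ := by group
  obtain ⟨m, hm, hcard⟩ := hR.ndvd
  exact ⟨x, m, hlx, hm, by rw [hcard, le_antisymm h1 h2]⟩

omit hp in
theorem lam_cls (χ : Irr G) (x : G) : lam red χ.1 (cls k x) =
    redC red (om χ.1 (ind (ConjClasses.mk x))) := by
  have h1 : cls k x = fun y => ((ind (ConjClasses.mk x) y : ℤ) : k) := by
    funext y
    unfold cls ind
    by_cases hy : IsConj x y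
    · rw [if_pos hy, if_pos (ConjClasses.mk_eq_mk_iff_isConj.mpr hy.symm)]; simp
    · rw [if_neg hy, if_neg (fun h' => hy (ConjClasses.mk_eq_mk_iff_isConj.mp h').symm)]; simp
  rw [h1]
  exact lam_int red χ.2 (isCF_ind _)

omit hp in
/-- `|G| / (q φ(1))` is a unit -/
theorem X_ne_zero {l : (G → k) → k} (φ : Irr G) (hφ : InL red l φ.1) {q : ℕ} (hq : q ≠ 0)
    (hn : (q : ℂ) * rsum p (fun s => φ.1 s * φ.1 s⁻¹) = Nat.card G) {x : G} {c : ℕ}
    (hx : l (cls k x) ≠ 0) (hc : ¬ p ∣ c)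
    (hcard : Nat.card (centralizer {x} : Subgroup G) = q * c) {X : AA}
    (hX : (X : ℂ) = rsum p (fun s => φ.1 s * φ.1 s⁻¹) / φ.1 1) : red X ≠ 0 := by
  have hφ1 := φ.one_ne_zero
  have hq0 : (q : ℂ) ≠ 0 := by exact_mod_cast hq
  have h1 : lam red φ.1 (cls k x) ≠ 0 := by
    rw [hφ _ (isCF_cls x)]; exact hx
  rw [lam_cls, redC_of_mem red (isIntegral_om φ.2 (isCF_ind _))] at h1
  set W : AA := ⟨om φ.1 (ind (ConjClasses.mk x)), isIntegral_om φ.2 (isCF_ind _)⟩ with hW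
  have h2 : W * (c : AA) = X * ⟨φ.1 x, φ.integral x⟩ := by
    apply Subtype.ext
    push_cast
    change om φ.1 (ind (ConjClasses.mk x)) * (c : ℂ) = (X : ℂ) * φ.1 x
    rw [om_ind φ.2, hX]
    have h3 := class_card_mul x
    rw [hcard] at h3
    have h4 : (Nat.card {y : G // IsConj x y} : ℂ) * (q * c) = Nat.card G := by
      exact_mod_cast h3
    rw [← hn] at h4
    have h5 : (Nat.card {y : G // IsConj x y} : ℂ) * c = rsum p (fun s => φ.1 s * φ.1 s⁻¹) := by
      refine mul_left_cancel₀ hq0 ?_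
      rw [← h4]; ring
    rw [← h5]
    field_simp
  intro hX0
  have h3 := congrArg red h2
  rw [map_mul, map_mul, hX0, zero_mul, map_natCast] at h3
  rcases mul_eq_zero.1 h3 with h4 | h4
  · exact h1 h4
  · exact hc ((CharP.cast_eq_zero_iff k p c).1 h4)

/-- the unit property -/
theorem exists_unit {l : (G → k) → k} (φ : Irr G) (hφ : InL red l φ.1) {q : ℕ} (hq : q ≠ 0)
    (hn : (q : ℂ) * rsum p (fun s => φ.1 s * φ.1 s⁻¹) = Nat.card G) {x : G} {c : ℕ}
    (hx : l (cls k x) ≠ 0) (hc : ¬ p ∣ c)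
    (hcard : Nat.card (centralizer {x} : Subgroup G) = q * c) :
    ∃ a b : ℕ, ¬ p ∣ a ∧ ¬ p ∣ b ∧ (a : ℂ) * Nat.card G = b * (q * φ.1 1) := by
  obtain ⟨X, hX, -⟩ := exists_X p red φ φ
  have h0 := X_ne_zero red φ hφ hq hn hx hc hcard hX
  obtain ⟨d, hd, hd1⟩ := φ.exists_deg
  have hq0 : (q : ℂ) ≠ 0 := by exact_mod_cast hq
  have hd0 : (d : ℂ) ≠ 0 := by exact_mod_cast hd.ne'
  have hX2 : (X : ℂ) = Nat.card G / (q * d) := by
    rw [hX, ← hn, hd1]
    field_simp
  have h2 : IsIntegral ℤ ((algebraMap ℚ ℂ) ((Nat.card G : ℚ) / (q * d))) := by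
    have : (algebraMap ℚ ℂ) ((Nat.card G : ℚ) / (q * d)) = (X : ℂ) := by
      rw [hX2]; simp
    rw [this]; exact X.2
  rw [isIntegral_algebraMap_iff (algebraMap ℚ ℂ).injective] at h2
  obtain ⟨b, hb⟩ := IsIntegrallyClosed.isIntegral_iff.1 h2
  have hb2 : (b : ℂ) = X := by
    rw [hX2]
    have := congrArg (algebraMap ℚ ℂ) hb
    simpa using this
  have hb3 : (b : ℂ) * (q * d) = Nat.card G := by
    rw [hb2, hX2]; field_simp
  have hb4 : b * (q * d) = (Nat.card G : ℤ) := by exact_mod_cast hb3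
  have hbpos : 0 ≤ b := by
    by_contra hneg
    push Not at hneg
    have h5 : (0 : ℤ) < (q * d : ℤ) := by
      have : 0 < q * d := Nat.mul_pos (Nat.pos_of_ne_zero hq) hd
      exact_mod_cast this
    have h6 : (0 : ℤ) ≤ (Nat.card G : ℤ) := by positivity
    nlinarith
  obtain ⟨b, rfl⟩ := Int.eq_ofNat_of_zero_le hbpos
  refine ⟨1, b, ?_, ?_, ?_⟩
  · exact hp.out.one_lt.ne' ∘ Nat.dvd_one.1
  · intro hpb
    apply h0
    have h7 : X = (b : AA) := by
      apply Subtype.ext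
      rw [← hb2]
      push_cast
      rfl
    rw [h7, map_natCast]
    exact (CharP.cast_eq_zero_iff k p b).2 hpb
  · rw [hd1, ← hb3]
    push_cast
    ring

/-- two characters of a block of defect `D` with `q rsum |φ|² = |G|` are not orthogonal on the
regular elements -/
theorem not_orth {l : (G → k) → k} (φ φ' : Irr G) (hφ : InL red l φ.1) (hφ' : InL red l φ'.1)
    {q : ℕ} (hq : q ≠ 0)
    (hn : (q : ℂ) * rsum p (fun s => φ.1 s * φ.1 s⁻¹) = Nat.card G) {x : G} {c : ℕ}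
    (hx : l (cls k x) ≠ 0) (hc : ¬ p ∣ c)
    (hcard : Nat.card (centralizer {x} : Subgroup G) = q * c) :
    rsum p (fun s => φ'.1 s * φ.1 s⁻¹) ≠ 0 := by
  intro h0
  obtain ⟨X, hX, hX2⟩ := exists_X p red φ φ
  obtain ⟨X', hX', hX2'⟩ := exists_X p red φ φ'
  have h1 := X_ne_zero red φ hφ hq hn hx hc hcard hX
  have h2 : X' = 0 := by
    apply Subtype.ext
    rw [hX', h0, zero_div]
    rfl
  apply h1
  have hz : IsCF (fun s : G => if ¬ p ∣ orderOf s then red ⟨φ.1 s⁻¹, φ.integral _⟩ else 0) := by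
    intro t x
    have h1 : orderOf (t * x * t⁻¹) = orderOf x := P179C.orderOf_conj t x
    have h2 : (t * x * t⁻¹)⁻¹ = t * x⁻¹ * t⁻¹ := by group
    simp only [h1, h2, φ.conj]
  rw [hX2, hφ _ hz, ← hφ' _ hz, ← hX2', h2, map_zero]

end Unit

end P179N
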