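import Vale.Agent.P179.H905.ThmN1

/-!
# Theorem N, part 2: the projection matrix
-/

namespace P179N

open Subgroup Finset P179H524 P179C P179A P179P P179Y

open scoped Classical

section Proj

variable {k : Type*} [Field k] (p : ℕ) [hp : Fact p.Prime] [CharP k p]
  (red : AA →+* k) {G : Type} [Group G] [Fintype G]

omit hp in
theorem rsum_inv (f : G → ℂ) : rsum p (fun t => f t⁻¹) = rsum p f := by
  rw [rsum_eq, rsum_eq, Finset.sum_filter, Finset.sum_filter]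
  refine Fintype.sum_equiv (Equiv.inv G) _ _ fun x => ?_
  simp only [Equiv.inv_apply, orderOf_inv]

omit hp in
theorem rsum_add (f g : G → ℂ) : rsum p (fun t => f t + g t) = rsum p f + rsum p g := by
  rw [rsum_eq, rsum_eq, rsum_eq, ← Finset.sum_add_distrib]

omit hp in
theorem rsum_mul_left (c : ℂ) (f : G → ℂ) : rsum p (fun t => c * f t) = c * rsum p f := by
  rw [rsum_eq, rsum_eq, Finset.mul_sum]

omit hp in
theorem rsum_sum {ι : Type*} (s : Finset ι) (f : ι → G → ℂ) :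
    rsum p (fun t => ∑ i ∈ s, f i t) = ∑ i ∈ s, rsum p (f i) := by
  simp only [rsum_eq]
  rw [Finset.sum_comm]

omit hp in
theorem rsum_congr {f g : G → ℂ} (h : ∀ t, ¬ p ∣ orderOf t → f t = g t) : rsum p f = rsum p g := by
  rw [rsum_eq, rsum_eq]
  exact Finset.sum_congr rfl fun t ht => h t (mem_filter.1 ht).2

omit hp in
theorem conj_rsum (f : G → ℂ) :
    (starRingEnd ℂ) (rsum p f) = rsum p (fun t => (starRingEnd ℂ) (f t)) := by
  rw [rsum_eq, rsum_eq, map_sum]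

/-- the matrix of the projection onto the functions supported on the regular elements -/
noncomputable def Pm (ψ χ : Irr G) : ℂ := (Fintype.card G : ℂ)⁻¹ * rsum p (fun s => ψ.1 s * χ.1 s⁻¹)

omit hp in
theorem Pm_conj (ψ χ : Irr G) : (starRingEnd ℂ) (Pm p ψ χ) = Pm p χ ψ := by
  unfold Pm
  rw [map_mul, map_inv₀, Complex.conj_natCast, conj_rsum]
  congr 1
  refine rsum_congr p fun t _ => ?_
  rw [map_mul, ← ψ.inv_eq_conj, ← χ.inv_eq_conj, inv_inv, mul_comm]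

/-- the characters in `l` -/
abbrev LL (red : AA →+* k) (l : (G → k) → k) : Type := {χ : Irr G // InL red l χ.1}

theorem expand_reg {l : (G → k) → k} (ψ : Irr G) (hψ : InL red l ψ.1) {x : G}
    (hx : ¬ p ∣ orderOf x) : ψ.1 x = ∑ χ : LL red l, Pm p ψ χ.1 * χ.1.1 x := by
  let f : G → ℂ := fun g => if ¬ p ∣ orderOf g then ψ.1 g else 0
  have hf : IsCF f := by
    intro t y
    have h1 : orderOf (t * y * t⁻¹) = orderOf y := P179C.orderOf_conj t y
    simp only [f, h1, ψ.conj]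
  have h1 := cf_expand hf x
  have h2 : f x = ψ.1 x := if_pos hx
  rw [← h2, h1]
  have h3 : ∀ χ : Irr G, ((Fintype.card G : ℂ)⁻¹ * ∑ g : G, f g * χ.1 g⁻¹) = Pm p ψ χ := by
    intro χ
    unfold Pm
    rw [rsum_eq, Finset.sum_filter]
    congr 1
    refine Finset.sum_congr rfl fun g _ => ?_
    simp only [f]
    split_ifs
    · rw [zero_mul]
    · rfl
  rw [Finset.sum_congr rfl fun χ _ => by rw [h3 χ]]
  rw [← Finset.sum_subtype (p := fun χ : Irr G => InL red l χ.1)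
    (univ.filter fun χ : Irr G => InL red l χ.1) (fun χ => by simp)
    (fun χ => Pm p ψ χ * χ.1 x), Finset.sum_filter]
  refine Finset.sum_congr rfl fun χ _ => ?_
  split_ifs with h
  · rfl
  · have h4 : Pm p ψ χ = 0 := by
      rw [← Pm_conj]
      unfold Pm
      rw [rsum_orth_of_inL p red χ ψ hψ h, mul_zero, map_zero]
    rw [h4, zero_mul]

theorem Pm_idem {l : (G → k) → k} (ψ ζ : LL red l) :
    ∑ χ : LL red l, Pm p ψ.1 χ.1 * Pm p χ.1 ζ.1 = Pm p ψ.1 ζ.1 := by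
  have h1 : ∀ χ : LL red l, Pm p ψ.1 χ.1 * Pm p χ.1 ζ.1 =
      (Fintype.card G : ℂ)⁻¹ * rsum p (fun s => Pm p ψ.1 χ.1 * (χ.1.1 s * ζ.1.1 s⁻¹)) := by
    intro χ
    rw [rsum_mul_left]
    conv_lhs => rw [Pm.eq_def p χ.1 ζ.1]
    ring
  rw [Finset.sum_congr rfl fun χ _ => h1 χ, ← Finset.mul_sum, ← rsum_sum]
  conv_rhs => rw [Pm.eq_def]
  congr 1
  refine rsum_congr p fun s hs => ?_
  rw [expand_reg p red ψ.1 ψ.2 hs, Finset.sum_mul]
  exact Finset.sum_congr rfl fun χ _ => by ring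

theorem exists_trace (l : (G → k) → k) : ∃ n : ℕ, ∑ ψ : LL red l, Pm p ψ.1 ψ.1 = n := by
  let M : Matrix (LL red l) (LL red l) ℂ := fun ψ χ => Pm p ψ.1 χ.1
  have hM : M * M = M := by
    ext ψ ζ
    rw [Matrix.mul_apply]
    exact Pm_idem p red ψ ζ
  obtain ⟨n, hn⟩ := trace_nat_of_idem (Matrix.toLin' M) (by
    rw [Module.End.mul_eq_comp, ← Matrix.toLin'_mul, hM])
  refine ⟨n, ?_⟩
  rw [← hn, Matrix.trace_toLin'_eq]
  rfl

omit hp [CharP k p] in
/-- the distance of `ψ` and `c χ` on the regular elements -/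
theorem dist_eq {q : ℕ} (hq : q ≠ 0) (ψ χ : Irr G)
    (hψ : (q : ℂ) * rsum p (fun s => ψ.1 s * ψ.1 s⁻¹) = Nat.card G)
    (hχ : (q : ℂ) * rsum p (fun s => χ.1 s * χ.1 s⁻¹) = Nat.card G) :
    (Fintype.card G : ℝ)⁻¹ * ∑ s ∈ univ.filter (fun s : G => ¬ p ∣ orderOf s),
      Complex.normSq (ψ.1 s - (q * Pm p ψ χ) * χ.1 s) =
      (q : ℝ)⁻¹ - q * Complex.normSq (Pm p ψ χ) := by
  have hq0 : (q : ℂ) ≠ 0 := by exact_mod_cast hq
  have hG0 : (Fintype.card G : ℂ) ≠ 0 := by exact_mod_cast Fintype.card_ne_zero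
  have hPψ : Pm p ψ ψ = (q : ℂ)⁻¹ := by
    unfold Pm
    rw [Nat.card_eq_fintype_card] at hψ
    rw [← hψ]
    rw [← hψ] at hG0
    have := right_ne_zero_of_mul hG0
    field_simp
  have hPχ : Pm p χ χ = (q : ℂ)⁻¹ := by
    unfold Pm
    rw [Nat.card_eq_fintype_card] at hχ
    rw [← hχ]
    rw [← hχ] at hG0
    have := right_ne_zero_of_mul hG0
    field_simp
  set c : ℂ := q * Pm p ψ χ with hc
  have h1 : ∀ s : G, ((Complex.normSq (ψ.1 s - c * χ.1 s) : ℝ) : ℂ) =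
      (ψ.1 s * ψ.1 s⁻¹ + (-(starRingEnd ℂ) c) * (ψ.1 s * χ.1 s⁻¹)) +
      ((-c) * (χ.1 s * ψ.1 s⁻¹) + (c * (starRingEnd ℂ) c) * (χ.1 s * χ.1 s⁻¹)) := by
    intro s
    rw [← Complex.mul_conj, map_sub, map_mul, ← ψ.inv_eq_conj, ← χ.inv_eq_conj]
    ring
  apply Complex.ofReal_injective
  push_cast
  simp only [h1]
  rw [← rsum_eq, rsum_add, rsum_add, rsum_add, rsum_mul_left, rsum_mul_left, rsum_mul_left]
  have e1 : ∀ a b : Irr G, rsum p (fun s => a.1 s * b.1 s⁻¹) = Fintype.card G * Pm p a b := by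
    intro a b
    unfold Pm
    rw [mul_inv_cancel_left₀ hG0]
  rw [e1, e1, e1, e1, hPψ, hPχ, ← Pm_conj p ψ χ]
  have e2 : (starRingEnd ℂ) c = q * (starRingEnd ℂ) (Pm p ψ χ) := by
    rw [hc, map_mul, Complex.conj_natCast]
  rw [e2, hc, ← Complex.mul_conj]
  field_simp
  ring

/-- the last step of Theorem N -/
theorem agree {l : (G → k) → k} {q : ℕ} (hq : q ≠ 0)
    (hr : ∀ ψ : LL red l, (q : ℂ) * rsum p (fun s => ψ.1.1 s * ψ.1.1 s⁻¹) = Nat.card G)
    (hne : Nonempty (LL red l)) (hk : Nat.card (LL red l) ≤ q) :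
    Nat.card (LL red l) = q ∧ ∀ ψ χ : LL red l, ∀ s, ¬ p ∣ orderOf s → ψ.1.1 s = χ.1.1 s := by
  have hq0 : (q : ℂ) ≠ 0 := by exact_mod_cast hq
  have hqr : (q : ℝ) ≠ 0 := by exact_mod_cast hq
  have hqp : (0 : ℝ) < q := by exact_mod_cast Nat.pos_of_ne_zero hq
  have hG0 : (Fintype.card G : ℂ) ≠ 0 := by exact_mod_cast Fintype.card_ne_zero
  have hP : ∀ ψ : LL red l, Pm p ψ.1 ψ.1 = (q : ℂ)⁻¹ := by
    intro ψ
    have h1 := hr ψ
    unfold Pm
    rw [Nat.card_eq_fintype_card] at h1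
    rw [← h1] at hG0 ⊢
    have := right_ne_zero_of_mul hG0
    field_simp
  -- the number of characters
  obtain ⟨n, hn⟩ := exists_trace p red l
  have hcard : Nat.card (LL red l) = q := by
    rw [Finset.sum_congr rfl fun ψ _ => hP ψ, Finset.sum_const, nsmul_eq_mul, Finset.card_univ,
      ← Nat.card_eq_fintype_card] at hn
    have h1 : (Nat.card (LL red l) : ℂ) = n * q := by
      rw [← hn]; field_simp
    have h2 : Nat.card (LL red l) = n * q := by exact_mod_cast h1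
    have h3 : 0 < Nat.card (LL red l) := Nat.card_pos
    rcases Nat.lt_or_ge n 2 with h4 | h4
    · interval_cases n
      · omega
      · omega
    · have h5 : 2 * q ≤ n * q := Nat.mul_le_mul_right q h4
      omega
  refine ⟨hcard, fun ψ χ s hs => ?_⟩
  -- the entries of the matrix
  have hle : ∀ ψ χ : LL red l, Complex.normSq (Pm p ψ.1 χ.1) ≤ ((q : ℝ)⁻¹) ^ 2 := by
    intro ψ χ
    have h1 := dist_eq p hq ψ.1 χ.1 (hr ψ) (hr χ)
    have h2 : (0 : ℝ) ≤ (q : ℝ)⁻¹ - q * Complex.normSq (Pm p ψ.1 χ.1) := by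
      rw [← h1]
      exact mul_nonneg (by positivity) (Finset.sum_nonneg fun s _ => Complex.normSq_nonneg _)
    have h3 : q * Complex.normSq (Pm p ψ.1 χ.1) ≤ (q : ℝ)⁻¹ := by linarith
    calc Complex.normSq (Pm p ψ.1 χ.1) = (q : ℝ)⁻¹ * (q * Complex.normSq (Pm p ψ.1 χ.1)) := by
          field_simp
      _ ≤ (q : ℝ)⁻¹ * (q : ℝ)⁻¹ := mul_le_mul_of_nonneg_left h3 (by positivity)
      _ = _ := by ring
  have hrow : ∑ χ : LL red l, Complex.normSq (Pm p ψ.1 χ.1) = (q : ℝ)⁻¹ := by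
    have h1 := Pm_idem p red ψ ψ
    rw [hP] at h1
    apply Complex.ofReal_injective
    push_cast
    rw [← h1]
    refine Finset.sum_congr rfl fun χ _ => ?_
    rw [← Pm_conj p ψ.1 χ.1, Complex.mul_conj]
  have heq : Complex.normSq (Pm p ψ.1 χ.1) = ((q : ℝ)⁻¹) ^ 2 := by
    refine le_antisymm (hle ψ χ) ?_
    by_contra hlt
    push Not at hlt
    have h1 : ∑ χ : LL red l, Complex.normSq (Pm p ψ.1 χ.1) < ∑ _χ : LL red l, ((q : ℝ)⁻¹) ^ 2 :=
      Finset.sum_lt_sum (fun χ _ => hle ψ χ) ⟨χ, mem_univ _, hlt⟩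
    rw [hrow, Finset.sum_const, Finset.card_univ, ← Nat.card_eq_fintype_card, hcard,
      nsmul_eq_mul] at h1
    have h2 : (q : ℝ) * ((q : ℝ)⁻¹) ^ 2 = (q : ℝ)⁻¹ := by field_simp
    rw [h2] at h1
    exact lt_irrefl _ h1
  have hdist := dist_eq p hq ψ.1 χ.1 (hr ψ) (hr χ)
  have hz : (q : ℝ)⁻¹ - q * Complex.normSq (Pm p ψ.1 χ.1) = 0 := by
    rw [heq]; field_simp; ring
  rw [hz] at hdist
  have hGr : ((Fintype.card G : ℝ)⁻¹) ≠ 0 := by
    have : (Fintype.card G : ℝ) ≠ 0 := by exact_mod_cast Fintype.card_ne_zero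
    positivity
  have hsum := (mul_eq_zero.1 hdist).resolve_left hGr
  rw [Finset.sum_eq_zero_iff_of_nonneg (fun s _ => Complex.normSq_nonneg _)] at hsum
  have hall : ∀ s, ¬ p ∣ orderOf s → ψ.1.1 s = (q * Pm p ψ.1 χ.1) * χ.1.1 s := by
    intro s hs
    have h1 := hsum s (mem_filter.2 ⟨mem_univ _, hs⟩)
    rw [Complex.normSq_eq_zero] at h1
    exact sub_eq_zero.1 h1
  have h1 : ¬ p ∣ orderOf (1 : G) := by
    rw [orderOf_one]; exact hp.out.one_lt.ne' ∘ Nat.dvd_one.1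
  have h2 := hall 1 h1
  obtain ⟨d, hd, hd1⟩ := ψ.1.exists_deg
  obtain ⟨e, he, he1⟩ := χ.1.exists_deg
  set c : ℂ := q * Pm p ψ.1 χ.1 with hc
  have hcn : Complex.normSq c = 1 := by
    rw [hc, map_mul, heq, Complex.normSq_natCast]
    field_simp
  have he0 : (e : ℂ) ≠ 0 := by exact_mod_cast he.ne'
  have hcr : c = (((d : ℝ) / e : ℝ) : ℂ) := by
    rw [hd1, he1] at h2
    push_cast
    rw [eq_div_iff he0, ← h2]
  have hc1 : c = 1 := by
    rw [hcr, Complex.normSq_ofReal] at hcn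
    rw [hcr]
    have h3 : (0 : ℝ) < (d : ℝ) / e := by positivity
    have h4 : (d : ℝ) / e = 1 := by nlinarith
    rw [h4]; simp
  rw [hall s hs, hc1, one_mul]

end Proj

end P179N
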