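import Vale.Agent.P179.H905.ThmN2

/-!
# Theorem N, part 3: central defect groups
-/

namespace P179N

open Subgroup Finset P179H524 P179C P179A P179P P179Y

open P179X (pp)

open scoped Classical

section Central

variable {k : Type*} [Field k] {p : ℕ} [hp : Fact p.Prime] [CharP k p]
  (red : AA →+* k) {G : Type} [Group G] [Fintype G] {D : Subgroup G} {l : (G → k) → k}

omit hp [Fintype G] in
theorem isPGroup_zpowers_of {x : G} (hx : ∃ n : ℕ, x ^ p ^ n = 1) : IsPGroup p (zpowers x) := by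
  rintro ⟨y, hy⟩
  obtain ⟨j, rfl⟩ := mem_zpowers_iff.1 hy
  obtain ⟨n, hn⟩ := hx
  refine ⟨n, Subtype.ext ?_⟩
  change (x ^ j) ^ p ^ n = 1
  rw [← zpow_natCast, ← zpow_mul, mul_comm, zpow_mul, zpow_natCast, hn, one_zpow]

/-- the characters of `l` vanish at the elements whose `p`-part is not in the (central) defect
group -/
theorem vanish (hl : BP p D l) (hcen : ∀ d ∈ D, ∀ x : G, x * d = d * x) (χ : Irr G)
    (hχ : InL red l χ.1) (g : G) (hg : pp p g ∉ D) : χ.1 g = 0 := by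
  obtain ⟨a, ha, hla, hx⟩ := hl.dfct
  have hC : ∀ x : G, x ∈ centralizer (D : Set G) := fun x => by
    rw [mem_centralizer_iff]
    intro d hd
    exact (hcen d hd x).symm
  have haCF : IsCF a := fun g x => ha.1 g (hC g) x
  set u := pp p g with hu
  have hup : ∃ n : ℕ, u ^ p ^ n = 1 := pp_pow_eq_one g
  have hH : ∀ x, x ∈ (centralizer {u} : Subgroup G) ↔ x * u = u * x := fun x => by
    rw [mem_centralizer_singleton_iff]
  have hs : pr p g ∈ (centralizer {u} : Subgroup G) := (hH _).2 (pp_comm g).symm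
  have hsr : ¬ p ∣ orderOf (⟨pr p g, hs⟩ : (centralizer {u} : Subgroup G)) := by
    rw [← Subgroup.orderOf_coe]; exact pr_regular' g
  have h1 := KK_eq' p red u hup (centralizer {u}) hH l ⟨pr p g, hs⟩ ⟨pr p g, hs⟩ hsr hsr
  have h2 : u * ((⟨pr p g, hs⟩ : (centralizer {u} : Subgroup G)) : G) = g := pp_mul_pr g
  rw [h2] at h1
  have h3 : ∀ ψ : Irr (centralizer {u} : Subgroup G), ¬ IndL red (centralizer {u}) l ψ.1 := by
    intro ψ hψ
    have h4 := hψ a haCF
    have h5 : (fun h : (centralizer {u} : Subgroup G) => a h) = 0 := by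
      funext h
      by_contra hne
      apply hg
      refine hx h hne (zpowers u) (isPGroup_zpowers_of hup) ?_ (fun y _ => hC y) (mem_zpowers u)
      rw [zpowers_le, mem_centralizer_singleton_iff]
      exact ((hH h).1 h.2).symm
    rw [h5] at h4
    apply hla
    rw [← h4]
    have h6 := lam_smul red ψ.1 (0 : k) (0 : (centralizer {u} : Subgroup G) → k)
    rw [zero_smul, zero_mul] at h6
    exact h6
  rw [Finset.sum_eq_zero (fun ψ _ => if_neg (h3 ψ))] at h1
  unfold KK at h1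
  have h7 : ∀ ψ : Irr G, (if InL red l ψ.1 then ψ.1 g * ψ.1 g⁻¹ else 0) =
      ((if InL red l ψ.1 then Complex.normSq (ψ.1 g) else 0 : ℝ) : ℂ) := by
    intro ψ
    split_ifs
    · rw [ψ.inv_eq_conj, Complex.mul_conj]
    · simp
  rw [Finset.sum_congr rfl fun ψ _ => h7 ψ, ← Complex.ofReal_sum, Complex.ofReal_eq_zero,
    Finset.sum_eq_zero_iff_of_nonneg (fun ψ _ => by
      split_ifs
      · exact Complex.normSq_nonneg _
      · exact le_refl _)] at h1
  have h8 := h1 χ (mem_univ _)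
  rw [if_pos hχ, Complex.normSq_eq_zero] at h8
  exact h8

/-- a sum over the elements whose `p`-part lies in `D` -/
theorem sum_split (hD : IsPGroup p D) (hcen : ∀ d ∈ D, ∀ x : G, x * d = d * x) (F : G → ℂ)
    (hF : ∀ g, pp p g ∉ D → F g = 0) :
    ∑ g, F g = ∑ z : D, rsum p (fun s : G => F (z * s)) := by
  simp only [rsum_eq]
  rw [← Finset.sum_product']
  symm
  have h1 : ∑ g, F g = ∑ g ∈ univ.filter (fun g : G => pp p g ∈ D), F g := by
    rw [Finset.sum_filter]
    refine Finset.sum_congr rfl fun g _ => ?_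
    split_ifs with h
    · rfl
    · exact hF g h
  rw [h1]
  have hpp : ∀ (z : D) (s : G), ¬ p ∣ orderOf s → pp p ((z : G) * s) = z := by
    intro z s hs
    refine pp_eq (hcen z z.2 s).symm ?_ hs
    obtain ⟨n, hn⟩ := hD z
    exact ⟨n, by simpa using congrArg Subtype.val hn⟩
  refine Finset.sum_bij (fun x _ => (x.1 : G) * x.2) ?_ ?_ ?_ ?_
  · rintro ⟨z, s⟩ hx
    rw [Finset.mem_product, mem_filter] at hx
    rw [mem_filter]
    exact ⟨mem_univ _, by dsimp only; rw [hpp z s hx.2.2]; exact z.2⟩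
  · rintro ⟨z, s⟩ hx ⟨z', s'⟩ hx' h
    rw [Finset.mem_product, mem_filter] at hx hx'
    dsimp only at h hx hx'
    have h2 := hpp z s hx.2.2
    rw [h, hpp z' s' hx'.2.2] at h2
    have h3 : z = z' := Subtype.ext h2.symm
    subst h3
    rw [mul_left_cancel h]
  · intro g hg
    rw [mem_filter] at hg
    exact ⟨(⟨pp p g, hg.2⟩, pr p g), by
      rw [Finset.mem_product, mem_filter]
      exact ⟨mem_univ _, mem_univ _, pr_regular' g⟩, pp_mul_pr g⟩
  · intro x _
    rfl

/-- the central character on `D` -/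
theorem exists_omega (hD : IsPGroup p D) (hcen : ∀ d ∈ D, ∀ x : G, x * d = d * x) (χ : Irr G) :
    ∃ ω : D →* ℂ, (∀ (z : D) (t : G), χ.1 (z * t) = ω z * χ.1 t) ∧
      ∀ z, ω z * (starRingEnd ℂ) (ω z) = 1 := by
  have h1 := χ.one_ne_zero
  have h2 : ∀ z : D, ∃ c : ℂ, (∃ n : ℕ, c ^ p ^ n = 1) ∧ ∀ t : G, χ.1 (z * t) = c * χ.1 t := by
    intro z
    obtain ⟨n, hn⟩ := hD z
    obtain ⟨c, hc, hct⟩ := central_scalar χ (z : G) (hcen z z.2)
      (N := p ^ n) (by simpa using congrArg Subtype.val hn)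
    exact ⟨c, ⟨n, hc⟩, fun t => by simpa using hct 1 t⟩
  choose c hc hct using h2
  refine ⟨{ toFun := c, map_one' := ?_, map_mul' := ?_ }, hct, ?_⟩
  · have h3 := hct 1 1
    rw [OneMemClass.coe_one, one_mul] at h3
    refine mul_right_cancel₀ h1 ?_
    rw [← h3, one_mul]
  · intro a b
    refine mul_right_cancel₀ h1 ?_
    rw [← hct, mul_assoc, ← hct, ← hct, Subgroup.coe_mul, mul_assoc]
  · intro z
    obtain ⟨n, hn⟩ := hc z
    have h3 : ‖c z‖ = 1 :=
      Complex.norm_eq_one_of_pow_eq_one hn (pow_pos hp.out.pos n).ne'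
    change c z * (starRingEnd ℂ) (c z) = 1
    rw [Complex.mul_conj, Complex.normSq_eq_norm_sq, h3]
    simp

theorem row_central (hl : BP p D l) (hD : IsPGroup p D)
    (hcen : ∀ d ∈ D, ∀ x : G, x * d = d * x) (ψ χ : Irr G) (hψ : InL red l ψ.1)
    {ω ω' : D →* ℂ} (h1 : ∀ (z : D) (t : G), ψ.1 (z * t) = ω z * ψ.1 t)
    (h2 : ∀ (z : D) (t : G), χ.1 (z * t) = ω' z * χ.1 t) :
    ∑ g : G, ψ.1 g * χ.1 g⁻¹ =
      (∑ z : D, ω z * (starRingEnd ℂ) (ω' z)) * rsum p (fun s => ψ.1 s * χ.1 s⁻¹) := by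
  rw [sum_split hD hcen _ (fun g hg => by rw [vanish red hl hcen ψ hψ g hg, zero_mul]),
    Finset.sum_mul]
  refine Finset.sum_congr rfl fun z _ => ?_
  rw [← rsum_mul_left]
  congr 1
  funext s
  rw [χ.inv_eq_conj, h1, h2, map_mul, ← χ.inv_eq_conj]
  ring

/-- **Theorem N** for central defect groups -/
theorem thmN_central [IsAlgClosed k] (hl : BP p D l) (hD : IsPGroup p D)
    (hcen : ∀ d ∈ D, ∀ x : G, x * d = d * x) : ∃ φ, ND red p l (Nat.card D) φ := by
  have hC : ∀ x : G, x ∈ centralizer (D : Set G) := fun x => by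
    rw [mem_centralizer_iff]
    intro d hd
    exact (hcen d hd x).symm
  have hab : D ≤ centralizer (D : Set G) := fun x _ => hC x
  have hT : ¬ p ∣ (centralizer (D : Set G)).relIndex (stabT D l) := by
    have : (centralizer (D : Set G)).relIndex (stabT D l) = 1 := by
      rw [relIndex_eq_one]
      exact fun x _ => hC x
    rw [this]
    exact hp.out.one_lt.ne' ∘ Nat.dvd_one.1
  obtain ⟨x, c, hx, hc, hcard⟩ := exists_cls hl hD hab hT
  obtain ⟨φ, hφ⟩ := exists_inL p red (hl.isHomCF hD hab)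
  have hq : Nat.card D ≠ 0 := Nat.card_pos.ne'
  choose ω hω hω1 using exists_omega (D := D) hD hcen
  have hsum : ∀ χ : Irr G, ∑ z : D, ω χ z * (starRingEnd ℂ) (ω χ z) = Nat.card D := by
    intro χ
    rw [Finset.sum_congr rfl fun z _ => hω1 χ z, Finset.sum_const, Finset.card_univ,
      Nat.card_eq_fintype_card]
    simp
  have hr : ∀ ψ : LL red l, (Nat.card D : ℂ) * rsum p (fun s => ψ.1.1 s * ψ.1.1 s⁻¹) =
      Nat.card G := by
    intro ψ
    have h1 := row_central red hl hD hcen ψ.1 ψ.1 ψ.2 (hω ψ.1) (hω ψ.1)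
    rw [row_orth, if_pos rfl, hsum] at h1
    rw [← h1, Nat.card_eq_fintype_card (α := G)]
  have hk : Nat.card (LL red l) ≤ Nat.card D := by
    have hinj : Function.Injective (fun ψ : LL red l => ω ψ.1) := by
      intro ψ χ h
      by_contra hne
      have h1 := row_central red hl hD hcen ψ.1 χ.1 ψ.2 (hω ψ.1) (hω χ.1)
      have h2 : ω ψ.1 = ω χ.1 := h
      rw [row_orth, if_neg (fun h => hne (Subtype.ext h)), h2, hsum] at h1
      have h3 : rsum p (fun s => ψ.1.1 s * χ.1.1 s⁻¹) = 0 := by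
        rcases mul_eq_zero.1 h1.symm with h4 | h4
        · exact absurd (by exact_mod_cast h4) hq
        · exact h4
      exact not_orth red χ.1 ψ.1 χ.2 ψ.2 hq (hr χ) hx hc hcard h3
    have h1 := (linearIndependent_monoidHom D ℂ).comp _ hinj
    have h2 := h1.fintype_card_le_finrank
    rw [Module.finrank_fintype_fun_eq_card] at h2
    rw [Nat.card_eq_fintype_card, Nat.card_eq_fintype_card]
    exact h2
  obtain ⟨h1, h2⟩ := agree p red hq hr ⟨⟨φ, hφ⟩⟩ hk
  refine ⟨φ.1, φ.2, hφ, fun χ hχ s hs => h2 ⟨χ, hχ⟩ ⟨φ, hφ⟩ s hs, h1, hr ⟨φ, hφ⟩, ?_⟩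
  exact exists_unit red φ hφ hq (hr ⟨φ, hφ⟩) hx hc hcard

end Central

end P179N
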