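import Vale.Agent.P179.H905.ThmN3

/-!
# Theorem N, part 4: Bessel's inequality
-/

namespace P179N

open Subgroup Finset P179H524 P179C P179A P179P P179Y

open P179X (pp)

open scoped Classical

/-- Bessel's inequality -/
theorem bessel {ι I : Type} [Fintype ι] [Fintype I] (w : ι → I → ℂ) (n : ι → ℝ)
    (hn : ∀ i, 0 < n i) (h1 : ∀ i, ∑ x, w i x * (starRingEnd ℂ) (w i x) = n i)
    (h2 : ∀ i j, i ≠ j → ∑ x, w i x * (starRingEnd ℂ) (w j x) = 0) (x : I) :
    ∑ i, Complex.normSq (w i x) / n i ≤ 1 := by
  -- `0 ≤ ‖e_x - ∑ conj(w i x) / n i • w i‖²`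
  let c : ι → ℂ := fun i => (starRingEnd ℂ) (w i x) / n i
  let y : I → ℂ := fun t => (if t = x then 1 else 0) - ∑ i, c i * w i t
  have hy : ∑ t, y t * (starRingEnd ℂ) (y t) = 1 - ∑ i, ((Complex.normSq (w i x) / n i : ℝ) : ℂ) := by
    have e1 : ∀ t, y t * (starRingEnd ℂ) (y t) =
        ((if t = x then 1 else 0) - (if t = x then (∑ i, (starRingEnd ℂ) (c i) *
          (starRingEnd ℂ) (w i t)) else 0) - (if t = x then ∑ i, c i * w i t else 0)) +
        ∑ i, ∑ j, c i * (starRingEnd ℂ) (c j) * (w i t * (starRingEnd ℂ) (w j t)) := by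
      intro t
      have e2 : (∑ i, c i * w i t) * (∑ j, (starRingEnd ℂ) (c j) * (starRingEnd ℂ) (w j t)) =
          ∑ i, ∑ j, c i * (starRingEnd ℂ) (c j) * (w i t * (starRingEnd ℂ) (w j t)) := by
        rw [Finset.sum_mul_sum]
        exact Finset.sum_congr rfl fun i _ => Finset.sum_congr rfl fun j _ => by ring
      rw [← e2]
      simp only [y, map_sub, map_sum, map_mul]
      split_ifs
      · rw [map_one]; ring
      · rw [map_zero]; ring
    rw [Finset.sum_congr rfl fun t _ => e1 t, Finset.sum_add_distrib, Finset.sum_sub_distrib,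
      Finset.sum_sub_distrib, Finset.sum_ite_eq', if_pos (mem_univ _), Finset.sum_ite_eq',
      if_pos (mem_univ _), Finset.sum_ite_eq', if_pos (mem_univ _)]
    have e3 : ∑ t, ∑ i, ∑ j, c i * (starRingEnd ℂ) (c j) * (w i t * (starRingEnd ℂ) (w j t)) =
        ∑ i, c i * (starRingEnd ℂ) (c i) * n i := by
      rw [Finset.sum_comm]
      refine Finset.sum_congr rfl fun i _ => ?_
      rw [Finset.sum_comm, Finset.sum_eq_single i]
      · rw [← Finset.mul_sum, h1]
      · intro j _ hj
        rw [← Finset.mul_sum, h2 i j hj.symm, mul_zero]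
      · intro h; exact absurd (mem_univ _) h
    rw [e3]
    have e4 : ∀ i, (n i : ℂ) ≠ 0 := fun i => by exact_mod_cast (hn i).ne'
    have e5 : ∀ i, (starRingEnd ℂ) (c i) * (starRingEnd ℂ) (w i x) =
        ((Complex.normSq (w i x) / n i : ℝ) : ℂ) := by
      intro i
      simp only [c, map_div₀, Complex.conj_conj, Complex.conj_ofReal]
      push_cast
      rw [← Complex.mul_conj]
      ring
    have e6 : ∀ i, c i * w i x = ((Complex.normSq (w i x) / n i : ℝ) : ℂ) := by
      intro i
      simp only [c]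
      push_cast
      rw [← Complex.mul_conj]
      ring
    have e7 : ∀ i, c i * (starRingEnd ℂ) (c i) * n i =
        ((Complex.normSq (w i x) / n i : ℝ) : ℂ) := by
      intro i
      simp only [c, map_div₀, Complex.conj_conj, Complex.conj_ofReal]
      push_cast
      rw [← Complex.mul_conj]
      have := e4 i
      field_simp
    simp only [e5, e6, e7]
    ring
  have h3 : (0 : ℝ) ≤ 1 - ∑ i, Complex.normSq (w i x) / n i := by
    have h4 : ((∑ t, Complex.normSq (y t) : ℝ) : ℂ) =
        ((1 - ∑ i, Complex.normSq (w i x) / n i : ℝ) : ℂ) := by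
      push_cast
      push_cast at hy
      rw [← hy]
      exact Finset.sum_congr rfl fun t _ => (Complex.mul_conj _).symm
    rw [← Complex.ofReal_injective h4]
    exact Finset.sum_nonneg fun t _ => Complex.normSq_nonneg _
  linarith

end P179N
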