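import Vale.Agent.P179.H905.ThmN4

/-!
# Theorem N, part 5: the vectors of the central sections
-/

namespace P179N

open Subgroup Finset P179H524 P179C P179A P179P P179Y

open P179X (pp)

open scoped Classical

section Sec

variable {p : ℕ} [hp : Fact p.Prime] {G : Type} [Group G] [Fintype G]

/-- the restriction of `ψ` to the `p`-section of `z` -/
noncomputable def fz (p : ℕ) {G : Type} [Group G] (z : G) (ψ : G → ℂ) : G → ℂ :=
  fun g => if pp p g = z then ψ g else 0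

/-- the vector of the coefficients of `fz` -/
noncomputable def vz (p : ℕ) {G : Type} [Group G] [Fintype G] (z : G) (ψ : G → ℂ) (χ : Irr G) : ℂ :=
  (starRingEnd ℂ) ((Fintype.card G : ℂ)⁻¹ * ∑ g : G, fz p z ψ g * χ.1 g⁻¹)

/-- the norm of `fz` -/
noncomputable def rz (p : ℕ) {G : Type} [Group G] [Fintype G] (z : G) (ψ : G → ℂ) : ℝ :=
  (Fintype.card G : ℝ)⁻¹ * ∑ g : G, Complex.normSq (fz p z ψ g)

theorem fz_isCF {z : G} (hz : ∀ x, x * z = z * x) (ψ : Irr G) : IsCF (fz p z ψ.1) := by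
  intro t g
  unfold fz
  have h1 : pp p (t * g * t⁻¹) = z ↔ pp p g = z := by
    rw [pp_conj]
    constructor
    · intro h
      have h2 : pp p g = t⁻¹ * z * t := by rw [← h]; group
      rw [h2, mul_assoc, ← hz t, inv_mul_cancel_left]
    · intro h
      rw [h, hz t, mul_inv_cancel_right]
  simp only [h1, ψ.conj]

theorem fz_expand {z : G} (hz : ∀ x, x * z = z * x) (ψ : Irr G) (x : G) :
    fz p z ψ.1 x = ∑ χ : Irr G, (starRingEnd ℂ) (vz p z ψ.1 χ) * χ.1 x := by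
  rw [cf_expand (fz_isCF hz ψ) x]
  unfold vz
  simp only [Complex.conj_conj]

omit hp in
theorem vz_eq (z : G) (ψ : G → ℂ) (χ : Irr G) :
    vz p z ψ χ = (Fintype.card G : ℂ)⁻¹ * ∑ g : G, (starRingEnd ℂ) (fz p z ψ g) * χ.1 g := by
  unfold vz
  rw [map_mul, map_inv₀, Complex.conj_natCast, map_sum]
  congr 1
  refine Finset.sum_congr rfl fun g _ => ?_
  rw [map_mul, ← χ.inv_eq_conj, inv_inv]

theorem vz_gram {z z' : G} (hz' : ∀ x, x * z' = z' * x) (ψ : Irr G) :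
    ∑ χ : Irr G, vz p z ψ.1 χ * (starRingEnd ℂ) (vz p z' ψ.1 χ) =
      if z = z' then (rz p z ψ.1 : ℂ) else 0 := by
  have h1 : ∀ χ : Irr G, vz p z ψ.1 χ * (starRingEnd ℂ) (vz p z' ψ.1 χ) =
      (Fintype.card G : ℂ)⁻¹ * ∑ g : G, (starRingEnd ℂ) (fz p z ψ.1 g) *
        ((starRingEnd ℂ) (vz p z' ψ.1 χ) * χ.1 g) := by
    intro χ
    rw [vz_eq z ψ.1 χ, mul_assoc, Finset.sum_mul]
    congr 1
    exact Finset.sum_congr rfl fun g _ => by ring
  rw [Finset.sum_congr rfl fun χ _ => h1 χ, ← Finset.mul_sum, Finset.sum_comm]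
  simp only [← Finset.mul_sum]
  simp only [← fz_expand hz' ψ]
  split_ifs with h
  · subst h
    unfold rz
    push_cast
    congr 1
    refine Finset.sum_congr rfl fun g _ => ?_
    rw [mul_comm, Complex.mul_conj]
  · rw [Finset.sum_eq_zero, mul_zero]
    intro g _
    unfold fz
    by_cases h2 : pp p g = z
    · rw [if_neg (fun h3 => h (h2.symm.trans h3)), mul_zero]
    · rw [if_neg h2, map_zero, zero_mul]

omit hp in
theorem vz_self (z : G) (ψ : Irr G) : vz p z ψ.1 ψ = rz p z ψ.1 := by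
  rw [vz_eq]
  unfold rz
  push_cast
  congr 1
  refine Finset.sum_congr rfl fun g _ => ?_
  rw [← Complex.mul_conj]
  unfold fz
  split_ifs
  · rw [mul_comm]
  · rw [map_zero, mul_zero, zero_mul]

theorem dn_vz {z u : G} (hz : ∀ x, x * z = z * x) (hu : ∃ n : ℕ, u ^ p ^ n = 1)
    (hne : u ≠ z) (H : Subgroup G) (hH : ∀ x, x ∈ H ↔ x * u = u * x) (q : ℕ) (φ : H → ℂ)
    (ψ : Irr G) : ∑ χ : Irr G, dn p H q φ u χ.1 * (starRingEnd ℂ) (vz p z ψ.1 χ) = 0 := by
  have h1 : ∀ χ : Irr G, dn p H q φ u χ.1 * (starRingEnd ℂ) (vz p z ψ.1 χ) =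
      q / Nat.card H * ∑ t ∈ univ.filter (fun t : H => ¬ p ∣ orderOf t),
        φ t⁻¹ * ((starRingEnd ℂ) (vz p z ψ.1 χ) * χ.1 (u * t)) := by
    intro χ
    unfold dn
    rw [rsum_eq, mul_assoc, Finset.sum_mul]
    congr 1
    exact Finset.sum_congr rfl fun t _ => by ring
  rw [Finset.sum_congr rfl fun χ _ => h1 χ, ← Finset.mul_sum, Finset.sum_comm]
  simp only [← Finset.mul_sum]
  simp only [← fz_expand hz ψ]
  rw [Finset.sum_eq_zero, mul_zero]
  intro t ht
  rw [mem_filter] at ht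
  have h2 : pp p (u * (t : G)) = u := by
    refine pp_eq ((hH t).1 t.2).symm hu ?_
    rw [Subgroup.orderOf_coe]; exact ht.2
  unfold fz
  rw [h2, if_neg hne, mul_zero]

theorem rz_central {z : G} (hz : ∀ x, x * z = z * x) (hzp : ∃ n : ℕ, z ^ p ^ n = 1) (ψ : Irr G) :
    ((rz p z ψ.1 : ℝ) : ℂ) = Pm p ψ ψ := by
  unfold rz Pm
  push_cast
  congr 1
  obtain ⟨n, hn⟩ := hzp
  obtain ⟨c, hc, hct⟩ := central_scalar ψ z hz hn
  have hc1 : ‖c‖ = 1 := Complex.norm_eq_one_of_pow_eq_one hc (pow_pos hp.out.pos n).ne'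
  have h1 : ∀ s : G, Complex.normSq (ψ.1 (z * s)) = Complex.normSq (ψ.1 s) := by
    intro s
    have h2 := hct 1 s
    rw [pow_one, pow_one] at h2
    rw [h2, map_mul, Complex.normSq_eq_norm_sq c, hc1]
    ring
  have h2 : ∑ g : G, ((Complex.normSq (fz p z ψ.1 g) : ℝ) : ℂ) =
      ∑ g ∈ univ.filter (fun g : G => pp p g = z), ((Complex.normSq (ψ.1 g) : ℝ) : ℂ) := by
    rw [Finset.sum_filter]
    refine Finset.sum_congr rfl fun g _ => ?_
    unfold fz
    split_ifs <;> simp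
  rw [h2, rsum_eq]
  symm
  refine Finset.sum_bij (fun s _ => z * s) ?_ ?_ ?_ ?_
  · intro s hs
    rw [mem_filter] at hs ⊢
    exact ⟨mem_univ _, pp_eq (hz s).symm ⟨n, hn⟩ hs.2⟩
  · intro s _ s' _ h
    exact mul_left_cancel h
  · intro g hg
    rw [mem_filter] at hg
    refine ⟨pr p g, ?_, ?_⟩
    · rw [mem_filter]
      exact ⟨mem_univ _, pr_regular' g⟩
    · rw [← hg.2]; exact pp_mul_pr g
  · intro s _
    rw [h1, ← Complex.mul_conj, ψ.inv_eq_conj]

end Sec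

end P179N
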