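import Vale.Agent.P179.H905.ThmN5
import Vale.Agent.P179.H526.FDP

/-!
# Theorem N, part 6: averaging over the powers, Bessel's inequality for the characters
-/

namespace P179N

open Subgroup Finset P179H524 P179C P179A P179P P179Y

open P179X (pp)

open scoped Classical

section Step

variable {k : Type*} [Field k] (p : ℕ) [hp : Fact p.Prime] [CharP k p]
  (red : AA →+* k) {G : Type} [Group G] [Fintype G] (D : Subgroup G) (l : (G → k) → k)

/-- a choice of the canonical Brauer character -/
noncomputable def Ph (H : Subgroup G) : H → ℂ :=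
  if h : ∃ φ, ND red p (lres H l) (Nat.card D) φ then h.choose else 0

/-- the generalised decomposition numbers -/
noncomputable def dd (u : G) (χ : Irr G) : ℂ :=
  dn p (centralizer {u}) (Nat.card D) (Ph p red D l (centralizer {u})) u χ.1

variable {p D l}

omit hp [Fintype G] [CharP k p] in
theorem pow_card_D {u : G} (hu : u ∈ D) : u ^ Nat.card D = 1 := by
  have h1 := pow_card_eq_one' (G := D) (x := ⟨u, hu⟩)
  have h2 : ((⟨u, hu⟩ ^ Nat.card D : D) : G) = ((1 : D) : G) := congrArg Subtype.val h1
  exact h2

omit hp [Fintype G] [CharP k p] in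
/-- `u` and `u ^ j` have the same centralizer -/
theorem centralizer_pow {u : G} (hu : u ∈ D) {j : ℕ} (hj : j.Coprime (Nat.card D)) :
    (centralizer {u ^ j} : Subgroup G) = centralizer {u} := by
  obtain ⟨i, hi⟩ : ∃ i : ℕ, (u ^ j) ^ i = u :=
    exists_pow_eq_self_of_coprime (hj.coprime_dvd_right (orderOf_dvd_of_pow_eq_one (pow_card_D hu)))
  ext x
  rw [mem_centralizer_singleton_iff, mem_centralizer_singleton_iff]
  constructor
  · intro h
    have h1 : Commute x (u ^ j) := h
    have h2 := h1.pow_right i
    rw [hi] at h2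
    exact h2
  · intro h
    have h1 : Commute x u := h
    exact h1.pow_right j

omit hp [Fintype G] [CharP k p] in
theorem mem_center_pow {u : G} (hu : u ∈ D) {j : ℕ} (hj : j.Coprime (Nat.card D)) :
    u ^ j ∈ center G ↔ u ∈ center G := by
  have h : ∀ v : G, v ∈ center G ↔ (centralizer {v} : Subgroup G) = ⊤ := by
    intro v
    rw [Subgroup.mem_center_iff, eq_top_iff]
    constructor
    · intro h x _
      rw [mem_centralizer_singleton_iff]
      exact h x
    · intro h x
      exact mem_centralizer_singleton_iff.1 (h (mem_top x))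
  rw [h, h, centralizer_pow hu hj]

variable (hD : IsPGroup p D)
  (hPh : ∀ u ∈ D, u ∉ center G →
    ND red p (lres (centralizer {u}) l) (Nat.card D) (Ph p red D l (centralizer {u})))

omit hp [Fintype G] in
theorem isPel {u : G} (hD : IsPGroup p D) (hu : u ∈ D) : ∃ n : ℕ, u ^ p ^ n = 1 := by
  obtain ⟨n, hn⟩ := hD ⟨u, hu⟩
  exact ⟨n, by simpa using congrArg Subtype.val hn⟩

omit [Fintype G] in
theorem mem_cs {u x : G} : x ∈ (centralizer {u} : Subgroup G) ↔ x * u = u * x :=
  mem_centralizer_singleton_iff

include hPh in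
/-- the averages over the powers -/
theorem ag_dd {u : G} (hu : u ∈ D) (hnc : u ∉ center G) (χ : Irr G) (hne : dd p red D l u χ ≠ 0) :
    ((Nat.card D).totient : ℝ) ≤ ∑ j ∈ (range (Nat.card D)).filter (fun j => j.Coprime (Nat.card D)),
      Complex.normSq (dd p red D l (u ^ j) χ) := by
  have hq : Nat.card D ≠ 0 := Nat.card_pos.ne'
  have hζ := Complex.isPrimitiveRoot_exp (Nat.card D) hq
  obtain ⟨P, hP⟩ := dn_poly p red (centralizer {u}) hq (hPh u hu hnc) u (pow_card_D hu) hq
    (fun x => mem_cs) χ hζ
  have h1 := hP 1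
  rw [pow_one, pow_one] at h1
  have h2 := (P179H234.ag (Nat.pos_of_ne_zero hq) hζ P (by rw [← h1]; exact hne)).1
  refine h2.trans (le_of_eq (Finset.sum_congr rfl fun j hj => ?_))
  rw [mem_filter] at hj
  rw [← hP j, Complex.normSq_eq_norm_sq]
  congr 2
  unfold dd
  rw [centralizer_pow hu hj.2]

omit [CharP k p] in
include hD hPh in
theorem sum_normSq_dd {u : G} (hu : u ∈ D) (hnc : u ∉ center G) :
    ∑ χ : Irr G, Complex.normSq (dd p red D l u χ) = Nat.card D := by
  have hq : Nat.card D ≠ 0 := Nat.card_pos.ne'
  have h1 := gram_self p red (centralizer {u}) hq (hPh u hu hnc) u (isPel hD hu) (fun x => mem_cs)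
  apply Complex.ofReal_injective
  push_cast
  rw [← h1]
  exact Finset.sum_congr rfl fun χ _ => (Complex.mul_conj _).symm

include hD hPh in
/-- orthogonality -/
theorem orth_dd (hl : BP p D l) (hab : D ≤ centralizer (D : Set G))
    (hT : stabT D l ≤ centralizer (D : Set G)) {u u' : G} (hu : u ∈ D)
    (hnc : u ∉ center G) (hu' : u' ∈ D) (hnc' : u' ∉ center G) (hne : u ≠ u') :
    ∑ χ : Irr G, dd p red D l u χ * (starRingEnd ℂ) (dd p red D l u' χ) = 0 := by
  have hq : Nat.card D ≠ 0 := Nat.card_pos.ne'
  rcases gram p red (centralizer {u}) (centralizer {u'}) hq (hPh u hu hnc) (hPh u' hu' hnc')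
    u u' (isPel hD hu) (isPel hD hu') (fun x => mem_cs) (fun x => mem_cs) with h | ⟨-, g, hg, hz⟩
  · exact h
  · exfalso
    subst hg
    obtain ⟨n, hn, hn2⟩ := fusionT hl hD hab hu
      ⟨hu', fun n hn _ => hT hn⟩ (fun z hz' => by
        have := hz z hz'
        unfold cj
        simpa only [inv_inv] using this)
    apply hne
    rw [← hn2]
    have h3 := mem_centralizer_iff.1 (hT hn) u hu
    rw [← h3, mul_inv_cancel_right]

include hD hPh in
/-- Bessel's inequality -/
theorem bessel_dd (hl : BP p D l) (hab : D ≤ centralizer (D : Set G))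
    (hT : stabT D l ≤ centralizer (D : Set G)) (ψ : Irr G) :
    ∑ u : D, (if (u : G) ∈ center G then rz p 1 ψ.1 else
      Complex.normSq (dd p red D l (u : G) ψ) / Nat.card D) ≤ 1 := by
  have hq : Nat.card D ≠ 0 := Nat.card_pos.ne'
  have hqp : (0 : ℝ) < Nat.card D := by exact_mod_cast Nat.card_pos
  let w : D → Irr G → ℂ := fun u χ =>
    if (u : G) ∈ center G then vz p (u : G) ψ.1 χ else dd p red D l (u : G) χ
  let n : D → ℝ := fun u => if (u : G) ∈ center G then rz p (u : G) ψ.1 else Nat.card D
  have hcen : ∀ z ∈ center G, ∀ x : G, x * z = z * x := fun z hz x =>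
    (Subgroup.mem_center_iff.1 hz) x
  have hrz1 : ∀ u : D, (u : G) ∈ center G → rz p (u : G) ψ.1 = rz p 1 ψ.1 := by
    intro u hu
    apply Complex.ofReal_injective
    rw [rz_central (hcen _ hu) (isPel hD u.2),
      rz_central (fun x => by rw [mul_one, one_mul]) ⟨0, by simp⟩]
  have hrpos : 0 < rz p 1 ψ.1 := by
    unfold rz
    refine mul_pos (by positivity) ?_
    refine Finset.sum_pos' (fun g _ => Complex.normSq_nonneg _) ⟨1, mem_univ _, ?_⟩
    rw [Complex.normSq_pos]
    unfold fz
    rw [if_pos]
    · exact ψ.one_ne_zero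
    · rw [pp_eq_one_iff, orderOf_one]
      exact hp.out.one_lt.ne' ∘ Nat.dvd_one.1
  have h := bessel w n (fun u => by
      simp only [n]
      split_ifs with hu
      · rw [hrz1 u hu]; exact hrpos
      · exact hqp) (fun u => by
      simp only [w, n]
      split_ifs with hu
      · rw [vz_gram (hcen _ hu), if_pos rfl]
      · rw [Complex.ofReal_natCast]
        exact gram_self p red (centralizer {(u : G)}) hq (hPh u u.2 hu) u (isPel hD u.2)
          (fun x => mem_cs)) (fun u u' huu => by
      simp only [w]
      have hne : (u : G) ≠ u' := fun h => huu (Subtype.ext h)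
      by_cases hu : (u : G) ∈ center G
      · by_cases hu' : (u' : G) ∈ center G
        · simp only [if_pos hu, if_pos hu']
          rw [vz_gram (hcen _ hu'), if_neg hne]
        · simp only [if_pos hu, if_neg hu']
          have h1 := dn_vz (hcen _ hu) (isPel hD u'.2) hne.symm (centralizer {(u' : G)})
            (fun x => mem_cs) (Nat.card D) (Ph p red D l (centralizer {(u' : G)})) ψ
          have h2 := congrArg (starRingEnd ℂ) h1
          rw [map_zero, map_sum] at h2
          rw [← h2]
          refine Finset.sum_congr rfl fun χ _ => ?_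
          rw [map_mul, Complex.conj_conj, mul_comm]
          rfl
      · by_cases hu' : (u' : G) ∈ center G
        · simp only [if_neg hu, if_pos hu']
          exact dn_vz (hcen _ hu') (isPel hD u.2) hne (centralizer {(u : G)})
            (fun x => mem_cs) (Nat.card D) (Ph p red D l (centralizer {(u : G)})) ψ
        · simp only [if_neg hu, if_neg hu']
          exact orth_dd red hD hPh hl hab hT u.2 hu u'.2 hu' hne) ψ
  refine le_trans (le_of_eq (Finset.sum_congr rfl fun u _ => ?_)) h
  simp only [w, n]
  by_cases hu : (u : G) ∈ center G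
  · simp only [if_pos hu]
    rw [vz_self, hrz1 u hu, Complex.normSq_ofReal]
    field_simp
  · simp only [if_neg hu]

end Step

end P179N
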