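import Vale.Agent.P179.H905.ThmN6

/-!
# Theorem N, part 7: the inductive step, conclusion
-/

namespace P179N

open Subgroup Finset P179H524 P179C P179A P179P P179Y

open P179X (pp)

open scoped Classical

section Step

variable {k : Type*} [Field k] [IsAlgClosed k] {p : ℕ} [hp : Fact p.Prime] [CharP k p]
  (red : AA →+* k) {G : Type} [Group G] [Fintype G] {D : Subgroup G} {l : (G → k) → k}

/-- **Theorem N**, inductive step -/
theorem thmN_step (hl : BP p D l) (hD : IsPGroup p D) (hab : D ≤ centralizer (D : Set G))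
    (hT : stabT D l ≤ centralizer (D : Set G))
    (hnc : ∃ u ∈ D, u ∉ center G)
    (hex : ∀ u ∈ D, u ∉ center G → ∃ φ, ND red p (lres (centralizer {u}) l) (Nat.card D) φ)
    (hnv : ∀ u ∈ D, u ∉ center G → ∀ φ, ND red p (lres (centralizer {u}) l) (Nat.card D) φ →
      ∀ χ : Irr G, InL red l χ.1 → dn p (centralizer {u}) (Nat.card D) φ u χ.1 ≠ 0) :
    ∃ φ, ND red p l (Nat.card D) φ := by
  have hPh : ∀ u ∈ D, u ∉ center G →
      ND red p (lres (centralizer {u}) l) (Nat.card D) (Ph p red D l (centralizer {u})) := by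
    intro u hu hc
    have h := hex u hu hc
    unfold Ph
    rw [dif_pos h]
    exact h.choose_spec
  have hq : Nat.card D ≠ 0 := Nat.card_pos.ne'
  set q := Nat.card D with hqdef
  have hqp : (0 : ℝ) < q := by exact_mod_cast Nat.pos_of_ne_zero hq
  have hT1 : ¬ p ∣ (centralizer (D : Set G)).relIndex (stabT D l) := by
    have : (centralizer (D : Set G)).relIndex (stabT D l) = 1 := by
      rw [relIndex_eq_one]
      exact hT
    rw [this]
    exact hp.out.one_lt.ne' ∘ Nat.dvd_one.1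
  obtain ⟨x, c, hx, hc, hcard⟩ := exists_cls hl hD hab hT1
  obtain ⟨φ₀, hφ₀⟩ := exists_inL p red (hl.isHomCF hD hab)
  have hLne : Nonempty (LL red l) := ⟨⟨φ₀, hφ₀⟩⟩
  obtain ⟨u₀, hu₀, hu₀c⟩ := hnc
  -- the sets of the central and of the noncentral elements of `D`
  let S : Finset D := univ.filter fun u : D => (u : G) ∉ center G
  let Z : Finset D := univ.filter fun u : D => (u : G) ∈ center G
  have hSZ : (Z.card : ℝ) + S.card = q := by
    have h1 : Z.card + S.card = Fintype.card D := by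
      have := Finset.card_filter_add_card_filter_not (s := (univ : Finset D))
        (fun u : D => (u : G) ∈ center G)
      rw [Finset.card_univ] at this
      exact this
    have h2 : q = Fintype.card D := by rw [hqdef, Nat.card_eq_fintype_card]
    rw [h2]
    exact_mod_cast h1
  have hZ1 : (1 : ℝ) ≤ Z.card := by
    have : 0 < Z.card := Finset.card_pos.2 ⟨1, mem_filter.2 ⟨mem_univ _, one_mem _⟩⟩
    exact_mod_cast this
  -- `J`
  let J := (range q).filter (fun j => j.Coprime q)
  have hJ : (q.totient : ℝ) = J.card := by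
    rw [Nat.totient_eq_card_coprime]
    congr 2
    ext j
    simp only [J, mem_filter, Nat.coprime_comm]
  have hJ0 : (0 : ℝ) < J.card := by
    rw [← hJ]
    exact_mod_cast Nat.totient_pos.2 (Nat.pos_of_ne_zero hq)
  -- nonvanishing
  have hne : ∀ (u : G), u ∈ D → u ∉ center G → ∀ ψ : LL red l, dd p red D l u ψ.1 ≠ 0 :=
    fun u hu huc ψ => hnv u hu huc _ (hPh u hu huc) ψ.1 ψ.2
  have hpowD : ∀ (u : G), u ∈ D → ∀ j, u ^ j ∈ D := fun u hu j => pow_mem hu j
  -- (C) at most `q` characters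
  have hk : Nat.card (LL red l) ≤ q := by
    have h1 : ∑ ψ : LL red l, (q.totient : ℝ) ≤ ∑ ψ : LL red l, ∑ j ∈ J,
        Complex.normSq (dd p red D l (u₀ ^ j) ψ.1) :=
      Finset.sum_le_sum fun ψ _ => ag_dd red hPh hu₀ hu₀c ψ.1 (hne u₀ hu₀ hu₀c ψ)
    rw [Finset.sum_comm, Finset.sum_const, Finset.card_univ, nsmul_eq_mul,
      ← Nat.card_eq_fintype_card] at h1
    have h2 : ∑ j ∈ J, ∑ ψ : LL red l, Complex.normSq (dd p red D l (u₀ ^ j) ψ.1) ≤
        ∑ j ∈ J, (q : ℝ) := by
      refine Finset.sum_le_sum fun j hj => ?_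
      rw [mem_filter] at hj
      have h3 := sum_normSq_dd red hD hPh (hpowD u₀ hu₀ j)
        (fun h => hu₀c ((mem_center_pow hu₀ hj.2).1 h))
      rw [← h3]
      rw [← Finset.sum_subtype (p := fun χ : Irr G => InL red l χ.1)
        (univ.filter fun χ : Irr G => InL red l χ.1) (fun χ => by simp)
        (fun χ => Complex.normSq (dd p red D l (u₀ ^ j) χ))]
      exact Finset.sum_le_univ_sum_of_nonneg fun χ => Complex.normSq_nonneg _
    rw [Finset.sum_const, nsmul_eq_mul] at h2
    have h3 := h1.trans h2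
    rw [hJ] at h3
    have h4 : (Nat.card (LL red l) : ℝ) ≤ q := by
      by_contra hlt
      push Not at hlt
      nlinarith
    exact_mod_cast h4
  -- (A)
  let T : LL red l → ℝ := fun ψ => ∑ u ∈ S, Complex.normSq (dd p red D l (u : G) ψ.1)
  have hA : ∀ ψ : LL red l, (S.card : ℝ) ≤ T ψ := by
    intro ψ
    have h1 : ∀ j ∈ J, ∑ u ∈ S, Complex.normSq (dd p red D l ((u : G) ^ j) ψ.1) = T ψ := by
      intro j hj
      rw [mem_filter] at hj
      have hcop : (Nat.card D).Coprime j := hj.2.symm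
      refine Finset.sum_bij (fun u _ => powCoprime hcop u) ?_ ?_ ?_ ?_
      · intro u hu
        rw [mem_filter] at hu ⊢
        refine ⟨mem_univ _, fun h => hu.2 ((mem_center_pow u.2 hj.2).1 h)⟩
      · intro u _ v _ h
        exact (powCoprime hcop).injective h
      · intro v hv
        rw [mem_filter] at hv
        obtain ⟨u, hu⟩ := (powCoprime hcop).surjective v
        refine ⟨u, mem_filter.2 ⟨mem_univ _, fun h => hv.2 ?_⟩, hu⟩
        rw [← hu]
        exact (mem_center_pow u.2 hj.2).2 h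
      · intro u _
        rfl
    have h2 : ∑ u ∈ S, (q.totient : ℝ) ≤ ∑ u ∈ S, ∑ j ∈ J,
        Complex.normSq (dd p red D l ((u : G) ^ j) ψ.1) :=
      Finset.sum_le_sum fun u hu => ag_dd red hPh u.2 (mem_filter.1 hu).2 ψ.1
        (hne u u.2 (mem_filter.1 hu).2 ψ)
    rw [Finset.sum_comm, Finset.sum_congr rfl h1, Finset.sum_const, Finset.sum_const,
      nsmul_eq_mul, nsmul_eq_mul, hJ] at h2
    by_contra hlt
    push Not at hlt
    nlinarith
  -- (B)
  let r : LL red l → ℝ := fun ψ => rz p 1 ψ.1.1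
  have hB : ∀ ψ : LL red l, T ψ / q + Z.card * r ψ ≤ 1 := by
    intro ψ
    have h1 := bessel_dd red hD hPh hl hab hT ψ.1
    rw [← Finset.sum_filter_add_sum_filter_not univ (fun u : D => (u : G) ∈ center G)] at h1
    rw [Finset.sum_congr rfl (g := fun _ => r ψ) (fun u hu => if_pos (mem_filter.1 hu).2)] at h1
    rw [Finset.sum_const, nsmul_eq_mul, Finset.sum_congr rfl
      (g := fun u : D => Complex.normSq (dd p red D l (u : G) ψ.1) / q)
      (fun u hu => if_neg (mem_filter.1 hu).2), ← Finset.sum_div] at h1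
    change (Z.card : ℝ) * r ψ + T ψ / q ≤ 1 at h1
    linarith
  have hone : ∀ x : G, x * 1 = 1 * x := fun x => by rw [mul_one, one_mul]
  have hPr : ∀ ψ : LL red l, Pm p ψ.1 ψ.1 = ((r ψ : ℝ) : ℂ) := fun ψ =>
    (rz_central hone ⟨0, by simp⟩ ψ.1).symm
  have hrpos : ∀ ψ : LL red l, 0 < r ψ := by
    intro ψ
    simp only [r]
    unfold rz
    refine mul_pos (by positivity) ?_
    refine Finset.sum_pos' (fun g _ => Complex.normSq_nonneg _) ⟨1, mem_univ _, ?_⟩
    rw [Complex.normSq_pos]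
    unfold fz
    rw [if_pos]
    · exact ψ.1.one_ne_zero
    · rw [P179P.pp_eq_one_iff, orderOf_one]
      exact hp.out.one_lt.ne' ∘ Nat.dvd_one.1
  -- (D)
  have hDsum : ∑ ψ : LL red l, T ψ = S.card * q := by
    simp only [T]
    rw [Finset.sum_comm, Finset.sum_congr rfl (g := fun _ => (q : ℝ)), Finset.sum_const,
      nsmul_eq_mul]
    intro u hu
    have huc := (mem_filter.1 hu).2
    have h3 := sum_normSq_dd red hD hPh u.2 huc
    rw [← h3, ← Finset.sum_subtype (p := fun χ : Irr G => InL red l χ.1)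
      (univ.filter fun χ : Irr G => InL red l χ.1) (fun χ => by simp)
      (fun χ => Complex.normSq (dd p red D l (u : G) χ)), Finset.sum_filter]
    refine Finset.sum_congr rfl fun χ _ => ?_
    split_ifs with h
    · rfl
    · have h4 : dd p red D l (u : G) χ = 0 :=
        dn_eq_zero p red (centralizer {(u : G)})
          (hl.lres_coe (cent_le_of_mem u.2)) (hPh u u.2 huc) u (isPel hD u.2)
          (fun x => mem_cs) χ h
      rw [h4, map_zero]
  -- (E)
  obtain ⟨n, hn⟩ := exists_trace p red l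
  have hn' : ∑ ψ : LL red l, r ψ = n := by
    apply Complex.ofReal_injective
    push_cast
    rw [← hn]
    exact Finset.sum_congr rfl fun ψ _ => (hPr ψ).symm
  have hn1 : (1 : ℝ) ≤ n := by
    have h1 : (0 : ℝ) < n := by
      rw [← hn']
      exact Finset.sum_pos (fun ψ _ => hrpos ψ) univ_nonempty
    have h2 : 0 < n := by exact_mod_cast h1
    exact_mod_cast h2
  have hkr : (Nat.card (LL red l) : ℝ) ≤ q := by exact_mod_cast hk
  have hsum : (S.card : ℝ) + Z.card * n ≤ Nat.card (LL red l) := by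
    have h1 := Finset.sum_le_sum fun (ψ : LL red l) (_ : ψ ∈ univ) => hB ψ
    rw [Finset.sum_add_distrib, ← Finset.sum_div, hDsum, ← Finset.mul_sum, hn',
      Finset.sum_const, Finset.card_univ, nsmul_eq_mul, mul_one, ← Nat.card_eq_fintype_card] at h1
    have h2 : (S.card : ℝ) * q / q = S.card := by field_simp
    rw [h2] at h1
    exact h1
  have hn2 : (n : ℝ) = 1 := by nlinarith
  have hkq : (Nat.card (LL red l) : ℝ) = q := by
    rw [hn2] at hsum
    linarith
  have hrle : ∀ ψ : LL red l, r ψ ≤ (q : ℝ)⁻¹ := by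
    intro ψ
    have h1 := hA ψ
    have h2 := hB ψ
    have h3 : (S.card : ℝ) / q ≤ T ψ / q := by gcongr
    have h4 : (Z.card : ℝ) * r ψ ≤ Z.card * (q : ℝ)⁻¹ := by
      have h5 : (Z.card : ℝ) * (q : ℝ)⁻¹ = 1 - S.card / q := by
        field_simp
        linarith
      rw [h5]
      linarith
    by_contra hlt
    push Not at hlt
    nlinarith
  have hreq : ∀ ψ : LL red l, r ψ = (q : ℝ)⁻¹ := by
    intro ψ
    refine le_antisymm (hrle ψ) ?_
    by_contra hlt
    push Not at hlt
    have h1 : ∑ χ : LL red l, r χ < ∑ _χ : LL red l, (q : ℝ)⁻¹ :=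
      Finset.sum_lt_sum (fun χ _ => hrle χ) ⟨ψ, mem_univ _, hlt⟩
    rw [hn', hn2, Finset.sum_const, Finset.card_univ, ← Nat.card_eq_fintype_card, nsmul_eq_mul,
      hkq, mul_inv_cancel₀ hqp.ne'] at h1
    exact lt_irrefl _ h1
  have hr : ∀ ψ : LL red l, (q : ℂ) * rsum p (fun s => ψ.1.1 s * ψ.1.1 s⁻¹) = Nat.card G := by
    intro ψ
    have h1 := hPr ψ
    rw [hreq ψ] at h1
    unfold Pm at h1
    have hG0 : (Fintype.card G : ℂ) ≠ 0 := by exact_mod_cast Fintype.card_ne_zero
    have hq0 : (q : ℂ) ≠ 0 := by exact_mod_cast hq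
    rw [inv_mul_eq_iff_eq_mul₀ hG0] at h1
    rw [h1, Nat.card_eq_fintype_card]
    push_cast
    field_simp
  obtain ⟨h1, h2⟩ := agree p red hq hr hLne hk
  refine ⟨φ₀.1, φ₀.2, hφ₀, fun χ hχ s hs => h2 ⟨χ, hχ⟩ ⟨φ₀, hφ₀⟩ s hs, h1, hr ⟨φ₀, hφ₀⟩, ?_⟩
  exact exists_unit red φ₀ hφ₀ hq (hr ⟨φ₀, hφ₀⟩) hx hc hcard

end Step

end P179N
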