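import Vale.Agent.P179.H905.Conj
import Vale.Agent.P179.H905.Delta

/-!
# Triples `(x, y, s)`, `s` a chain fixed by `x` and `y`, and the subgroups `T`, `L`, `U`
-/

namespace P179A

open Subgroup

open scoped Classical Pointwise

variable {G : Type*} [Group G]

/-- Triples `(x, y, s)`. -/
@[ext] structure Tri (G : Type*) [Group G] where
  /-- first element -/
  x : G
  /-- second element -/
  y : G
  /-- the chain -/
  s : Finset (Subgroup G)

/-- Triples as a product. -/
def triEquiv (G : Type*) [Group G] : Tri G ≃ G × G × Finset (Subgroup G) where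
  toFun w := (w.x, w.y, w.s)
  invFun t := ⟨t.1, t.2.1, t.2.2⟩
  left_inv _ := rfl
  right_inv _ := rfl

instance [Finite G] : Finite (Tri G) := Finite.of_equiv _ (triEquiv G).symm

/-- `G` acts on triples by conjugation. -/
noncomputable instance : MulAction G (Tri G) where
  smul g w := ⟨g * w.x * g⁻¹, g * w.y * g⁻¹, MulAut.conj g • w.s⟩
  one_smul w := by
    apply Tri.ext
    · change 1 * w.x * 1⁻¹ = w.x; simp
    · change 1 * w.y * 1⁻¹ = w.y; simp
    · change MulAut.conj 1 • w.s = w.s; simp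
  mul_smul a b w := by
    apply Tri.ext
    · change (a * b) * w.x * (a * b)⁻¹ = a * (b * w.x * b⁻¹) * a⁻¹; group
    · change (a * b) * w.y * (a * b)⁻¹ = a * (b * w.y * b⁻¹) * a⁻¹; group
    · change MulAut.conj (a * b) • w.s = MulAut.conj a • MulAut.conj b • w.s
      rw [map_mul, mul_smul]

@[simp] theorem smul_x (g : G) (w : Tri G) : (g • w).x = g * w.x * g⁻¹ := rfl
@[simp] theorem smul_y (g : G) (w : Tri G) : (g • w).y = g * w.y * g⁻¹ := rfl
@[simp] theorem smul_s (g : G) (w : Tri G) : (g • w).s = MulAut.conj g • w.s := rfl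

/-- The triples for the element `g`. -/
structure InO (p : ℕ) (g : G) (w : Tri G) : Prop where
  comm : w.x * w.y * w.x⁻¹ * w.y⁻¹ = g
  chain : IsPChain p w.s
  hx : w.x ∈ stab w.s
  hy : w.y ∈ stab w.s

/-- Right multiplication of the second element. -/
def rm (a : G) (w : Tri G) : Tri G := ⟨w.x, w.y * a, w.s⟩

/-- First braid generator. -/
def s1 (w : Tri G) : Tri G := ⟨w.x, w.y * w.x, w.s⟩

/-- Second braid generator. -/
def s2 (w : Tri G) : Tri G := ⟨w.x * w.y⁻¹, w.y, w.s⟩

theorem braid (w : Tri G) : s1 (s2 (s1 w)) = s2 (s1 (s2 w)) := by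
  apply Tri.ext
  · simp only [s1, s2]; group
  · simp only [s1, s2]; group
  · rfl

theorem delta_formula (w : Tri G) : s1 (s2 (s1 w)) = ⟨w.y⁻¹, w.y * w.x * w.y⁻¹, w.s⟩ := by
  apply Tri.ext
  · simp only [s1, s2]; group
  · simp only [s1, s2]; group
  · rfl

/-- The fourth power of the half twist is conjugation by `g⁻¹`. -/
theorem delta_four {p : ℕ} {g : G} {w : Tri G} (hw : InO p g w) :
    (fun v : Tri G => s1 (s2 (s1 v)))^[4] w = g⁻¹ • w := by
  simp only [Function.iterate_succ, Function.iterate_zero, Function.comp, id, delta_formula]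
  have hg := hw.comm
  apply Tri.ext
  · simp only [smul_x]
    rw [← hg]; group
  · simp only [smul_y]
    rw [← hg]; group
  · simp only [smul_s]
    rw [conj_smul_eq_self_of_mem]
    rw [← hg]
    exact inv_mem (mul_mem (mul_mem (mul_mem hw.hx hw.hy) (inv_mem hw.hx)) (inv_mem hw.hy))

theorem s1_iterate (w : Tri G) (n : ℕ) : s1^[n] w = rm (w.x ^ n) w := by
  induction n with
  | zero => simp [rm]
  | succ n ih =>
    rw [Function.iterate_succ', Function.comp, ih]
    apply Tri.ext
    · rfl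
    · simp only [s1, rm]; rw [pow_succ, mul_assoc]
    · rfl

theorem s1_smul (g : G) (w : Tri G) : s1 (g • w) = g • s1 w := by
  apply Tri.ext
  · rfl
  · simp only [s1, smul_x, smul_y]; group
  · rfl

theorem s2_smul (g : G) (w : Tri G) : s2 (g • w) = g • s2 w := by
  apply Tri.ext
  · simp only [s2, smul_x, smul_y]; group
  · rfl
  · rfl

theorem s1_inj {w w' : Tri G} (h : s1 w = s1 w') : w = w' := by
  have h1 := congrArg Tri.x h
  have h2 := congrArg Tri.y h
  have h3 := congrArg Tri.s h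
  simp only [s1] at h1 h2 h3
  apply Tri.ext h1 _ h3
  rw [h1] at h2
  exact mul_right_cancel h2

theorem s2_inj {w w' : Tri G} (h : s2 w = s2 w') : w = w' := by
  have h1 := congrArg Tri.x h
  have h2 := congrArg Tri.y h
  have h3 := congrArg Tri.s h
  simp only [s2] at h1 h2 h3
  apply Tri.ext _ h2 h3
  rw [h2] at h1
  exact mul_right_cancel h1

theorem InO.s1 {p : ℕ} {g : G} {w : Tri G} (hw : InO p g w) : InO p g (s1 w) where
  comm := by
    have := hw.comm
    simp only [P179A.s1]
    rw [← this]; group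
  chain := hw.chain
  hx := hw.hx
  hy := mul_mem hw.hy hw.hx

theorem InO.s2 {p : ℕ} {g : G} {w : Tri G} (hw : InO p g w) : InO p g (s2 w) where
  comm := by
    have := hw.comm
    simp only [P179A.s2]
    rw [← this]; group
  chain := hw.chain
  hx := mul_mem hw.hx (inv_mem hw.hy)
  hy := hw.hy

theorem InO.smul {p : ℕ} {g : G} {w : Tri G} (hw : InO p g w) {h : G} (hh : h * g = g * h) :
    InO p g (h • w) where
  comm := by
    have := hw.comm
    simp only [smul_x, smul_y]
    have e : h * w.x * h⁻¹ * (h * w.y * h⁻¹) * (h * w.x * h⁻¹)⁻¹ * (h * w.y * h⁻¹)⁻¹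
        = h * (w.x * w.y * w.x⁻¹ * w.y⁻¹) * h⁻¹ := by group
    rw [e, this, hh, mul_inv_cancel_right]
  chain := by
    simp only [smul_s]
    rw [isPChain_smul_iff]; exact hw.chain
  hx := by
    simp only [smul_x, smul_s]
    rw [← MulAut.conj_apply, smul_mem_stab_iff]; exact hw.hx
  hy := by
    simp only [smul_y, smul_s]
    rw [← MulAut.conj_apply, smul_mem_stab_iff]; exact hw.hy

theorem InO.rm {p : ℕ} {g : G} {w : Tri G} (hw : InO p g w) {a : G} (ha : a * w.x = w.x * a)
    (has : a ∈ stab w.s) : InO p g (rm a w) where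
  comm := by
    have := hw.comm
    simp only [P179A.rm]
    have e : w.x * (w.y * a) * w.x⁻¹ * (w.y * a)⁻¹
        = w.x * w.y * (a * w.x⁻¹ * a⁻¹) * w.y⁻¹ := by group
    have e2 : a * w.x⁻¹ * a⁻¹ = w.x⁻¹ := by
      have h3 : a * w.x * a⁻¹ = w.x := by rw [ha, mul_inv_cancel_right]
      calc a * w.x⁻¹ * a⁻¹ = (a * w.x * a⁻¹)⁻¹ := by group
        _ = w.x⁻¹ := by rw [h3]
    rw [e, e2, this]
  chain := hw.chain
  hx := hw.hx
  hy := mul_mem hw.hy has

/-! ### the subgroups `T`, `U`, `L` -/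

/-- `T w`: the elements of `R` commuting with `x` and fixing the chain. -/
def T (R : Subgroup G) (w : Tri G) : Subgroup G := R ⊓ centralizer {w.x} ⊓ stab w.s

theorem mem_T {R : Subgroup G} {w : Tri G} {h : G} :
    h ∈ T R w ↔ h ∈ R ∧ h * w.x = w.x * h ∧ h ∈ stab w.s := by
  simp only [T, mem_inf, mem_centralizer_singleton_iff]
  constructor
  · rintro ⟨⟨h1, h2⟩, h3⟩; exact ⟨h1, h2, h3⟩
  · rintro ⟨h1, h2, h3⟩; exact ⟨⟨h1, h2⟩, h3⟩

/-- `U w`: the elements of `R` commuting with `x` and `y` and fixing the chain. -/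
def U (R : Subgroup G) (w : Tri G) : Subgroup G := T R w ⊓ centralizer {w.y}

theorem mem_U {R : Subgroup G} {w : Tri G} {h : G} :
    h ∈ U R w ↔ h ∈ R ∧ h * w.x = w.x * h ∧ h * w.y = w.y * h ∧ h ∈ stab w.s := by
  simp only [U, mem_inf, mem_T, mem_centralizer_singleton_iff]
  constructor
  · rintro ⟨⟨h1, h2, h3⟩, h4⟩; exact ⟨h1, h2, h4, h3⟩
  · rintro ⟨h1, h2, h4, h3⟩; exact ⟨⟨h1, h2, h3⟩, h4⟩

/-- `L w`: the largest subgroup of `T w` normalised by `y`. -/
def L (R : Subgroup G) (w : Tri G) : Subgroup G :=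
  sSup {V : Subgroup G | V ≤ T R w ∧ w.y ∈ normalizer (V : Set G)}

theorem L_le_T (R : Subgroup G) (w : Tri G) : L R w ≤ T R w :=
  sSup_le fun _ hV => hV.1

theorem le_L {R : Subgroup G} {w : Tri G} {V : Subgroup G} (h1 : V ≤ T R w)
    (h2 : w.y ∈ normalizer (V : Set G)) : V ≤ L R w := le_sSup ⟨h1, h2⟩

theorem mem_normalizer_iff_map (C : Subgroup G) (x : G) : x ∈ normalizer (C : Set G) ↔
    C.map (MulAut.conj x).toMonoidHom = C := by
  rw [mem_normalizer_iff]
  constructor
  · intro h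
    ext z
    simp only [mem_map, MulEquiv.toMonoidHom_eq_coe, MonoidHom.coe_coe, MulAut.conj_apply]
    constructor
    · rintro ⟨w, hw, rfl⟩; exact (h w).1 hw
    · intro hz
      refine ⟨x⁻¹ * z * x, ?_, by group⟩
      rw [h]
      convert hz using 1
      group
  · intro h z
    constructor
    · intro hz
      rw [← h]
      exact ⟨z, hz, rfl⟩
    · intro hz
      rw [← h] at hz
      obtain ⟨w, hw, hw2⟩ := hz
      simp only [MulEquiv.toMonoidHom_eq_coe, MonoidHom.coe_coe, MulAut.conj_apply] at hw2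
      have : w = z := by
        have := congrArg (fun t => x⁻¹ * t * x) hw2
        simpa [mul_assoc] using this
      rw [← this]; exact hw

theorem mem_normalizer_L (R : Subgroup G) (w : Tri G) :
    w.y ∈ normalizer ((L R w : Subgroup G) : Set G) := by
  rw [mem_normalizer_iff_map]
  unfold L
  rw [sSup_eq_iSup, Subgroup.map_iSup]
  refine iSup_congr fun V => ?_
  rw [Subgroup.map_iSup]
  refine iSup_congr_Prop Iff.rfl fun hV => ?_
  rw [← mem_normalizer_iff_map]
  exact hV.2

theorem mem_normalizer_of_comm {V : Subgroup G} {g : G} (h : ∀ v ∈ V, g * v = v * g) :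
    g ∈ normalizer (V : Set G) := by
  rw [mem_normalizer_iff]
  intro z
  constructor
  · intro hz
    rw [h z hz, mul_inv_cancel_right]; exact hz
  · intro hz
    have h1 := h _ hz
    have h2 : z = g * z * g⁻¹ := by
      have : g * (g * z * g⁻¹) = g * z := by rw [h1]; group
      exact (mul_left_cancel this).symm
    rw [h2]; exact hz

theorem U_le_L (R : Subgroup G) (w : Tri G) : U R w ≤ L R w := by
  refine le_L inf_le_left (mem_normalizer_of_comm fun v hv => ?_)
  exact (mem_U.1 hv).2.2.1.symm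

theorem x_mem_normalizer {R : Subgroup G} {w : Tri G} {V : Subgroup G} (hV : V ≤ T R w) :
    w.x ∈ normalizer (V : Set G) :=
  mem_normalizer_of_comm fun _ hv => (mem_T.1 (hV hv)).2.1.symm

/-! ### toggling -/

/-- Toggle the chain of a triple. -/
noncomputable def tg (V : Subgroup G) (w : Tri G) : Tri G := ⟨w.x, w.y, tog V w.s⟩

theorem tg_tg (V : Subgroup G) (w : Tri G) : tg V (tg V w) = w := by
  apply Tri.ext
  · rfl
  · rfl
  · exact tog_tog V w.s

section toggling

variable {R : Subgroup G} {p : ℕ} (hR : IsPGroup p R) (hc : ∀ a ∈ R, ∀ b ∈ R, a * b = b * a)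
  {w : Tri G} {V : Subgroup G} {g : G}

include hR

theorem isPGroup_of_le_T (hV : V ≤ T R w) : IsPGroup p V :=
  hR.to_le (fun _ hv => (mem_T.1 (hV hv)).1)

theorem InO.tg (hw : InO p g w) (hV : V ≤ T R w) (hV1 : V ≠ ⊥)
    (hy : w.y ∈ normalizer (V : Set G)) : InO p g (tg V w) where
  comm := hw.comm
  chain := tog_isPChain hw.chain (isPGroup_of_le_T hR hV) hV1 fun _ hv => (mem_T.1 (hV hv)).2.2
  hx := (mem_stab_tog hw.chain (isPGroup_of_le_T hR hV) hV1
    (fun _ hv => (mem_T.1 (hV hv)).2.2) (x_mem_normalizer hV)).2 hw.hx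
  hy := (mem_stab_tog hw.chain (isPGroup_of_le_T hR hV) hV1
    (fun _ hv => (mem_T.1 (hV hv)).2.2) hy).2 hw.hy

include hc

theorem T_tg (hch : IsPChain p w.s) (hV : V ≤ T R w) (hV1 : V ≠ ⊥) :
    T R (tg V w) = T R w := by
  ext h
  rw [mem_T, mem_T]
  refine and_congr_right fun hh => and_congr_right fun _ => ?_
  refine mem_stab_tog hch (isPGroup_of_le_T hR hV) hV1 (fun _ hv => (mem_T.1 (hV hv)).2.2) ?_
  exact mem_normalizer_of_comm fun v hv => hc _ hh _ (mem_T.1 (hV hv)).1

theorem L_tg (hch : IsPChain p w.s) (hV : V ≤ T R w) (hV1 : V ≠ ⊥) :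
    L R (tg V w) = L R w := by
  unfold L
  rw [T_tg hR hc hch hV hV1]
  rfl

theorem U_tg (hch : IsPChain p w.s) (hV : V ≤ T R w) (hV1 : V ≠ ⊥) :
    U R (tg V w) = U R w := by
  unfold U
  rw [T_tg hR hc hch hV hV1]
  rfl

end toggling

/-! ### invariance of `T`, `U`, `L` -/

theorem T_rm (R : Subgroup G) (a : G) (w : Tri G) : T R (rm a w) = T R w := rfl

theorem L_rm {R : Subgroup G} {a : G} {w : Tri G} (ha : ∀ t ∈ T R w, a * t = t * a) :
    L R (rm a w) = L R w := by
  unfold L
  rw [T_rm]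
  congr 1
  ext V
  simp only [Set.mem_ofPred_eq]
  refine and_congr_right fun hV => ?_
  have : a ∈ normalizer (V : Set G) := mem_normalizer_of_comm fun v hv => ha v (hV hv)
  exact Subgroup.mul_mem_cancel_right _ this

theorem U_s1 (R : Subgroup G) (w : Tri G) : U R (s1 w) = U R w := by
  ext h
  rw [mem_U, mem_U]
  simp only [s1]
  constructor
  · rintro ⟨h1, h2, h3, h4⟩
    refine ⟨h1, h2, ?_, h4⟩
    have : h * w.y * w.x = w.y * h * w.x := by
      rw [mul_assoc w.y, h2, ← mul_assoc w.y, ← h3, mul_assoc]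
    exact mul_right_cancel this
  · rintro ⟨h1, h2, h3, h4⟩
    refine ⟨h1, h2, ?_, h4⟩
    rw [← mul_assoc, h3, mul_assoc, h2, mul_assoc]

theorem U_s2 (R : Subgroup G) (w : Tri G) : U R (s2 w) = U R w := by
  ext h
  rw [mem_U, mem_U]
  simp only [s2]
  constructor
  · rintro ⟨h1, h2, h3, h4⟩
    refine ⟨h1, ?_, h3, h4⟩
    have h5 : h * w.y⁻¹ = w.y⁻¹ * h := by
      rw [mul_inv_eq_iff_eq_mul, mul_assoc, h3, ← mul_assoc, inv_mul_cancel, one_mul]
    have : h * w.x * w.y⁻¹ = w.x * h * w.y⁻¹ := by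
      rw [mul_assoc w.x, h5, ← mul_assoc w.x, ← h2, mul_assoc]
    exact mul_right_cancel this
  · rintro ⟨h1, h2, h3, h4⟩
    refine ⟨h1, ?_, h3, h4⟩
    have h5 : h * w.y⁻¹ = w.y⁻¹ * h := by
      rw [mul_inv_eq_iff_eq_mul, mul_assoc, h3, ← mul_assoc, inv_mul_cancel, one_mul]
    rw [← mul_assoc, h2, mul_assoc, h5, mul_assoc]

section smul

variable {R : Subgroup G} (hc : ∀ a ∈ R, ∀ b ∈ R, a * b = b * a) {e : G} (he : e ∈ R)

include hc he

theorem T_smul (w : Tri G) : T R (e • w) = T R w := by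
  ext h
  rw [mem_T, mem_T]
  refine and_congr_right fun hh => ?_
  have h1 := hc h hh e he
  have h2 : e * h * e⁻¹ = h := by rw [← h1, mul_inv_cancel_right]
  refine and_congr ?_ ?_
  · simp only [smul_x]
    constructor
    · intro h3
      have : e * (h * w.x) * e⁻¹ = e * (w.x * h) * e⁻¹ := by
        calc e * (h * w.x) * e⁻¹ = (e * h * e⁻¹) * (e * w.x * e⁻¹) := by group
          _ = h * (e * w.x * e⁻¹) := by rw [h2]
          _ = (e * w.x * e⁻¹) * h := h3
          _ = (e * w.x * e⁻¹) * (e * h * e⁻¹) := by rw [h2]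
          _ = e * (w.x * h) * e⁻¹ := by group
      exact mul_left_cancel (mul_right_cancel this)
    · intro h3
      calc h * (e * w.x * e⁻¹) = (e * h * e⁻¹) * (e * w.x * e⁻¹) := by rw [h2]
        _ = e * (h * w.x) * e⁻¹ := by group
        _ = e * (w.x * h) * e⁻¹ := by rw [h3]
        _ = (e * w.x * e⁻¹) * (e * h * e⁻¹) := by group
        _ = (e * w.x * e⁻¹) * h := by rw [h2]
  · simp only [smul_s]
    conv_lhs => rw [← h2, ← MulAut.conj_apply]
    exact smul_mem_stab_iff _ _ _

theorem L_smul (w : Tri G) : L R (e • w) = L R w := by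
  unfold L
  rw [T_smul hc he]
  congr 1
  ext V
  simp only [Set.mem_ofPred_eq]
  refine and_congr_right fun hV => ?_
  have h1 : e ∈ normalizer (V : Set G) :=
    mem_normalizer_of_comm fun v hv => hc _ he _ (mem_T.1 (hV hv)).1
  simp only [smul_y]
  rw [Subgroup.mul_mem_cancel_right _ (inv_mem h1), Subgroup.mul_mem_cancel_left _ h1]

theorem smul_eq_of_le {V : Subgroup G} (hV : V ≤ R) : MulAut.conj e • V = V := by
  have h1 : ∀ v ∈ V, e * v * e⁻¹ = v := fun v hv => by
    rw [hc e he v (hV hv), mul_inv_cancel_right]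
  ext z
  rw [Subgroup.mem_pointwise_smul_iff_inv_smul_mem]
  have h2 : (MulAut.conj e)⁻¹ • z = e⁻¹ * z * e := by simp [MulAut.smul_def]
  rw [h2]
  constructor
  · intro hz
    have := h1 _ hz
    have h3 : z = e⁻¹ * z * e := by
      rw [← this]; group
    rw [h3]; exact hz
  · intro hz
    have := h1 _ hz
    have h3 : e⁻¹ * z * e = z := by
      conv_lhs => rw [← this]
      group
    rw [h3]; exact hz

theorem tg_smul {V : Subgroup G} (hV : V ≤ R) (w : Tri G) : tg V (e • w) = e • tg V w := by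
  apply Tri.ext
  · rfl
  · rfl
  · simp only [tg, smul_s]
    rw [smul_tog, smul_eq_of_le hc he hV]

end smul

/-- Stabilisers of triples. -/
theorem smul_eq_iff [Finite G] {p : ℕ} {R : Subgroup G} {w : Tri G} (hch : IsPChain p w.s)
    {e : G} (he : e ∈ R) : e • w = w ↔ e ∈ U R w := by
  rw [mem_U]
  constructor
  · intro h
    have h1 := congrArg Tri.x h
    have h2 := congrArg Tri.y h
    have h3 := congrArg Tri.s h
    simp only [smul_x, smul_y, smul_s] at h1 h2 h3
    refine ⟨he, ?_, ?_, mem_stab_of_conj_smul_eq hch.2 h3⟩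
    · rw [mul_inv_eq_iff_eq_mul] at h1; exact h1
    · rw [mul_inv_eq_iff_eq_mul] at h2; exact h2
  · rintro ⟨_, h1, h2, h3⟩
    apply Tri.ext
    · simp only [smul_x]; rw [h1, mul_inv_cancel_right]
    · simp only [smul_y]; rw [h2, mul_inv_cancel_right]
    · simp only [smul_s]; exact conj_smul_eq_self_of_mem h3

end P179A
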