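import Vale.Agent.P179.H143.SecOrth

/-!
# Brauer's second main theorem in characteristic zero, from Lemma W
-/

namespace P179C

open Finset P179H524

section Master

variable {K R : Type*} [Group K] [Fintype K] [CommRing R]

/-- words with letters in a subgroup -/
theorem sum_words_subgroup (H : Subgroup K) [Fintype H] [DecidablePred fun x : K => x ∈ H] {n : ℕ}
    (Ψ : (Fin n → K) → R) :
    ∑ w : Fin n → H, Ψ (fun i => (w i : K)) =
      ∑ w : Fin n → K, if (∀ i, w i ∈ H) then Ψ w else 0 := by
  rw [← Finset.sum_filter]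
  refine Finset.sum_bij (fun w _ => fun i => (w i : K)) ?_ ?_ ?_ ?_
  · intro w _
    exact mem_filter.2 ⟨mem_univ _, fun i => (w i).2⟩
  · intro w _ w' _ h
    funext i
    exact Subtype.ext (congrFun h i)
  · intro w hw
    exact ⟨fun i => ⟨w i, (mem_filter.1 hw).2 i⟩, mem_univ _, rfl⟩
  · intro w _
    rfl

omit [Fintype K] in
theorem wprod_coe (H : Subgroup K) {n : ℕ} (w : Fin n → H) :
    wprod (fun i => (w i : K)) = (wprod w : H) := by
  unfold wprod
  rw [← Subgroup.coe_subtype, map_list_prod, List.map_ofFn]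
  rfl

/-- the core of the master congruence -/
theorem master_core (p : ℕ) [hp : Fact p.Prime] (z F : K → R) (u : K) (a : ℕ) (hu : u ^ p ^ a = 1)
    (hz : ∀ x, z (u * x * u⁻¹) = z x) (hF : IsCF F) (H : Subgroup K) [Fintype H]
    (hH : ∀ x, x ∈ H ↔ x * u = u * x) (m : ℕ) :
    (p : R) ^ (m + 1) ∣ ∑ w : Fin (p ^ m) → K, (∏ j, z (w j)) * F (wprod w * u) -
      ∑ w : Fin (p ^ m) → H, (∏ j, z (w j)) * F (wprod w * u) := by
  classical
  have h1 : ∑ w : Fin (p ^ m) → H, (∏ j, z (w j)) * F (wprod w * u) =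
      ∑ w : Fin (p ^ m) → K, if (∀ i, w i ∈ H) then (∏ j, z (w j)) * F (wprod w * u) else 0 := by
    rw [← sum_words_subgroup H (fun w => (∏ j, z (w j)) * F (wprod w * u))]
    refine Finset.sum_congr rfl fun w _ => ?_
    rw [wprod_coe]
  rw [h1, ← Finset.sum_sub_distrib]
  obtain ⟨n, hn⟩ : ∃ n, p ^ m = n + 1 :=
    ⟨p ^ m - 1, by have := pow_pos hp.out.pos m; omega⟩
  -- invariance of the condition
  have hHu : ∀ x, u * x * u⁻¹ ∈ H ↔ x ∈ H := by
    intro x
    rw [hH, hH]
    constructor
    · intro h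
      have : u⁻¹ * (u * x * u⁻¹ * u) * u = u⁻¹ * (u * (u * x * u⁻¹)) * u := by rw [h]
      simpa [mul_assoc] using this
    · intro h
      have h' : u * x * u⁻¹ = x := by rw [← h, mul_inv_cancel_right]
      rw [h', h]
  rw [hn]
  refine perm_sum_dvd p (trot n u) (m + a) ?_ _ ?_ m ?_
  · rw [pow_add, hn]
    exact trot_pow_eq_one u _ hu
  · intro w
    have hcond : (∀ i, trot n u w i ∈ H) ↔ (∀ i, w i ∈ H) := by
      constructor
      · intro h i
        refine Fin.cases ?_ (fun i => ?_) i
        · have h2 := h (Fin.last n)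
          change (Fin.snoc (α := fun _ => K) (Fin.tail w) (u * w 0 * u⁻¹) : Fin (n + 1) → K) _ ∈ H
            at h2
          rw [Fin.snoc_last, hHu] at h2
          exact h2
        · have h2 := h i.castSucc
          change (Fin.snoc (α := fun _ => K) (Fin.tail w) (u * w 0 * u⁻¹) : Fin (n + 1) → K) _ ∈ H
            at h2
          rw [Fin.snoc_castSucc] at h2
          exact h2
      · intro h i
        change (Fin.snoc (α := fun _ => K) (Fin.tail w) (u * w 0 * u⁻¹) : Fin (n + 1) → K) i ∈ H
        refine Fin.lastCases ?_ (fun i => ?_) i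
        · rw [Fin.snoc_last, hHu]
          exact h 0
        · rw [Fin.snoc_castSucc]
          exact h _
    have h3 : F (wprod (trot n u w) * u) = F (wprod w * u) := by
      rw [wprod_trot]
      have := hF (w 0)⁻¹ (wprod w * u)
      rw [inv_inv] at this
      rw [this]
    simp only [hcond, prod_trot u z hz, h3]
  · intro w hw
    obtain ⟨h2, -⟩ := trot_fixed (a := p ^ m) (b := 1) (by rw [mul_one, hn]) u w hw
    have h3 : ∀ i, w i ∈ H := by
      intro i
      rw [hH, ← ext_coe u w i]
      exact (h2 i).symm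
    rw [if_pos h3, sub_self]

/-- **Master congruence.** -/
theorem master (p : ℕ) [hp : Fact p.Prime] (z F : K → R) (hz : IsCF z) (hF : IsCF F) (u : K)
    (a : ℕ) (hu : u ^ p ^ a = 1) (H : Subgroup K) [Fintype H]
    (hH : ∀ x, x ∈ H ↔ x * u = u * x) (s : H) (hs : ¬ p ∣ orderOf s) (m : ℕ) :
    (p : R) ^ (m + 1) ∣ (cv z)^[p ^ m] F (s * u) -
      (cv fun h : H => z h)^[p ^ m] (fun h : H => F (h * u)) s := by
  -- a root of `s`
  obtain ⟨e, he⟩ : ∃ e : ℕ, (s ^ p ^ m) ^ e = s := by
    apply exists_pow_eq_self_of_coprime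
    exact ((Nat.Prime.coprime_iff_not_dvd hp.out).2 hs).pow_left m
  set r : H := s ^ e with hr
  have hroot : r ^ p ^ m = s := by rw [hr, ← pow_mul, mul_comm, pow_mul, he]
  have hrK : ((r : H) : K) ^ p ^ m = s := by
    have := congrArg (Subtype.val) hroot
    simpa using this
  have hsu : (s : K) * u = u * s := (hH s).1 s.2
  have hru : ((r : H) : K) * u = u * r := (hH r).1 r.2
  have hzH : IsCF fun h : H => z h := fun t x => hz t x
  have hFH : IsCF fun h : H => F (h * u) := by
    intro t x
    have h1 : ((t * x * t⁻¹ : H) : K) * u = t * ((x : K) * u) * (t : K)⁻¹ := by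
      have h2 : (t : K)⁻¹ * u = u * (t : K)⁻¹ := by
        have := (hH t).1 t.2
        rw [inv_mul_eq_iff_eq_mul, ← mul_assoc, this, mul_inv_cancel_right]
      push_cast
      rw [mul_assoc _ (t : K)⁻¹ u, h2]; simp only [mul_assoc]
    change F (((t * x * t⁻¹ : H) : K) * u) = F (x * u)
    rw [h1, hF]
  have h1 : (cv z)^[p ^ m] F (s * u) = (cv fun g => z (g * ((r : H) : K)⁻¹))^[p ^ m] F u := by
    rw [← cv_iterate_shift z F hz hF, hrK, hsu]
  have h2 : (cv fun h : H => z h)^[p ^ m] (fun h : H => F (h * u)) s =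
      (cv fun h : H => z ((h : K) * ((r : H) : K)⁻¹))^[p ^ m] (fun h : H => F (h * u)) 1 := by
    have := cv_iterate_shift (fun h : H => z h) (fun h : H => F (h * u)) hzH hFH r (p ^ m) 1
    rw [one_mul, hroot] at this
    rw [this]
    rfl
  rw [h1, h2, cv_iterate, cv_iterate]
  simp only [mul_one]
  refine master_core p (fun g => z (g * ((r : H) : K)⁻¹)) F u a hu ?_ hF H hH m
  intro x
  have h3 : u⁻¹ * ((r : H) : K)⁻¹ = ((r : H) : K)⁻¹ * u⁻¹ := by
    rw [← mul_inv_rev, ← mul_inv_rev, hru]
  have h4 : u * x * u⁻¹ * ((r : H) : K)⁻¹ = u * (x * ((r : H) : K)⁻¹) * u⁻¹ := by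
    rw [mul_assoc, h3]; group
  rw [h4, hz]

end Master

end P179C

namespace P179P

open P179H524 P179C P179A Finset

open P179X (IrrB SameSec pp)

open scoped Classical

section

variable {k : Type*} [Field k] (p : ℕ) [hp : Fact p.Prime] [CharP k p] (red : AA →+* k)
  {G : Type*} [Group G] [Fintype G]

omit [Fintype G] in
theorem isCF_restr {R : Type*} {z : G → R} (hz : IsCF z) (H : Subgroup G) :
    IsCF (fun h : H => z h) := fun t x => hz t x

/-- **Second main theorem**, for two separated characters. -/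
theorem two_mt (χ : Irr G) (u : G) (hu : ∃ a : ℕ, u ^ p ^ a = 1) (H : Subgroup G)
    (hH : ∀ x, x ∈ H ↔ x * u = u * x) (ζ : Irr H) (z : G → ℤ) (hz : IsCF z)
    (hne : red (omA χ z hz) ≠ red (omA ζ (fun h : H => z h) (isCF_restr hz H))) :
    ∑ s : H, (if ¬ p ∣ orderOf s then χ.1 (s * u) * ζ.1 s⁻¹ else 0) = 0 := by
  obtain ⟨a, ha⟩ := hu
  have hzA : IsCF (fun g => (z g : AA)) := fun t x => congrArg (fun n : ℤ => (n : AA)) (hz t x)
  have hzHA : IsCF (fun g : H => (z g : AA)) := isCF_restr hzA H
  have hzH : IsCF (fun h : H => z h) := isCF_restr hz H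
  set F : H → AA := fun h => chA χ (h * u) with hFdef
  have hFcf : IsCF F := by
    intro t x
    have h1 : ((t * x * t⁻¹ : H) : G) * u = t * ((x : G) * u) * (t : G)⁻¹ := by
      have h2 : (t : G)⁻¹ * u = u * (t : G)⁻¹ := by
        have := (hH t).1 t.2
        rw [inv_mul_eq_iff_eq_mul, ← mul_assoc, this, mul_inv_cancel_right]
      push_cast
      rw [mul_assoc _ (t : G)⁻¹ u, h2]; simp only [mul_assoc]
    change chA χ (((t * x * t⁻¹ : H) : G) * u) = chA χ (x * u)
    rw [h1, chA_isCF]
  set F1 : H → AA := fun h => if ¬ p ∣ orderOf h then F h else 0 with hF1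
  set F2 : H → AA := fun h => if ¬ p ∣ orderOf h then 0 else F h with hF2
  have hordc : ∀ t x : H, orderOf (t * x * t⁻¹) = orderOf x := fun t x => P179C.orderOf_conj t x
  have hF : F1 + F2 = F := by
    ext y
    simp only [hF1, hF2, Pi.add_apply]
    split_ifs <;> simp
  have hF1cf : IsCF F1 := by
    intro t y
    simp only [hF1, hordc, hFcf t y]
  have hF2cf : IsCF F2 := by
    intro t y
    simp only [hF2, hordc, hFcf t y]
  have hregpp : ∀ a b : H, a * (pr p a)⁻¹ = b * (pr p b)⁻¹ → (¬ p ∣ orderOf a ↔ ¬ p ∣ orderOf b) := by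
    intro a b hab
    rw [← pp_eq_one_iff, ← pp_eq_one_iff]
    unfold P179X.pp
    rw [hab]
  set I : AA := ∑ y, chA ζ y⁻¹ * F1 y with hI
  have hI0 : I = 0 := by
    apply eq_zero_of_dvd p red
    intro j
    set m := j + (Nat.card H).factorization p with hm
    refine ⟨omA χ z hz ^ p ^ m - omA ζ (fun h : H => z h) hzH ^ p ^ m, ?_, ?_⟩
    · rw [map_sub, map_pow, map_pow, ← sub_pow_char_pow]
      exact pow_ne_zero _ (sub_ne_zero.2 hne)
    · have hpt : ∀ y : H, (p : AA) ^ j ∣ omA χ z hz ^ p ^ m * F1 y -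
          (cv (fun h : H => (z h : AA)))^[p ^ m] F1 y := by
        intro y
        have hjm : (p : AA) ^ j ∣ (p : AA) ^ (m - (Nat.card H).factorization p + 1) :=
          pow_dvd_pow _ (by omega)
        by_cases hy : ¬ p ∣ orderOf y
        · have h1 := lemW p (fun h : H => (z h : AA)) F2 hzHA hF2cf y (by
            intro q hq
            have : ¬ p ∣ orderOf q := (hregpp q y hq).2 hy
            simp only [hF2, if_pos this]) m (by omega)
          have h0 := master p (fun g => (z g : AA)) (chA χ) hzA (chA_isCF χ) u a ha H hH y hy m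
          rw [cv_iter_chA χ z hz] at h0
          have h2 := congrFun (cv_iter_add (fun h : H => (z h : AA)) F1 F2 (p ^ m)) y
          rw [hF, Pi.add_apply] at h2
          have h3 : omA χ z hz ^ p ^ m * F1 y - (cv (fun h : H => (z h : AA)))^[p ^ m] F1 y =
              (omA χ z hz ^ p ^ m * chA χ (y * u) -
                (cv (fun h : H => (z h : AA)))^[p ^ m] (fun h : H => chA χ (h * u)) y) +
              (cv (fun h : H => (z h : AA)))^[p ^ m] F2 y := by
            have h4 : F1 y = chA χ (y * u) := by simp only [hF1, if_pos hy]; rfl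
            have h5 : (cv (fun h : H => (z h : AA)))^[p ^ m] (fun h : H => chA χ (h * u)) y =
              (cv (fun h : H => (z h : AA)))^[p ^ m] F1 y +
                (cv (fun h : H => (z h : AA)))^[p ^ m] F2 y := h2
            rw [h4, h5]; ring
          rw [h3]
          refine dvd_add ?_ (hjm.trans h1)
          exact (pow_dvd_pow (p : AA) (by omega : j ≤ m + 1)).trans h0
        · have h1 := lemW p (fun h : H => (z h : AA)) F1 hzHA hF1cf y (by
            intro q hq
            have : ¬ ¬ p ∣ orderOf q := fun h => hy ((hregpp q y hq).1 h)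
            simp only [hF1, if_neg this]) m (by omega)
          have : F1 y = 0 := by simp only [hF1, if_neg hy]
          rw [this, mul_zero, zero_sub, dvd_neg]
          exact hjm.trans h1
      have h4 : (omA χ z hz ^ p ^ m - omA ζ (fun h : H => z h) hzH ^ p ^ m) * I =
          ∑ y, chA ζ y⁻¹ * (omA χ z hz ^ p ^ m * F1 y -
            (cv (fun h : H => (z h : AA)))^[p ^ m] F1 y) := by
        simp only [mul_sub, Finset.sum_sub_distrib]
        rw [sum_chA_cv_iter ζ (fun h : H => z h) hzH, sub_mul, hI]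
        congr 1
        rw [Finset.mul_sum]
        exact Finset.sum_congr rfl fun y _ => by ring
      rw [h4]
      exact Finset.dvd_sum fun y _ => (hpt y).mul_left _
  have h5 : ∑ s : H, (if ¬ p ∣ orderOf s then χ.1 (s * u) * ζ.1 s⁻¹ else 0) = ((I : AA) : ℂ) := by
    rw [hI]
    push_cast
    refine Finset.sum_congr rfl fun y _ => ?_
    simp only [hF1, hFdef]
    split_ifs
    · simp
    · simp only [chA]
      ring
  rw [h5, hI0]
  rfl

end

end P179P
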