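import Vale.Agent.P179.H905.WC4
import Vale.Agent.P179.H143.R3

/-!
# Theorem R, the weights of `G ≀ Q` in the base group, I: tuples of classes
-/

namespace P179R

open P179H524 P179C P179A P179P P179Y Finset Subgroup RegularWreathProduct

open scoped Classical

section Equiv

variable {p : ℕ} {G : Type} [Group G]

theorem map_conj_one (a : WF p G) : a.map (MulAut.conj (1 : G)) = a := by
  refine WF.ext' ?_ (funext fun x => ?_)
  · ext x
    rw [WF.mem_map_R, MulAut.conj_apply]
    simp
  · rw [WF.map_χ, MulAut.conj_apply]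
    simp

theorem map_conj_mul (a : WF p G) (g h : G) :
    (a.map (MulAut.conj g)).map (MulAut.conj h) = a.map (MulAut.conj (g * h)) := by
  have e : ∀ x, MulAut.conj g (MulAut.conj h x) = MulAut.conj (g * h) x := fun x => by
    rw [map_mul]; rfl
  refine WF.ext' ?_ (funext fun x => ?_)
  · ext x
    rw [WF.mem_map_R, WF.mem_map_R, WF.mem_map_R, e]
  · rw [WF.map_χ, WF.map_χ, WF.map_χ, e]

theorem WF.rel_iff' (a b : WF p G) : WF.Rel a b ↔ ∃ g : G, b = a.map (MulAut.conj g) := by
  rw [WF.rel_iff]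
  constructor
  · rintro ⟨g, h⟩; exact ⟨g⁻¹, h⟩
  · rintro ⟨g, h⟩; exact ⟨g⁻¹, by rw [inv_inv]; exact h⟩

theorem WF.Rel.refl (a : WF p G) : WF.Rel a a := (WF.rel_iff' a a).2 ⟨1, (map_conj_one a).symm⟩

theorem WF.Rel.symm {a b : WF p G} (h : WF.Rel a b) : WF.Rel b a := by
  obtain ⟨g, rfl⟩ := (WF.rel_iff' a b).1 h
  exact (WF.rel_iff' _ _).2 ⟨g⁻¹, by rw [map_conj_mul, mul_inv_cancel, map_conj_one]⟩

theorem WF.Rel.trans {a b c : WF p G} (h : WF.Rel a b) (h' : WF.Rel b c) : WF.Rel a c := by
  obtain ⟨g, rfl⟩ := (WF.rel_iff' a b).1 h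
  obtain ⟨g', rfl⟩ := (WF.rel_iff' _ c).1 h'
  exact (WF.rel_iff' _ _).2 ⟨g * g', by rw [map_conj_mul]⟩

instance finite_WF [Fact p.Prime] [Finite G] : Finite (WF p G) :=
  Finite.of_surjective _ (toWF_surjective (p := p) (G := G))

end Equiv

section Wr

variable {p : ℕ} [hp : Fact p.Prime] {G : Type} [Group G] [Fintype G] {Q : Type} [Group Q]
  [Fintype Q]

instance incl_normal : (incl G Q).range.Normal := by
  refine ⟨fun x hx g => ?_⟩
  obtain ⟨y, rfl⟩ := hx
  rw [wr_conj]
  exact ⟨_, rfl⟩

omit [Fintype G] [Fintype Q] in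
theorem mem_incl_range (x : G ≀ᵣ Q) : x ∈ (incl G Q).range ↔ x.right = 1 := by
  constructor
  · rintro ⟨y, rfl⟩; rfl
  · intro h
    exact ⟨x.left, (eq_incl h).symm⟩

omit [Fintype G] [Fintype Q] in
theorem incl_index : (incl G Q).range.index = Nat.card Q := by
  have h1 : (incl G Q).range = (rightHom : G ≀ᵣ Q →* Q).ker := by
    ext x
    rw [mem_incl_range, MonoidHom.mem_ker]
    rfl
  rw [h1, index_ker]
  have h2 : (rightHom : G ≀ᵣ Q →* Q).range = ⊤ := by
    rw [MonoidHom.range_eq_top]
    intro q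
    exact ⟨⟨1, q⟩, rfl⟩
  rw [h2]
  exact Nat.card_congr (Subgroup.topEquiv).toEquiv

omit [Fintype G] [Fintype Q] in
theorem al_incl (g : G ≀ᵣ Q) (y : Q → G) (q : Q) :
    al (incl G Q) incl_injective g y q = g.left q * y (g.right⁻¹ * q) * (g.left q)⁻¹ := by
  have h1 := i_al (incl G Q) incl_injective g y
  rw [wr_conj] at h1
  exact congrFun (incl_injective h1) q

omit hp in
/-- the action of `Γ` on products of weights -/
theorem prodWF_map (v : Q → WF p G) (g : G ≀ᵣ Q) :
    (prodWF v).map (al (incl G Q) incl_injective g) =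
      prodWF fun q => (v (g.right * q)).map (MulAut.conj (g.left (g.right * q))) := by
  refine WF.ext' ?_ (funext fun y => ?_)
  · ext y
    rw [WF.mem_map_R, prodWF_R, prodWF_R, Subgroup.mem_pi, Subgroup.mem_pi]
    constructor
    · intro h q _
      have h1 := h (g.right * q) trivial
      rw [al_incl, inv_mul_cancel_left] at h1
      exact h1
    · intro h q _
      have h1 := h (g.right⁻¹ * q) trivial
      rw [WF.mem_map_R, mul_inv_cancel_left] at h1
      rw [al_incl]
      exact h1
  · rw [WF.map_χ, prodWF_χ, prodWF_χ, ← Equiv.prod_comp (Equiv.mulLeft g.right)]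
    refine Finset.prod_congr rfl fun q _ => ?_
    rw [Equiv.coe_mulLeft, al_incl, inv_mul_cancel_left]
    rfl

omit hp in
theorem relG_prodWF_iff (v v' : Q → WF p G) :
    RelG (incl G Q) incl_injective (prodWF v) (prodWF v') ↔
      ∃ τ : Q, ∀ q, WF.Rel (v (τ * q)) (v' q) := by
  constructor
  · rintro ⟨g, hg⟩
    rw [prodWF_map] at hg
    have h1 := prodWF_injective hg
    refine ⟨g.right, fun q => ?_⟩
    rw [WF.rel_iff']
    exact ⟨_, congrFun h1 q⟩
  · rintro ⟨τ, h⟩
    have h1 : ∀ q, ∃ x : G, v' q = (v (τ * q)).map (MulAut.conj x) := fun q =>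
      (WF.rel_iff' _ _).1 (h q)
    choose x hx using h1
    refine ⟨⟨fun q => x (τ⁻¹ * q), τ⟩, ?_⟩
    rw [prodWF_map]
    congr 1
    funext q
    rw [hx q]
    simp

theorem good_prodWF_iff (hQ : Nat.card Q = p) (v : Q → WF p G) :
    Good (incl G Q) incl_injective (prodWF v) ↔ ¬ ∀ q q', WF.Rel (v q) (v q') := by
  constructor
  · intro h hall
    have hcard : 1 < Nat.card Q := by rw [hQ]; exact hp.out.one_lt
    obtain ⟨τ, hτ⟩ : ∃ τ : Q, τ ≠ 1 := by
      have := Finite.one_lt_card_iff_nontrivial.1 hcard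
      exact exists_ne 1
    have h1 : ∀ q, ∃ x : G, v q = (v (τ * q)).map (MulAut.conj x) := fun q =>
      (WF.rel_iff' _ _).1 (hall _ _)
    choose x hx using h1
    have h2 := h ⟨fun q => x (τ⁻¹ * q), τ⟩ (by
      rw [prodWF_map]
      congr 1
      funext q
      rw [hx q]
      simp)
    rw [mem_incl_range] at h2
    exact hτ h2
  · intro h g hg
    rw [mem_incl_range]
    by_contra hne
    apply h
    rw [prodWF_map] at hg
    have h1 := prodWF_injective hg
    have h2 : ∀ q, WF.Rel (v (g.right * q)) (v q) := fun q => by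
      rw [WF.rel_iff']
      exact ⟨_, (congrFun h1 q).symm⟩
    have h3 : ∀ (n : ℕ) q, WF.Rel (v (g.right ^ n * q)) (v q) := by
      intro n
      induction n with
      | zero => intro q; rw [pow_zero, one_mul]; exact WF.Rel.refl _
      | succ n ih =>
        intro q
        rw [pow_succ, mul_assoc]
        exact (ih _).trans (h2 q)
    have hgen : ∀ q : Q, ∃ n : ℕ, g.right ^ n = q := by
      intro q
      have h4 : q ∈ Subgroup.zpowers g.right := by
        have hord : orderOf g.right = p := by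
          have h3 : orderOf g.right ∣ p := hQ ▸ orderOf_dvd_natCard g.right
          rcases (Nat.dvd_prime hp.out).1 h3 with h4 | h4
          · exact absurd (orderOf_eq_one_iff.1 h4) hne
          · exact h4
        have h5 : Subgroup.zpowers g.right = ⊤ := by
          apply Subgroup.eq_top_of_card_eq
          rw [Nat.card_zpowers, hord, hQ]
        rw [h5]; exact Subgroup.mem_top q
      rw [← mem_powers_iff_mem_zpowers] at h4
      obtain ⟨n, hn⟩ := h4
      exact ⟨n, hn⟩
    have h4 : ∀ q, WF.Rel (v q) (v 1) := by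
      intro q
      obtain ⟨n, hn⟩ := hgen q
      have := h3 n 1
      rwa [hn, mul_one] at this
    exact fun q q' => (h4 q).trans (h4 q').symm

end Wr

end P179R
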