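import Vale.Agent.P179.H905.WP6
import Vale.Agent.P179.H166.K6p2

/-!
# Theorem R, Clifford theory, I: normal subgroups
-/

namespace P179R

open P179H524 P179C P179A P179P P179Y Finset Subgroup

open scoped Classical

variable {M : Type*} [Group M] [Fintype M]

/-- central characters of `M` and of the constituents of the restriction to a subgroup, complex
coefficients -/
theorem omC_restr_of (M0 : Subgroup M) (χ : Irr M) (θ : Irr M0) (hθ : pairC M0 θ χ ≠ 0) (z : M → ℂ)
    (hz : IsCF z) (hzM : ∀ x, x ∉ M0 → z x = 0) : omC θ.1 (fun m : M0 => z m) = omC χ.1 z := by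
  obtain ⟨n, hn⟩ := restr_decomp χ M0
  have hθ' : n θ ≠ 0 := by
    obtain ⟨m, hm, hmn⟩ := pairC_eq M0 θ χ
    rw [← hmn n hn]
    rintro rfl
    exact hθ (by rw [hm]; simp)
  have hzMC : IsCF (fun m : M0 => z m) := fun g x => hz g x
  have h1 : ∀ y : M0, ∑ ψ : Irr M0, (n ψ : ℂ) * (omC ψ.1 (fun m : M0 => z m) - omC χ.1 z) *
      ψ.1 y = 0 := by
    intro y
    have e1 := sum_mul_irr χ hz (y : M)
    have e2 : ∑ g : M, z g * χ.1 (g * y) = ∑ m : M0, z m * χ.1 ((m * y : M0) : M) := by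
      rw [← Finset.sum_subset (Finset.subset_univ (univ.filter fun x : M => x ∈ M0))]
      · rw [Finset.sum_subtype (p := fun x => x ∈ M0) (univ.filter fun x : M => x ∈ M0)
          (fun x => by simp)]
        rfl
      · intro x _ hx
        rw [hzM x (by simpa using hx), zero_mul]
    rw [e2] at e1
    have e3 : ∑ m : M0, z m * χ.1 ((m * y : M0) : M) =
        ∑ ψ : Irr M0, (n ψ : ℂ) * (omC ψ.1 (fun m : M0 => z m) * ψ.1 y) := by
      have : ∀ m : M0, z m * χ.1 ((m * y : M0) : M) =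
          ∑ ψ : Irr M0, (n ψ : ℂ) * (z m * ψ.1 (m * y)) := by
        intro m
        rw [hn, Finset.mul_sum]
        exact Finset.sum_congr rfl fun ψ _ => by ring
      rw [Finset.sum_congr rfl fun m _ => this m, Finset.sum_comm]
      refine Finset.sum_congr rfl fun ψ _ => ?_
      rw [← Finset.mul_sum, sum_mul_irr ψ hzMC]
    rw [e3, hn, Finset.mul_sum] at e1
    have e4 := sub_eq_zero.2 e1
    rw [← Finset.sum_sub_distrib] at e4
    rw [← e4]
    exact Finset.sum_congr rfl fun ψ _ => by ring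
  have h2 : ∑ y : M0, (∑ ψ : Irr M0, (n ψ : ℂ) * (omC ψ.1 (fun m : M0 => z m) -
      omC χ.1 z) * ψ.1 y) * θ.1 y⁻¹ = 0 :=
    Finset.sum_eq_zero fun y _ => by rw [h1, zero_mul]
  simp only [Finset.sum_mul] at h2
  rw [Finset.sum_comm] at h2
  have h3 : ∀ ψ : Irr M0, ∑ y : M0, (n ψ : ℂ) * (omC ψ.1 (fun m : M0 => z m) -
      omC χ.1 z) * ψ.1 y * θ.1 y⁻¹ =
      (n ψ : ℂ) * (omC ψ.1 (fun m : M0 => z m) - omC χ.1 z) *
        (if ψ = θ then (Fintype.card M0 : ℂ) else 0) := by
    intro ψ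
    rw [← row_orth ψ θ, Finset.mul_sum]
    exact Finset.sum_congr rfl fun y _ => by ring
  rw [Finset.sum_congr rfl fun ψ _ => h3 ψ, Finset.sum_eq_single θ] at h2
  · rw [if_pos rfl] at h2
    have h4 : (Fintype.card M0 : ℂ) ≠ 0 := by exact_mod_cast Fintype.card_ne_zero
    have h5 : (n θ : ℂ) ≠ 0 := by exact_mod_cast hθ'
    rcases mul_eq_zero.1 h2 with h6 | h6
    · rcases mul_eq_zero.1 h6 with h7 | h7
      · exact absurd h7 h5
      · exact sub_eq_zero.1 h7
    · exact absurd h6 h4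
  · intro ψ _ hne
    rw [if_neg hne, mul_zero]
  · intro h; exact absurd (mem_univ _) h

/-- the value of the central character of `ψ` at the sum of the conjugates of `θ` -/
theorem omC_indF (M0 : Subgroup M) [M0.Normal] (θ ψ : Irr M0) :
    omC ψ.1 (fun m : M0 => indF M0 θ (m : M)⁻¹) * ψ.1 1 =
      Nat.card {c : M // cjI M0 c θ = ψ} * Nat.card M0 := by
  unfold omC
  rw [div_mul_cancel₀ _ ψ.one_ne_zero]
  have h1 : ∀ m : M0, indF M0 θ (m : M)⁻¹ * ψ.1 m = ∑ c : M, (cjI M0 c θ).1 m⁻¹ * ψ.1 m := by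
    intro m
    unfold indF
    rw [Finset.sum_mul]
    refine Finset.sum_congr rfl fun c _ => ?_
    rw [ext_conj, show ((m : M))⁻¹ = ((m⁻¹ : M0) : M) from rfl, P179Y.ext_coe]
  rw [Finset.sum_congr rfl fun m _ => h1 m, Finset.sum_comm]
  have h2 : ∀ c : M, ∑ m : M0, (cjI M0 c θ).1 m⁻¹ * ψ.1 m =
      if cjI M0 c θ = ψ then (Fintype.card M0 : ℂ) else 0 := by
    intro c
    rw [← row_orth (cjI M0 c θ) ψ, ← Equiv.sum_comp (Equiv.inv M0)]
    refine Finset.sum_congr rfl fun m _ => ?_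
    simp only [Equiv.inv_apply, inv_inv]
  rw [Finset.sum_congr rfl fun c _ => h2 c, ← Finset.sum_filter, Finset.sum_const, nsmul_eq_mul,
    ← Fintype.card_subtype, Nat.card_eq_fintype_card, Nat.card_eq_fintype_card]

/-- Clifford: the constituents of the restriction to a normal subgroup are conjugate -/
theorem clifford (M0 : Subgroup M) [hM0 : M0.Normal] (χ : Irr M) (θ ψ : Irr M0)
    (hθ : pairC M0 θ χ ≠ 0) (hψ : pairC M0 ψ χ ≠ 0) : ∃ c : M, cjI M0 c θ = ψ := by
  have hz : IsCF (fun m : M => indF M0 θ m⁻¹) := by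
    intro g x
    change indF M0 θ (g * x * g⁻¹)⁻¹ = indF M0 θ x⁻¹
    rw [show (g * x * g⁻¹)⁻¹ = g * x⁻¹ * g⁻¹ by group]
    exact isCF_indF M0 θ g x⁻¹
  have hz0 : ∀ x, x ∉ M0 → indF M0 θ x⁻¹ = 0 := by
    intro x hx
    unfold indF
    refine Finset.sum_eq_zero fun c _ => ?_
    rw [ext_conj]
    exact ext_of_not_mem M0 _ (fun h => hx (inv_mem_iff.1 h))
  have h1 := omC_restr_of M0 χ θ hθ _ hz hz0
  have h2 := omC_restr_of M0 χ ψ hψ _ hz hz0
  have h3 := omC_indF M0 θ θ
  have h4 := omC_indF M0 θ ψ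
  have h5 : Nat.card {c : M // cjI M0 c θ = θ} ≠ 0 := by
    have : Nonempty {c : M // cjI M0 c θ = θ} := ⟨⟨1, cjI_one M0 θ⟩⟩
    exact Nat.card_pos.ne'
  have h6 : omC χ.1 (fun m : M => indF M0 θ m⁻¹) ≠ 0 := by
    intro h
    rw [h1, h, zero_mul] at h3
    have : (Nat.card {c : M // cjI M0 c θ = θ} : ℂ) * Nat.card M0 ≠ 0 :=
      mul_ne_zero (by exact_mod_cast h5) (by exact_mod_cast Nat.card_pos.ne')
    exact this h3.symm
  have h7 : Nat.card {c : M // cjI M0 c θ = ψ} ≠ 0 := by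
    intro h
    rw [h2, h, Nat.cast_zero, zero_mul] at h4
    exact mul_ne_zero h6 ψ.one_ne_zero h4
  rw [Nat.card_ne_zero] at h7
  obtain ⟨⟨c, hc⟩⟩ := h7.1
  exact ⟨c, hc⟩

/-- existence of a character above `θ` -/
theorem exists_above (M0 : Subgroup M) (θ : Irr M0) : ∃ χ : Irr M, pairC M0 θ χ ≠ 0 := by
  by_contra hcon
  push Not at hcon
  have h1 := cf_expand (isCF_indF M0 θ) 1
  rw [Finset.sum_eq_zero fun χ _ => by rw [indF_pair, hcon χ]; simp] at h1
  have h2 : indF M0 θ 1 = Fintype.card M * θ.1 1 := by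
    unfold indF
    have : ∀ c : M, ext M0 θ.1 (c⁻¹ * 1 * c) = θ.1 1 := by
      intro c
      have e : c⁻¹ * 1 * c = ((1 : M0) : M) := by simp
      rw [e, P179Y.ext_coe]
    rw [Finset.sum_congr rfl fun c _ => this c, Finset.sum_const, Finset.card_univ, nsmul_eq_mul]
  rw [h2] at h1
  exact mul_ne_zero (by exact_mod_cast Fintype.card_ne_zero) θ.one_ne_zero h1

/-- a character with trivial inertia: uniqueness of the character above -/
theorem above_unique (M0 : Subgroup M) [M0.Normal] (θ : Irr M0)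
    (hst : ∀ c : M, cjI M0 c θ = θ → c ∈ M0) (χ χ' : Irr M) (h : pairC M0 θ χ ≠ 0)
    (h' : pairC M0 θ χ' ≠ 0) : χ = χ' := by
  by_contra hne
  have h1 := card_const_le M0 θ {χ, χ'} (by
    intro ψ hψ
    rcases Finset.mem_insert.1 hψ with rfl | hψ
    · exact h
    · rw [Finset.mem_singleton.1 hψ]; exact h')
  rw [Finset.card_pair hne] at h1
  have h2 : Nat.card {c : M // cjI M0 c θ = θ} ≤ Nat.card M0 :=
    Nat.card_le_card_of_injective (fun c => (⟨c.1, hst c.1 c.2⟩ : M0))
      (fun a b hab => Subtype.ext (congrArg (fun x : M0 => (x : M)) hab))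
  have h3 : 0 < Nat.card M0 := Nat.card_pos
  omega

omit [Fintype M] in
theorem inner_stab (M0 : Subgroup M) [M0.Normal] (θ : Irr M0) (c : M0) :
    cjI M0 (c : M) θ = θ := by
  apply Subtype.ext
  funext x
  rw [cjI_apply]
  have : MulAut.conjNormal (c : M)⁻¹ x = c⁻¹ * x * (c⁻¹)⁻¹ := by
    apply Subtype.ext
    rw [MulAut.conjNormal_apply]
    rfl
  rw [this, θ.conj]

/-- a character with trivial inertia is induced to an irreducible character of degree
`|M : M0| θ(1)` -/
theorem indF_eq (M0 : Subgroup M) [M0.Normal] (θ : Irr M0)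
    (hst : ∀ c : M, cjI M0 c θ = θ → c ∈ M0) (χ : Irr M) (h : pairC M0 θ χ ≠ 0) (x : M) :
    indF M0 θ x = Nat.card M0 * χ.1 x := by
  have hcard : Nat.card {c : M // cjI M0 c θ = θ} = Nat.card M0 :=
    Nat.card_congr
      { toFun := fun c => ⟨c.1, hst c.1 c.2⟩
        invFun := fun c => ⟨c, inner_stab M0 θ c⟩
        left_inv := fun _ => rfl
        right_inv := fun _ => rfl }
  obtain ⟨n, hn, -⟩ := pairC_eq M0 θ χ
  have hM : (Nat.card M : ℂ) ≠ 0 := by exact_mod_cast Nat.card_pos.ne'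
  have hM0 : (Nat.card M0 : ℂ) ≠ 0 := by exact_mod_cast Nat.card_pos.ne'
  have hexp : ∀ y, indF M0 θ y = n * Nat.card M0 * χ.1 y := by
    intro y
    rw [cf_expand (isCF_indF M0 θ) y, Finset.sum_eq_single χ]
    · rw [indF_pair, hn, ← Nat.card_eq_fintype_card]
      field_simp
    · intro ψ _ hne
      have : pairC M0 θ ψ = 0 := by
        by_contra hcon
        exact hne (above_unique M0 θ hst ψ χ hcon h)
      rw [indF_pair, this]; simp
    · intro h; exact absurd (mem_univ _) h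
  -- the norm
  have h1 := indF_norm M0 θ
  rw [hcard] at h1
  have h2 : ((∑ g : M, ‖indF M0 θ g‖ ^ 2 : ℝ) : ℂ) =
      (n * Nat.card M0) * (n * Nat.card M0) * Nat.card M := by
    push_cast
    have e1 : ∀ g : M, ((‖indF M0 θ g‖ : ℂ)) ^ 2 =
        (n * Nat.card M0) * (n * Nat.card M0) * (χ.1 g * χ.1 g⁻¹) := by
      intro g
      have e2 : ((‖indF M0 θ g‖ : ℂ)) ^ 2 = indF M0 θ g * (starRingEnd ℂ) (indF M0 θ g) := by
        rw [Complex.mul_conj, Complex.normSq_eq_norm_sq]
        push_cast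
        rfl
      rw [e2, hexp, map_mul, map_mul, Complex.conj_natCast, Complex.conj_natCast,
        ← χ.inv_eq_conj]
      ring
    rw [Finset.sum_congr rfl fun g _ => e1 g, ← Finset.mul_sum, row_orth, if_pos rfl,
      Nat.card_eq_fintype_card (α := M)]
  rw [h1] at h2
  push_cast at h2
  have h3 : (n : ℂ) * n = 1 := by
    have e1 : (Nat.card M : ℂ) * Nat.card M0 * Nat.card M0 * 1 =
        (Nat.card M : ℂ) * Nat.card M0 * Nat.card M0 * (n * n) := by
      rw [mul_one]
      linear_combination h2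
    exact (mul_left_cancel₀ (mul_ne_zero (mul_ne_zero hM hM0) hM0) e1).symm
  have h4 : n = 1 := by
    have : n * n = 1 := by exact_mod_cast h3
    exact Nat.eq_one_of_mul_eq_one_right this
  rw [hexp, h4, Nat.cast_one, one_mul]

theorem deg_above (M0 : Subgroup M) [M0.Normal] (θ : Irr M0)
    (hst : ∀ c : M, cjI M0 c θ = θ → c ∈ M0) (χ : Irr M) (h : pairC M0 θ χ ≠ 0) :
    (Nat.card M : ℂ) * θ.1 1 = Nat.card M0 * χ.1 1 := by
  rw [← indF_eq M0 θ hst χ h]
  unfold indF
  have : ∀ c : M, ext M0 θ.1 (c⁻¹ * 1 * c) = θ.1 1 := by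
    intro c
    have e : c⁻¹ * 1 * c = ((1 : M0) : M) := by simp
    rw [e, P179Y.ext_coe]
  rw [Finset.sum_congr rfl fun c _ => this c, Finset.sum_const, Finset.card_univ, nsmul_eq_mul,
    Nat.card_eq_fintype_card]

/-- a character vanishing off a normal subgroup of prime index lies over characters with trivial
inertia -/
theorem stab_of_van {p : ℕ} (hp : p.Prime) (M0 : Subgroup M) [hM0 : M0.Normal]
    (hidx : M0.index = p) (χ : Irr M) (hv : ∀ x, x ∉ M0 → χ.1 x = 0) (θ : Irr M0)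
    (hθ : pairC M0 θ χ ≠ 0) (c : M) (hc : cjI M0 c θ = θ) : c ∈ M0 := by
  by_contra hcM
  -- `θ` is invariant
  have hinv : ∀ g : M, cjI M0 g θ = θ := by
    let S : Subgroup M :=
      { carrier := {g | cjI M0 g θ = θ}
        one_mem' := cjI_one M0 θ
        mul_mem' := by
          intro a b ha hb
          change cjI M0 (a * b) θ = θ
          rw [cjI_mul, show cjI M0 b θ = θ from hb, show cjI M0 a θ = θ from ha]
        inv_mem' := by
          intro a ha
          change cjI M0 a⁻¹ θ = θ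
          have h1 := congrArg (cjI M0 a⁻¹) (show cjI M0 a θ = θ from ha)
          rw [← cjI_mul, inv_mul_cancel, cjI_one] at h1
          exact h1.symm }
    have hle : M0 ≤ S := fun x hx => inner_stab M0 θ ⟨x, hx⟩
    have hSi : S.index ∣ p := by rw [← hidx]; exact index_dvd_of_le hle
    rcases (Nat.dvd_prime hp).1 hSi with h1 | h1
    · intro g
      have : g ∈ S := by rw [index_eq_one.1 h1]; trivial
      exact this
    · exfalso
      apply hcM
      have h2 : M0.relIndex S * S.index = M0.index := relIndex_mul_index hle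
      rw [h1, hidx] at h2
      have h3 : M0.relIndex S = 1 := by
        have := hp.pos
        exact Nat.eq_of_mul_eq_mul_right this (h2.trans (one_mul p).symm)
      exact relIndex_eq_one.1 h3 hc
  -- all constituents are equal to `θ`
  obtain ⟨n, hn⟩ := restr_decomp χ M0
  have hone : ∀ ψ : Irr M0, ψ ≠ θ → n ψ = 0 := by
    intro ψ hne
    by_contra hcon
    obtain ⟨m, hm, hmn⟩ := pairC_eq M0 ψ χ
    have h1 : pairC M0 ψ χ ≠ 0 := by
      rw [hm, hmn n hn]
      exact mul_ne_zero (by exact_mod_cast hcon) (by exact_mod_cast Nat.card_pos.ne')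
    obtain ⟨g, hg⟩ := clifford M0 χ θ ψ hθ h1
    rw [hinv] at hg
    exact hne hg.symm
  have hres : ∀ x : M0, χ.1 x = n θ * θ.1 x := by
    intro x
    rw [hn x, Finset.sum_eq_single θ]
    · intro ψ _ hne
      rw [hone ψ hne, Nat.cast_zero, zero_mul]
    · intro h; exact absurd (mem_univ _) h
  -- the norm
  have h1 := row_orth χ χ
  rw [if_pos rfl] at h1
  have h2 : ∑ g : M, χ.1 g * χ.1 g⁻¹ = ∑ x : M0, χ.1 x * χ.1 ((x⁻¹ : M0) : M) := by
    rw [← Finset.sum_subset (Finset.subset_univ (univ.filter fun x : M => x ∈ M0))]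
    · rw [Finset.sum_subtype (p := fun x => x ∈ M0) (univ.filter fun x : M => x ∈ M0)
        (fun x => by simp)]
      rfl
    · intro x _ hx
      rw [hv x (by simpa using hx), zero_mul]
  have h3 : ∑ x : M0, χ.1 x * χ.1 ((x⁻¹ : M0) : M) = n θ * n θ * Fintype.card M0 := by
    rw [show (Fintype.card M0 : ℂ) = ∑ x : M0, θ.1 x * θ.1 x⁻¹ by rw [row_orth, if_pos rfl],
      Finset.mul_sum]
    refine Finset.sum_congr rfl fun x _ => ?_
    rw [hres, hres]; ring
  rw [h2, h3] at h1
  have h4 : Fintype.card M = p * Fintype.card M0 := by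
    rw [← Nat.card_eq_fintype_card, ← Nat.card_eq_fintype_card, ← hidx, mul_comm]
    exact (card_mul_index M0).symm
  rw [h4] at h1
  have h5 : n θ * n θ * Fintype.card M0 = p * Fintype.card M0 := by exact_mod_cast h1
  have h6 : n θ * n θ = p := Nat.eq_of_mul_eq_mul_right Fintype.card_pos h5
  have h7 : n θ ∣ p := ⟨n θ, h6.symm⟩
  rcases (Nat.dvd_prime hp).1 h7 with h8 | h8
  · rw [h8] at h6
    exact hp.one_lt.ne (by omega)
  · rw [h8] at h6
    have : p * p = p * 1 := by omega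
    have := Nat.eq_of_mul_eq_mul_left hp.pos this
    exact hp.one_lt.ne' this

end P179R
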