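import Vale.Agent.P179.H905.WC1

/-!
# Theorem R, Clifford theory, II: transport of weights
-/

namespace P179R

open P179H524 P179C P179A P179P P179Y Finset Subgroup

open scoped Classical

section Map

variable {p : ℕ} {G G' : Type} [Group G] [Group G']

/-- the isomorphism of the normalizers of `R` and its preimage -/
def normCongr (e : G' ≃* G) (R : Subgroup G) :
    normalizer ((R.comap e.toMonoidHom : Subgroup G') : Set G') ≃* normalizer (R : Set G) where
  toFun x := ⟨e x, by
    have hx := x.2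
    rw [mem_normalizer_iff] at hx ⊢
    intro y
    have := hx (e.symm y)
    simpa [mem_comap] using this⟩
  invFun y := ⟨e.symm y, by
    have hy := y.2
    rw [mem_normalizer_iff] at hy ⊢
    intro x
    have := hy (e x)
    simpa [mem_comap] using this⟩
  left_inv x := Subtype.ext (e.symm_apply_apply _)
  right_inv y := Subtype.ext (e.apply_symm_apply _)
  map_mul' x y := Subtype.ext (map_mul e (x : G') y)

@[simp] theorem normCongr_coe (e : G' ≃* G) (R : Subgroup G)
    (x : normalizer ((R.comap e.toMonoidHom : Subgroup G') : Set G')) :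
    ((normCongr e R x : normalizer (R : Set G)) : G) = e (x : G') := rfl

/-- transport of a weight -/
def WF.map (e : G' ≃* G) (w : WF p G) : WF p G' where
  R := w.R.comap e.toMonoidHom
  χ x := w.χ (e x)
  pgp := by
    have := w.pgp
    intro x
    obtain ⟨n, hn⟩ := this ⟨e x, x.2⟩
    refine ⟨n, Subtype.ext ?_⟩
    have h1 : (e x) ^ p ^ n = 1 := congrArg Subtype.val hn
    apply e.injective
    change e ((x : G') ^ p ^ n) = e 1
    rw [map_one, ← h1]
    exact map_pow e (x : G') _
  supp x hx := by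
    refine w.supp _ fun h => hx ?_
    have h1 := ((normCongr e w.R).symm ⟨e x, h⟩).2
    have h2 : (((normCongr e w.R).symm ⟨e x, h⟩ : normalizer ((w.R.comap e.toMonoidHom :
        Subgroup G') : Set G')) : G') = x := e.symm_apply_apply x
    rwa [h2] at h1
  irr := w.irr.comp (normCongr e w.R).toMonoidHom (normCongr e w.R).surjective
  triv r hr x := by
    rw [map_mul]
    exact w.triv _ hr _
  dz := by
    obtain ⟨d, hd, hdp⟩ := w.dz
    refine ⟨d, by rw [map_one, hd], ?_⟩
    rw [Nat.card_congr (normCongr e w.R).toEquiv, ← hdp]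
    congr 3
    refine Nat.card_congr ⟨fun x => ⟨e x, x.2⟩, fun y => ⟨e.symm y, ?_⟩,
      fun x => Subtype.ext (e.symm_apply_apply _), fun y => Subtype.ext (e.apply_symm_apply _)⟩
    rw [mem_comap]
    change e (e.symm y) ∈ w.R
    rw [e.apply_symm_apply]
    exact y.2

@[simp] theorem WF.map_χ (e : G' ≃* G) (w : WF p G) (x : G') : (w.map e).χ x = w.χ (e x) := rfl

theorem WF.mem_map_R (e : G' ≃* G) (w : WF p G) (x : G') : x ∈ (w.map e).R ↔ e x ∈ w.R := Iff.rfl

theorem WF.rel_iff (a b : WF p G) : WF.Rel a b ↔ ∃ g : G, b = a.map (MulAut.conj g⁻¹) := by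
  constructor
  · rintro ⟨g, h1, h2⟩
    refine ⟨g, WF.ext' ?_ ?_⟩
    · ext x
      rw [h1, WF.mem_map_R, MulAut.conj_apply, inv_inv]
    · funext x
      rw [h2, WF.map_χ, MulAut.conj_apply, inv_inv]
  · rintro ⟨g, rfl⟩
    refine ⟨g, fun x => ?_, fun x => ?_⟩
    · rw [WF.mem_map_R, MulAut.conj_apply, inv_inv]
    · rw [WF.map_χ, MulAut.conj_apply, inv_inv]

end Map

section Cov

variable {p : ℕ} {N Γ : Type} [Group N] [Group Γ] (i : N →* Γ)

/-- the automorphism of `N` induced by an element of `Γ` -/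
noncomputable def al (hi : Function.Injective i) [i.range.Normal] (g : Γ) : N ≃* N :=
  ((MonoidHom.ofInjective hi).trans (MulAut.conjNormal g)).trans (MonoidHom.ofInjective hi).symm

theorem i_al (hi : Function.Injective i) [i.range.Normal] (g : Γ) (n : N) :
    i (al i hi g n) = g * i n * g⁻¹ := by
  unfold al
  simp only [MulEquiv.trans_apply]
  have h1 : ∀ y : i.range, i ((MonoidHom.ofInjective hi).symm y) = y := fun y => by
    have := congrArg Subtype.val ((MonoidHom.ofInjective hi).apply_symm_apply y)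
    exact this
  rw [h1, MulAut.conjNormal_apply]
  rfl

/-- `w` covers `v` -/
def Cov [Fintype N] (w : WF p Γ) (v : WF p N) : Prop :=
  w.R = v.R.map i ∧ ∑ n : N, v.χ n * w.χ (i n)⁻¹ ≠ 0

/-- the stabiliser of `v` in `Γ` is contained in the image of `N` -/
def Good (hi : Function.Injective i) [i.range.Normal] (v : WF p N) : Prop :=
  ∀ g : Γ, v.map (al i hi g) = v → g ∈ i.range

variable [Fintype N] [Fintype Γ]

omit [Fintype Γ] in
theorem Cov.map (hi : Function.Injective i) [i.range.Normal] {w : WF p Γ} {v : WF p N}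
    (h : Cov i w v) (g : Γ) : Cov i (w.map (MulAut.conj g)) (v.map (al i hi g)) := by
  refine ⟨?_, ?_⟩
  · ext x
    rw [WF.mem_map_R, h.1, Subgroup.mem_map, Subgroup.mem_map]
    constructor
    · rintro ⟨n, hn, hnx⟩
      refine ⟨al i hi g⁻¹ n, ?_, ?_⟩
      · rw [WF.mem_map_R]
        have : al i hi g (al i hi g⁻¹ n) = n := by
          apply hi
          rw [i_al, i_al]; group
        rwa [this]
      · rw [i_al, hnx, MulAut.conj_apply]; group
    · rintro ⟨n, hn, rfl⟩
      exact ⟨al i hi g n, hn, by rw [i_al, MulAut.conj_apply]⟩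
  · have h2 : ∑ n : N, (v.map (al i hi g)).χ n * (w.map (MulAut.conj g)).χ (i n)⁻¹ =
        ∑ n : N, v.χ n * w.χ (i n)⁻¹ := by
      refine Fintype.sum_equiv (al i hi g).toEquiv _ _ fun n => ?_
      rw [WF.map_χ, WF.map_χ]
      congr 2
      change MulAut.conj g (i n)⁻¹ = (i (al i hi g n))⁻¹
      rw [i_al, MulAut.conj_apply]; group
    rw [h2]
    exact h.2

/-- the group `N_Γ(R) ∩ N` -/
abbrev M0 (R : Subgroup N) : Subgroup (normalizer ((R.map i : Subgroup Γ) : Set Γ)) :=
  i.range.subgroupOf (normalizer ((R.map i : Subgroup Γ) : Set Γ))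

instance M0_normal [i.range.Normal] (R : Subgroup N) : (M0 i R).Normal :=
  Subgroup.Normal.subgroupOf inferInstance _

omit [Fintype N] [Fintype Γ] in
theorem map_mem_iff (hi : Function.Injective i) (R : Subgroup N) (r : N) :
    i r ∈ R.map i ↔ r ∈ R := by
  constructor
  · rintro ⟨s, hs, hsr⟩
    rwa [← hi hsr]
  · intro hr
    exact ⟨r, hr, rfl⟩

omit [Fintype N] [Fintype Γ] in
theorem mem_norm_iff (hi : Function.Injective i) (R : Subgroup N) (n : N) :
    n ∈ normalizer (R : Set N) ↔ i n ∈ normalizer ((R.map i : Subgroup Γ) : Set Γ) := by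
  rw [mem_normalizer_iff, mem_normalizer_iff]
  constructor
  · intro h x
    constructor
    · rintro ⟨r, hr, rfl⟩
      exact ⟨n * r * n⁻¹, (h r).1 hr, by simp⟩
    · rintro ⟨r, hr, hrx⟩
      refine ⟨n⁻¹ * r * n, ?_, ?_⟩
      · rw [SetLike.mem_coe, h]
        have : n * (n⁻¹ * r * n) * n⁻¹ = r := by group
        rw [this]; exact hr
      · simp only [map_mul, map_inv, hrx]
        group
  · intro h r
    have h1 := h (i r)
    have h3 : i n * i r * (i n)⁻¹ = i (n * r * n⁻¹) := by simp
    rw [h3, map_mem_iff i hi, map_mem_iff i hi] at h1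
    exact h1

/-- the normalizer of `R` in `N` -/
noncomputable def jN (hi : Function.Injective i) (R : Subgroup N) :
    normalizer (R : Set N) ≃* M0 i R :=
  MulEquiv.ofBijective
    (MonoidHom.mk' (fun n : normalizer (R : Set N) =>
      (⟨⟨i n, (mem_norm_iff i hi R n).1 n.2⟩, mem_subgroupOf.2 ⟨n, rfl⟩⟩ : M0 i R))
      fun a b => Subtype.ext (Subtype.ext (map_mul i (a : N) b))) (by
    constructor
    · intro a b hab
      have h1 := congrArg (fun x : M0 i R => ((x : normalizer ((R.map i : Subgroup Γ) : Set Γ)) : Γ)) hab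
      exact Subtype.ext (hi h1)
    · rintro ⟨⟨x, hx⟩, n, hnx⟩
      have hnx' : i n = x := hnx
      exact ⟨⟨n, (mem_norm_iff i hi R n).2 (by rw [hnx']; exact hx)⟩,
        Subtype.ext (Subtype.ext hnx')⟩)

omit [Fintype N] [Fintype Γ] in
@[simp] theorem jN_coe (hi : Function.Injective i) (R : Subgroup N)
    (n : normalizer (R : Set N)) :
    (((jN i hi R n : M0 i R) : normalizer ((R.map i : Subgroup Γ) : Set Γ)) : Γ) = i n := rfl

/-- the character of `v` on `M0` -/
noncomputable def th (hi : Function.Injective i) (v : WF p N) : Irr (M0 i v.R) :=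
  ⟨fun m => v.χ ((jN i hi v.R).symm m : normalizer (v.R : Set N)),
    v.irr.comp (jN i hi v.R).symm.toMonoidHom (jN i hi v.R).symm.surjective⟩

omit [Fintype N] [Fintype Γ] in
theorem th_apply (hi : Function.Injective i) (v : WF p N)
    (n : normalizer (v.R : Set N)) : (th i hi v).1 (jN i hi v.R n) = v.χ n := by
  unfold th
  simp only [MulEquiv.symm_apply_apply]

theorem sum_eq_pair' (hi : Function.Injective i) (R : Subgroup N) (θ : Irr (M0 i R))
    (χ : Irr (normalizer ((R.map i : Subgroup Γ) : Set Γ))) (T : N → ℂ) (X : Γ → ℂ)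
    (hT : ∀ n : normalizer (R : Set N), θ.1 (jN i hi R n) = T n)
    (hT0 : ∀ n, n ∉ normalizer (R : Set N) → T n = 0)
    (hX : ∀ x : normalizer ((R.map i : Subgroup Γ) : Set Γ), χ.1 x = X x) :
    ∑ n : N, T n * X (i n)⁻¹ = pairC (M0 i R) θ χ := by
  unfold pairC
  rw [← Finset.sum_subset (Finset.subset_univ (univ.filter fun x : N => x ∈ normalizer (R : Set N)))]
  · rw [Finset.sum_subtype (p := fun x => x ∈ normalizer (R : Set N))
      (univ.filter fun x : N => x ∈ normalizer (R : Set N)) (fun x => by simp)]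
    refine Fintype.sum_equiv (jN i hi R).toEquiv _ _ fun n => ?_
    have h1 : (jN i hi R).toEquiv n = jN i hi R n := rfl
    rw [h1, hT, hX]
    rfl
  · intro x _ hx
    rw [hT0 x (by simpa using hx), zero_mul]

theorem sum_eq_pair (hi : Function.Injective i) (v : WF p N)
    (χ : Irr (normalizer ((v.R.map i : Subgroup Γ) : Set Γ))) (X : Γ → ℂ)
    (hX : ∀ x : normalizer ((v.R.map i : Subgroup Γ) : Set Γ), χ.1 x = X x) :
    ∑ n : N, v.χ n * X (i n)⁻¹ = pairC (M0 i v.R) (th i hi v) χ :=
  sum_eq_pair' i hi v.R (th i hi v) χ v.χ X (th_apply i hi v) v.supp hX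

end Cov

end P179R
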