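import Vale.Agent.P179.H905.WC2

/-!
# Theorem R, Clifford theory, III: kernels and vanishing
-/

namespace P179R

open P179H524 P179C P179A P179P P179Y Finset Subgroup

open scoped Classical

section Ker

variable {M : Type*} [Group M] [Fintype M]

/-- the indicator function of a subgroup -/
noncomputable def indR (R : Subgroup M) : M → ℂ := fun x => if x ∈ R then 1 else 0

omit [Fintype M] in
theorem isCF_indR (R : Subgroup M) [hR : R.Normal] : IsCF (indR R) := by
  intro g x
  unfold indR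
  congr 1
  refine propext ⟨fun h => ?_, fun h => hR.conj_mem x h g⟩
  have := hR.conj_mem _ h g⁻¹
  have e : g⁻¹ * (g * x * g⁻¹) * g⁻¹⁻¹ = x := by group
  rwa [e] at this

theorem sum_indR (R : Subgroup M) (f : M → ℂ) : ∑ x, indR R x * f x = ∑ r : R, f r := by
  unfold indR
  rw [← Finset.sum_subset (Finset.subset_univ (univ.filter fun x : M => x ∈ R))]
  · rw [Finset.sum_subtype (p := fun x => x ∈ R) (univ.filter fun x : M => x ∈ R)
      (fun x => by simp)]
    exact Finset.sum_congr rfl fun x _ => by rw [if_pos x.2, one_mul]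
  · intro x _ hx
    rw [if_neg (by simpa using hx), zero_mul]

theorem triv_iff (χ : Irr M) (R : Subgroup M) [R.Normal] :
    (∀ r ∈ R, ∀ x, χ.1 (x * r) = χ.1 x) ↔ omC χ.1 (indR R) ≠ 0 := by
  unfold omC
  rw [sum_indR]
  constructor
  · intro h
    have h1 : ∀ r : R, χ.1 (r : M) = χ.1 1 := fun r => by
      have := h r r.2 1
      rwa [one_mul] at this
    rw [Finset.sum_congr rfl fun r _ => h1 r, Finset.sum_const, Finset.card_univ, nsmul_eq_mul]
    exact div_ne_zero (mul_ne_zero (by exact_mod_cast Fintype.card_ne_zero) χ.one_ne_zero)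
      χ.one_ne_zero
  · intro h r hr x
    have h1 : ∑ r : R, χ.1 r ≠ 0 := fun h0 => h (by rw [h0, zero_div])
    obtain ⟨χ, n, ρ, hρ, rfl⟩ := χ
    have h2 := trivial_of_sum ρ hρ R h1 r hr
    change LinearMap.trace ℂ _ (ρ (x * r)) = LinearMap.trace ℂ _ (ρ x)
    rw [map_mul, h2, mul_one]

theorem triv_transfer (M0 : Subgroup M) [M0.Normal] (χ : Irr M) (θ : Irr M0)
    (hθ : pairC M0 θ χ ≠ 0) (R : Subgroup M) [R.Normal] (hR : R ≤ M0) :
    (∀ r ∈ R, ∀ x, χ.1 (x * r) = χ.1 x) ↔ (∀ r ∈ R.subgroupOf M0, ∀ x, θ.1 (x * r) = θ.1 x) := by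
  rw [triv_iff, triv_iff, ← omC_restr_of M0 χ θ hθ (indR R) (isCF_indR R) (fun x hx => by
    unfold indR
    rw [if_neg (fun h => hx (hR h))])]
  rfl

end Ker

section Van

variable {p : ℕ} [hp : Fact p.Prime] {k : Type*} [Field k] [CharP k p]
  (red : integralClosure ℤ ℂ →+* k) {N Γ : Type} [Group N] [Group Γ] [Fintype N] [Fintype Γ]
  (i : N →* Γ)

include red in
/-- a weight below `N` vanishes off `N` -/
theorem WF.van [i.range.Normal] (hidx : i.range.index = p) (w : WF p Γ) (hw : w.R ≤ i.range)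
    {x : Γ} (hx : x ∉ i.range) : w.χ x = 0 := by
  by_cases hxn : x ∈ normalizer (w.R : Set Γ)
  · obtain ⟨ψ, hψ, h⟩ := w.exists_dz
    rw [show w.χ x = _ from h ⟨x, hxn⟩]
    refine dz_vanish p red hψ ?_
    by_contra hcon
    apply hx
    set y : NQ w.R := QuotientGroup.mk ⟨x, hxn⟩ with hy
    have h1 : y ^ orderOf y = 1 := pow_orderOf_eq_one y
    have h2 : x ^ orderOf y ∈ w.R := by
      rw [hy, ← QuotientGroup.mk_pow, QuotientGroup.eq_one_iff, mem_subgroupOf] at h1
      exact h1
    have h3 : x ^ orderOf y ∈ i.range := hw h2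
    have h4 : x ^ p ∈ i.range := by
      rw [← hidx]
      exact Subgroup.pow_index_mem i.range x
    have hcop : Nat.Coprime (orderOf y) p :=
      ((Nat.Prime.coprime_iff_not_dvd hp.out).2 hcon).symm
    have h5 := (Nat.isCoprime_iff_coprime.2 hcop)
    obtain ⟨a, b, hab⟩ := h5
    have h6 : x = (x ^ orderOf y) ^ a * (x ^ p) ^ b := by
      rw [← zpow_natCast x, ← zpow_natCast x, ← zpow_mul, ← zpow_mul, ← zpow_add, mul_comm _ a,
        mul_comm _ b, hab, zpow_one]
    rw [h6]
    exact mul_mem (zpow_mem h3 a) (zpow_mem h4 b)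
  · exact w.supp x hxn

end Van

section Fix

variable {p : ℕ} {N Γ : Type} [Group N] [Group Γ] (i : N →* Γ)

theorem al_al (hi : Function.Injective i) [i.range.Normal] (g h : Γ) (n : N) :
    al i hi g (al i hi h n) = al i hi (g * h) n := by
  apply hi
  rw [i_al, i_al, i_al]; group

theorem al_one (hi : Function.Injective i) [i.range.Normal] (n : N) : al i hi 1 n = n := by
  apply hi
  rw [i_al]; group

theorem map_al_mul (hi : Function.Injective i) [i.range.Normal] (v : WF p N) (g h : Γ) :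
    (v.map (al i hi g)).map (al i hi h) = v.map (al i hi (g * h)) := by
  refine WF.ext' ?_ (funext fun n => ?_)
  · ext n
    rw [WF.mem_map_R, WF.mem_map_R, WF.mem_map_R, al_al]
  · rw [WF.map_χ, WF.map_χ, WF.map_χ, al_al]

theorem map_al_one (hi : Function.Injective i) [i.range.Normal] (v : WF p N) :
    v.map (al i hi 1) = v := by
  refine WF.ext' ?_ (funext fun n => ?_)
  · ext n
    rw [WF.mem_map_R, al_one]
  · rw [WF.map_χ, al_one]

/-- the `Γ`-conjugacy on the weights of `N` -/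
def RelG (hi : Function.Injective i) [i.range.Normal] (v v' : WF p N) : Prop :=
  ∃ g : Γ, v' = v.map (al i hi g)

theorem RelG.refl (hi : Function.Injective i) [i.range.Normal] (v : WF p N) : RelG i hi v v :=
  ⟨1, (map_al_one i hi v).symm⟩

theorem RelG.symm (hi : Function.Injective i) [i.range.Normal] {v v' : WF p N}
    (h : RelG i hi v v') : RelG i hi v' v := by
  obtain ⟨g, rfl⟩ := h
  exact ⟨g⁻¹, by rw [map_al_mul, mul_inv_cancel, map_al_one]⟩

theorem RelG.trans (hi : Function.Injective i) [i.range.Normal] {v v' v'' : WF p N}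
    (h : RelG i hi v v') (h' : RelG i hi v' v'') : RelG i hi v v'' := by
  obtain ⟨g, rfl⟩ := h
  obtain ⟨g', rfl⟩ := h'
  exact ⟨g * g', by rw [map_al_mul]⟩

theorem Good.map (hi : Function.Injective i) [hn : i.range.Normal] {v : WF p N}
    (h : Good i hi v) (g : Γ) : Good i hi (v.map (al i hi g)) := by
  intro x hx
  have h1 : v.map (al i hi (g * x * g⁻¹)) = v := by
    rw [map_al_mul] at hx
    rw [← map_al_mul, hx, map_al_mul, mul_inv_cancel, map_al_one]
  have h2 := hn.conj_mem _ (h _ h1) g⁻¹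
  have e : g⁻¹ * (g * x * g⁻¹) * g⁻¹⁻¹ = x := by group
  rwa [e] at h2

/-- conjugation on `M0` -/
theorem cjI_th (hi : Function.Injective i) [i.range.Normal] (v : WF p N)
    (c : normalizer ((v.R.map i : Subgroup Γ) : Set Γ)) (n : normalizer (v.R : Set N)) :
    (cjI (M0 i v.R) c (th i hi v)).1 (jN i hi v.R n) = v.χ (al i hi (c : Γ)⁻¹ n) := by
  have hmem : al i hi (c : Γ)⁻¹ n ∈ normalizer (v.R : Set N) := by
    rw [mem_norm_iff i hi, i_al]
    exact mul_mem (mul_mem (inv_mem c.2) ((mem_norm_iff i hi v.R n).1 n.2)) (inv_mem (inv_mem c.2))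
  rw [cjI_apply]
  have h1 : MulAut.conjNormal c⁻¹ (jN i hi v.R n) = jN i hi v.R ⟨_, hmem⟩ := by
    apply Subtype.ext
    apply Subtype.ext
    rw [jN_coe, i_al, MulAut.conjNormal_apply]
    rfl
  rw [h1, th_apply]

/-- conjugation by an element normalising `R` -/
theorem map_al_R (hi : Function.Injective i) [i.range.Normal] (v : WF p N)
    (c : Γ) (hc : c ∈ normalizer ((v.R.map i : Subgroup Γ) : Set Γ)) :
    (v.map (al i hi c)).R = v.R := by
  ext n
  rw [WF.mem_map_R, ← map_mem_iff i hi v.R n, ← map_mem_iff i hi v.R, i_al]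
  exact ((mem_normalizer_iff.1 hc) (i n)).symm

theorem norm_of_map_al (hi : Function.Injective i) [i.range.Normal] (v : WF p N)
    (c : Γ) (hc : v.map (al i hi c) = v) : c ∈ normalizer ((v.R.map i : Subgroup Γ) : Set Γ) := by
  have h1 : ∀ n, al i hi c n ∈ v.R ↔ n ∈ v.R := by
    intro n
    have := congrArg WF.R hc
    rw [← WF.mem_map_R, this]
  rw [mem_normalizer_iff]
  intro x
  constructor
  · rintro ⟨n, hn, rfl⟩
    exact ⟨al i hi c n, (h1 n).2 hn, by rw [i_al]⟩
  · rintro ⟨n, hn, hnx⟩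
    refine ⟨al i hi c⁻¹ n, ?_, ?_⟩
    · rw [SetLike.mem_coe, ← h1, al_al, mul_inv_cancel, al_one]
      exact hn
    · rw [i_al, hnx]; group

theorem map_al_eq_of_cjI (hi : Function.Injective i) [i.range.Normal] (v : WF p N)
    (c : normalizer ((v.R.map i : Subgroup Γ) : Set Γ)) (χ' : N → ℂ)
    (hχ' : ∀ n, n ∉ normalizer (v.R : Set N) → χ' n = 0)
    (h : ∀ n : normalizer (v.R : Set N), (cjI (M0 i v.R) c (th i hi v)).1 (jN i hi v.R n) = χ' n) :
    (v.map (al i hi (c : Γ)⁻¹)).χ = χ' := by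
  funext n
  by_cases hn : n ∈ normalizer (v.R : Set N)
  · rw [← h ⟨n, hn⟩, cjI_th, WF.map_χ]
  · rw [hχ' n hn, (v.map (al i hi (c : Γ)⁻¹)).supp]
    rw [map_al_R i hi v _ (inv_mem c.2)]
    exact hn

/-- the inertia group of `v` -/
theorem cjI_eq_iff (hi : Function.Injective i) [i.range.Normal] (v : WF p N)
    (c : normalizer ((v.R.map i : Subgroup Γ) : Set Γ)) :
    cjI (M0 i v.R) c (th i hi v) = th i hi v ↔ v.map (al i hi (c : Γ)⁻¹) = v := by
  constructor
  · intro h
    refine WF.ext' (map_al_R i hi v _ (inv_mem c.2)) ?_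
    refine map_al_eq_of_cjI i hi v c v.χ v.supp fun n => ?_
    rw [h, th_apply]
  · intro h
    apply Subtype.ext
    funext m
    obtain ⟨n, rfl⟩ := (jN i hi v.R).surjective m
    rw [cjI_th, th_apply]
    exact congrFun (congrArg WF.χ h) n

theorem good_iff (hi : Function.Injective i) [i.range.Normal] (v : WF p N) :
    Good i hi v ↔ ∀ c : normalizer ((v.R.map i : Subgroup Γ) : Set Γ),
      cjI (M0 i v.R) c (th i hi v) = th i hi v → c ∈ M0 i v.R := by
  constructor
  · intro h c hc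
    rw [cjI_eq_iff] at hc
    exact mem_subgroupOf.2 (inv_mem_iff.1 (h _ hc))
  · intro h g hg
    have h1 := norm_of_map_al i hi v g hg
    have h2 := h ⟨g⁻¹, inv_mem h1⟩ (by
      rw [cjI_eq_iff]
      change v.map (al i hi g⁻¹⁻¹) = v
      rw [inv_inv]; exact hg)
    exact inv_mem_iff.1 (mem_subgroupOf.1 h2)

end Fix

end P179R
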