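import Vale.Agent.P179.H905.WC3

/-!
# Theorem R, Clifford theory, IV: weights of `Γ` below `N` and weights of `N`
-/

namespace P179R

open P179H524 P179C P179A P179P P179Y Finset Subgroup

open scoped Classical

variable {p : ℕ} [hp : Fact p.Prime] {N Γ : Type} [Group N] [Group Γ] [Fintype N] [Fintype Γ]
  (i : N →* Γ) (hi : Function.Injective i) [hn : i.range.Normal]

/-- the character of `w` on the normalizer -/
def chW (w : WF p Γ) : Irr (normalizer (w.R : Set Γ)) := ⟨fun x => w.χ x, w.irr⟩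

omit hp hn [Fintype N] [Fintype Γ] in
include hi in
theorem card_M0 (R : Subgroup N) :
    Nat.card (normalizer (R : Set N)) = Nat.card (M0 i R) :=
  Nat.card_congr (jN i hi R).toEquiv

omit hp hn [Fintype N] [Fintype Γ] in
include hi in
theorem card_map (R : Subgroup N) : Nat.card (R.map i : Subgroup Γ) = Nat.card R :=
  (Nat.card_congr (R.equivMapOfInjective i hi).toEquiv).symm

omit hp in
include hi in
/-- the arithmetic of the degrees -/
theorem dz_iff (R : Subgroup N) (θ : Irr (M0 i R))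
    (χ : Irr (normalizer ((R.map i : Subgroup Γ) : Set Γ)))
    (hst : ∀ c : normalizer ((R.map i : Subgroup Γ) : Set Γ), cjI (M0 i R) c θ = θ → c ∈ M0 i R)
    (h : pairC (M0 i R) θ χ ≠ 0) (d e : ℕ) (hd : 0 < d) (he : 0 < e) (hχ : χ.1 1 = d)
    (hθ : θ.1 1 = e) :
    (d * Nat.card (R.map i : Subgroup Γ)).factorization p =
      (Nat.card (normalizer ((R.map i : Subgroup Γ) : Set Γ))).factorization p ↔
    (e * Nat.card R).factorization p = (Nat.card (normalizer (R : Set N))).factorization p := by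
  have h1 := deg_above (M0 i R) θ hst χ h
  rw [hχ, hθ] at h1
  have h2 : Nat.card (normalizer ((R.map i : Subgroup Γ) : Set Γ)) * e = Nat.card (M0 i R) * d := by
    exact_mod_cast h1
  have h3 := congrArg (fun n => n.factorization p) h2
  rw [card_map i hi, card_M0 i hi]
  rw [Nat.factorization_mul Nat.card_pos.ne' he.ne', Nat.factorization_mul Nat.card_pos.ne' hd.ne',
    Finsupp.add_apply, Finsupp.add_apply] at h3
  rw [Nat.factorization_mul hd.ne' Nat.card_pos.ne', Nat.factorization_mul he.ne' Nat.card_pos.ne',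
    Finsupp.add_apply, Finsupp.add_apply]
  omega

section Down

variable {k : Type*} [Field k] [CharP k p] (red : integralClosure ℤ ℂ →+* k)

include red in
/-- the constituents of a weight of `Γ` below `N` have trivial inertia -/
theorem inertia_triv (hidx : i.range.index = p) (w : WF p Γ) (R : Subgroup N)
    (hR : w.R = R.map i) (χ : Irr (normalizer ((R.map i : Subgroup Γ) : Set Γ)))
    (hχ : ∀ x : normalizer ((R.map i : Subgroup Γ) : Set Γ), χ.1 x = w.χ x)
    (θ : Irr (M0 i R)) (hθ : pairC (M0 i R) θ χ ≠ 0)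
    (c : normalizer ((R.map i : Subgroup Γ) : Set Γ)) (hc : cjI (M0 i R) c θ = θ) :
    c ∈ M0 i R := by
  have hw : w.R ≤ i.range := by rw [hR]; exact map_le_range i R
  have h1 : (M0 i R).index ∣ p := by
    have : (M0 i R).index = i.range.relIndex (normalizer ((R.map i : Subgroup Γ) : Set Γ)) := rfl
    rw [this, ← hidx]
    exact relIndex_dvd_index_of_normal _ _
  rcases (Nat.dvd_prime hp.out).1 h1 with h2 | h2
  · rw [index_eq_one.1 h2]; trivial
  · refine stab_of_van hp.out (M0 i R) h2 χ (fun x hx => ?_) θ hθ c hc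
    rw [hχ]
    exact w.van red i hidx hw (fun h => hx (mem_subgroupOf.2 h))

include red in
theorem Cov.good (hidx : i.range.index = p) {w : WF p Γ} {v : WF p N} (h : Cov i w v) :
    Good i hi v := by
  rw [good_iff]
  obtain ⟨wR, wχ, wp, ws, wi, wt, wd⟩ := w
  obtain ⟨h1, h2⟩ := h
  dsimp only at h1 h2
  subst h1
  intro c hc
  have h3 := sum_eq_pair i hi v ⟨fun x => wχ x, wi⟩ wχ (fun _ => rfl)
  exact inertia_triv i red hidx ⟨_, wχ, wp, ws, wi, wt, wd⟩ v.R rfl ⟨fun x => wχ x, wi⟩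
    (fun _ => rfl) (th i hi v) (by rw [← h3]; exact h2) c hc

include red hi in
/-- **(L3)(a)** every weight of `Γ` below `N` covers a weight of `N` -/
theorem exists_cov (hidx : i.range.index = p) (w : WF p Γ) (hw : w.R ≤ i.range) :
    ∃ v : WF p N, Cov i w v := by
  have hR : ∃ R : Subgroup N, w.R = R.map i := ⟨w.R.comap i, (map_comap_eq_self hw).symm⟩
  obtain ⟨R, hR⟩ := hR
  obtain ⟨d, hd, hd1, hd2⟩ := w.deg_pos
  obtain ⟨wR, wχ, wp, ws, wi, wt, wd⟩ := w
  dsimp only at *
  subst hR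
  let χ : Irr (normalizer ((R.map i : Subgroup Γ) : Set Γ)) := ⟨fun x => wχ x, wi⟩
  obtain ⟨θ, hθ⟩ := exists_pair_ne (M0 i R) χ
  have hst := inertia_triv i red hidx ⟨_, wχ, wp, ws, wi, wt, wd⟩ R rfl χ (fun _ => rfl) θ hθ
  obtain ⟨e, he, he1⟩ := θ.exists_deg
  let T : N → ℂ := fun n => if h : n ∈ normalizer (R : Set N) then θ.1 (jN i hi R ⟨n, h⟩) else 0
  have hT : ∀ n : normalizer (R : Set N), T n = θ.1 (jN i hi R n) := fun n => by
    simp only [T, dif_pos n.2]
  have hT0 : ∀ n, n ∉ normalizer (R : Set N) → T n = 0 := fun n h => by simp only [T, dif_neg h]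
  have hRn : (R.map i : Subgroup Γ).subgroupOf (normalizer ((R.map i : Subgroup Γ) : Set Γ)) ≤
      M0 i R := fun x hx => mem_subgroupOf.2 (map_le_range i R (mem_subgroupOf.1 hx))
  have hRnorm : ((R.map i : Subgroup Γ).subgroupOf
      (normalizer ((R.map i : Subgroup Γ) : Set Γ))).Normal := inferInstance
  have htr := (triv_transfer (M0 i R) χ θ hθ ((R.map i : Subgroup Γ).subgroupOf
    (normalizer ((R.map i : Subgroup Γ) : Set Γ))) hRn).1 (fun r hr x =>
      wt r (mem_subgroupOf.1 hr) x)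
  have htriv : ∀ r ∈ R, ∀ x, T (x * r) = T x := by
    intro r hr x
    have hrn : r ∈ normalizer (R : Set N) := le_normalizer hr
    by_cases hx : x ∈ normalizer (R : Set N)
    · have h1 := hT (⟨x, hx⟩ * ⟨r, hrn⟩)
      have h2 := hT ⟨x, hx⟩
      rw [map_mul, htr _ (by
        rw [mem_subgroupOf, mem_subgroupOf, jN_coe]
        exact ⟨r, hr, rfl⟩)] at h1
      exact h1.trans h2.symm
    · rw [hT0 x hx, hT0]
      intro h
      apply hx
      have := mul_mem h (inv_mem hrn)
      rwa [mul_inv_cancel_right] at this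
  refine ⟨⟨R, T, ?_, hT0, ?_, htriv, ?_⟩, rfl, ?_⟩
  · exact wp.of_equiv (R.equivMapOfInjective i hi).symm
  · have : (fun n : normalizer (R : Set N) => T n) = fun n => θ.1 (jN i hi R n) := funext hT
    rw [this]
    exact θ.2.comp (jN i hi R).toMonoidHom (jN i hi R).surjective
  · refine ⟨e, ?_, ?_⟩
    · have := hT 1
      rw [map_one, he1] at this
      exact this
    · exact (dz_iff (p := p) i hi R θ χ hst hθ d e hd he hd1 he1).1 hd2
  · rw [sum_eq_pair' i hi R θ χ T wχ (fun n => (hT n).symm) hT0 (fun _ => rfl)]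
    exact hθ

end Down

omit hp in
/-- **(L3)(b)** every good weight of `N` is covered by a weight of `Γ` -/
theorem exists_cov_of_good (v : WF p N) (hv : Good i hi v) : ∃ w : WF p Γ, Cov i w v := by
  have hst := (good_iff i hi v).1 hv
  obtain ⟨χ, hχ⟩ := exists_above (M0 i v.R) (th i hi v)
  obtain ⟨d, hd, hd1⟩ := χ.exists_deg
  obtain ⟨e, he, he1, he2⟩ := v.deg_pos
  let X : Γ → ℂ := fun x => if h : x ∈ normalizer ((v.R.map i : Subgroup Γ) : Set Γ) then
    χ.1 ⟨x, h⟩ else 0
  have hX : ∀ x : normalizer ((v.R.map i : Subgroup Γ) : Set Γ), X x = χ.1 x := fun x => by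
    simp only [X, dif_pos x.2]
  have hX0 : ∀ x, x ∉ normalizer ((v.R.map i : Subgroup Γ) : Set Γ) → X x = 0 := fun x h => by
    simp only [X, dif_neg h]
  have hRn : (v.R.map i : Subgroup Γ).subgroupOf (normalizer ((v.R.map i : Subgroup Γ) : Set Γ)) ≤
      M0 i v.R := fun x hx => mem_subgroupOf.2 (map_le_range i v.R (mem_subgroupOf.1 hx))
  have hRnorm : ((v.R.map i : Subgroup Γ).subgroupOf
      (normalizer ((v.R.map i : Subgroup Γ) : Set Γ))).Normal := inferInstance
  have htr := (triv_transfer (M0 i v.R) χ (th i hi v) hχ ((v.R.map i : Subgroup Γ).subgroupOf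
    (normalizer ((v.R.map i : Subgroup Γ) : Set Γ))) hRn).2 (by
      intro r hr x
      obtain ⟨n, rfl⟩ := (jN i hi v.R).surjective x
      obtain ⟨m, rfl⟩ := (jN i hi v.R).surjective r
      rw [← map_mul, th_apply, th_apply]
      refine v.triv _ ?_ _
      rw [mem_subgroupOf, mem_subgroupOf, jN_coe, map_mem_iff i hi] at hr
      exact hr)
  have htriv : ∀ r ∈ v.R.map i, ∀ x, X (x * r) = X x := by
    intro r hr x
    have hrn : r ∈ normalizer ((v.R.map i : Subgroup Γ) : Set Γ) := le_normalizer hr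
    by_cases hx : x ∈ normalizer ((v.R.map i : Subgroup Γ) : Set Γ)
    · have h1 := hX (⟨x, hx⟩ * ⟨r, hrn⟩)
      have h2 := hX ⟨x, hx⟩
      rw [htr _ (mem_subgroupOf.2 hr)] at h1
      exact h1.trans h2.symm
    · rw [hX0 x hx, hX0]
      intro h
      apply hx
      have := mul_mem h (inv_mem hrn)
      rwa [mul_inv_cancel_right] at this
  refine ⟨⟨v.R.map i, X, ?_, hX0, ?_, htriv, ?_⟩, rfl, ?_⟩
  · exact v.pgp.map _
  · have : (fun n : normalizer ((v.R.map i : Subgroup Γ) : Set Γ) => X n) = χ.1 := funext hX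
    rw [this]
    exact χ.2
  · refine ⟨d, ?_, ?_⟩
    · exact (hX 1).trans hd1
    · refine (dz_iff (p := p) i hi v.R (th i hi v) χ hst hχ d e hd he hd1 ?_).2 he2
      have := th_apply i hi v 1
      rw [map_one] at this
      exact this.trans he1
  · rw [sum_eq_pair i hi v χ X (fun x => (hX x).symm)]
    exact hχ

omit hp in
/-- two weights of `N` covered by the same weight are conjugate -/
theorem Cov.relG {w : WF p Γ} {v v' : WF p N} (h : Cov i w v) (h' : Cov i w v') :
    RelG i hi v v' := by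
  have hRR : v'.R = v.R := map_injective hi (h'.1.symm.trans h.1)
  obtain ⟨vR, vχ, vp, vs, vi, vt, vd⟩ := v'
  dsimp only at hRR
  subst hRR
  obtain ⟨wR, wχ, wp, ws, wi, wt, wd⟩ := w
  obtain ⟨h1, h2⟩ := h
  dsimp only at h1
  subst h1
  have e1 := sum_eq_pair i hi v ⟨fun x => wχ x, wi⟩ wχ (fun _ => rfl)
  have e2 := sum_eq_pair i hi ⟨v.R, vχ, vp, vs, vi, vt, vd⟩ ⟨fun x => wχ x, wi⟩ wχ (fun _ => rfl)
  obtain ⟨c, hc⟩ := clifford (M0 i v.R) ⟨fun x => wχ x, wi⟩ (th i hi v)
    (th i hi ⟨v.R, vχ, vp, vs, vi, vt, vd⟩) (by rw [← e1]; exact h2) (by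
      rw [← e2]; exact h'.2)
  refine ⟨(c : Γ)⁻¹, ?_⟩
  symm
  refine WF.ext' (map_al_R i hi v _ (inv_mem c.2)) ?_
  refine map_al_eq_of_cjI i hi v c vχ vs fun n => ?_
  rw [hc]
  exact th_apply i hi ⟨v.R, vχ, vp, vs, vi, vt, vd⟩ n

omit hp in
/-- two weights of `Γ` covering the same good weight are equal -/
theorem Cov.eq {w w' : WF p Γ} {v : WF p N} (hv : Good i hi v) (h : Cov i w v) (h' : Cov i w' v) :
    w = w' := by
  have hst := (good_iff i hi v).1 hv
  obtain ⟨wR, wχ, wp, ws, wi, wt, wd⟩ := w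
  obtain ⟨wR', wχ', wp', ws', wi', wt', wd'⟩ := w'
  obtain ⟨h1, h2⟩ := h
  obtain ⟨h1', h2'⟩ := h'
  dsimp only at h1 h1'
  subst h1
  subst h1'
  have e1 := sum_eq_pair i hi v ⟨fun x => wχ x, wi⟩ wχ (fun _ => rfl)
  have e2 := sum_eq_pair i hi v ⟨fun x => wχ' x, wi'⟩ wχ' (fun _ => rfl)
  have h3 := above_unique (M0 i v.R) (th i hi v) hst ⟨fun x => wχ x, wi⟩ ⟨fun x => wχ' x, wi'⟩
    (by rw [← e1]; exact h2) (by rw [← e2]; exact h2')
  refine WF.ext' rfl (funext fun x => ?_)
  by_cases hx : x ∈ normalizer ((v.R.map i : Subgroup Γ) : Set Γ)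
  · exact congrFun (congrArg Subtype.val h3) ⟨x, hx⟩
  · exact (ws x hx).trans (ws' x hx).symm

omit hp in
/-- **(L3)(c)** conjugacy -/
theorem Cov.rel_iff {w w' : WF p Γ} {v v' : WF p N} (hv' : Good i hi v') (h : Cov i w v)
    (h' : Cov i w' v') : WF.Rel w w' ↔ RelG i hi v v' := by
  rw [WF.rel_iff]
  constructor
  · rintro ⟨g, rfl⟩
    have h1 := h.map i hi g⁻¹
    exact RelG.trans i hi ⟨g⁻¹, rfl⟩ (Cov.relG i hi h1 h')
  · rintro ⟨g, rfl⟩
    have h1 := h.map i hi g
    refine ⟨g⁻¹, ?_⟩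
    rw [inv_inv]
    exact Cov.eq i hi hv' h' h1

section Lam

variable {k : Type*} [Field k] (red : integralClosure ℤ ℂ →+* k)

omit hp in
include hi in
/-- **(L3)(d)** central characters -/
theorem Cov.lam_eq {w : WF p Γ} {v : WF p N} (h : Cov i w v) (z : Γ → k)
    (hz : IsCF z) (hz0 : ∀ x, x ∉ i.range → z x = 0) :
    lam red (fun n : normalizer (v.R : Set N) => v.χ n)
      (fun n : normalizer (v.R : Set N) => z (i n)) =
    lam red (fun n : normalizer (w.R : Set Γ) => w.χ n)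
      (fun n : normalizer (w.R : Set Γ) => z n) := by
  obtain ⟨wR, wχ, wp, ws, wi, wt, wd⟩ := w
  obtain ⟨h1, h2⟩ := h
  dsimp only at h1 h2
  subst h1
  have e1 := sum_eq_pair i hi v ⟨fun x => wχ x, wi⟩ wχ (fun _ => rfl)
  have h3 := lam_restr_of red (M0 i v.R) inferInstance ⟨fun x => wχ x, wi⟩ (th i hi v)
    (by rw [← e1]; exact h2) (fun x : normalizer ((v.R.map i : Subgroup Γ) : Set Γ) => z x)
    (fun g x => hz g x) (fun x hx => hz0 x (fun h => hx (mem_subgroupOf.2 h)))
  rw [← h3]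
  have h4 := P179Y.lam_comp red (jN i hi v.R) (th i hi v).2
    (a := fun m : M0 i v.R => z ((m : normalizer ((v.R.map i : Subgroup Γ) : Set Γ)) : Γ))
    (fun g x => hz _ _)
  rw [← h4]
  congr 1
  funext n
  exact (th_apply i hi v n).symm

end Lam

end P179R
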