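import Vale.Agent.P179.H905.DZV
import Vale.Agent.P179.H905.N6c

/-!
# Theorem R, weights of products, I: characters of quotients, functional equation
-/

namespace P179R

open P179H524 P179C P179A P179P Finset Subgroup Vale.Agent.P179.H525

section Descend

/-- an irreducible representation whose character has a nonzero sum over a normal subgroup is
trivial on this subgroup -/
theorem trivial_of_sum {K : Type*} [Group K] [Finite K] {n : ℕ}
    (ρ : Representation ℂ K (Fin n → ℂ)) (hρ : ρ.IsIrreducible) (M : Subgroup K) [M.Normal]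
    [Fintype M] (hc : ∑ c : M, ρ.character (c : K) ≠ 0) : ∀ c ∈ M, ρ c = 1 := by
  let e : Module.End ℂ (Fin n → ℂ) := ∑ c : M, ρ (c : K)
  have he1 : ∀ c ∈ M, ρ c * e = e := by
    intro c hcM
    simp only [e]
    rw [Finset.mul_sum]
    refine Finset.sum_bij (fun d _ => (⟨c, hcM⟩ : M) * d) (fun _ _ => mem_univ _)
      (fun a _ b _ h => mul_left_cancel h) (fun b _ => ⟨(⟨c, hcM⟩ : M)⁻¹ * b, mem_univ _, by simp⟩)
      (fun d _ => ?_)
    rw [← map_mul]
    rfl
  obtain ⟨l, hl⟩ := exists_scalar ρ hρ e (fun g => by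
    simp only [e]
    rw [Finset.mul_sum, Finset.sum_mul]
    refine Finset.sum_bij (fun (d : M) _ =>
      (⟨g⁻¹ * d * g, by
        have := (inferInstance : M.Normal).conj_mem d d.2 g⁻¹
        rwa [inv_inv] at this⟩ : M)) (fun _ _ => mem_univ _) ?_ ?_ ?_
    · intro a _ b _ h
      have h1 := congrArg Subtype.val h
      have h2 : g⁻¹ * (a : K) * g = g⁻¹ * b * g := h1
      exact Subtype.ext (mul_left_cancel (mul_right_cancel h2))
    · intro b _
      refine ⟨⟨g * b * g⁻¹, (inferInstance : M.Normal).conj_mem b b.2 g⟩, mem_univ _, ?_⟩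
      apply Subtype.ext
      change g⁻¹ * (g * b * g⁻¹) * g = (b : K)
      group
    · intro d _
      rw [← map_mul, ← map_mul]
      congr 1
      group)
  have htr : ∑ c : M, ρ.character (c : K) = l * n := by
    have h1 := congrArg (LinearMap.trace ℂ (Fin n → ℂ)) hl
    rw [Algebra.algebraMap_eq_smul_one, map_smul, LinearMap.trace_one] at h1
    simp only [e, map_sum] at h1
    rw [Module.finrank_fin_fun, smul_eq_mul] at h1
    exact h1
  have hl0 : l ≠ 0 := by
    rintro rfl
    exact hc (by rw [htr, zero_mul])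
  intro c hcM
  have h1 := he1 c hcM
  rw [hl, Algebra.algebraMap_eq_smul_one, mul_smul_comm, mul_one] at h1
  exact smul_right_injective _ hl0 h1

/-- a character which is constant on the cosets of a normal subgroup comes from the quotient -/
theorem irr_quot {K : Type*} [Group K] [Finite K] (M : Subgroup K) [M.Normal] {χ : K → ℂ}
    (hχ : IsIrrChar χ) (h : ∀ r ∈ M, ∀ x, χ (x * r) = χ x) :
    ∃ ψ : K ⧸ M → ℂ, IsIrrChar ψ ∧ ∀ x, χ x = ψ (QuotientGroup.mk x) := by
  have := Fintype.ofFinite M
  have h1 := Irr.one_ne_zero (⟨χ, hχ⟩ : Irr K)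
  obtain ⟨n, ρ, hρ, rfl⟩ := hχ
  have hM : ∀ c ∈ M, ρ c = 1 := by
    refine trivial_of_sum ρ hρ M ?_
    have h2 : ∀ c : M, ρ.character (c : K) = ρ.character 1 := fun c => by
      have := h c c.2 1
      rwa [one_mul] at this
    rw [Finset.sum_congr rfl fun c _ => h2 c, Finset.sum_const, nsmul_eq_mul, Finset.card_univ]
    exact mul_ne_zero (by exact_mod_cast Fintype.card_ne_zero) h1
  let ρ2 : Representation ℂ (K ⧸ M) (Fin n → ℂ) := QuotientGroup.lift M ρ hM
  have h2 : (ρ2.comp (QuotientGroup.mk' M) : Representation ℂ K (Fin n → ℂ)) = ρ := by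
    ext g : 1
    rfl
  have hρ2 : ρ2.IsIrreducible := by
    rw [← isIrreducible_comp_iff ρ2 (QuotientGroup.mk' M) (QuotientGroup.mk'_surjective _), h2]
    exact hρ
  exact ⟨ρ2.character, ⟨n, ρ2, hρ2, rfl⟩, fun x => rfl⟩

/-- the degree divides the index of a normal subgroup in the kernel -/
theorem deg_dvd {K : Type*} [Group K] [Finite K] {χ : K → ℂ} (hχ : IsIrrChar χ) {d : ℕ}
    (hd : χ 1 = d) : d ∣ Nat.card K := by
  have := Fintype.ofFinite K
  obtain ⟨r, e, he, ⟨f⟩⟩ := exists_wedderburn_complex' K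
  have hker : ∀ x, f.toAlgHom x = 0 → x ∈ Ring.jacobson (MonoidAlgebra ℂ K) := fun x hx => by
    have h0 : x = 0 := f.injective (by rw [map_zero]; exact hx)
    rw [h0]
    exact zero_mem _
  obtain ⟨i, rfl⟩ := (isIrrChar_iff f.toAlgHom f.surjective hker _).1 hχ
  have h1 : (compRep f.toAlgHom i).character 1 = (e i : ℂ) := by
    rw [Representation.char_one]; simp
  rw [h1] at hd
  have h2 : e i = d := by exact_mod_cast hd
  rw [← h2, Nat.card_eq_fintype_card]
  exact dvd_card f he i

end Descend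

end P179R
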