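import Vale.Agent.P179.H905.WP1

/-!
# Theorem R, weights of products, II: irreducible characters of products
-/

namespace P179R

open P179H524 P179C P179A P179P Finset Subgroup

section FE

variable {H : Type*} [Group H] [Fintype H]

/-- the functional equation of the normalised irreducible characters -/
theorem irr_of_fe {f : H → ℂ} (h1 : f 1 = 1)
    (hf : ∀ g y, ∑ x, f (x * g * x⁻¹ * y) = Fintype.card H * f g * f y) :
    ∃ χ : Irr H, ∀ x, f x = χ.1 x / χ.1 1 := by
  classical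
  have h0 : (Fintype.card H : ℂ) ≠ 0 := by exact_mod_cast Fintype.card_ne_zero
  have hcf : IsCF f := by
    intro a g
    have h2 := hf (a * g * a⁻¹) 1
    have h3 := hf g 1
    have h4 : ∑ x, f (x * (a * g * a⁻¹) * x⁻¹ * 1) = ∑ x, f (x * g * x⁻¹ * 1) := by
      rw [← Equiv.sum_comp (Equiv.mulRight a) (fun x => f (x * g * x⁻¹ * 1))]
      refine Finset.sum_congr rfl fun x _ => ?_
      congr 1
      simp only [Equiv.coe_mulRight]
      group
    rw [h4, h3, h1, mul_one, mul_one] at h2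
    exact (mul_left_cancel₀ h0 h2).symm
  have hex : ∃ χ : Irr H, ∑ g : H, f g * χ.1 g⁻¹ ≠ 0 := by
    by_contra hcon
    push Not at hcon
    have := cf_expand hcf 1
    rw [Finset.sum_eq_zero fun χ _ => by rw [hcon χ, mul_zero, zero_mul], h1] at this
    exact one_ne_zero this
  obtain ⟨χ, hχ⟩ := hex
  refine ⟨χ, fun y => ?_⟩
  have hχ1 := χ.one_ne_zero
  -- first evaluation
  have e1 : ∑ g, f (g * y) * χ.1 g⁻¹ = (∑ g, f g * χ.1 g⁻¹) * f y := by
    have h2 : ∑ g, (∑ x, f (x * g * x⁻¹ * y)) * χ.1 g⁻¹ =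
        Fintype.card H * ∑ g, f (g * y) * χ.1 g⁻¹ := by
      simp only [Finset.sum_mul]
      rw [Finset.sum_comm]
      have h3 : ∀ x : H, ∑ g, f (x * g * x⁻¹ * y) * χ.1 g⁻¹ = ∑ g, f (g * y) * χ.1 g⁻¹ := by
        intro x
        rw [← Equiv.sum_comp (MulAut.conj x).toEquiv (fun g => f (g * y) * χ.1 g⁻¹)]
        refine Finset.sum_congr rfl fun g _ => ?_
        simp only [MulEquiv.toEquiv_eq_coe, EquivLike.coe_coe, MulAut.conj_apply]
        congr 1
        rw [show (x * g * x⁻¹)⁻¹ = x * g⁻¹ * x⁻¹ by group, χ.conj]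
      rw [Finset.sum_congr rfl fun x _ => h3 x, Finset.sum_const, Finset.card_univ, nsmul_eq_mul]
    have h4 : ∑ g, (∑ x, f (x * g * x⁻¹ * y)) * χ.1 g⁻¹ =
        Fintype.card H * ((∑ g, f g * χ.1 g⁻¹) * f y) := by
      rw [Finset.sum_mul, Finset.mul_sum]
      refine Finset.sum_congr rfl fun g _ => ?_
      rw [hf]; ring
    exact mul_left_cancel₀ h0 (h2.symm.trans h4)
  have e2 : ∑ g, f (g * y) * χ.1 g⁻¹ = (∑ g, f g * χ.1 g⁻¹) * (χ.1 y / χ.1 1) := by
    have hz : IsCF (fun g => f g⁻¹) := by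
      intro a g
      change f (a * g * a⁻¹)⁻¹ = f g⁻¹
      rw [show (a * g * a⁻¹)⁻¹ = a * g⁻¹ * a⁻¹ by group]
      exact hcf a g⁻¹
    have h2 := sum_mul_irr χ hz y
    have h3 : ∑ g, f (g * y) * χ.1 g⁻¹ = ∑ g, f g⁻¹ * χ.1 (g * y) := by
      rw [← Equiv.sum_comp (Equiv.mulRight y⁻¹) (fun g => f (g * y) * χ.1 g⁻¹),
        ← Equiv.sum_comp (Equiv.inv H)
          (fun g => f (Equiv.mulRight y⁻¹ g * y) * χ.1 (Equiv.mulRight y⁻¹ g)⁻¹)]
      refine Finset.sum_congr rfl fun g _ => ?_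
      simp only [Equiv.coe_mulRight, Equiv.inv_apply, inv_mul_cancel_right, mul_inv_rev, inv_inv]
      rw [Irr.mul_comm]
    rw [h3, h2]
    unfold omC
    rw [← Equiv.sum_comp (Equiv.inv H) (fun g => f g⁻¹ * χ.1 g)]
    simp only [Equiv.inv_apply, inv_inv]
    field_simp
  exact mul_left_cancel₀ hχ (e1.symm.trans e2)

theorem fe_of_irr (χ : Irr H) (g y : H) :
    ∑ x, (χ.1 (x * g * x⁻¹ * y) / χ.1 1) = Fintype.card H * (χ.1 g / χ.1 1) * (χ.1 y / χ.1 1) := by
  rw [← Finset.sum_div, sum_conj_irr]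
  have := χ.one_ne_zero
  field_simp

/-- proportional irreducible characters are equal -/
theorem irr_eq_of_prop (χ ψ : Irr H) (h : ∀ x, χ.1 x / χ.1 1 = ψ.1 x / ψ.1 1) : χ = ψ := by
  classical
  by_contra hne
  have h1 := row_orth χ ψ
  rw [if_neg hne] at h1
  have h2 := row_orth χ χ
  rw [if_pos rfl] at h2
  have hχ1 := χ.one_ne_zero
  have hψ1 := ψ.one_ne_zero
  have h3 : ∀ x, ψ.1 x = ψ.1 1 / χ.1 1 * χ.1 x := fun x => by
    have := h x
    field_simp at this ⊢
    linear_combination -this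
  have h4 : ∑ g : H, χ.1 g * ψ.1 g⁻¹ = ψ.1 1 / χ.1 1 * Fintype.card H := by
    rw [← h2, Finset.mul_sum]
    refine Finset.sum_congr rfl fun g _ => ?_
    rw [h3 g⁻¹]; ring
  rw [h1] at h4
  have h0 : (Fintype.card H : ℂ) ≠ 0 := by exact_mod_cast Fintype.card_ne_zero
  exact mul_ne_zero (div_ne_zero hψ1 hχ1) h0 h4.symm

/-- a function with the functional equation, norm one and positive degree is irreducible -/
theorem irr_of_fe_norm {F : H → ℂ} {d : ℕ} (hd : 0 < d) (h1 : F 1 = d)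
    (hf : ∀ g y, ∑ x, F (x * g * x⁻¹ * y) * d = Fintype.card H * F g * F y)
    (hn : ∑ g, F g * F g⁻¹ = Fintype.card H) : IsIrrChar F := by
  classical
  have hdC : (d : ℂ) ≠ 0 := by exact_mod_cast hd.ne'
  have h0 : (Fintype.card H : ℂ) ≠ 0 := by exact_mod_cast Fintype.card_ne_zero
  obtain ⟨χ, hχ⟩ := irr_of_fe (f := fun x => F x / d) (by rw [h1, div_self hdC]) (fun g y => by
    have h2 := hf g y
    rw [← Finset.sum_mul] at h2
    rw [← Finset.sum_div]
    field_simp
    linear_combination h2)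
  obtain ⟨e, he, he2⟩ := χ.exists_deg
  have heC : (e : ℂ) ≠ 0 := by exact_mod_cast he.ne'
  rw [he2] at hχ
  have h3 : ∀ x, F x = d / e * χ.1 x := fun x => by
    have := hχ x
    field_simp at this ⊢
    linear_combination this
  have h4 : (d / e : ℂ) * (d / e) = 1 := by
    have h5 := row_orth χ χ
    rw [if_pos rfl] at h5
    have h6 : ∑ g, F g * F g⁻¹ = (d / e : ℂ) * (d / e) * Fintype.card H := by
      rw [← h5, Finset.mul_sum]
      refine Finset.sum_congr rfl fun g _ => ?_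
      rw [h3 g, h3 g⁻¹]; ring
    rw [hn] at h6
    have := mul_right_cancel₀ h0 ((one_mul _).trans h6)
    exact this.symm
  have h5 : (d : ℂ) * d = e * e := by
    field_simp at h4
    linear_combination h4
  have h6 : d = e := by
    have : d * d = e * e := by exact_mod_cast h5
    exact Nat.mul_self_inj.1 this
  have h7 : F = χ.1 := by
    funext x
    rw [h3 x, h6, div_self heC, one_mul]
  rw [h7]
  exact χ.2

end FE

section Prod

variable {ι : Type*} [Fintype ι] [DecidableEq ι] {H : ι → Type*} [∀ i, Group (H i)]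
  [∀ i, Fintype (H i)]

/-- products of irreducible characters are irreducible -/
theorem irr_prod (χ : ∀ i, Irr (H i)) : IsIrrChar (fun x : ∀ i, H i => ∏ i, (χ i).1 (x i)) := by
  have hdeg : ∀ i, ∃ d : ℕ, 0 < d ∧ (χ i).1 1 = d := fun i => (χ i).exists_deg
  choose d hd hd2 using hdeg
  have hcard : (Fintype.card (∀ i, H i) : ℂ) = ∏ i, (Fintype.card (H i) : ℂ) := by
    rw [Fintype.card_pi]; push_cast; rfl
  refine irr_of_fe_norm (d := ∏ i, d i) (Finset.prod_pos fun i _ => hd i) ?_ ?_ ?_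
  · push_cast
    exact Finset.prod_congr rfl fun i _ => hd2 i
  · intro g y
    push_cast
    rw [hcard, ← Finset.sum_mul, ← Finset.prod_mul_distrib, ← Finset.prod_mul_distrib]
    have h1 : ∑ x : ∀ i, H i, ∏ i, (χ i).1 ((x * g * x⁻¹ * y) i) =
        ∏ i, ∑ t : H i, (χ i).1 (t * g i * t⁻¹ * y i) := by
      rw [Finset.prod_univ_sum, Fintype.piFinset_univ]
      rfl
    rw [h1, ← Finset.prod_mul_distrib]
    refine Finset.prod_congr rfl fun i _ => ?_
    rw [sum_conj_irr, hd2]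
    have : (d i : ℂ) ≠ 0 := by exact_mod_cast (hd i).ne'
    field_simp
  · have h1 : ∑ x : ∀ i, H i, (∏ i, (χ i).1 (x i)) * ∏ i, (χ i).1 (x⁻¹ i) =
        ∏ i, ∑ t : H i, (χ i).1 t * (χ i).1 t⁻¹ := by
      rw [Finset.prod_univ_sum, Fintype.piFinset_univ]
      refine Finset.sum_congr rfl fun x _ => ?_
      rw [← Finset.prod_mul_distrib]
      rfl
    rw [h1, hcard]
    refine Finset.prod_congr rfl fun i _ => ?_
    rw [row_orth, if_pos rfl]

omit [Fintype ι] [(i : ι) → Fintype (H i)] in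
theorem mulSingle_conj (x : ∀ i, H i) (i : ι) (a : H i) :
    x * Pi.mulSingle i a * x⁻¹ = Pi.mulSingle i (x i * a * (x i)⁻¹) := by
  funext j
  by_cases h : j = i
  · subst h; simp
  · simp [Pi.mulSingle_eq_of_ne h]

omit [Fintype ι] [(i : ι) → Fintype (H i)] in
theorem mulSingle_comm (i : ι) (a : H i) {y : ∀ i, H i} (hy : y i = 1) :
    Pi.mulSingle i a * y = y * Pi.mulSingle i a := by
  funext j
  by_cases h : j = i
  · subst h; simp [hy]
  · simp [Pi.mulSingle_eq_of_ne h]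

theorem prod_irr_mul (F : Irr (∀ i, H i)) (i : ι) (a : H i) {y : ∀ i, H i} (hy : y i = 1) :
    F.1 (Pi.mulSingle i a * y) / F.1 1 = F.1 (Pi.mulSingle i a) / F.1 1 * (F.1 y / F.1 1) := by
  have h0 : (Fintype.card (∀ i, H i) : ℂ) ≠ 0 := by exact_mod_cast Fintype.card_ne_zero
  have h1 := fe_of_irr F (Pi.mulSingle i a) y
  have h2 : ∀ x : ∀ i, H i, F.1 (x * Pi.mulSingle i a * x⁻¹ * y) / F.1 1 =
      F.1 (Pi.mulSingle i a * y) / F.1 1 := by
    intro x
    congr 1
    have h3 : x * Pi.mulSingle i a * x⁻¹ * y =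
        Pi.mulSingle i (x i) * (Pi.mulSingle i a * y) * (Pi.mulSingle i (x i))⁻¹ := by
      rw [mulSingle_conj]
      have h4 : (Pi.mulSingle i (x i) : ∀ i, H i)⁻¹ = Pi.mulSingle i (x i)⁻¹ := by
        rw [Pi.mulSingle_inv]
      rw [h4, mul_assoc (Pi.mulSingle i (x i)), mul_assoc (Pi.mulSingle i a),
        ← mulSingle_comm i ((x i)⁻¹) hy, ← mul_assoc, ← mul_assoc,
        ← Pi.mulSingle_mul, ← Pi.mulSingle_mul, mul_assoc (x i)]
    rw [h3, F.conj]
  rw [Finset.sum_congr rfl fun x _ => h2 x, Finset.sum_const, Finset.card_univ, nsmul_eq_mul,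
    mul_assoc] at h1
  exact mul_left_cancel₀ h0 h1

theorem prod_irr_eq (F : Irr (∀ i, H i)) (x : ∀ i, H i) :
    F.1 x / F.1 1 = ∏ i, F.1 (Pi.mulSingle i (x i)) / F.1 1 := by
  have h1 : ∀ s : Finset ι, F.1 (fun i => if i ∈ s then x i else 1) / F.1 1 =
      ∏ i ∈ s, F.1 (Pi.mulSingle i (x i)) / F.1 1 := by
    intro s
    induction s using Finset.induction_on with
    | empty =>
      simp only [Finset.notMem_empty, if_false, Finset.prod_empty]
      exact div_self F.one_ne_zero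
    | insert i s hi ih =>
      rw [Finset.prod_insert hi, ← ih, ← prod_irr_mul F i (x i) (by simp [hi])]
      congr 2
      refine congrArg F.1 (funext fun j => ?_)
      by_cases h : j = i
      · subst h; simp [hi]
      · simp [Pi.mulSingle_eq_of_ne h, h]
  have h2 := h1 univ
  simpa using h2

omit [(i : ι) → Group (H i)] in
theorem sum_pi_apply (i : ι) (φ : H i → ℂ) :
    (Fintype.card (H i) : ℂ) * ∑ x : ∀ i, H i, φ (x i) =
      Fintype.card (∀ i, H i) * ∑ t, φ t := by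
  have e := Equiv.piSplitAt i H
  rw [← Equiv.sum_comp (Equiv.piSplitAt i H).symm, Fintype.card_congr (Equiv.piSplitAt i H),
    Fintype.card_prod, Fintype.sum_prod_type]
  have h1 : ∀ (t : H i) (r : ∀ j : {j // j ≠ i}, H j), ((Equiv.piSplitAt i H).symm (t, r)) i = t := by
    intro t r
    simp [Equiv.piSplitAt]
  simp only [h1, Finset.sum_const, Finset.card_univ, nsmul_eq_mul, ← Finset.mul_sum]
  push_cast
  ring

/-- every irreducible character of a product is a product -/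
theorem exists_prod_irr {F : (∀ i, H i) → ℂ} (hF : IsIrrChar F) :
    ∃ χ : ∀ i, Irr (H i), ∀ x, F x = ∏ i, (χ i).1 (x i) := by
  have h0 : (Fintype.card (∀ i, H i) : ℂ) ≠ 0 := by exact_mod_cast Fintype.card_ne_zero
  have h1 : ∀ i, ∃ χ : Irr (H i), ∀ a, F (Pi.mulSingle i a) / F 1 = χ.1 a / χ.1 1 := by
    intro i
    have hHi : (Fintype.card (H i) : ℂ) ≠ 0 := by exact_mod_cast Fintype.card_ne_zero
    refine irr_of_fe (f := fun a => F (Pi.mulSingle i a) / F 1) ?_ ?_
    · simp only [Pi.mulSingle_one]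
      exact div_self (Irr.one_ne_zero ⟨F, hF⟩)
    · intro g y
      have h2 := fe_of_irr (⟨F, hF⟩ : Irr (∀ i, H i)) (Pi.mulSingle i g) (Pi.mulSingle i y)
      have h3 : ∀ x : ∀ i, H i, F (x * Pi.mulSingle i g * x⁻¹ * Pi.mulSingle i y) / F 1 =
          (fun t => F (Pi.mulSingle i (t * g * t⁻¹ * y)) / F 1) (x i) := by
        intro x
        rw [mulSingle_conj, ← Pi.mulSingle_mul]
      dsimp only at h2
      rw [Finset.sum_congr rfl fun x _ => h3 x] at h2
      have h4 := sum_pi_apply i (fun t => F (Pi.mulSingle i (t * g * t⁻¹ * y)) / F 1)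
      rw [h2] at h4
      have h5 : (Fintype.card (∀ i, H i) : ℂ) *
          ((Fintype.card (H i) : ℂ) * (F (Pi.mulSingle i g) / F 1) *
            (F (Pi.mulSingle i y) / F 1)) =
          Fintype.card (∀ i, H i) *
            ∑ t, F (Pi.mulSingle i (t * g * t⁻¹ * y)) / F 1 := by
        rw [← h4]; ring
      exact (mul_left_cancel₀ h0 h5).symm
  choose χ hχ using h1
  refine ⟨χ, fun x => ?_⟩
  have h2 : (⟨F, hF⟩ : Irr (∀ i, H i)) = ⟨_, irr_prod χ⟩ := by
    refine irr_eq_of_prop _ _ fun y => ?_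
    have h3 := prod_irr_eq ⟨F, hF⟩ y
    dsimp only at h3 ⊢
    rw [h3, Finset.prod_congr rfl fun i _ => hχ i (y i), Finset.prod_div_distrib]
    rfl
  exact congrFun (congrArg Subtype.val h2) x

end Prod

end P179R
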