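import Vale.Agent.P179.H905.WP2
import Vale.Agent.P179.H524.WDefs

/-!
# Theorem R, weights of products, III: `p`-subgroups normalised by `N_G(R)` lie in `R`
-/

namespace P179R

open P179H524 P179C P179A P179P Finset Subgroup

variable {p : ℕ} {G : Type} [Group G] [Finite G]

/-- the defect zero character of `N_G(R)/R` of a weight -/
theorem WF.exists_dz (w : WF p G) : ∃ ψ : NQ w.R → ℂ, IsDefectZeroChar p ψ ∧
    ∀ x : normalizer (w.R : Set G), w.χ x = ψ (QuotientGroup.mk x) := by
  obtain ⟨ψ, hψ, h⟩ := irr_quot (w.R.subgroupOf (normalizer (w.R : Set G))) w.irr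
    (fun r hr x => w.triv r (mem_subgroupOf.1 hr) x)
  refine ⟨ψ, ⟨hψ, ?_⟩, h⟩
  obtain ⟨d, hd, hdp⟩ := w.dz
  have h1 : ψ 1 = d := by
    have := h 1
    rw [← hd]
    exact this.symm
  refine ⟨d, h1, ?_⟩
  have hd0 : d ≠ 0 := by
    rintro rfl
    exact Irr.one_ne_zero (⟨ψ, hψ⟩ : Irr _) (by change ψ 1 = 0; rw [h1]; simp)
  have h2 : Nat.card (normalizer (w.R : Set G)) = Nat.card (NQ w.R) * Nat.card w.R := by
    rw [card_eq_card_quotient_mul_card_subgroup (w.R.subgroupOf (normalizer (w.R : Set G))),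
      Nat.card_congr (subgroupOfEquivOfLe (le_normalizer : w.R ≤ normalizer (w.R : Set G))).toEquiv]
  rw [h2, Nat.factorization_mul hd0 Nat.card_pos.ne', Nat.factorization_mul Nat.card_pos.ne'
    Nat.card_pos.ne', Finsupp.add_apply, Finsupp.add_apply] at hdp
  omega

omit [Finite G] in
theorem WF.deg_pos (w : WF p G) : ∃ d : ℕ, 0 < d ∧ w.χ 1 = d ∧
    (d * Nat.card w.R).factorization p = (Nat.card (normalizer (w.R : Set G))).factorization p := by
  obtain ⟨d, hd, hdp⟩ := w.dz
  refine ⟨d, ?_, hd, hdp⟩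
  rcases Nat.eq_zero_or_pos d with rfl | h
  · exact absurd hd (Irr.one_ne_zero ⟨_, w.irr⟩ |> fun h => by simpa using h)
  · exact h

variable [hp : Fact p.Prime]

/-- `O_p(N_G(R)/R) = 1` -/
theorem WF.normal_le (w : WF p G) (T : Subgroup (normalizer (w.R : Set G))) [hTn : T.Normal]
    (hT : IsPGroup p T) : T ≤ w.R.subgroupOf (normalizer (w.R : Set G)) := by
  obtain ⟨ψ, hψ, -⟩ := w.exists_dz
  have h1 : OpTrivial p (NQ w.R) := by
    by_contra hcon
    have h2 := numDZ_eq_zero p (NQ w.R) hcon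
    have h3 : Finite {χ : NQ w.R → ℂ // IsDefectZeroChar p χ} :=
      ((finite_irrChar (NQ w.R)).subset fun χ hχ => hχ.1).to_subtype
    unfold numDZ at h2
    rw [Nat.card_eq_zero] at h2
    rcases h2 with h2 | h2
    · exact h2.false ⟨ψ, hψ⟩
    · exact h2.not_finite h3
  have h2 := h1 (T.map (QuotientGroup.mk' (w.R.subgroupOf (normalizer (w.R : Set G)))))
    (hTn.map _ (QuotientGroup.mk'_surjective _)) (hT.map _)
  intro t ht
  have h3 : QuotientGroup.mk' (w.R.subgroupOf (normalizer (w.R : Set G))) t ∈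
      T.map (QuotientGroup.mk' (w.R.subgroupOf (normalizer (w.R : Set G)))) := ⟨t, ht, rfl⟩
  rw [h2, mem_bot, QuotientGroup.mk'_apply, QuotientGroup.eq_one_iff] at h3
  exact h3

/-- **(L1)** a `p`-subgroup normalised by `N_G(R)` is contained in `R` -/
theorem WF.le_of_norm (w : WF p G) {S : Subgroup G} (hS : IsPGroup p S)
    (h : normalizer (w.R : Set G) ≤ normalizer (S : Set G)) : S ≤ w.R := by
  -- the part of `S` in the normalizer
  have h1 : S ⊓ normalizer (w.R : Set G) ≤ w.R := by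
    have hn : (S.subgroupOf (normalizer (w.R : Set G))).Normal := by
      refine ⟨fun s hs n => ?_⟩
      rw [mem_subgroupOf] at hs ⊢
      exact (mem_normalizer_iff.1 (h n.2) s).1 hs
    have h2 := w.normal_le (S.subgroupOf (normalizer (w.R : Set G))) (hS.comap_subtype)
    intro x hx
    have hx1 : (⟨x, hx.2⟩ : normalizer (w.R : Set G)) ∈ S.subgroupOf (normalizer (w.R : Set G)) :=
      mem_subgroupOf.2 hx.1
    exact mem_subgroupOf.1 (h2 hx1)
  have hRS : w.R ≤ normalizer (S : Set G) := le_normalizer.trans h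
  have hP : IsPGroup p (w.R ⊔ S : Subgroup G) := w.pgp.to_sup_of_normal_right' hS hRS
  by_contra hcon
  have hlt : w.R.subgroupOf (w.R ⊔ S) < ⊤ := by
    rw [lt_top_iff_ne_top]
    intro htop
    rw [subgroupOf_eq_top] at htop
    exact hcon (le_sup_right.trans htop)
  have : Group.IsNilpotent (w.R ⊔ S : Subgroup G) := hP.isNilpotent
  have h3 := (Group.normalizerCondition_of_isNilpotent (G := (w.R ⊔ S : Subgroup G))) _ hlt
  obtain ⟨x, hx, hxR⟩ := SetLike.exists_of_lt h3
  have hxn : (x : G) ∈ normalizer (w.R : Set G) := by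
    rw [mem_normalizer_iff] at hx ⊢
    intro y
    constructor
    · intro hy
      have := (hx ⟨y, le_sup_left (a := w.R) (b := S) hy⟩).1 (mem_subgroupOf.2 hy)
      exact mem_subgroupOf.1 this
    · intro hy
      have hy2 : y ∈ w.R ⊔ S := by
        have h4 : (x : G) * y * (x : G)⁻¹ ∈ w.R ⊔ S := le_sup_left (a := w.R) (b := S) hy
        have h5 := mul_mem (mul_mem (inv_mem x.2) h4) x.2
        have h6 : (x : G)⁻¹ * ((x : G) * y * (x : G)⁻¹) * x = y := by group
        rwa [h6] at h5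
      have := (hx ⟨y, hy2⟩).2 (mem_subgroupOf.2 hy)
      exact mem_subgroupOf.1 this
  have hxR' : (x : G) ∉ w.R := fun h => hxR (mem_subgroupOf.2 h)
  -- x = r s
  have hmem : (x : G) ∈ ((w.R ⊔ S : Subgroup G) : Set G) := x.2
  rw [coe_mul_of_left_le_normalizer_right w.R S hRS] at hmem
  obtain ⟨r, hr, s, hs, hrs⟩ := hmem
  have hrs' : r * s = x := hrs
  have hsn : s ∈ normalizer (w.R : Set G) := by
    have : s = r⁻¹ * x := by rw [← hrs']; group
    rw [this]
    exact mul_mem (inv_mem (le_normalizer hr)) hxn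
  apply hxR'
  rw [← hrs']
  exact mul_mem hr (h1 ⟨hs, hsn⟩)

end P179R
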