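import Vale.Agent.P179.H905.WP3

/-!
# Theorem R, weights of products, IV: the weights of `Q → G`
-/

namespace P179R

open P179H524 P179C P179A P179P Finset Subgroup

section Pi

variable {ι : Type*} {G : Type*} [Group G]

theorem mem_normalizer_pi (R : ι → Subgroup G) (x : ι → G) :
    x ∈ normalizer ((Subgroup.pi Set.univ R : Subgroup (ι → G)) : Set (ι → G)) ↔
      ∀ i, x i ∈ normalizer (R i : Set G) := by
  classical
  simp only [mem_normalizer_iff]
  constructor
  · intro h i y
    have h1 := h (Pi.mulSingle i y)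
    have h2 : ∀ z : G, (Pi.mulSingle i z : ι → G) ∈ Subgroup.pi Set.univ R ↔ z ∈ R i := by
      intro z
      rw [Subgroup.mem_pi]
      constructor
      · intro h; simpa using h i trivial
      · intro h j _
        by_cases hj : j = i
        · subst hj; simpa using h
        · rw [Pi.mulSingle_eq_of_ne hj]; exact one_mem _
    have h3 : x * Pi.mulSingle i y * x⁻¹ = (Pi.mulSingle i (x i * y * (x i)⁻¹) : ι → G) := by
      funext j
      by_cases hj : j = i
      · subst hj; simp
      · simp [Pi.mulSingle_eq_of_ne hj]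
    rw [h2, h3, h2] at h1
    exact h1
  · intro h y
    simp only [Subgroup.mem_pi]
    exact forall_congr' fun i => forall_congr' fun _ => h i (y i)

/-- the normalizer of a product -/
def normPi (R : ι → Subgroup G) :
    normalizer ((Subgroup.pi Set.univ R : Subgroup (ι → G)) : Set (ι → G)) ≃*
      ∀ i, normalizer (R i : Set G) where
  toFun x := fun i => ⟨(x : ι → G) i, (mem_normalizer_pi R x).1 x.2 i⟩
  invFun y := ⟨fun i => y i, (mem_normalizer_pi R _).2 fun i => (y i).2⟩
  left_inv _ := rfl
  right_inv _ := rfl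
  map_mul' _ _ := rfl

@[simp] theorem normPi_apply (R : ι → Subgroup G)
    (x : normalizer ((Subgroup.pi Set.univ R : Subgroup (ι → G)) : Set (ι → G))) (i : ι) :
    ((normPi R x i : normalizer (R i : Set G)) : G) = (x : ι → G) i := rfl

/-- a product of subgroups as a product of types -/
def piEquiv (R : ι → Subgroup G) : (Subgroup.pi Set.univ R : Subgroup (ι → G)) ≃ ∀ i, R i where
  toFun x := fun i => ⟨(x : ι → G) i, Subgroup.mem_pi _ |>.1 x.2 i trivial⟩
  invFun y := ⟨fun i => y i, Subgroup.mem_pi _ |>.2 fun i _ => (y i).2⟩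
  left_inv _ := rfl
  right_inv _ := rfl

theorem isPGroup_pi [Fintype ι] {p : ℕ} (R : ι → Subgroup G) (h : ∀ i, IsPGroup p (R i)) :
    IsPGroup p (Subgroup.pi Set.univ R : Subgroup (ι → G)) := by
  intro x
  have h1 : ∀ i, ∃ n : ℕ, ((x : ι → G) i) ^ p ^ n = 1 := by
    intro i
    obtain ⟨n, hn⟩ := h i ⟨(x : ι → G) i, Subgroup.mem_pi _ |>.1 x.2 i trivial⟩
    exact ⟨n, congrArg Subtype.val hn⟩
  choose n hn using h1
  refine ⟨∑ i, n i, ?_⟩
  apply Subtype.ext
  funext i
  change ((x : ι → G) i) ^ p ^ (∑ i, n i) = 1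
  classical
  rw [← Finset.add_sum_erase _ _ (Finset.mem_univ i), pow_add, pow_mul, hn, one_pow]

end Pi

section WF

variable {p : ℕ} {G : Type} [Group G] [Finite G] {Q : Type} [Fintype Q]

/-- the product of weights -/
noncomputable def prodWF (v : Q → WF p G) : WF p (Q → G) where
  R := Subgroup.pi Set.univ fun q => (v q).R
  χ f := ∏ q, (v q).χ (f q)
  pgp := isPGroup_pi _ fun q => (v q).pgp
  supp x hx := by
    rw [mem_normalizer_pi] at hx
    push Not at hx
    obtain ⟨q, hq⟩ := hx
    exact Finset.prod_eq_zero (Finset.mem_univ q) ((v q).supp _ hq)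
  irr := by
    classical
    have := Fintype.ofFinite G
    have hf : ∀ q, Fintype (normalizer ((v q).R : Set G)) := fun q => Fintype.ofFinite _
    have h1 := irr_prod (H := fun q => normalizer ((v q).R : Set G))
      (fun q => (⟨fun n => (v q).χ n, (v q).irr⟩ : Irr (normalizer ((v q).R : Set G))))
    exact h1.comp (normPi fun q => (v q).R).toMonoidHom (normPi fun q => (v q).R).surjective
  triv r hr x := by
    refine Finset.prod_congr rfl fun q _ => ?_
    exact (v q).triv _ (Subgroup.mem_pi _ |>.1 hr q trivial) _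
  dz := by
    have h1 : ∀ q, ∃ d : ℕ, 0 < d ∧ (v q).χ 1 = d ∧ (d * Nat.card (v q).R).factorization p =
        (Nat.card (normalizer ((v q).R : Set G))).factorization p := fun q => (v q).deg_pos
    choose d hd hd1 hd2 using h1
    refine ⟨∏ q, d q, ?_, ?_⟩
    · push_cast
      exact Finset.prod_congr rfl fun q _ => hd1 q
    · rw [Nat.card_congr (piEquiv fun q => (v q).R),
        Nat.card_congr (normPi fun q => (v q).R).toEquiv, Nat.card_pi, Nat.card_pi,
        ← Finset.prod_mul_distrib, Nat.factorization_prod, Nat.factorization_prod,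
        Finsupp.finset_sum_apply, Finsupp.finset_sum_apply]
      · exact Finset.sum_congr rfl fun q _ => hd2 q
      · intro q _; exact Nat.card_pos.ne'
      · intro q _; exact mul_ne_zero (hd q).ne' Nat.card_pos.ne'

@[simp] theorem prodWF_R (v : Q → WF p G) : (prodWF v).R = Subgroup.pi Set.univ fun q => (v q).R :=
  rfl

@[simp] theorem prodWF_χ (v : Q → WF p G) (f : Q → G) :
    (prodWF v).χ f = ∏ q, (v q).χ (f q) := rfl

end WF

end P179R
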