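import Vale.Agent.P179.H905.WP5
import Vale.Agent.P179.H143.Dn

/-!
# Theorem R, weights of products, VI: central characters
-/

namespace P179R

open P179H524 P179C P179A P179P Finset Subgroup

variable {k : Type*} [Field k] (red : integralClosure ℤ ℂ →+* k)

theorem redC_prod {ι : Type*} (s : Finset ι) (f : ι → ℂ)
    (h : ∀ i ∈ s, f i ∈ integralClosure ℤ ℂ) :
    redC red (∏ i ∈ s, f i) = ∏ i ∈ s, redC red (f i) := by
  classical
  induction s using Finset.induction_on with
  | empty =>
    rw [Finset.prod_empty, Finset.prod_empty, redC_of_mem red (one_mem _)]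
    exact map_one red
  | insert i s hi ih =>
    rw [Finset.prod_insert hi, Finset.prod_insert hi,
      redC_mul red (h i (Finset.mem_insert_self _ _))
        (prod_mem fun j hj => h j (Finset.mem_insert_of_mem hj)),
      ih fun j hj => h j (Finset.mem_insert_of_mem hj)]

section Pi

variable {ι : Type*} [Fintype ι] [DecidableEq ι] {H : ι → Type*} [∀ i, Group (H i)]
  [∀ i, Fintype (H i)]

theorem om_pi (χ : ∀ i, H i → ℂ) (a : ∀ i, H i → ℤ) :
    om (fun x : ∀ i, H i => ∏ i, χ i (x i)) (fun x => ∏ i, a i (x i)) = ∏ i, om (χ i) (a i) := by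
  unfold om
  simp only [finsum_eq_sum_of_fintype]
  rw [Finset.prod_div_distrib, Finset.prod_univ_sum, Fintype.piFinset_univ]
  congr 1
  refine Finset.sum_congr rfl fun x _ => ?_
  push_cast
  rw [← Finset.prod_mul_distrib]

omit [DecidableEq ι] [(i : ι) → Fintype (H i)] in
theorem isCF_prod {R : Type*} [CommMonoid R] (a : ∀ i, H i → R) (ha : ∀ i, IsCF (a i)) :
    IsCF (fun x : ∀ i, H i => ∏ i, a i (x i)) := by
  intro g x
  exact Finset.prod_congr rfl fun i _ => ha i (g i) (x i)

/-- central characters of products -/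
theorem lam_pi (χ : ∀ i, Irr (H i)) (a : ∀ i, H i → k) (ha : ∀ i, IsCF (a i)) :
    lam red (fun x : ∀ i, H i => ∏ i, (χ i).1 (x i)) (fun x => ∏ i, a i (x i)) =
      ∏ i, lam red (χ i).1 (a i) := by
  have hfin : ∀ i, Fintype (ConjClasses (H i)) := fun i => Fintype.ofFinite _
  have h1 : (fun x : ∀ i, H i => ∏ i, a i (x i)) = ∑ D : ∀ i, ConjClasses (H i),
      (∏ i, a i (D i).out) • (fun x : ∀ i, H i => ((∏ i, ind (D i) (x i) : ℤ) : k)) := by
    ext x
    rw [Finset.sum_apply, Finset.prod_congr rfl fun i _ => cf_eq_sum (ha i) (x i),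
      Finset.prod_univ_sum, Fintype.piFinset_univ]
    refine Finset.sum_congr rfl fun D _ => ?_
    rw [Pi.smul_apply, smul_eq_mul]
    push_cast
    rw [← Finset.prod_mul_distrib]
  have h2 : ∀ i, lam red (χ i).1 (a i) =
      ∑ D : ConjClasses (H i), a i D.out * redC red (om (χ i).1 (ind D)) := by
    intro i
    unfold lam
    rw [finsum_eq_sum_of_fintype]
  rw [h1, P179P.lam_sum, Finset.prod_congr rfl fun i _ => h2 i, Finset.prod_univ_sum,
    Fintype.piFinset_univ]
  refine Finset.sum_congr rfl fun D _ => ?_
  rw [lam_smul, lam_int red (irr_prod χ) (isCF_prod _ fun i => isCF_ind (D i)), om_pi, redC_prod,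
    Finset.prod_mul_distrib]
  intro i _
  exact isIntegral_om (χ i).2 (isCF_ind (D i))

end Pi

section WF

variable {p : ℕ} {G : Type} [Group G] [Finite G] {Q : Type} [Fintype Q]

/-- central characters of products of weights -/
theorem lam_prodWF (v : Q → WF p G) (a : Q → G → k)
    (ha : ∀ q, IsCF (fun n : normalizer ((v q).R : Set G) => a q n)) :
    lam red (fun n : normalizer ((prodWF v).R : Set (Q → G)) => (prodWF v).χ n)
      (fun n : normalizer ((prodWF v).R : Set (Q → G)) => ∏ q, a q ((n : Q → G) q)) =
      ∏ q, lam red (fun n : normalizer ((v q).R : Set G) => (v q).χ n)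
        (fun n : normalizer ((v q).R : Set G) => a q n) := by
  classical
  have := Fintype.ofFinite G
  have hf : ∀ q, Fintype (normalizer ((v q).R : Set G)) := fun q => Fintype.ofFinite _
  have h1 := lam_pi red (H := fun q => normalizer ((v q).R : Set G))
    (fun q => (⟨fun n => (v q).χ n, (v q).irr⟩ : Irr (normalizer ((v q).R : Set G))))
    (fun q n => a q n) ha
  rw [← h1]
  exact P179Y.lam_comp red (normPi fun q => (v q).R)
    (irr_prod (H := fun q => normalizer ((v q).R : Set G))
      (fun q => (⟨fun n => (v q).χ n, (v q).irr⟩ : Irr (normalizer ((v q).R : Set G)))))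
    (isCF_prod (H := fun q => normalizer ((v q).R : Set G)) (fun q n => a q n) ha)

end WF

end P179R

namespace P179R

open P179H524 P179C P179A P179P Finset Subgroup

section In

variable {p : ℕ} [hp : Fact p.Prime] {k : Type*} [Field k] [CharP k p]
  (red : integralClosure ℤ ℂ →+* k) {G : Type} [Group G] [Finite G]

/-- the central character of a weight is `0` or `1` on a central idempotent -/
theorem WF.lam_cases (w : WF p G) {e : MonoidAlgebra k G}
    (he : e ∈ Subalgebra.center k (MonoidAlgebra k G)) (hee : e * e = e) :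
    lam red (fun n : normalizer (w.R : Set G) => w.χ n)
      (fun n : normalizer (w.R : Set G) => e.coeff n) = 0 ∨ w.In red e := by
  have := Fintype.ofFinite G
  obtain ⟨ψ, hψ, h⟩ := w.exists_dz
  let W : P179H524.Weight p G := ⟨w.R, w.pgp, ψ, hψ⟩
  have hf : Fintype (normalizer (W.Q : Set G)) := Fintype.ofFinite _
  have h1 : muHom red W ⟨e, he⟩ * muHom red W ⟨e, he⟩ = muHom red W ⟨e, he⟩ := by
    rw [← map_mul]
    congr 1
    exact Subtype.ext hee
  have h2 : Weight.infl W = fun n : normalizer (w.R : Set G) => w.χ n := by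
    funext n
    exact (h n).symm
  rw [muHom_apply, h2] at h1
  unfold WF.In
  rcases eq_or_ne (lam red (fun n : normalizer (w.R : Set G) => w.χ n)
      (fun n : normalizer (w.R : Set G) => e.coeff n)) 0 with h3 | h3
  · exact Or.inl h3
  · right
    exact mul_left_cancel₀ h3 (h1.trans (mul_one _).symm)

/-- **(L2)** products of weights and products of central idempotents -/
theorem in_prodWF_iff {Q : Type} [Fintype Q] (v : Q → WF p G) {e : MonoidAlgebra k G}
    (he : e ∈ Subalgebra.center k (MonoidAlgebra k G)) (hee : e * e = e) :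
    lam red (fun n : normalizer ((prodWF v).R : Set (Q → G)) => (prodWF v).χ n)
      (fun n : normalizer ((prodWF v).R : Set (Q → G)) => ∏ q, e.coeff ((n : Q → G) q)) = 1 ↔
      ∀ q, (v q).In red e := by
  have hcf : ∀ q, IsCF (fun n : normalizer ((v q).R : Set G) => e.coeff (n : G)) := by
    intro q x y
    exact (mem_center_iff e).1 he x y
  rw [lam_prodWF red v (fun _ x => e.coeff x) hcf]
  constructor
  · intro h q
    rcases (v q).lam_cases red he hee with h1 | h1
    · rw [Finset.prod_eq_zero (Finset.mem_univ q) h1] at h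
      exact absurd h zero_ne_one
    · exact h1
  · intro h
    exact Finset.prod_eq_one fun q _ => h q

end In

end P179R
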